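import Mathlib
import Vale.Agent.Results.P037.FewRowTypes

namespace Vale.Agent.Lib.P037

open Finset
open Vale.Agent.Results.P037.FewRowTypes (copies)

/-- The 2 x 2 identity pattern: ones on the diagonal, zeros off the diagonal. -/
def I2 : Fin 2 → Fin 2 → Bool := fun i j => decide (i = j)

/-- The rows of block number `j` when the `n` rows are cut into consecutive blocks of
length `D`. -/
def blockRows (n D j : ℕ) : Finset (Fin n) := univ.filter fun r => r.val / D = j

/-- The number of ones of row `r`. -/
def rowSize {n : ℕ} (A : Fin n → Fin n → Bool) (r : Fin n) : ℕ :=
  (univ.filter fun c => A r c = true).card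

/-- The rank of row `r` inside its block: the number of rows of the same block that come
before `r` when the rows are ordered by number of ones, ties broken by index. -/
def rank {n : ℕ} (A : Fin n → Fin n → Bool) (D : ℕ) (r : Fin n) : ℕ :=
  ((blockRows n D (r.val / D)).filter fun r' =>
      rowSize A r' < rowSize A r ∨ (rowSize A r' = rowSize A r ∧ r' < r)).card

/-- The number of ones of column `c` inside block `j`. -/
def colCount {n : ℕ} (A : Fin n → Fin n → Bool) (D j : ℕ) (c : Fin n) : ℕ :=
  ((blockRows n D j).filter fun r => A r c = true).card

/-- Block sorting: inside every block, every column is rearranged so that its ones sit in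
the rows of largest rank.  The rows of a block then form a chain under inclusion. -/
def sorted {n : ℕ} (A : Fin n → Fin n → Bool) (D : ℕ) : Fin n → Fin n → Bool := fun r c =>
  decide ((blockRows n D (r.val / D)).card ≤ rank A D r + colCount A D (r.val / D) c)

/-- Rounding a level `i` down to the grid of step `s` with offset `θ` (truncated at 0). -/
def lev (s θ i : ℕ) : ℕ := i - (i + θ) % s

/-- Block sorting followed by coarsening: the row of rank `i` (counted from 1) of a block is
replaced by the sorted row of level `lev s θ i`, level 0 being the empty row. -/
def coarse {n : ℕ} (A : Fin n → Fin n → Bool) (D s : ℕ) (θ : ℕ → ℕ) :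
    Fin n → Fin n → Bool := fun r c =>
  decide ((blockRows n D (r.val / D)).card + 1 ≤
    lev s (θ (r.val / D)) (rank A D r + 1) + colCount A D (r.val / D) c)

/-- The mixing number of a set `S` of rows: the number of triples (column pair `a < b`,
row of `S` reading `1 0` on it, row of `S` reading `0 1` on it). -/
def mixB {n : ℕ} (A : Fin n → Fin n → Bool) (S : Finset (Fin n)) : ℕ :=
  ∑ a : Fin n, ∑ b : Fin n,
    if a < b then
      (S.filter fun r => A r a = true ∧ A r b = false).card *
        (S.filter fun r => A r a = false ∧ A r b = true).card
    else 0

end Vale.Agent.Lib.P037
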