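import Mathlib
import Vale.Agent.Lib.P037.Defs

namespace Vale.Agent.Lib.P037

open Finset
open Vale.Agent.Results.P037.FewRowTypes (copies)

variable {n : ℕ}

/-- Weight 1 on the rows reading `1 0` on the columns `a`, `b`. -/
def upw (B : Fin n → Fin n → Bool) (a b r : Fin n) : ℕ :=
  if B r a = true ∧ B r b = false then 1 else 0

/-- Weight 1 on the rows reading `0 1` on the columns `a`, `b`. -/
def dnw (B : Fin n → Fin n → Bool) (a b r : Fin n) : ℕ :=
  if B r a = false ∧ B r b = true then 1 else 0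

/-- Weighted number of ordered row pairs. -/
def pairW (u d : Fin n → ℕ) : ℕ := ∑ r1, ∑ r2, if r1 < r2 then u r1 * d r2 else 0

theorem card_copies (B : Fin n → Fin n → Bool) :
    (copies I2 B).card =
      ∑ a, ∑ b, if a < b then pairW (upw B a b) (dnw B a b) else 0 := by
  classical
  have h1 : (copies I2 B).card = ∑ r1 : Fin n, ∑ r2 : Fin n, ∑ a : Fin n, ∑ b : Fin n,
      (if r1 < r2 ∧ a < b ∧ B r1 a = true ∧ B r1 b = false ∧ B r2 a = false ∧ B r2 b = true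
        then 1 else 0) := by
    unfold copies
    rw [Finset.card_filter, Fintype.sum_prod_type]
    refine Finset.sum_congr rfl fun r1 _ => ?_
    rw [Fintype.sum_prod_type]
    refine Finset.sum_congr rfl fun r2 _ => ?_
    rw [Fintype.sum_prod_type]
    refine Finset.sum_congr rfl fun a _ => ?_
    refine Finset.sum_congr rfl fun b _ => ?_
    have e00 : I2 0 0 = true := by decide
    have e01 : I2 0 1 = false := by decide
    have e10 : I2 1 0 = false := by decide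
    have e11 : I2 1 1 = true := by decide
    simp only [e00, e01, e10, e11]
  rw [h1]
  have h2 : ∀ (f : Fin n → Fin n → Fin n → Fin n → ℕ),
      ∑ r1, ∑ r2, ∑ a, ∑ b, f r1 r2 a b = ∑ a, ∑ b, ∑ r1, ∑ r2, f r1 r2 a b := by
    intro f
    calc ∑ r1, ∑ r2, ∑ a, ∑ b, f r1 r2 a b
        = ∑ r1, ∑ a, ∑ r2, ∑ b, f r1 r2 a b :=
          Finset.sum_congr rfl fun r1 _ => Finset.sum_comm
      _ = ∑ a, ∑ r1, ∑ r2, ∑ b, f r1 r2 a b := Finset.sum_comm
      _ = ∑ a, ∑ r1, ∑ b, ∑ r2, f r1 r2 a b :=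
          Finset.sum_congr rfl fun a _ => Finset.sum_congr rfl fun r1 _ => Finset.sum_comm
      _ = ∑ a, ∑ b, ∑ r1, ∑ r2, f r1 r2 a b :=
          Finset.sum_congr rfl fun a _ => Finset.sum_comm
  rw [h2]
  refine Finset.sum_congr rfl fun a _ => ?_
  refine Finset.sum_congr rfl fun b _ => ?_
  by_cases hab : a < b
  · rw [if_pos hab]
    unfold pairW
    refine Finset.sum_congr rfl fun r1 _ => ?_
    refine Finset.sum_congr rfl fun r2 _ => ?_
    unfold upw dnw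
    by_cases h12 : r1 < r2
    · by_cases hu : B r1 a = true ∧ B r1 b = false
      · by_cases hd : B r2 a = false ∧ B r2 b = true
        · rw [if_pos h12, if_pos hu, if_pos hd, if_pos ⟨h12, hab, hu.1, hu.2, hd.1, hd.2⟩]
        · rw [if_pos h12, if_pos hu, if_neg hd, if_neg (fun h => hd ⟨h.2.2.2.2.1, h.2.2.2.2.2⟩)]
      · rw [if_pos h12, if_neg hu, if_neg (fun h => hu ⟨h.2.2.1, h.2.2.2.1⟩)]
        simp
    · rw [if_neg h12, if_neg (fun h => h12 h.1)]
  · rw [if_neg hab]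
    apply Finset.sum_eq_zero
    intro r1 _
    apply Finset.sum_eq_zero
    intro r2 _
    rw [if_neg (fun h => hab h.2.1)]

/-- Rows below every row of `S`. -/
def belowS (S : Finset (Fin n)) : Finset (Fin n) := Sᶜ.filter fun r => ∀ x ∈ S, x < r

/-- Rows above every row of `S`. -/
def aboveS (S : Finset (Fin n)) : Finset (Fin n) := Sᶜ.filter fun r => ∀ x ∈ S, r < x

theorem pairW_conv (S : Finset (Fin n))
    (hS : ∀ x ∈ S, ∀ y ∈ S, ∀ z, x ≤ z → z ≤ y → z ∈ S) (u d : Fin n → ℕ) :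
    pairW u d = (∑ r1 ∈ S, ∑ r2 ∈ S, if r1 < r2 then u r1 * d r2 else 0)
      + (∑ r ∈ S, u r) * (∑ r ∈ belowS S, d r)
      + (∑ r ∈ aboveS S, u r) * (∑ r ∈ S, d r)
      + (∑ r1 ∈ Sᶜ, ∑ r2 ∈ Sᶜ, if r1 < r2 then u r1 * d r2 else 0) := by
  classical
  have hio : (∑ r1 ∈ S, ∑ r2 ∈ Sᶜ, if r1 < r2 then u r1 * d r2 else 0)
      = (∑ r ∈ S, u r) * (∑ r ∈ belowS S, d r) := by
    rw [Finset.sum_mul]
    refine Finset.sum_congr rfl fun r1 hr1 => ?_
    rw [Finset.mul_sum]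
    unfold belowS
    rw [Finset.sum_filter]
    refine Finset.sum_congr rfl fun r2 hr2 => ?_
    have hr2' : r2 ∉ S := Finset.mem_compl.mp hr2
    by_cases h : r1 < r2
    · have hb : ∀ x ∈ S, x < r2 := by
        intro x hx
        by_contra hlt
        exact hr2' (hS r1 hr1 x hx r2 (le_of_lt h) (not_lt.mp hlt))
      rw [if_pos h, if_pos hb]
    · have hb : ¬ ∀ x ∈ S, x < r2 := fun hb => h (hb r1 hr1)
      rw [if_neg h, if_neg hb]
  have hoi : (∑ r1 ∈ Sᶜ, ∑ r2 ∈ S, if r1 < r2 then u r1 * d r2 else 0)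
      = (∑ r ∈ aboveS S, u r) * (∑ r ∈ S, d r) := by
    rw [Finset.sum_mul]
    unfold aboveS
    rw [Finset.sum_filter]
    refine Finset.sum_congr rfl fun r1 hr1 => ?_
    have hr1' : r1 ∉ S := Finset.mem_compl.mp hr1
    by_cases hb : ∀ x ∈ S, r1 < x
    · rw [if_pos hb, Finset.mul_sum]
      refine Finset.sum_congr rfl fun r2 hr2 => ?_
      rw [if_pos (hb r2 hr2)]
    · rw [if_neg hb]
      apply Finset.sum_eq_zero
      intro r2 hr2
      have h : ¬ r1 < r2 := by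
        intro h
        apply hb
        intro x hx
        by_contra hlt
        exact hr1' (hS x hx r2 hr2 r1 (not_lt.mp hlt) (le_of_lt h))
      rw [if_neg h]
  rw [← hio, ← hoi]
  unfold pairW
  have inner : ∀ r1 : Fin n, (∑ r2, if r1 < r2 then u r1 * d r2 else 0)
      = (∑ r2 ∈ S, if r1 < r2 then u r1 * d r2 else 0)
        + ∑ r2 ∈ Sᶜ, if r1 < r2 then u r1 * d r2 else 0 :=
    fun r1 => (Finset.sum_add_sum_compl S _).symm
  rw [← Finset.sum_add_sum_compl S]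
  simp only [inner, Finset.sum_add_distrib]
  ring

/-- Averaged replacement of the rows of an order-convex set `S`. -/
theorem pairW_step (S : Finset (Fin n))
    (hS : ∀ x ∈ S, ∀ y ∈ S, ∀ z, x ≤ z → z ≤ y → z ∈ S)
    (u d : Fin n → ℕ) (ut dt : ℕ → Fin n → ℕ) (s : ℕ)
    (hu : ∀ t, ∀ r, r ∉ S → ut t r = u r) (hd : ∀ t, ∀ r, r ∉ S → dt t r = d r)
    (hin : ∀ t, ∀ r1 ∈ S, ∀ r2 ∈ S, ut t r1 * dt t r2 = 0)
    (hup : ∑ t ∈ range s, ∑ r ∈ S, ut t r ≤ s * ∑ r ∈ S, u r)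
    (hdn : ∑ t ∈ range s, ∑ r ∈ S, dt t r ≤ s * ∑ r ∈ S, d r) :
    ∑ t ∈ range s, pairW (ut t) (dt t) ≤ s * pairW u d := by
  classical
  have key : ∀ t, pairW (ut t) (dt t) =
      (∑ r ∈ S, ut t r) * (∑ r ∈ belowS S, d r)
      + (∑ r ∈ aboveS S, u r) * (∑ r ∈ S, dt t r)
      + (∑ r1 ∈ Sᶜ, ∑ r2 ∈ Sᶜ, if r1 < r2 then u r1 * d r2 else 0) := by
    intro t
    rw [pairW_conv S hS (ut t) (dt t)]
    have z : (∑ r1 ∈ S, ∑ r2 ∈ S, if r1 < r2 then ut t r1 * dt t r2 else 0) = 0 := by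
      apply Finset.sum_eq_zero
      intro r1 hr1
      apply Finset.sum_eq_zero
      intro r2 hr2
      rw [hin t r1 hr1 r2 hr2]
      simp
    have b1 : (∑ r ∈ belowS S, dt t r) = ∑ r ∈ belowS S, d r := by
      refine Finset.sum_congr rfl fun r hr => ?_
      exact hd t r (Finset.mem_compl.mp (Finset.mem_filter.mp hr).1)
    have b2 : (∑ r ∈ aboveS S, ut t r) = ∑ r ∈ aboveS S, u r := by
      refine Finset.sum_congr rfl fun r hr => ?_
      exact hu t r (Finset.mem_compl.mp (Finset.mem_filter.mp hr).1)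
    have b3 : (∑ r1 ∈ Sᶜ, ∑ r2 ∈ Sᶜ, if r1 < r2 then ut t r1 * dt t r2 else 0)
        = ∑ r1 ∈ Sᶜ, ∑ r2 ∈ Sᶜ, if r1 < r2 then u r1 * d r2 else 0 := by
      refine Finset.sum_congr rfl fun r1 hr1 => ?_
      refine Finset.sum_congr rfl fun r2 hr2 => ?_
      rw [hu t r1 (Finset.mem_compl.mp hr1), hd t r2 (Finset.mem_compl.mp hr2)]
    rw [z, b1, b2, b3, zero_add]
  rw [pairW_conv S hS u d]
  simp only [key]
  rw [Finset.sum_add_distrib, Finset.sum_add_distrib, ← Finset.sum_mul, ← Finset.mul_sum,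
    Finset.sum_const, Finset.card_range, smul_eq_mul]
  have e1 : (∑ t ∈ range s, ∑ r ∈ S, ut t r) * (∑ r ∈ belowS S, d r)
      ≤ (s * ∑ r ∈ S, u r) * (∑ r ∈ belowS S, d r) := Nat.mul_le_mul_right _ hup
  have e2 : (∑ r ∈ aboveS S, u r) * (∑ t ∈ range s, ∑ r ∈ S, dt t r)
      ≤ (∑ r ∈ aboveS S, u r) * (s * ∑ r ∈ S, d r) := Nat.mul_le_mul_left _ hdn
  nlinarith [e1, e2, Nat.zero_le (s * (∑ r1 ∈ S, ∑ r2 ∈ S, if r1 < r2 then u r1 * d r2 else 0))]

end Vale.Agent.Lib.P037
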