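import Mathlib
import Vale.Agent.Lib.P037.Step

namespace Vale.Agent.Lib.P037

open Finset
open Vale.Agent.Results.P037.FewRowTypes (copies)

variable {n : ℕ}

/-- Averaged replacement of the rows of an order-convex set, at the level of copies. -/
theorem copies_step (S : Finset (Fin n))
    (hS : ∀ x ∈ S, ∀ y ∈ S, ∀ z, x ≤ z → z ≤ y → z ∈ S)
    (B : Fin n → Fin n → Bool) (Bt : ℕ → Fin n → Fin n → Bool) (s : ℕ)
    (hout : ∀ t, ∀ r, r ∉ S → Bt t r = B r)
    (hin : ∀ t, ∀ r1 ∈ S, ∀ r2 ∈ S, ∀ a b,
      ¬ (Bt t r1 a = true ∧ Bt t r1 b = false ∧ Bt t r2 a = false ∧ Bt t r2 b = true))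
    (hup : ∀ a b, ∑ t ∈ range s, (S.filter fun r => Bt t r a = true ∧ Bt t r b = false).card
      ≤ s * (S.filter fun r => B r a = true ∧ B r b = false).card)
    (hdn : ∀ a b, ∑ t ∈ range s, (S.filter fun r => Bt t r a = false ∧ Bt t r b = true).card
      ≤ s * (S.filter fun r => B r a = false ∧ B r b = true).card) :
    ∑ t ∈ range s, (copies I2 (Bt t)).card ≤ s * (copies I2 B).card := by
  classical
  simp only [card_copies]
  rw [Finset.sum_comm, Finset.mul_sum]
  refine Finset.sum_le_sum fun a _ => ?_
  rw [Finset.sum_comm, Finset.mul_sum]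
  refine Finset.sum_le_sum fun b _ => ?_
  by_cases hab : a < b
  · simp only [if_pos hab]
    apply pairW_step S hS
    · intro t r hr
      unfold upw
      rw [hout t r hr]
    · intro t r hr
      unfold dnw
      rw [hout t r hr]
    · intro t r1 hr1 r2 hr2
      unfold upw dnw
      by_cases h1 : Bt t r1 a = true ∧ Bt t r1 b = false
      · by_cases h2 : Bt t r2 a = false ∧ Bt t r2 b = true
        · exact absurd ⟨h1.1, h1.2, h2.1, h2.2⟩ (hin t r1 hr1 r2 hr2 a b)
        · rw [if_neg h2, Nat.mul_zero]
      · rw [if_neg h1, Nat.zero_mul]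
    · have := hup a b
      simp only [Finset.card_filter] at this
      exact this
    · have := hdn a b
      simp only [Finset.card_filter] at this
      exact this
  · simp only [if_neg hab]
    simp

theorem memBlock {D j : ℕ} {r : Fin n} : r ∈ blockRows n D j ↔ r.val / D = j := by
  unfold blockRows
  simp

theorem blockRows_convex (D j : ℕ) :
    ∀ x ∈ blockRows n D j, ∀ y ∈ blockRows n D j, ∀ z, x ≤ z → z ≤ y → z ∈ blockRows n D j := by
  intro x hx y hy z hxz hzy
  rw [memBlock] at hx hy ⊢
  have h1 : x.val / D ≤ z.val / D := Nat.div_le_div_right hxz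
  have h2 : z.val / D ≤ y.val / D := Nat.div_le_div_right hzy
  omega

theorem card_blockRows_le (D j : ℕ) (hD : 0 < D) : (blockRows n D j).card ≤ D := by
  have h : (blockRows n D j).card ≤ (Finset.Ico (j * D) (j * D + D)).card := by
    apply Finset.card_le_card_of_injOn (fun r : Fin n => r.val)
    · intro r hr
      have hr' : r.val / D = j := memBlock.mp hr
      have h1 := Nat.div_add_mod r.val D
      have h2 := Nat.mod_lt r.val hD
      rw [hr'] at h1
      have h3 : D * j = j * D := Nat.mul_comm D j
      simp only [Finset.coe_Ico, Set.mem_Ico]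
      constructor <;> omega
    · intro r _ r' _ h
      exact Fin.ext h
  simpa using h

/-- The order used for ranking: by number of ones, ties broken by index. -/
def before (A : Fin n → Fin n → Bool) (r' r : Fin n) : Prop :=
  rowSize A r' < rowSize A r ∨ (rowSize A r' = rowSize A r ∧ r' < r)

instance before_dec (A : Fin n → Fin n → Bool) (r' r : Fin n) : Decidable (before A r' r) := by
  unfold before
  infer_instance

theorem rank_def (A : Fin n → Fin n → Bool) (D : ℕ) (r : Fin n) :
    rank A D r = ((blockRows n D (r.val / D)).filter fun r' => before A r' r).card := rfl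

theorem before_trans (A : Fin n → Fin n → Bool) {x y z : Fin n}
    (h1 : before A x y) (h2 : before A y z) : before A x z := by
  unfold before at *
  rcases h1 with h1 | ⟨h1, h1'⟩ <;> rcases h2 with h2 | ⟨h2, h2'⟩
  · left; omega
  · left; omega
  · left; omega
  · right; exact ⟨by omega, lt_trans h1' h2'⟩

theorem before_irrefl (A : Fin n → Fin n → Bool) (x : Fin n) : ¬ before A x x := by
  unfold before
  intro h
  rcases h with h | ⟨_, h⟩
  · omega
  · exact lt_irrefl _ h

theorem before_total (A : Fin n → Fin n → Bool) {x y : Fin n} (h : x ≠ y) :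
    before A x y ∨ before A y x := by
  unfold before
  rcases lt_trichotomy (rowSize A x) (rowSize A y) with h1 | h1 | h1
  · left; left; exact h1
  · rcases lt_trichotomy x y with h2 | h2 | h2
    · left; right; exact ⟨h1, h2⟩
    · exact absurd h2 h
    · right; right; exact ⟨h1.symm, h2⟩
  · right; left; exact h1

theorem rankLtBefore (A : Fin n → Fin n → Bool) (D : ℕ) {r r' : Fin n}
    (hb : r.val / D = r'.val / D) (h : before A r r') : rank A D r < rank A D r' := by
  classical
  rw [rank_def, rank_def, hb]
  apply Finset.card_lt_card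
  rw [Finset.ssubset_iff_of_subset]
  · refine ⟨r, ?_, ?_⟩
    · exact Finset.mem_filter.mpr ⟨memBlock.mpr hb, h⟩
    · intro hr
      exact before_irrefl A r (Finset.mem_filter.mp hr).2
  · intro x hx
    have hx' := Finset.mem_filter.mp hx
    exact Finset.mem_filter.mpr ⟨hx'.1, before_trans A hx'.2 h⟩

theorem rank_inj (A : Fin n → Fin n → Bool) (D j : ℕ) :
    ∀ r ∈ blockRows n D j, ∀ r' ∈ blockRows n D j, rank A D r = rank A D r' → r = r' := by
  intro r hr r' hr' h
  by_contra hne
  have hb : r.val / D = r'.val / D := by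
    rw [memBlock.mp hr, memBlock.mp hr']
  rcases before_total A hne with h1 | h1
  · have := rankLtBefore A D hb h1
    omega
  · have := rankLtBefore A D hb.symm h1
    omega

theorem rankLtCard (A : Fin n → Fin n → Bool) (D : ℕ) (r : Fin n) :
    rank A D r < (blockRows n D (r.val / D)).card := by
  classical
  rw [rank_def]
  apply Finset.card_lt_card
  rw [Finset.ssubset_iff_of_subset (Finset.filter_subset _ _)]
  refine ⟨r, memBlock.mpr rfl, ?_⟩
  intro hr
  exact before_irrefl A r (Finset.mem_filter.mp hr).2

theorem lev_le (s θ i : ℕ) : lev s θ i ≤ i := Nat.sub_le _ _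

theorem lev_eq (s θ i : ℕ) : lev s θ i = s * ((i + θ) / s) - θ := by
  unfold lev
  have h := Nat.div_add_mod (i + θ) s
  generalize s * ((i + θ) / s) = q at h ⊢
  generalize (i + θ) % s = m at h ⊢
  omega

theorem sum_shift (s i : ℕ) (hs : 0 < s) (g : ℕ → ℕ) :
    ∑ t ∈ range s, g ((i + t) % s) = ∑ u ∈ range s, g u := by
  classical
  have hinj : Set.InjOn (fun t => (i + t) % s) (range s : Finset ℕ) := by
    intro t1 h1 t2 h2 h
    have h1' : t1 < s := Finset.mem_range.mp h1
    have h2' : t2 < s := Finset.mem_range.mp h2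
    have hm : i + t1 ≡ i + t2 [MOD s] := h
    have hm' : t1 ≡ t2 [MOD s] := Nat.ModEq.add_left_cancel' i hm
    have : t1 % s = t2 % s := hm'
    rw [Nat.mod_eq_of_lt h1', Nat.mod_eq_of_lt h2'] at this
    exact this
  have himg : (range s).image (fun t => (i + t) % s) = range s := by
    apply Finset.eq_of_subset_of_card_le
    · intro u hu
      obtain ⟨t, _, rfl⟩ := Finset.mem_image.mp hu
      exact Finset.mem_range.mpr (Nat.mod_lt _ hs)
    · rw [Finset.card_image_of_injOn hinj]
  calc ∑ t ∈ range s, g ((i + t) % s)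
      = ∑ u ∈ (range s).image (fun t => (i + t) % s), g u := (Finset.sum_image hinj).symm
    _ = ∑ u ∈ range s, g u := by rw [himg]

/-- Averaging over the offsets: the levels falling into an interval. -/
theorem lev_avg (s : ℕ) (hs : 0 < s) (S : Finset (Fin n)) (rk : Fin n → ℕ)
    (hinj : ∀ r ∈ S, ∀ r' ∈ S, rk r = rk r' → r = r') (x y : ℕ) (hx : 1 ≤ x) :
    ∑ t ∈ range s, (S.filter fun r => x ≤ lev s t (rk r + 1) ∧ lev s t (rk r + 1) < y).card
      ≤ s * (y - x) := by
  classical
  simp only [Finset.card_filter]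
  rw [Finset.sum_comm]
  have h1 : ∀ r ∈ S, (∑ t ∈ range s,
      if x ≤ lev s t (rk r + 1) ∧ lev s t (rk r + 1) < y then 1 else 0)
      = ∑ u ∈ range s, if x ≤ rk r + 1 - u ∧ rk r + 1 - u < y then 1 else 0 := by
    intro r _
    exact sum_shift s (rk r + 1) hs
      (fun u => if x ≤ rk r + 1 - u ∧ rk r + 1 - u < y then 1 else 0)
  rw [Finset.sum_congr rfl h1, Finset.sum_comm]
  have h2 : ∀ u ∈ range s,
      (∑ r ∈ S, if x ≤ rk r + 1 - u ∧ rk r + 1 - u < y then 1 else 0) ≤ y - x := by
    intro u _
    rw [← Finset.card_filter]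
    have hc : (S.filter fun r => x ≤ rk r + 1 - u ∧ rk r + 1 - u < y).card
        ≤ (Finset.Ico (x + u) (y + u)).card := by
      apply Finset.card_le_card_of_injOn (fun r => rk r + 1)
      · intro r hr
        have hr' := (Finset.mem_filter.mp hr).2
        simp only [Finset.coe_Ico, Set.mem_Ico]
        constructor <;> omega
      · intro r hr r' hr' h
        have e : rk r = rk r' := by
          have : rk r + 1 = rk r' + 1 := h
          omega
        exact hinj r (Finset.mem_filter.mp hr).1 r' (Finset.mem_filter.mp hr').1 e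
    have : (Finset.Ico (x + u) (y + u)).card = y - x := by
      rw [Nat.card_Ico]
      omega
    omega
  calc ∑ u ∈ range s, ∑ r ∈ S, (if x ≤ rk r + 1 - u ∧ rk r + 1 - u < y then 1 else 0)
      ≤ ∑ u ∈ range s, (y - x) := Finset.sum_le_sum h2
    _ = s * (y - x) := by rw [Finset.sum_const, Finset.card_range, smul_eq_mul]

end Vale.Agent.Lib.P037
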