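import Mathlib
import Vale.Agent.Lib.P037.Hybrid

namespace Vale.Agent.Lib.P037

open Finset
open Vale.Agent.Results.P037.FewRowTypes (copies)

variable {n : ℕ}

/-- Hybrid matrix: blocks with index below `j` are sorted and coarsened, the others are
those of `A`. -/
def hyb (A : Fin n → Fin n → Bool) (D s : ℕ) (θ : ℕ → ℕ) (j : ℕ) : Fin n → Fin n → Bool :=
  fun r c => if r.val / D < j then coarse A D s θ r c else A r c

theorem hyb_zero (A : Fin n → Fin n → Bool) (D s : ℕ) (θ : ℕ → ℕ) : hyb A D s θ 0 = A := by
  funext r c
  simp [hyb]

theorem hyb_top (A : Fin n → Fin n → Bool) (D s : ℕ) (θ : ℕ → ℕ) :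
    hyb A D s θ n = coarse A D s θ := by
  funext r c
  have : r.val / D < n := lt_of_le_of_lt (Nat.div_le_self _ _) r.isLt
  simp [hyb, this]

theorem colCount_le (A : Fin n → Fin n → Bool) (D j : ℕ) (c : Fin n) :
    colCount A D j c ≤ (blockRows n D j).card := by
  unfold colCount
  exact Finset.card_le_card (Finset.filter_subset _ _)

theorem colCount_diff (A : Fin n → Fin n → Bool) (D j : ℕ) (a b : Fin n) :
    colCount A D j a ≤
      ((blockRows n D j).filter fun r => A r a = true ∧ A r b = false).card
        + colCount A D j b := by
  classical
  unfold colCount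
  refine le_trans (Finset.card_le_card ?_) (Finset.card_union_le _ _)
  intro r hr
  have hr' := Finset.mem_filter.mp hr
  by_cases hb : A r b = true
  · exact Finset.mem_union_right _ (Finset.mem_filter.mpr ⟨hr'.1, hb⟩)
  · have hb' : A r b = false := by simpa using hb
    exact Finset.mem_union_left _ (Finset.mem_filter.mpr ⟨hr'.1, hr'.2, hb'⟩)

theorem colCount_diff' (A : Fin n → Fin n → Bool) (D j : ℕ) (a b : Fin n) :
    colCount A D j b ≤
      ((blockRows n D j).filter fun r => A r a = false ∧ A r b = true).card
        + colCount A D j a := by
  classical
  unfold colCount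
  refine le_trans (Finset.card_le_card ?_) (Finset.card_union_le _ _)
  intro r hr
  have hr' := Finset.mem_filter.mp hr
  by_cases ha : A r a = true
  · exact Finset.mem_union_right _ (Finset.mem_filter.mpr ⟨hr'.1, ha⟩)
  · have ha' : A r a = false := by simpa using ha
    exact Finset.mem_union_left _ (Finset.mem_filter.mpr ⟨hr'.1, ha', hr'.2⟩)

theorem hyb_in_new (A : Fin n → Fin n → Bool) (D s : ℕ) (θ : ℕ → ℕ) (j t : ℕ)
    (r : Fin n) (hr : r ∈ blockRows n D j) (c : Fin n) :
    hyb A D s (Function.update θ j t) (j + 1) r c =
      decide ((blockRows n D j).card + 1 ≤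
        lev s t (rank A D r + 1) + colCount A D j c) := by
  have hr' : r.val / D = j := memBlock.mp hr
  unfold hyb coarse
  rw [hr', if_pos (Nat.lt_succ_self j), Function.update_self]

theorem hyb_in_old (A : Fin n → Fin n → Bool) (D s : ℕ) (θ : ℕ → ℕ) (j : ℕ)
    (r : Fin n) (hr : r ∈ blockRows n D j) (c : Fin n) :
    hyb A D s θ j r c = A r c := by
  have hr' : r.val / D = j := memBlock.mp hr
  unfold hyb
  rw [hr', if_neg (lt_irrefl j)]

theorem hyb_out (A : Fin n → Fin n → Bool) (D s : ℕ) (θ : ℕ → ℕ) (j t : ℕ)
    (r : Fin n) (hr : r ∉ blockRows n D j) :
    hyb A D s (Function.update θ j t) (j + 1) r = hyb A D s θ j r := by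
  have hr' : r.val / D ≠ j := fun h => hr (memBlock.mpr h)
  funext c
  unfold hyb coarse
  rw [Function.update_of_ne hr']
  by_cases h : r.val / D < j
  · rw [if_pos h, if_pos (Nat.lt_succ_of_lt h)]
  · have h' : ¬ r.val / D < j + 1 := by omega
    rw [if_neg h, if_neg h']

/-- There are offsets for which the sorted and coarsened matrix has no more copies of the
identity pattern than `A`. -/
theorem exists_offsets (A : Fin n → Fin n → Bool) (D s : ℕ) (hs : 0 < s) :
    ∀ j, ∃ θ : ℕ → ℕ, (∀ i, θ i < s) ∧
      (copies I2 (hyb A D s θ j)).card ≤ (copies I2 A).card := by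
  classical
  intro j
  induction j with
  | zero => exact ⟨fun _ => 0, fun _ => hs, by rw [hyb_zero]⟩
  | succ j ih =>
    obtain ⟨θ, hθ, hN⟩ := ih
    have key : ∑ t ∈ range s, (copies I2 (hyb A D s (Function.update θ j t) (j + 1))).card
        ≤ s * (copies I2 (hyb A D s θ j)).card := by
      apply copies_step (blockRows n D j) (blockRows_convex D j) (hyb A D s θ j)
        (fun t => hyb A D s (Function.update θ j t) (j + 1)) s
      · intro t r hr
        exact hyb_out A D s θ j t r hr
      · intro t r1 hr1 r2 hr2 a b
        rw [hyb_in_new A D s θ j t r1 hr1, hyb_in_new A D s θ j t r1 hr1,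
          hyb_in_new A D s θ j t r2 hr2, hyb_in_new A D s θ j t r2 hr2]
        simp only [decide_eq_true_eq, decide_eq_false_iff_not]
        intro h
        omega
      · intro a b
        have e1 : ∀ t, ((blockRows n D j).filter fun r => hyb A D s (Function.update θ j t) (j + 1) r a = true ∧
            hyb A D s (Function.update θ j t) (j + 1) r b = false)
            = (blockRows n D j).filter fun r => ((blockRows n D j).card + 1 - colCount A D j a) ≤ lev s t (rank A D r + 1) ∧
                lev s t (rank A D r + 1) < (blockRows n D j).card + 1 - colCount A D j b := by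
          intro t
          apply Finset.filter_congr
          intro r hr
          rw [hyb_in_new A D s θ j t r hr, hyb_in_new A D s θ j t r hr]
          simp only [decide_eq_true_eq, decide_eq_false_iff_not]
          omega
        have e2 : ((blockRows n D j).filter fun r => hyb A D s θ j r a = true ∧ hyb A D s θ j r b = false)
            = (blockRows n D j).filter fun r => A r a = true ∧ A r b = false := by
          apply Finset.filter_congr
          intro r hr
          rw [hyb_in_old A D s θ j r hr, hyb_in_old A D s θ j r hr]
        simp only [e1]
        rw [e2]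
        have h1 := lev_avg s hs (blockRows n D j) (rank A D) (rank_inj A D j)
          ((blockRows n D j).card + 1 - colCount A D j a) ((blockRows n D j).card + 1 - colCount A D j b)
          (by have := colCount_le A D j a; omega)
        have h2 := colCount_diff A D j a b
        have h3 := colCount_le A D j a
        have h4 := colCount_le A D j b
        refine le_trans h1 (Nat.mul_le_mul_left s ?_)
        omega
      · intro a b
        have e1 : ∀ t, ((blockRows n D j).filter fun r => hyb A D s (Function.update θ j t) (j + 1) r a = false ∧
            hyb A D s (Function.update θ j t) (j + 1) r b = true)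
            = (blockRows n D j).filter fun r => ((blockRows n D j).card + 1 - colCount A D j b) ≤ lev s t (rank A D r + 1) ∧
                lev s t (rank A D r + 1) < (blockRows n D j).card + 1 - colCount A D j a := by
          intro t
          apply Finset.filter_congr
          intro r hr
          rw [hyb_in_new A D s θ j t r hr, hyb_in_new A D s θ j t r hr]
          simp only [decide_eq_true_eq, decide_eq_false_iff_not]
          omega
        have e2 : ((blockRows n D j).filter fun r => hyb A D s θ j r a = false ∧ hyb A D s θ j r b = true)
            = (blockRows n D j).filter fun r => A r a = false ∧ A r b = true := by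
          apply Finset.filter_congr
          intro r hr
          rw [hyb_in_old A D s θ j r hr, hyb_in_old A D s θ j r hr]
        simp only [e1]
        rw [e2]
        have h1 := lev_avg s hs (blockRows n D j) (rank A D) (rank_inj A D j)
          ((blockRows n D j).card + 1 - colCount A D j b) ((blockRows n D j).card + 1 - colCount A D j a)
          (by have := colCount_le A D j b; omega)
        have h2 := colCount_diff' A D j a b
        have h3 := colCount_le A D j a
        have h4 := colCount_le A D j b
        refine le_trans h1 (Nat.mul_le_mul_left s ?_)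
        omega
    have hex : ∃ t ∈ range s, (copies I2 (hyb A D s (Function.update θ j t) (j + 1))).card
        ≤ (copies I2 (hyb A D s θ j)).card := by
      apply Finset.exists_le_of_sum_le (Finset.nonempty_range_iff.mpr hs.ne')
      rw [Finset.sum_const, Finset.card_range, smul_eq_mul]
      exact key
    obtain ⟨t, ht, hle⟩ := hex
    refine ⟨Function.update θ j t, ?_, le_trans hle hN⟩
    intro i
    by_cases hi : i = j
    · rw [hi, Function.update_self]
      exact Finset.mem_range.mp ht
    · rw [Function.update_of_ne hi]
      exact hθ i

end Vale.Agent.Lib.P037
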