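import Mathlib
import Vale.Agent.Lib.P037.Defs

namespace Vale.Agent.Lib.P037

open Finset

variable {n : ℕ}

theorem mem_blockRows {D j : ℕ} {r : Fin n} : r ∈ blockRows n D j ↔ r.val / D = j := by
  simp [blockRows]

theorem rank_eq (A : Fin n → Fin n → Bool) {D j : ℕ} {r : Fin n} (hr : r ∈ blockRows n D j) :
    rank A D r = ((blockRows n D j).filter fun r' =>
      rowSize A r' < rowSize A r ∨ (rowSize A r' = rowSize A r ∧ r' < r)).card := by
  rw [mem_blockRows] at hr
  subst hr
  rfl

theorem rank_lt_of_before (A : Fin n → Fin n → Bool) {D j : ℕ} {r r' : Fin n}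
    (hr : r ∈ blockRows n D j) (hr' : r' ∈ blockRows n D j)
    (h : rowSize A r < rowSize A r' ∨ (rowSize A r = rowSize A r' ∧ r < r')) :
    rank A D r < rank A D r' := by
  rw [rank_eq A hr, rank_eq A hr']
  apply card_lt_card
  rw [ssubset_iff_of_subset]
  · refine ⟨r, ?_, ?_⟩
    · simp only [mem_filter]
      exact ⟨hr, h⟩
    · simp only [mem_filter, not_and]
      intro _ h'
      rcases h' with h' | ⟨_, h'⟩
      · exact lt_irrefl _ h'
      · exact lt_irrefl _ h'
  · intro x hx
    simp only [mem_filter] at hx ⊢
    refine ⟨hx.1, ?_⟩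
    rcases hx.2 with h1 | ⟨h1, h2⟩ <;> rcases h with h3 | ⟨h3, h4⟩
    · left; omega
    · left; omega
    · left; omega
    · right; exact ⟨by omega, lt_trans h2 h4⟩

theorem rank_lt_card (A : Fin n → Fin n → Bool) {D j : ℕ} {r : Fin n}
    (hr : r ∈ blockRows n D j) : rank A D r < (blockRows n D j).card := by
  rw [rank_eq A hr]
  apply card_lt_card
  rw [filter_ssubset]
  exact ⟨r, hr, by simp⟩

theorem rank_injOn (A : Fin n → Fin n → Bool) (D j : ℕ) :
    Set.InjOn (rank A D) (blockRows n D j : Set (Fin n)) := by
  intro r hr r' hr' heq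
  by_contra hne
  have hr : r ∈ blockRows n D j := hr
  have hr' : r' ∈ blockRows n D j := hr'
  rcases lt_trichotomy (rowSize A r) (rowSize A r') with h | h | h
  · exact absurd heq (rank_lt_of_before A hr hr' (Or.inl h)).ne
  · rcases lt_trichotomy r r' with h2 | h2 | h2
    · exact absurd heq (rank_lt_of_before A hr hr' (Or.inr ⟨h, h2⟩)).ne
    · exact hne h2
    · exact absurd heq (rank_lt_of_before A hr' hr (Or.inr ⟨h.symm, h2⟩)).ne'
  · exact absurd heq (rank_lt_of_before A hr' hr (Or.inl h)).ne'

theorem rowSize_le_of_rank_lt (A : Fin n → Fin n → Bool) {D j : ℕ} {r r' : Fin n}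
    (hr : r ∈ blockRows n D j) (hr' : r' ∈ blockRows n D j)
    (h : rank A D r < rank A D r') : rowSize A r ≤ rowSize A r' := by
  by_contra hlt
  have := rank_lt_of_before A hr' hr (Or.inl (not_le.1 hlt))
  omega

theorem count_ge (A : Fin n → Fin n → Bool) (D j : ℕ) {F : ℕ}
    (hF : F ≤ (blockRows n D j).card) :
    ((blockRows n D j).filter fun r => (blockRows n D j).card ≤ rank A D r + F).card = F := by
  have himg : (blockRows n D j).image (rank A D) = range (blockRows n D j).card := by
    apply eq_of_subset_of_card_le
    · intro i hi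
      rw [mem_image] at hi
      obtain ⟨r, hr, rfl⟩ := hi
      exact mem_range.2 (rank_lt_card A hr)
    · rw [card_range, card_image_of_injOn (rank_injOn A D j)]
  have h1 : ((blockRows n D j).filter fun r => (blockRows n D j).card ≤ rank A D r + F).card
      = (((blockRows n D j).image (rank A D)).filter
          fun i => (blockRows n D j).card ≤ i + F).card := by
    rw [filter_image, card_image_of_injOn]
    exact (rank_injOn A D j).mono (coe_subset.2 (filter_subset _ _))
  rw [h1, himg]
  have h2 : (range (blockRows n D j).card).filter (fun i => (blockRows n D j).card ≤ i + F)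
      = Ico ((blockRows n D j).card - F) (blockRows n D j).card := by
    ext i
    simp only [mem_filter, mem_range, mem_Ico]
    omega
  rw [h2, Nat.card_Ico]
  omega

theorem sorted_iff (A : Fin n → Fin n → Bool) {D j : ℕ} {r : Fin n}
    (hr : r ∈ blockRows n D j) (c : Fin n) :
    sorted A D r c = true ↔ (blockRows n D j).card ≤ rank A D r + colCount A D j c := by
  rw [mem_blockRows] at hr
  subst hr
  simp [sorted]

theorem col_cost (A : Fin n → Fin n → Bool) (D j : ℕ) (c : Fin n) :
    ((blockRows n D j).filter fun r => A r c ≠ sorted A D r c).card ^ 2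
      ≤ 4 * (((blockRows n D j) ×ˢ (blockRows n D j)).filter fun p : Fin n × Fin n =>
          rank A D p.1 < rank A D p.2 ∧ A p.1 c = true ∧ A p.2 c = false).card := by
  have hF : colCount A D j c ≤ (blockRows n D j).card := card_filter_le _ _
  have hA : ((blockRows n D j).filter fun r => A r c = true).card = colCount A D j c := rfl
  have hsort : ((blockRows n D j).filter fun r => sorted A D r c = true).card
      = colCount A D j c := by
    rw [← count_ge A D j hF]
    congr 1
    apply filter_congr
    intro r hr
    exact sorted_iff A hr c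
  have heq : ((blockRows n D j).filter fun r => A r c = true ∧ sorted A D r c = false).card
        + ((blockRows n D j).filter fun r => sorted A D r c = true).card
      = ((blockRows n D j).filter fun r => A r c = false ∧ sorted A D r c = true).card
        + ((blockRows n D j).filter fun r => A r c = true).card := by
    simp only [card_filter, ← sum_add_distrib]
    apply sum_congr rfl
    intro r _
    cases A r c <;> cases sorted A D r c <;> simp
  have hT : ((blockRows n D j).filter fun r => A r c = true ∧ sorted A D r c = false).card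
      = ((blockRows n D j).filter fun r => A r c = false ∧ sorted A D r c = true).card := by
    omega
  have hcost : ((blockRows n D j).filter fun r => A r c ≠ sorted A D r c).card
      = ((blockRows n D j).filter fun r => A r c = true ∧ sorted A D r c = false).card
        + ((blockRows n D j).filter fun r => A r c = false ∧ sorted A D r c = true).card := by
    simp only [card_filter, ← sum_add_distrib]
    apply sum_congr rfl
    intro r _
    cases A r c <;> cases sorted A D r c <;> simp
  have hprod : ((blockRows n D j).filter fun r => A r c = true ∧ sorted A D r c = false).card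
        * ((blockRows n D j).filter fun r => A r c = false ∧ sorted A D r c = true).card
      ≤ (((blockRows n D j) ×ˢ (blockRows n D j)).filter fun p : Fin n × Fin n =>
          rank A D p.1 < rank A D p.2 ∧ A p.1 c = true ∧ A p.2 c = false).card := by
    rw [← card_product]
    apply card_le_card
    intro p hp
    simp only [mem_product, mem_filter] at hp ⊢
    obtain ⟨⟨h1, h2, h3⟩, h4, h5, h6⟩ := hp
    refine ⟨⟨h1, h4⟩, ?_, h2, h5⟩
    have h7 := (sorted_iff A h4 c).1 h6
    have h8 : ¬ ((blockRows n D j).card ≤ rank A D p.1 + colCount A D j c) := by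
      intro h
      rw [(sorted_iff A h1 c).2 h] at h3
      exact Bool.noConfusion h3
    omega
  rw [hcost, hT]
  calc (((blockRows n D j).filter fun r => A r c = false ∧ sorted A D r c = true).card
          + ((blockRows n D j).filter fun r => A r c = false ∧ sorted A D r c = true).card) ^ 2
        = 4 * (((blockRows n D j).filter fun r => A r c = false ∧ sorted A D r c = true).card
          * ((blockRows n D j).filter fun r => A r c = false ∧ sorted A D r c = true).card) := by
          ring
    _ = 4 * (((blockRows n D j).filter fun r => A r c = true ∧ sorted A D r c = false).card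
          * ((blockRows n D j).filter fun r => A r c = false ∧ sorted A D r c = true).card) := by
          rw [hT]
    _ ≤ _ := Nat.mul_le_mul_left 4 hprod

/-- The number of columns where row `r` has a one and row `r'` has a zero. -/
def dcount (A : Fin n → Fin n → Bool) (r r' : Fin n) : ℕ :=
  (univ.filter fun c => A r c = true ∧ A r' c = false).card

/-- The number of column pairs `a < b` on which row `r` reads `1 0` and row `r'`
reads `0 1`. -/
def ecount (A : Fin n → Fin n → Bool) (r r' : Fin n) : ℕ :=
  ∑ a : Fin n, ∑ b : Fin n,
    if a < b ∧ A r a = true ∧ A r b = false ∧ A r' a = false ∧ A r' b = true then 1 else 0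

theorem dcount_le (A : Fin n → Fin n → Bool) {r r' : Fin n}
    (h : rowSize A r ≤ rowSize A r') : dcount A r r' ≤ dcount A r' r := by
  have h1 : dcount A r r' + (univ.filter fun c => A r c = true ∧ A r' c = true).card
      = rowSize A r := by
    simp only [dcount, rowSize, card_filter, ← sum_add_distrib]
    apply sum_congr rfl
    intro c _
    cases A r c <;> cases A r' c <;> simp
  have h2 : dcount A r' r + (univ.filter fun c => A r c = true ∧ A r' c = true).card
      = rowSize A r' := by
    simp only [dcount, rowSize, card_filter, ← sum_add_distrib]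
    apply sum_congr rfl
    intro c _
    cases A r c <;> cases A r' c <;> simp
  omega

theorem dcount_mul (A : Fin n → Fin n → Bool) (r r' : Fin n) :
    dcount A r r' * dcount A r' r = ecount A r r' + ecount A r' r := by
  have h1 : ecount A r' r = ∑ a : Fin n, ∑ b : Fin n,
      if b < a ∧ A r' b = true ∧ A r' a = false ∧ A r b = false ∧ A r a = true
        then 1 else 0 := by
    unfold ecount
    exact sum_comm
  rw [h1]
  simp only [dcount, ecount, card_filter, sum_mul_sum, ← sum_add_distrib]
  apply sum_congr rfl
  intro a _
  apply sum_congr rfl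
  intro b _
  rcases lt_trichotomy a b with h | h | h
  · have h' : ¬ b < a := not_lt.2 h.le
    cases A r a <;> cases A r b <;> cases A r' a <;> cases A r' b <;> simp [h, h']
  · subst h
    cases A r a <;> cases A r' a <;> simp
  · have h' : ¬ a < b := not_lt.2 h.le
    cases A r a <;> cases A r b <;> cases A r' a <;> cases A r' b <;> simp [h, h']

theorem mixB_eq (A : Fin n → Fin n → Bool) (S : Finset (Fin n)) :
    mixB A S = ∑ r ∈ S, ∑ r' ∈ S, ecount A r r' := by
  unfold ecount
  have hcomm : ∀ h : Fin n → Fin n → Fin n → Fin n → ℕ,
      ∑ r ∈ S, ∑ r' ∈ S, ∑ a : Fin n, ∑ b : Fin n, h a b r r'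
        = ∑ a : Fin n, ∑ b : Fin n, ∑ r ∈ S, ∑ r' ∈ S, h a b r r' := by
    intro h
    calc ∑ r ∈ S, ∑ r' ∈ S, ∑ a : Fin n, ∑ b : Fin n, h a b r r'
        = ∑ r ∈ S, ∑ a : Fin n, ∑ r' ∈ S, ∑ b : Fin n, h a b r r' := by
          apply sum_congr rfl
          intro r _
          exact sum_comm
      _ = ∑ a : Fin n, ∑ r ∈ S, ∑ r' ∈ S, ∑ b : Fin n, h a b r r' := sum_comm
      _ = ∑ a : Fin n, ∑ r ∈ S, ∑ b : Fin n, ∑ r' ∈ S, h a b r r' := by
          apply sum_congr rfl
          intro a _
          apply sum_congr rfl
          intro r _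
          exact sum_comm
      _ = ∑ a : Fin n, ∑ b : Fin n, ∑ r ∈ S, ∑ r' ∈ S, h a b r r' := by
          apply sum_congr rfl
          intro a _
          exact sum_comm
  rw [hcomm (fun a b r r' =>
    if a < b ∧ A r a = true ∧ A r b = false ∧ A r' a = false ∧ A r' b = true then 1 else 0)]
  unfold mixB
  apply sum_congr rfl
  intro a _
  apply sum_congr rfl
  intro b _
  by_cases hab : a < b
  · simp only [hab, if_true, true_and, card_filter, sum_mul_sum]
    apply sum_congr rfl
    intro r _
    apply sum_congr rfl
    intro r' _
    cases A r a <;> cases A r b <;> cases A r' a <;> cases A r' b <;> simp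
  · simp [hab]

theorem inv_sum (A : Fin n → Fin n → Bool) (D j : ℕ) :
    ∑ c : Fin n, (((blockRows n D j) ×ˢ (blockRows n D j)).filter fun p : Fin n × Fin n =>
        rank A D p.1 < rank A D p.2 ∧ A p.1 c = true ∧ A p.2 c = false).card
      = ∑ p ∈ ((blockRows n D j) ×ˢ (blockRows n D j)).filter
          (fun p : Fin n × Fin n => rank A D p.1 < rank A D p.2), dcount A p.1 p.2 := by
  simp only [card_filter, sum_filter, dcount]
  rw [sum_comm]
  apply sum_congr rfl
  intro p _
  by_cases h : rank A D p.1 < rank A D p.2
  · simp [h]
  · simp [h]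

theorem pair_sum_le (A : Fin n → Fin n → Bool) (D j : ℕ) :
    ∑ p ∈ ((blockRows n D j) ×ˢ (blockRows n D j)).filter
        (fun p : Fin n × Fin n => rank A D p.1 < rank A D p.2),
        dcount A p.1 p.2 * dcount A p.2 p.1
      ≤ mixB A (blockRows n D j) := by
  rw [mixB_eq, sum_filter, sum_product]
  simp only [dcount_mul]
  have h1 : ∑ r ∈ blockRows n D j, ∑ r' ∈ blockRows n D j,
        (if rank A D r < rank A D r' then ecount A r r' + ecount A r' r else 0)
      = ∑ r ∈ blockRows n D j, ∑ r' ∈ blockRows n D j,
          ((if rank A D r < rank A D r' then ecount A r r' else 0)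
            + (if rank A D r' < rank A D r then ecount A r r' else 0)) := by
    have h2 : ∑ r ∈ blockRows n D j, ∑ r' ∈ blockRows n D j,
          (if rank A D r < rank A D r' then ecount A r' r else 0)
        = ∑ r ∈ blockRows n D j, ∑ r' ∈ blockRows n D j,
          (if rank A D r' < rank A D r then ecount A r r' else 0) := sum_comm
    simp only [sum_add_distrib]
    rw [← h2, ← sum_add_distrib]
    apply sum_congr rfl
    intro r _
    rw [← sum_add_distrib]
    apply sum_congr rfl
    intro r' _
    split_ifs <;> simp
  rw [h1]
  apply sum_le_sum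
  intro r _
  apply sum_le_sum
  intro r' _
  split_ifs <;> omega

theorem sort_cost {n : ℕ} (A : Fin n → Fin n → Bool) (D j : ℕ) :
    (∑ r ∈ blockRows n D j, (univ.filter fun c => A r c ≠ sorted A D r c).card) ^ 4
      ≤ 16 * n ^ 2 * (blockRows n D j).card ^ 2 * mixB A (blockRows n D j) := by
  have hswap : ∑ r ∈ blockRows n D j, (univ.filter fun c => A r c ≠ sorted A D r c).card
      = ∑ c : Fin n, ((blockRows n D j).filter fun r => A r c ≠ sorted A D r c).card := by
    simp only [card_filter]
    exact sum_comm
  have h1 : (∑ r ∈ blockRows n D j, (univ.filter fun c => A r c ≠ sorted A D r c).card) ^ 2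
      ≤ n * (4 * ∑ p ∈ ((blockRows n D j) ×ˢ (blockRows n D j)).filter
          (fun p : Fin n × Fin n => rank A D p.1 < rank A D p.2), dcount A p.1 p.2) := by
    rw [hswap]
    calc (∑ c : Fin n, ((blockRows n D j).filter fun r => A r c ≠ sorted A D r c).card) ^ 2
        ≤ (univ : Finset (Fin n)).card
            * ∑ c : Fin n, (((blockRows n D j).filter
                fun r => A r c ≠ sorted A D r c).card) ^ 2 := sq_sum_le_card_mul_sum_sq
      _ ≤ _ := by
          rw [card_univ, Fintype.card_fin]
          apply Nat.mul_le_mul_left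
          rw [← inv_sum, mul_sum]
          exact sum_le_sum (fun c _ => col_cost A D j c)
  have h2 : (∑ p ∈ ((blockRows n D j) ×ˢ (blockRows n D j)).filter
          (fun p : Fin n × Fin n => rank A D p.1 < rank A D p.2), dcount A p.1 p.2) ^ 2
      ≤ (blockRows n D j).card ^ 2 * mixB A (blockRows n D j) := by
    calc (∑ p ∈ ((blockRows n D j) ×ˢ (blockRows n D j)).filter
          (fun p : Fin n × Fin n => rank A D p.1 < rank A D p.2), dcount A p.1 p.2) ^ 2
        ≤ (((blockRows n D j) ×ˢ (blockRows n D j)).filter
            (fun p : Fin n × Fin n => rank A D p.1 < rank A D p.2)).card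
          * ∑ p ∈ ((blockRows n D j) ×ˢ (blockRows n D j)).filter
            (fun p : Fin n × Fin n => rank A D p.1 < rank A D p.2), (dcount A p.1 p.2) ^ 2 :=
          sq_sum_le_card_mul_sum_sq
      _ ≤ (blockRows n D j).card ^ 2 * mixB A (blockRows n D j) := by
          apply Nat.mul_le_mul
          · calc (((blockRows n D j) ×ˢ (blockRows n D j)).filter
                (fun p : Fin n × Fin n => rank A D p.1 < rank A D p.2)).card
                ≤ ((blockRows n D j) ×ˢ (blockRows n D j)).card := card_filter_le _ _
              _ = (blockRows n D j).card ^ 2 := by rw [card_product, sq]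
          · refine le_trans ?_ (pair_sum_le A D j)
            apply sum_le_sum
            intro p hp
            simp only [mem_filter, mem_product] at hp
            have := dcount_le A (rowSize_le_of_rank_lt A hp.1.1 hp.1.2 hp.2)
            rw [sq]
            exact Nat.mul_le_mul_left _ this
  calc (∑ r ∈ blockRows n D j, (univ.filter fun c => A r c ≠ sorted A D r c).card) ^ 4
      = ((∑ r ∈ blockRows n D j, (univ.filter fun c => A r c ≠ sorted A D r c).card) ^ 2) ^ 2 := by
        ring
    _ ≤ (n * (4 * ∑ p ∈ ((blockRows n D j) ×ˢ (blockRows n D j)).filter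
          (fun p : Fin n × Fin n => rank A D p.1 < rank A D p.2), dcount A p.1 p.2)) ^ 2 :=
        Nat.pow_le_pow_left h1 2
    _ = 16 * n ^ 2 * (∑ p ∈ ((blockRows n D j) ×ˢ (blockRows n D j)).filter
          (fun p : Fin n × Fin n => rank A D p.1 < rank A D p.2), dcount A p.1 p.2) ^ 2 := by
        ring
    _ ≤ 16 * n ^ 2 * ((blockRows n D j).card ^ 2 * mixB A (blockRows n D j)) :=
        Nat.mul_le_mul_left _ h2
    _ = 16 * n ^ 2 * (blockRows n D j).card ^ 2 * mixB A (blockRows n D j) := by ring

end Vale.Agent.Lib.P037
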