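import Mathlib
import Vale.Agent.Lib.P037.Offsets
import Vale.Agent.Lib.P037.SortCost

namespace Vale.Agent.Lib.P037

open Finset
open Vale.Agent.Results.P037.FewRowTypes (copies)

variable {n : ℕ}

theorem lev_ge (s θ i : ℕ) (hs : 0 < s) : i + 1 ≤ lev s θ i + s := by
  unfold lev
  have := Nat.mod_lt (i + θ) hs
  omega

/-- The sorted and coarsened matrix has few distinct rows. -/
theorem coarse_rows_card (A : Fin n → Fin n → Bool) (D s : ℕ) (hD : 0 < D) (hs : 0 < s)
    (θ : ℕ → ℕ) (hθ : ∀ i, θ i < s) :
    (univ.image (coarse A D s θ)).card ≤ (n / D + 1) * (D / s + 2) := by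
  classical
  set Ψ : ℕ × ℕ → (Fin n → Bool) := fun p c =>
    decide ((blockRows n D p.1).card + 1 ≤ (s * p.2 - θ p.1) + colCount A D p.1 c) with hΨ
  have hsub : univ.image (coarse A D s θ) ⊆
      ((range (n / D + 1)) ×ˢ (range (D / s + 2))).image Ψ := by
    intro x hx
    obtain ⟨r, _, rfl⟩ := Finset.mem_image.mp hx
    refine Finset.mem_image.mpr
      ⟨(r.val / D, (rank A D r + 1 + θ (r.val / D)) / s), ?_, ?_⟩
    · rw [Finset.mem_product, Finset.mem_range, Finset.mem_range]
      constructor
      · have : r.val / D ≤ n / D := Nat.div_le_div_right (le_of_lt r.isLt)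
        omega
      · have h1 := rankLtCard A D r
        have h2 := card_blockRows_le (n := n) D (r.val / D) hD
        have h3 := hθ (r.val / D)
        have h4 : (rank A D r + 1 + θ (r.val / D)) / s ≤ (D + s) / s :=
          Nat.div_le_div_right (by omega)
        have h5 : (D + s) / s = D / s + 1 := Nat.add_div_right D hs
        omega
    · funext c
      rw [hΨ]
      unfold coarse
      simp only
      rw [lev_eq]
  calc (univ.image (coarse A D s θ)).card
      ≤ (((range (n / D + 1)) ×ˢ (range (D / s + 2))).image Ψ).card :=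
        Finset.card_le_card hsub
    _ ≤ ((range (n / D + 1)) ×ˢ (range (D / s + 2))).card := Finset.card_image_le
    _ = (n / D + 1) * (D / s + 2) := by
        rw [Finset.card_product, Finset.card_range, Finset.card_range]

/-- Cost of the coarsening inside one block. -/
theorem coarse_cost (A : Fin n → Fin n → Bool) (D s : ℕ) (hs : 0 < s) (θ : ℕ → ℕ) (j : ℕ) :
    ∑ r ∈ blockRows n D j, (univ.filter fun c => sorted A D r c ≠ coarse A D s θ r c).card
      ≤ n * s := by
  classical
  simp only [Finset.card_filter]
  rw [Finset.sum_comm]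
  have h : ∀ c ∈ (univ : Finset (Fin n)),
      (∑ r ∈ blockRows n D j, if sorted A D r c ≠ coarse A D s θ r c then 1 else 0) ≤ s := by
    intro c _
    rw [← Finset.card_filter]
    have hc : ((blockRows n D j).filter fun r => sorted A D r c ≠ coarse A D s θ r c).card
        ≤ (Finset.Ico ((blockRows n D j).card - colCount A D j c)
            ((blockRows n D j).card - colCount A D j c + s)).card := by
      apply Finset.card_le_card_of_injOn (fun r => rank A D r)
      · intro r hr
        have hr1 := (Finset.mem_filter.mp hr).1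
        have hr2 := (Finset.mem_filter.mp hr).2
        have hj : r.val / D = j := memBlock.mp hr1
        have hF := colCount_le A D j c
        have hl1 := lev_le s (θ j) (rank A D r + 1)
        have hl2 := lev_ge s (θ j) (rank A D r + 1) hs
        unfold sorted coarse at hr2
        rw [hj] at hr2
        simp only [Finset.coe_Ico, Set.mem_Ico]
        by_cases h1 : (blockRows n D j).card ≤ rank A D r + colCount A D j c
        · by_cases h2 : (blockRows n D j).card + 1 ≤
              lev s (θ j) (rank A D r + 1) + colCount A D j c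
          · exfalso
            apply hr2
            rw [decide_eq_true h1, decide_eq_true h2]
          · constructor <;> omega
        · by_cases h2 : (blockRows n D j).card + 1 ≤
              lev s (θ j) (rank A D r + 1) + colCount A D j c
          · omega
          · exfalso
            apply hr2
            rw [decide_eq_false h1, decide_eq_false h2]
      · intro r hr r' hr' e
        exact rank_inj A D j r (Finset.mem_filter.mp hr).1 r' (Finset.mem_filter.mp hr').1 e
    have : (Finset.Ico ((blockRows n D j).card - colCount A D j c)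
        ((blockRows n D j).card - colCount A D j c + s)).card = s := by
      rw [Nat.card_Ico]
      omega
    omega
  calc ∑ c : Fin n, ∑ r ∈ blockRows n D j,
        (if sorted A D r c ≠ coarse A D s θ r c then 1 else 0)
      ≤ ∑ c : Fin n, s := Finset.sum_le_sum h
    _ = n * s := by rw [Finset.sum_const, Finset.card_univ, Fintype.card_fin, smul_eq_mul]

/-- A sum over all rows is the sum over the blocks. -/
theorem sum_blocks (D : ℕ) (f : Fin n → ℕ) :
    ∑ r : Fin n, f r = ∑ j ∈ range (n / D + 1), ∑ r ∈ blockRows n D j, f r := by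
  classical
  unfold blockRows
  rw [Finset.sum_fiberwise_of_maps_to]
  intro r _
  have : r.val / D ≤ n / D := Nat.div_le_div_right (le_of_lt r.isLt)
  exact Finset.mem_range.mpr (by omega)

/-- The number of differing entries, summed row by row. -/
theorem diff_rows (X Y : Fin n → Fin n → Bool) :
    (univ.filter fun p : Fin n × Fin n => X p.1 p.2 ≠ Y p.1 p.2).card
      = ∑ r : Fin n, (univ.filter fun c => X r c ≠ Y r c).card := by
  classical
  simp only [Finset.card_filter]
  rw [Fintype.sum_prod_type]

theorem diff_triangle (X Y Z : Fin n → Fin n → Bool) :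
    (univ.filter fun p : Fin n × Fin n => X p.1 p.2 ≠ Z p.1 p.2).card
      ≤ (univ.filter fun p : Fin n × Fin n => X p.1 p.2 ≠ Y p.1 p.2).card
        + (univ.filter fun p : Fin n × Fin n => Y p.1 p.2 ≠ Z p.1 p.2).card := by
  classical
  refine le_trans (Finset.card_le_card ?_) (Finset.card_union_le _ _)
  intro p hp
  have hp' := (Finset.mem_filter.mp hp).2
  by_cases h : X p.1 p.2 = Y p.1 p.2
  · apply Finset.mem_union_right
    refine Finset.mem_filter.mpr ⟨Finset.mem_univ _, ?_⟩
    rw [← h]
    exact hp'
  · exact Finset.mem_union_left _ (Finset.mem_filter.mpr ⟨Finset.mem_univ _, h⟩)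

theorem mixB_empty (A : Fin n → Fin n → Bool) : mixB A ∅ = 0 := by
  unfold mixB
  simp

theorem blockRows_empty (D j : ℕ) (hj : n ≤ j) : blockRows n D j = ∅ := by
  apply Finset.eq_empty_of_forall_notMem
  intro r hr
  have h1 : r.val / D = j := memBlock.mp hr
  have h2 : r.val / D ≤ r.val := Nat.div_le_self _ _
  have h3 := r.isLt
  omega

/-- The master inequality: block sorting, coarsening and the few-row-types theorem. -/
theorem master (n D s : ℕ) (hD : 0 < D) (hs : 0 < s) (A : Fin n → Fin n → Bool)
    (hmix : ∑ j ∈ range n, mixB A (blockRows n D j)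
      ≤ n ^ 2 * D ^ 2 + 2 * (copies I2 A).card) :
    ∃ B : Fin n → Fin n → Bool, copies I2 B = ∅ ∧ ∃ T1 T2 T3 : ℕ,
      (univ.filter fun p : Fin n × Fin n => A p.1 p.2 ≠ B p.1 p.2).card ≤ T1 + T2 + T3 ∧
      T1 ^ 4 ≤ 16 * n ^ 2 * D ^ 2 * (n / D + 1) ^ 3 *
        (n ^ 2 * D ^ 2 + 2 * (copies I2 A).card) ∧
      T2 ≤ (n / D + 1) * n * s ∧
      T3 ^ 4 ≤ 16 * ((n / D + 1) * (D / s + 2)) ^ 8 * n ^ 4 * (copies I2 A).card := by
  classical
  obtain ⟨θ, hθ, hN⟩ := exists_offsets A D s hs n
  rw [hyb_top] at hN
  have hk := coarse_rows_card A D s hD hs θ hθ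
  obtain ⟨B, hB, hT3⟩ := Vale.Agent.Results.P037.FewRowTypes.result I2 false
    (by decide) (by decide) n ((n / D + 1) * (D / s + 2)) (coarse A D s θ) hk
  refine ⟨B, hB,
    (univ.filter fun p : Fin n × Fin n => A p.1 p.2 ≠ sorted A D p.1 p.2).card,
    (univ.filter fun p : Fin n × Fin n => sorted A D p.1 p.2 ≠ coarse A D s θ p.1 p.2).card,
    (univ.filter fun p : Fin n × Fin n => coarse A D s θ p.1 p.2 ≠ B p.1 p.2).card,
    ?_, ?_, ?_, ?_⟩
  · have h1 := diff_triangle A (sorted A D) B
    have h2 := diff_triangle (sorted A D) (coarse A D s θ) B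
    omega
  · rw [diff_rows, sum_blocks D]
    have hpm := pow_sum_le_card_mul_sum_pow (s := range (n / D + 1))
      (f := fun j => ∑ r ∈ blockRows n D j, (univ.filter fun c => A r c ≠ sorted A D r c).card)
      (fun i _ => Nat.zero_le _) 3
    rw [Finset.card_range] at hpm
    have hsc : ∀ j ∈ range (n / D + 1),
        (∑ r ∈ blockRows n D j, (univ.filter fun c => A r c ≠ sorted A D r c).card) ^ 4
          ≤ 16 * n ^ 2 * D ^ 2 * mixB A (blockRows n D j) := by
      intro j _
      have h1 := sort_cost A D j
      have h2 := card_blockRows_le (n := n) D j hD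
      have h3 : (blockRows n D j).card ^ 2 ≤ D ^ 2 := Nat.pow_le_pow_left h2 2
      calc _ ≤ 16 * n ^ 2 * (blockRows n D j).card ^ 2 * mixB A (blockRows n D j) := h1
        _ ≤ 16 * n ^ 2 * D ^ 2 * mixB A (blockRows n D j) :=
          Nat.mul_le_mul_right _ (Nat.mul_le_mul_left _ h3)
    have hsum : ∑ j ∈ range (n / D + 1), mixB A (blockRows n D j)
        ≤ ∑ j ∈ range n, mixB A (blockRows n D j) := by
      apply Finset.sum_le_sum_of_ne_zero
      intro j _ hne
      rw [Finset.mem_range]
      by_contra hj
      apply hne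
      rw [blockRows_empty D j (by omega), mixB_empty]
    calc _ ≤ ((n / D + 1 : ℕ)) ^ 3 * ∑ j ∈ range (n / D + 1),
            (∑ r ∈ blockRows n D j, (univ.filter fun c => A r c ≠ sorted A D r c).card) ^ 4 := by
          exact_mod_cast hpm
      _ ≤ (n / D + 1) ^ 3 * ∑ j ∈ range (n / D + 1),
            16 * n ^ 2 * D ^ 2 * mixB A (blockRows n D j) :=
          Nat.mul_le_mul_left _ (Finset.sum_le_sum hsc)
      _ = (n / D + 1) ^ 3 * (16 * n ^ 2 * D ^ 2 *
            ∑ j ∈ range (n / D + 1), mixB A (blockRows n D j)) := by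
          rw [← Finset.mul_sum]
      _ ≤ (n / D + 1) ^ 3 * (16 * n ^ 2 * D ^ 2 *
            (n ^ 2 * D ^ 2 + 2 * (copies I2 A).card)) :=
          Nat.mul_le_mul_left _ (Nat.mul_le_mul_left _ (le_trans hsum hmix))
      _ = _ := by ring
  · rw [diff_rows, sum_blocks D]
    calc _ ≤ ∑ j ∈ range (n / D + 1), n * s :=
          Finset.sum_le_sum fun j _ => coarse_cost A D s hs θ j
      _ = (n / D + 1) * n * s := by
          rw [Finset.sum_const, Finset.card_range, smul_eq_mul]
          ring
  · calc _ ≤ 16 * ((n / D + 1) * (D / s + 2)) ^ 8 * n ^ 4 *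
            (copies I2 (coarse A D s θ)).card := hT3
      _ ≤ _ := Nat.mul_le_mul_left _ hN

end Vale.Agent.Lib.P037
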