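import Mathlib
import Vale.Agent.Lib.P037.Master

namespace Vale.Agent.Lib.P037

open Finset
open Vale.Agent.Results.P037.FewRowTypes (copies)

theorem par_D (n q : ℕ) (hq : 1 ≤ q) (hn : 2 ^ 19 * q ^ 5 ≤ n) :
    8 * q ≤ n / (2 ^ 16 * q ^ 4) := by
  have hcpos : 0 < 2 ^ 16 * q ^ 4 := by positivity
  rw [Nat.le_div_iff_mul_le hcpos]
  calc 8 * q * (2 ^ 16 * q ^ 4) = 2 ^ 19 * q ^ 5 := by ring
    _ ≤ n := hn

theorem par_n (n q : ℕ) (hq : 1 ≤ q) (hn : 2 ^ 19 * q ^ 5 ≤ n) :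
    n < 2 * (2 ^ 16 * q ^ 4) * (n / (2 ^ 16 * q ^ 4)) := by
  have hcpos : 0 < 2 ^ 16 * q ^ 4 := by positivity
  have h1 := Nat.lt_mul_div_succ n hcpos
  have h2 := par_D n q hq hn
  have h3 : 1 ≤ n / (2 ^ 16 * q ^ 4) := by omega
  nlinarith

/-- Pure arithmetic: the main case of the parameter choice. -/
theorem final_arith (n q N D s m e T1 T2 T3 d : ℕ) (hq : 1 ≤ q)
    (hn : 2 ^ 19 * q ^ 5 ≤ n)
    (hD : D = n / (2 ^ 16 * q ^ 4)) (hs : s = D / (8 * q))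
    (hm : m = n / D + 1) (he : e = D / s + 2)
    (hsmallN : 2 * N ≤ n ^ 2 * D ^ 2)
    (hfar : n ^ 2 ≤ q * d) (hd : d ≤ T1 + T2 + T3)
    (hT1 : T1 ^ 4 ≤ 16 * n ^ 2 * D ^ 2 * m ^ 3 * (n ^ 2 * D ^ 2 + 2 * N))
    (hT2 : T2 ≤ m * n * s)
    (hT3 : T3 ^ 4 ≤ 16 * (m * e) ^ 8 * n ^ 4 * N) :
    n ^ 4 ≤ 2 ^ 192 * q ^ 44 * N := by
  have hcpos : 0 < 2 ^ 16 * q ^ 4 := by positivity
  have hD1 : 2 ^ 16 * q ^ 4 * D ≤ n := by rw [hD]; exact Nat.mul_div_le n _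
  have hD2 : n < 2 * (2 ^ 16 * q ^ 4) * D := by rw [hD]; exact par_n n q hq hn
  have hD3 : 8 * q ≤ D := by rw [hD]; exact par_D n q hq hn
  have hDpos : 0 < D := by omega
  have h8q : 0 < 8 * q := by omega
  have hs1 : 8 * q * s ≤ D := by rw [hs]; exact Nat.mul_div_le D (8 * q)
  have hs2 : D < 8 * q * (s + 1) := by rw [hs]; exact Nat.lt_mul_div_succ D h8q
  have hs3 : 1 ≤ s := by
    rw [hs, Nat.le_div_iff_mul_le h8q]
    omega
  have hDn : D ≤ n := le_trans (Nat.le_mul_of_pos_left D hcpos) hD1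
  have hmD : m * D ≤ 2 * n := by
    rw [hm]
    have := Nat.div_mul_le_self n D
    nlinarith
  have hm2 : m ≤ 2 * (2 ^ 16 * q ^ 4) := by
    rw [hm]
    have : n / D < 2 * (2 ^ 16 * q ^ 4) := by
      rw [Nat.div_lt_iff_lt_mul hDpos]
      exact hD2
    omega
  have he2 : e ≤ 32 * q := by
    rw [he]
    have : D / s < 16 * q := by
      rw [Nat.div_lt_iff_lt_mul (by omega)]
      nlinarith
    omega
  have hT1' : T1 ^ 4 ≤ 256 * n ^ 7 * D := by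
    calc T1 ^ 4 ≤ 16 * n ^ 2 * D ^ 2 * m ^ 3 * (n ^ 2 * D ^ 2 + 2 * N) := hT1
      _ ≤ 16 * n ^ 2 * D ^ 2 * m ^ 3 * (2 * (n ^ 2 * D ^ 2)) := by
          apply Nat.mul_le_mul_left
          omega
      _ = 32 * n ^ 4 * D * (m * D) ^ 3 := by ring
      _ ≤ 32 * n ^ 4 * D * (2 * n) ^ 3 := by
          apply Nat.mul_le_mul_left
          exact Nat.pow_le_pow_left hmD 3
      _ = 256 * n ^ 7 * D := by ring
  have hqT1 : 4 * (q * T1) ≤ n ^ 2 := by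
    by_contra hlt
    have hlt' : n ^ 2 < 4 * (q * T1) := not_le.mp hlt
    have h1 : (n ^ 2) ^ 4 < (4 * (q * T1)) ^ 4 := Nat.pow_lt_pow_left hlt' (by norm_num)
    have h2 : (4 * (q * T1)) ^ 4 ≤ (n ^ 2) ^ 4 := by
      calc (4 * (q * T1)) ^ 4 = 256 * q ^ 4 * T1 ^ 4 := by ring
        _ ≤ 256 * q ^ 4 * (256 * n ^ 7 * D) := Nat.mul_le_mul_left _ hT1'
        _ = (2 ^ 16 * q ^ 4 * D) * n ^ 7 := by ring
        _ ≤ n * n ^ 7 := Nat.mul_le_mul_right _ hD1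
        _ = (n ^ 2) ^ 4 := by ring
    omega
  have hqT2 : 4 * (q * T2) ≤ n ^ 2 := by
    have h1 : 4 * (q * T2) ≤ 4 * (q * (m * n * s)) :=
      Nat.mul_le_mul_left _ (Nat.mul_le_mul_left _ hT2)
    have h2 : 2 * (4 * (q * (m * n * s))) ≤ 2 * n ^ 2 := by
      calc 2 * (4 * (q * (m * n * s))) = (8 * q * s) * (m * n) := by ring
        _ ≤ D * (m * n) := Nat.mul_le_mul_right _ hs1
        _ = (m * D) * n := by ring
        _ ≤ (2 * n) * n := Nat.mul_le_mul_right _ hmD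
        _ = 2 * n ^ 2 := by ring
    omega
  have hqT3 : n ^ 2 ≤ 2 * (q * T3) := by
    have h1 : n ^ 2 ≤ q * (T1 + T2 + T3) := le_trans hfar (Nat.mul_le_mul_left _ hd)
    have h2 : q * (T1 + T2 + T3) = q * T1 + q * T2 + q * T3 := by ring
    omega
  have hnpos : 0 < n := by
    have : 0 < 2 ^ 19 * q ^ 5 := by positivity
    omega
  have hn4pos : 0 < n ^ 4 := by positivity
  have h8 : n ^ 4 * n ^ 4 ≤ n ^ 4 * (256 * q ^ 4 * (m * e) ^ 8 * N) := by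
    calc n ^ 4 * n ^ 4 = (n ^ 2) ^ 4 := by ring
      _ ≤ (2 * (q * T3)) ^ 4 := Nat.pow_le_pow_left hqT3 4
      _ = 16 * q ^ 4 * T3 ^ 4 := by ring
      _ ≤ 16 * q ^ 4 * (16 * (m * e) ^ 8 * n ^ 4 * N) := Nat.mul_le_mul_left _ hT3
      _ = n ^ 4 * (256 * q ^ 4 * (m * e) ^ 8 * N) := by ring
  have h9 : n ^ 4 ≤ 256 * q ^ 4 * (m * e) ^ 8 * N := Nat.le_of_mul_le_mul_left h8 hn4pos
  have hme : m * e ≤ 2 ^ 22 * q ^ 5 := by
    calc m * e ≤ (2 * (2 ^ 16 * q ^ 4)) * (32 * q) := Nat.mul_le_mul hm2 he2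
      _ = 2 ^ 22 * q ^ 5 := by ring
  calc n ^ 4 ≤ 256 * q ^ 4 * (m * e) ^ 8 * N := h9
    _ ≤ 256 * q ^ 4 * (2 ^ 22 * q ^ 5) ^ 8 * N := by
        apply Nat.mul_le_mul_right
        apply Nat.mul_le_mul_left
        exact Nat.pow_le_pow_left hme 8
    _ = 2 ^ 184 * q ^ 44 * N := by ring
    _ ≤ 2 ^ 192 * q ^ 44 * N := by
        apply Nat.mul_le_mul_right
        apply Nat.mul_le_mul_right
        norm_num

/-- Polynomial removal for the identity pattern, given the mixing lemma. -/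
theorem identity_removal_of_mix (n q : ℕ) (hq : 1 ≤ q) (A : Fin n → Fin n → Bool)
    (hmixAll : ∀ D, 0 < D → ∑ j ∈ range n, mixB A (blockRows n D j)
      ≤ n ^ 2 * D ^ 2 + 2 * (copies I2 A).card)
    (hfar : ∀ B : Fin n → Fin n → Bool, copies I2 B = ∅ →
      n ^ 2 ≤ q * (univ.filter fun p : Fin n × Fin n => A p.1 p.2 ≠ B p.1 p.2).card) :
    n ^ 4 ≤ 2 ^ 192 * q ^ 44 * (copies I2 A).card := by
  classical
  by_cases hn0 : n = 0
  · subst hn0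
    simp
  have hnpos : 0 < n := Nat.pos_of_ne_zero hn0
  have hN : 1 ≤ (copies I2 A).card := by
    by_contra h
    have h0 : (copies I2 A).card = 0 := by omega
    have hA : copies I2 A = ∅ := Finset.card_eq_zero.mp h0
    have h1 := hfar A hA
    have hz : (univ.filter fun p : Fin n × Fin n => A p.1 p.2 ≠ A p.1 p.2).card = 0 := by
      simp
    rw [hz, Nat.mul_zero] at h1
    have h2 : 0 < n ^ 2 := by positivity
    omega
  by_cases hsm : n < 2 ^ 19 * q ^ 5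
  · have h1 : n ^ 4 < (2 ^ 19 * q ^ 5) ^ 4 := Nat.pow_lt_pow_left hsm (by norm_num)
    have hq' : q ^ 20 ≤ q ^ 44 := Nat.pow_le_pow_right hq (by norm_num)
    calc n ^ 4 ≤ (2 ^ 19 * q ^ 5) ^ 4 := le_of_lt h1
      _ = 2 ^ 76 * q ^ 20 := by ring
      _ ≤ 2 ^ 192 * q ^ 44 := Nat.mul_le_mul (by norm_num) hq'
      _ ≤ 2 ^ 192 * q ^ 44 * (copies I2 A).card := Nat.le_mul_of_pos_right _ hN
  · have hn : 2 ^ 19 * q ^ 5 ≤ n := not_lt.mp hsm
    have hD3 := par_D n q hq hn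
    have hDpos : 0 < n / (2 ^ 16 * q ^ 4) := by omega
    have hspos : 0 < n / (2 ^ 16 * q ^ 4) / (8 * q) := by
      rw [Nat.lt_iff_add_one_le, Nat.le_div_iff_mul_le (by omega)]
      omega
    by_cases hbig : 2 * (copies I2 A).card ≤ n ^ 2 * (n / (2 ^ 16 * q ^ 4)) ^ 2
    · obtain ⟨B, hB, T1, T2, T3, hd, hT1, hT2, hT3⟩ :=
        master n (n / (2 ^ 16 * q ^ 4)) (n / (2 ^ 16 * q ^ 4) / (8 * q)) hDpos hspos A
          (hmixAll _ hDpos)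
      exact final_arith n q (copies I2 A).card (n / (2 ^ 16 * q ^ 4))
        (n / (2 ^ 16 * q ^ 4) / (8 * q)) _ _ T1 T2 T3 _ hq hn rfl rfl rfl rfl hbig
        (hfar B hB) hd hT1 hT2 hT3
    · have hlt : n ^ 2 * (n / (2 ^ 16 * q ^ 4)) ^ 2 < 2 * (copies I2 A).card := not_le.mp hbig
      have h2 := par_n n q hq hn
      have h3 : n ^ 2 ≤ (2 * (2 ^ 16 * q ^ 4) * (n / (2 ^ 16 * q ^ 4))) ^ 2 :=
        Nat.pow_le_pow_left (le_of_lt h2) 2
      have hq' : q ^ 8 ≤ q ^ 44 := Nat.pow_le_pow_right hq (by norm_num)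
      calc n ^ 4 = n ^ 2 * n ^ 2 := by ring
        _ ≤ (2 * (2 ^ 16 * q ^ 4) * (n / (2 ^ 16 * q ^ 4))) ^ 2 * n ^ 2 :=
            Nat.mul_le_mul_right _ h3
        _ = 2 ^ 34 * q ^ 8 * (n ^ 2 * (n / (2 ^ 16 * q ^ 4)) ^ 2) := by ring
        _ ≤ 2 ^ 34 * q ^ 8 * (2 * (copies I2 A).card) :=
            Nat.mul_le_mul_left _ (le_of_lt hlt)
        _ = 2 ^ 35 * q ^ 8 * (copies I2 A).card := by ring
        _ ≤ 2 ^ 192 * q ^ 44 * (copies I2 A).card :=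
            Nat.mul_le_mul_right _ (Nat.mul_le_mul (by norm_num) hq')

end Vale.Agent.Lib.P037
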