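import Mathlib
import Vale.Agent.Lib.P037.Defs

namespace Vale.Agent.Lib.P037

open Finset
open Vale.Agent.Results.P037.FewRowTypes (copies)

variable {n : ℕ}

theorem mix_card_blockRows_le (n D j : ℕ) (hD : 1 ≤ D) : (blockRows n D j).card ≤ D := by
  have h : (blockRows n D j).card ≤ (Ico (j * D) (j * D + D)).card := by
    apply card_le_card_of_injOn (fun r => r.val)
    · intro r hr
      have hr' : r.val / D = j := by simpa [blockRows] using hr
      have h1 := Nat.div_mul_le_self r.val D
      have h2 := Nat.lt_div_mul_add (a := r.val) (show 0 < D by omega)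
      subst hr'
      simp only [coe_Ico, Set.mem_Ico]
      exact ⟨h1, h2⟩
    · intro r _ r' _ h
      exact Fin.ext h
  simpa using h

theorem mix_sum_blocks (D : ℕ) (f : Fin n → ℕ) :
    ∑ j ∈ range n, ∑ r ∈ blockRows n D j, f r = ∑ r : Fin n, f r := by
  unfold blockRows
  apply sum_fiberwise_of_maps_to
  intro r _
  rw [mem_range]
  exact lt_of_le_of_lt (Nat.div_le_self _ _) r.isLt

/-- The number of rows of block `j` reading `1 0` on the columns `a`, `b`. -/
def mixP (A : Fin n → Fin n → Bool) (D : ℕ) (a b : Fin n) (j : ℕ) : ℕ :=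
  ((blockRows n D j).filter fun r => A r a = true ∧ A r b = false).card

/-- The number of rows of block `j` reading `0 1` on the columns `a`, `b`. -/
def mixQ (A : Fin n → Fin n → Bool) (D : ℕ) (a b : Fin n) (j : ℕ) : ℕ :=
  ((blockRows n D j).filter fun r => A r a = false ∧ A r b = true).card

/-- The number of row pairs `r1 < r2` with `r1` reading `1 0` and `r2` reading `0 1` on
the columns `a`, `b`. -/
def mixC (A : Fin n → Fin n → Bool) (a b : Fin n) : ℕ :=
  ∑ r1 : Fin n, ∑ r2 : Fin n,
    if r1 < r2 ∧ A r1 a = true ∧ A r1 b = false ∧ A r2 a = false ∧ A r2 b = true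
      then 1 else 0

theorem mix_cross_le (A : Fin n → Fin n → Bool) (D : ℕ) (a b : Fin n) :
    ∑ j ∈ range n, ∑ l ∈ range n,
        (if j < l then mixP A D a b j * mixQ A D a b l else 0) ≤ mixC A a b := by
  have key : ∀ j l : ℕ, (if j < l then mixP A D a b j * mixQ A D a b l else 0)
      = ∑ r1 ∈ blockRows n D j, ∑ r2 ∈ blockRows n D l,
          (if r1.val / D < r2.val / D ∧ A r1 a = true ∧ A r1 b = false
              ∧ A r2 a = false ∧ A r2 b = true then 1 else 0) := by
    intro j l
    by_cases hjl : j < l
    · rw [if_pos hjl]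
      unfold mixP mixQ
      rw [card_filter, card_filter, sum_mul_sum]
      apply sum_congr rfl
      intro r1 hr1
      apply sum_congr rfl
      intro r2 hr2
      have h1 : r1.val / D = j := by simpa [blockRows] using hr1
      have h2 : r2.val / D = l := by simpa [blockRows] using hr2
      rw [h1, h2]
      cases A r1 a <;> cases A r1 b <;> cases A r2 a <;> cases A r2 b <;> simp [hjl]
    · rw [if_neg hjl]
      symm
      apply sum_eq_zero
      intro r1 hr1
      apply sum_eq_zero
      intro r2 hr2
      have h1 : r1.val / D = j := by simpa [blockRows] using hr1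
      have h2 : r2.val / D = l := by simpa [blockRows] using hr2
      rw [h1, h2]
      simp [hjl]
  simp only [key]
  have hsum : ∑ j ∈ range n, ∑ l ∈ range n, ∑ r1 ∈ blockRows n D j, ∑ r2 ∈ blockRows n D l,
          (if r1.val / D < r2.val / D ∧ A r1 a = true ∧ A r1 b = false
              ∧ A r2 a = false ∧ A r2 b = true then 1 else 0)
      = ∑ r1 : Fin n, ∑ r2 : Fin n,
          (if r1.val / D < r2.val / D ∧ A r1 a = true ∧ A r1 b = false
              ∧ A r2 a = false ∧ A r2 b = true then 1 else 0) := by
    rw [← mix_sum_blocks D]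
    apply sum_congr rfl
    intro j _
    rw [sum_comm]
    apply sum_congr rfl
    intro r1 _
    exact mix_sum_blocks D _
  rw [hsum]
  unfold mixC
  apply sum_le_sum
  intro r1 _
  apply sum_le_sum
  intro r2 _
  by_cases h : r1.val / D < r2.val / D
  · have hlt : r1 < r2 := by
      rw [Fin.lt_def]
      by_contra hge
      have := Nat.div_le_div_right (c := D) (not_lt.1 hge)
      omega
    simp [h, hlt]
  · simp [h]

theorem mix_pair_bound (A : Fin n → Fin n → Bool) (D : ℕ) (hD : 1 ≤ D) (a b : Fin n) :
    ∑ j ∈ range n, mixP A D a b j * mixQ A D a b j ≤ D ^ 2 + 2 * mixC A a b := by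
  have hp : ∀ j, mixP A D a b j ≤ D := fun j =>
    le_trans (card_filter_le _ _) (mix_card_blockRows_le n D j hD)
  have hq : ∀ j, mixQ A D a b j ≤ D := fun j =>
    le_trans (card_filter_le _ _) (mix_card_blockRows_le n D j hD)
  have h2 : ∀ j ∈ range n, ∀ l ∈ range n,
      (mixP A D a b j * mixQ A D a b j) * (mixP A D a b l * mixQ A D a b l)
        ≤ (if j = l then D ^ 2 * (mixP A D a b j * mixQ A D a b j) else 0)
          + D ^ 2 * (if j < l then mixP A D a b j * mixQ A D a b l else 0)
          + D ^ 2 * (if l < j then mixP A D a b l * mixQ A D a b j else 0) := by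
    intro j _ l _
    rcases lt_trichotomy j l with h | h | h
    · rw [if_neg h.ne, if_pos h, if_neg (not_lt.2 h.le)]
      calc (mixP A D a b j * mixQ A D a b j) * (mixP A D a b l * mixQ A D a b l)
          = (mixQ A D a b j * mixP A D a b l) * (mixP A D a b j * mixQ A D a b l) := by
            ring
        _ ≤ (D * D) * (mixP A D a b j * mixQ A D a b l) :=
            Nat.mul_le_mul_right _ (Nat.mul_le_mul (hq j) (hp l))
        _ = 0 + D ^ 2 * (mixP A D a b j * mixQ A D a b l) + D ^ 2 * 0 := by ring
    · subst h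
      rw [if_pos rfl, if_neg (lt_irrefl _)]
      calc (mixP A D a b j * mixQ A D a b j) * (mixP A D a b j * mixQ A D a b j)
          ≤ (D * D) * (mixP A D a b j * mixQ A D a b j) :=
            Nat.mul_le_mul_right _ (Nat.mul_le_mul (hp j) (hq j))
        _ = D ^ 2 * (mixP A D a b j * mixQ A D a b j) + D ^ 2 * 0 + D ^ 2 * 0 := by ring
    · rw [if_neg h.ne', if_neg (not_lt.2 h.le), if_pos h]
      calc (mixP A D a b j * mixQ A D a b j) * (mixP A D a b l * mixQ A D a b l)
          = (mixP A D a b j * mixQ A D a b l) * (mixP A D a b l * mixQ A D a b j) := by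
            ring
        _ ≤ (D * D) * (mixP A D a b l * mixQ A D a b j) :=
            Nat.mul_le_mul_right _ (Nat.mul_le_mul (hp j) (hq l))
        _ = 0 + D ^ 2 * 0 + D ^ 2 * (mixP A D a b l * mixQ A D a b j) := by ring
  have hT := mix_cross_le A D a b
  have hT' : ∑ j ∈ range n, ∑ l ∈ range n,
        (if l < j then mixP A D a b l * mixQ A D a b j else 0) ≤ mixC A a b := by
    rw [sum_comm]
    exact hT
  have hsq : (∑ j ∈ range n, mixP A D a b j * mixQ A D a b j)
        * (∑ j ∈ range n, mixP A D a b j * mixQ A D a b j)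
      ≤ D ^ 2 * (∑ j ∈ range n, mixP A D a b j * mixQ A D a b j)
        + D ^ 2 * mixC A a b + D ^ 2 * mixC A a b := by
    rw [sum_mul_sum]
    calc ∑ j ∈ range n, ∑ l ∈ range n,
          (mixP A D a b j * mixQ A D a b j) * (mixP A D a b l * mixQ A D a b l)
        ≤ ∑ j ∈ range n, ∑ l ∈ range n,
          ((if j = l then D ^ 2 * (mixP A D a b j * mixQ A D a b j) else 0)
          + D ^ 2 * (if j < l then mixP A D a b j * mixQ A D a b l else 0)
          + D ^ 2 * (if l < j then mixP A D a b l * mixQ A D a b j else 0)) :=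
          sum_le_sum (fun j hj => sum_le_sum (fun l hl => h2 j hj l hl))
      _ = D ^ 2 * (∑ j ∈ range n, mixP A D a b j * mixQ A D a b j)
          + D ^ 2 * (∑ j ∈ range n, ∑ l ∈ range n,
              (if j < l then mixP A D a b j * mixQ A D a b l else 0))
          + D ^ 2 * (∑ j ∈ range n, ∑ l ∈ range n,
              (if l < j then mixP A D a b l * mixQ A D a b j else 0)) := by
          simp only [sum_add_distrib, mul_sum]
          congr 2
          apply sum_congr rfl
          intro j hj
          rw [sum_ite_eq, if_pos hj]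
      _ ≤ _ := by
          have h3 := Nat.mul_le_mul_left (D ^ 2) hT
          have h4 := Nat.mul_le_mul_left (D ^ 2) hT'
          omega
  by_contra hcon
  have hlt : D ^ 2 + 2 * mixC A a b + 1
      ≤ ∑ j ∈ range n, mixP A D a b j * mixQ A D a b j := by omega
  have h5 := Nat.mul_le_mul_right (∑ j ∈ range n, mixP A D a b j * mixQ A D a b j) hlt
  have h6 := Nat.mul_le_mul_left (2 * mixC A a b) hlt
  nlinarith

theorem mix_I2_00 : I2 0 0 = true := by decide
theorem mix_I2_01 : I2 0 1 = false := by decide
theorem mix_I2_10 : I2 1 0 = false := by decide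
theorem mix_I2_11 : I2 1 1 = true := by decide

theorem mix_copies_card (A : Fin n → Fin n → Bool) :
    (copies I2 A).card = ∑ a : Fin n, ∑ b : Fin n, if a < b then mixC A a b else 0 := by
  unfold copies mixC
  rw [card_filter]
  simp only [Fintype.sum_prod_type, mix_I2_00, mix_I2_01, mix_I2_10, mix_I2_11]
  have hcomm : ∀ h : Fin n → Fin n → Fin n → Fin n → ℕ,
      ∑ r : Fin n, ∑ r' : Fin n, ∑ a : Fin n, ∑ b : Fin n, h a b r r'
        = ∑ a : Fin n, ∑ b : Fin n, ∑ r : Fin n, ∑ r' : Fin n, h a b r r' := by
    intro h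
    calc ∑ r : Fin n, ∑ r' : Fin n, ∑ a : Fin n, ∑ b : Fin n, h a b r r'
        = ∑ r : Fin n, ∑ a : Fin n, ∑ r' : Fin n, ∑ b : Fin n, h a b r r' := by
          apply sum_congr rfl
          intro r _
          exact sum_comm
      _ = ∑ a : Fin n, ∑ r : Fin n, ∑ r' : Fin n, ∑ b : Fin n, h a b r r' := sum_comm
      _ = ∑ a : Fin n, ∑ r : Fin n, ∑ b : Fin n, ∑ r' : Fin n, h a b r r' := by
          apply sum_congr rfl
          intro a _
          apply sum_congr rfl
          intro r _
          exact sum_comm
      _ = ∑ a : Fin n, ∑ b : Fin n, ∑ r : Fin n, ∑ r' : Fin n, h a b r r' := by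
          apply sum_congr rfl
          intro a _
          exact sum_comm
  rw [hcomm (fun a b r r' =>
    if r < r' ∧ a < b ∧ A r a = true ∧ A r b = false ∧ A r' a = false ∧ A r' b = true
      then 1 else 0)]
  apply sum_congr rfl
  intro a _
  apply sum_congr rfl
  intro b _
  by_cases h : a < b
  · simp [h]
  · simp [h]

theorem mix_le {n : ℕ} (A : Fin n → Fin n → Bool) (D : ℕ) (hD : 1 ≤ D) :
    ∑ j ∈ range n, mixB A (blockRows n D j) ≤ n ^ 2 * D ^ 2 + 2 * (copies I2 A).card := by
  have h1 : ∑ j ∈ range n, mixB A (blockRows n D j)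
      = ∑ a : Fin n, ∑ b : Fin n,
          if a < b then ∑ j ∈ range n, mixP A D a b j * mixQ A D a b j else 0 := by
    unfold mixB
    rw [sum_comm]
    apply sum_congr rfl
    intro a _
    rw [sum_comm]
    apply sum_congr rfl
    intro b _
    by_cases h : a < b
    · simp [h, mixP, mixQ]
    · simp [h]
  rw [h1, mix_copies_card]
  calc ∑ a : Fin n, ∑ b : Fin n,
        (if a < b then ∑ j ∈ range n, mixP A D a b j * mixQ A D a b j else 0)
      ≤ ∑ a : Fin n, ∑ b : Fin n, (D ^ 2 + 2 * (if a < b then mixC A a b else 0)) := by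
        apply sum_le_sum
        intro a _
        apply sum_le_sum
        intro b _
        split_ifs with h
        · exact mix_pair_bound A D hD a b
        · omega
    _ = n ^ 2 * D ^ 2 + 2 * ∑ a : Fin n, ∑ b : Fin n, (if a < b then mixC A a b else 0) := by
        simp only [sum_add_distrib, sum_const, card_univ, Fintype.card_fin, smul_eq_mul,
          mul_sum]
        ring

end Vale.Agent.Lib.P037
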