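import Mathlib
import Vale.Agent.Results.P037.IdentityPattern

namespace Vale.Agent.Lib.P037

open Finset

/-- Polynomial removal for both 2 x 2 permutation patterns: `s = true` is the identity
pattern `1 0 / 0 1`, `s = false` is the pattern `0 1 / 1 0` (obtained from the identity
pattern by reversing the column order). -/
theorem perm_removal (s : Bool) (n : ℕ) (ε : ℝ) (hε : 0 < ε) (hε1 : ε ≤ 1)
    (A : Fin n → Fin n → Bool)
    (hfar : ∀ B : Fin n → Fin n → Bool,
      (∀ r1 r2 c1 c2 : Fin n, r1 < r2 → c1 < c2 →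
        ¬ (B r1 c1 = s ∧ B r1 c2 = !s ∧ B r2 c1 = !s ∧ B r2 c2 = s)) →
      ε * (n : ℝ) ^ 2 ≤
        ((Finset.univ.filter fun p : Fin n × Fin n => A p.1 p.2 ≠ B p.1 p.2).card : ℝ)) :
    ε ^ 44 * (n : ℝ) ^ 4 ≤ 2 ^ 236 *
      ((Finset.univ.filter fun t : Fin n × Fin n × Fin n × Fin n =>
        t.1 < t.2.1 ∧ t.2.2.1 < t.2.2.2 ∧ A t.1 t.2.2.1 = s ∧ A t.1 t.2.2.2 = !s ∧
          A t.2.1 t.2.2.1 = !s ∧ A t.2.1 t.2.2.2 = s).card : ℝ) := by
  cases s with
  | true =>
    simp only [Bool.not_true] at hfar ⊢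
    exact Vale.Agent.Results.P037.IdentityPattern.result n ε hε hε1 A hfar
  | false =>
    simp only [Bool.not_false] at hfar ⊢
    have key := Vale.Agent.Results.P037.IdentityPattern.result n ε hε hε1
      (fun r c => A r (Fin.rev c)) (by
        intro B' hB'
        have h := hfar (fun r c => B' r (Fin.rev c)) (by
          intro r1 r2 c1 c2 hr hc hcopy
          apply hB' r1 r2 (Fin.rev c2) (Fin.rev c1) hr (Fin.rev_lt_rev.2 hc)
          exact ⟨hcopy.2.1, hcopy.1, hcopy.2.2.2, hcopy.2.2.1⟩)
        have hcard : (Finset.univ.filter fun p : Fin n × Fin n =>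
              A p.1 p.2 ≠ B' p.1 (Fin.rev p.2)).card
            = (Finset.univ.filter fun p : Fin n × Fin n =>
              A p.1 (Fin.rev p.2) ≠ B' p.1 p.2).card := by
          apply Finset.card_nbij' (fun p => (p.1, Fin.rev p.2)) (fun p => (p.1, Fin.rev p.2))
          · intro p hp
            simp only [Finset.mem_coe, Finset.mem_filter, Finset.mem_univ, true_and,
              Fin.rev_rev] at hp ⊢
            exact hp
          · intro p hp
            simp only [Finset.mem_coe, Finset.mem_filter, Finset.mem_univ, true_and,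
              Fin.rev_rev] at hp ⊢
            exact hp
          · intro p _
            simp
          · intro p _
            simp
        rw [← hcard]
        exact h)
    have hcard2 : (Finset.univ.filter fun t : Fin n × Fin n × Fin n × Fin n =>
          t.1 < t.2.1 ∧ t.2.2.1 < t.2.2.2 ∧ A t.1 (Fin.rev t.2.2.1) = true
            ∧ A t.1 (Fin.rev t.2.2.2) = false
            ∧ A t.2.1 (Fin.rev t.2.2.1) = false ∧ A t.2.1 (Fin.rev t.2.2.2) = true).card
        = (Finset.univ.filter fun t : Fin n × Fin n × Fin n × Fin n =>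
          t.1 < t.2.1 ∧ t.2.2.1 < t.2.2.2 ∧ A t.1 t.2.2.1 = false ∧ A t.1 t.2.2.2 = true ∧
            A t.2.1 t.2.2.1 = true ∧ A t.2.1 t.2.2.2 = false).card := by
      apply Finset.card_nbij'
        (fun t => (t.1, t.2.1, Fin.rev t.2.2.2, Fin.rev t.2.2.1))
        (fun t => (t.1, t.2.1, Fin.rev t.2.2.2, Fin.rev t.2.2.1))
      · intro t ht
        simp only [Finset.mem_coe, Finset.mem_filter, Finset.mem_univ, true_and] at ht ⊢
        exact ⟨ht.1, Fin.rev_lt_rev.2 ht.2.1, ht.2.2.2.1, ht.2.2.1, ht.2.2.2.2.2,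
          ht.2.2.2.2.1⟩
      · intro t ht
        simp only [Finset.mem_coe, Finset.mem_filter, Finset.mem_univ, true_and,
          Fin.rev_rev] at ht ⊢
        exact ⟨ht.1, Fin.rev_lt_rev.2 ht.2.1, ht.2.2.2.1, ht.2.2.1, ht.2.2.2.2.2,
          ht.2.2.2.2.1⟩
      · intro t _
        simp
      · intro t _
        simp
    rw [← hcard2]
    exact key

end Vale.Agent.Lib.P037
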