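import Mathlib
import Vale.Agent.Lib.P037.PermPatterns

namespace Vale.Agent.Lib.P037

open Finset

/-- `RemovalAt C K h11 h12 h21 h22`: the polynomial removal bound with exponent `C` and
constant `K` for the single ordered 2 x 2 pattern with entries `h11 h12 / h21 h22`, on all
binary `n x n` hosts.  A copy is a choice of rows `r1 < r2` and columns `c1 < c2` reading
the four pattern entries; the hypothesis says that every pattern-free matrix differs from
`A` in at least `ε * n ^ 2` entries. -/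
def RemovalAt (C : ℕ) (K : ℝ) (h11 h12 h21 h22 : Bool) : Prop :=
  ∀ (n : ℕ) (ε : ℝ), 0 < ε → ε ≤ 1 → ∀ A : Fin n → Fin n → Bool,
    (∀ B : Fin n → Fin n → Bool,
      (∀ r1 r2 c1 c2 : Fin n, r1 < r2 → c1 < c2 →
        ¬ (B r1 c1 = h11 ∧ B r1 c2 = h12 ∧ B r2 c1 = h21 ∧ B r2 c2 = h22)) →
      ε * (n : ℝ) ^ 2 ≤
        ((Finset.univ.filter fun p : Fin n × Fin n => A p.1 p.2 ≠ B p.1 p.2).card : ℝ)) →
    ε ^ C * (n : ℝ) ^ 4 ≤ K *
      ((Finset.univ.filter fun t : Fin n × Fin n × Fin n × Fin n =>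
        t.1 < t.2.1 ∧ t.2.2.1 < t.2.2.2 ∧ A t.1 t.2.2.1 = h11 ∧ A t.1 t.2.2.2 = h12 ∧
          A t.2.1 t.2.2.1 = h21 ∧ A t.2.1 t.2.2.2 = h22).card : ℝ)

/-- Weakening the exponent and the constant. -/
theorem RemovalAt.mono {C C' : ℕ} {K K' : ℝ} {h11 h12 h21 h22 : Bool}
    (h : RemovalAt C K h11 h12 h21 h22) (hC : C ≤ C') (hK : K ≤ K') :
    RemovalAt C' K' h11 h12 h21 h22 := by
  intro n ε hε hε1 A hfar
  have key := h n ε hε hε1 A hfar
  have h1 : ε ^ C' ≤ ε ^ C := pow_le_pow_of_le_one hε.le hε1 hC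
  have h2 : (0 : ℝ) ≤ (n : ℝ) ^ 4 := by positivity
  have h3 : (0 : ℝ) ≤ ((Finset.univ.filter fun t : Fin n × Fin n × Fin n × Fin n =>
        t.1 < t.2.1 ∧ t.2.2.1 < t.2.2.2 ∧ A t.1 t.2.2.1 = h11 ∧ A t.1 t.2.2.2 = h12 ∧
          A t.2.1 t.2.2.1 = h21 ∧ A t.2.1 t.2.2.2 = h22).card : ℝ) := Nat.cast_nonneg _
  calc ε ^ C' * (n : ℝ) ^ 4 ≤ ε ^ C * (n : ℝ) ^ 4 := mul_le_mul_of_nonneg_right h1 h2
    _ ≤ K * _ := key
    _ ≤ K' * _ := mul_le_mul_of_nonneg_right hK h3

/-- Generic transfer of a removal bound along a symmetry `φ` of hosts. -/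
theorem RemovalAt.transfer {C : ℕ} {K : ℝ} {h11 h12 h21 h22 g11 g12 g21 g22 : Bool}
    (φ : ∀ n : ℕ, (Fin n → Fin n → Bool) → (Fin n → Fin n → Bool))
    (hinv : ∀ (n : ℕ) (A : Fin n → Fin n → Bool), φ n (φ n A) = A)
    (hdiff : ∀ (n : ℕ) (A B : Fin n → Fin n → Bool),
      (Finset.univ.filter fun p : Fin n × Fin n => φ n A p.1 p.2 ≠ φ n B p.1 p.2).card
        = (Finset.univ.filter fun p : Fin n × Fin n => A p.1 p.2 ≠ B p.1 p.2).card)
    (hfree : ∀ (n : ℕ) (B : Fin n → Fin n → Bool),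
      (∀ r1 r2 c1 c2 : Fin n, r1 < r2 → c1 < c2 →
        ¬ (B r1 c1 = h11 ∧ B r1 c2 = h12 ∧ B r2 c1 = h21 ∧ B r2 c2 = h22)) →
      (∀ r1 r2 c1 c2 : Fin n, r1 < r2 → c1 < c2 →
        ¬ (φ n B r1 c1 = g11 ∧ φ n B r1 c2 = g12 ∧ φ n B r2 c1 = g21 ∧ φ n B r2 c2 = g22)))
    (hcount : ∀ (n : ℕ) (A : Fin n → Fin n → Bool),
      (Finset.univ.filter fun t : Fin n × Fin n × Fin n × Fin n =>
        t.1 < t.2.1 ∧ t.2.2.1 < t.2.2.2 ∧ φ n A t.1 t.2.2.1 = h11 ∧ φ n A t.1 t.2.2.2 = h12 ∧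
          φ n A t.2.1 t.2.2.1 = h21 ∧ φ n A t.2.1 t.2.2.2 = h22).card
        = (Finset.univ.filter fun t : Fin n × Fin n × Fin n × Fin n =>
        t.1 < t.2.1 ∧ t.2.2.1 < t.2.2.2 ∧ A t.1 t.2.2.1 = g11 ∧ A t.1 t.2.2.2 = g12 ∧
          A t.2.1 t.2.2.1 = g21 ∧ A t.2.1 t.2.2.2 = g22).card)
    (h : RemovalAt C K h11 h12 h21 h22) : RemovalAt C K g11 g12 g21 g22 := by
  intro n ε hε hε1 A hfar
  have key := h n ε hε hε1 (φ n A) (by
    intro B' hB'
    have h1 := hfar (φ n B') (hfree n B' hB')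
    have h2 := hdiff n A (φ n B')
    rw [hinv] at h2
    rw [h2]
    exact h1)
  rw [hcount n A] at key
  exact key

/-- Complementing all entries. -/
theorem RemovalAt.compl {C : ℕ} {K : ℝ} {h11 h12 h21 h22 : Bool}
    (h : RemovalAt C K h11 h12 h21 h22) : RemovalAt C K (!h11) (!h12) (!h21) (!h22) := by
  refine RemovalAt.transfer (fun n A r c => !(A r c)) ?_ ?_ ?_ ?_ h
  · intro n A
    funext r c
    simp
  · intro n A B
    congr 1
    ext p
    simp
  · intro n B hB r1 r2 c1 c2 hr hc hcopy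
    apply hB r1 r2 c1 c2 hr hc
    simpa using hcopy
  · intro n A
    congr 1
    ext t
    simp [Bool.not_eq_eq_eq_not]

/-- Reversing the column order. -/
theorem RemovalAt.colRev {C : ℕ} {K : ℝ} {h11 h12 h21 h22 : Bool}
    (h : RemovalAt C K h11 h12 h21 h22) : RemovalAt C K h12 h11 h22 h21 := by
  refine RemovalAt.transfer (fun n A r c => A r (Fin.rev c)) ?_ ?_ ?_ ?_ h
  · intro n A
    funext r c
    simp
  · intro n A B
    apply Finset.card_nbij' (fun p => (p.1, Fin.rev p.2)) (fun p => (p.1, Fin.rev p.2))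
    · intro p hp
      simp only [Finset.mem_coe, Finset.mem_filter, Finset.mem_univ, true_and] at hp ⊢
      exact hp
    · intro p hp
      simp only [Finset.mem_coe, Finset.mem_filter, Finset.mem_univ, true_and,
        Fin.rev_rev] at hp ⊢
      exact hp
    · intro p _
      simp
    · intro p _
      simp
  · intro n B hB r1 r2 c1 c2 hr hc hcopy
    apply hB r1 r2 (Fin.rev c2) (Fin.rev c1) hr (Fin.rev_lt_rev.2 hc)
    exact ⟨hcopy.2.1, hcopy.1, hcopy.2.2.2, hcopy.2.2.1⟩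
  · intro n A
    apply Finset.card_nbij'
      (fun t => (t.1, t.2.1, Fin.rev t.2.2.2, Fin.rev t.2.2.1))
      (fun t => (t.1, t.2.1, Fin.rev t.2.2.2, Fin.rev t.2.2.1))
    · intro t ht
      simp only [Finset.mem_coe, Finset.mem_filter, Finset.mem_univ, true_and] at ht ⊢
      exact ⟨ht.1, Fin.rev_lt_rev.2 ht.2.1, ht.2.2.2.1, ht.2.2.1, ht.2.2.2.2.2,
        ht.2.2.2.2.1⟩
    · intro t ht
      simp only [Finset.mem_coe, Finset.mem_filter, Finset.mem_univ, true_and,
        Fin.rev_rev] at ht ⊢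
      exact ⟨ht.1, Fin.rev_lt_rev.2 ht.2.1, ht.2.2.2.1, ht.2.2.1, ht.2.2.2.2.2,
        ht.2.2.2.2.1⟩
    · intro t _
      simp
    · intro t _
      simp

/-- Reversing the row order. -/
theorem RemovalAt.rowRev {C : ℕ} {K : ℝ} {h11 h12 h21 h22 : Bool}
    (h : RemovalAt C K h11 h12 h21 h22) : RemovalAt C K h21 h22 h11 h12 := by
  refine RemovalAt.transfer (fun n A r c => A (Fin.rev r) c) ?_ ?_ ?_ ?_ h
  · intro n A
    funext r c
    simp
  · intro n A B
    apply Finset.card_nbij' (fun p => (Fin.rev p.1, p.2)) (fun p => (Fin.rev p.1, p.2))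
    · intro p hp
      simp only [Finset.mem_coe, Finset.mem_filter, Finset.mem_univ, true_and] at hp ⊢
      exact hp
    · intro p hp
      simp only [Finset.mem_coe, Finset.mem_filter, Finset.mem_univ, true_and,
        Fin.rev_rev] at hp ⊢
      exact hp
    · intro p _
      simp
    · intro p _
      simp
  · intro n B hB r1 r2 c1 c2 hr hc hcopy
    apply hB (Fin.rev r2) (Fin.rev r1) c1 c2 (Fin.rev_lt_rev.2 hr) hc
    exact ⟨hcopy.2.2.1, hcopy.2.2.2, hcopy.1, hcopy.2.1⟩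
  · intro n A
    apply Finset.card_nbij'
      (fun t => (Fin.rev t.2.1, Fin.rev t.1, t.2.2.1, t.2.2.2))
      (fun t => (Fin.rev t.2.1, Fin.rev t.1, t.2.2.1, t.2.2.2))
    · intro t ht
      simp only [Finset.mem_coe, Finset.mem_filter, Finset.mem_univ, true_and] at ht ⊢
      exact ⟨Fin.rev_lt_rev.2 ht.1, ht.2.1, ht.2.2.2.2.1, ht.2.2.2.2.2, ht.2.2.1,
        ht.2.2.2.1⟩
    · intro t ht
      simp only [Finset.mem_coe, Finset.mem_filter, Finset.mem_univ, true_and,
        Fin.rev_rev] at ht ⊢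
      exact ⟨Fin.rev_lt_rev.2 ht.1, ht.2.1, ht.2.2.2.2.1, ht.2.2.2.2.2, ht.2.2.1,
        ht.2.2.2.1⟩
    · intro t _
      simp
    · intro t _
      simp

/-- Transposing. -/
theorem RemovalAt.transpose {C : ℕ} {K : ℝ} {h11 h12 h21 h22 : Bool}
    (h : RemovalAt C K h11 h12 h21 h22) : RemovalAt C K h11 h21 h12 h22 := by
  refine RemovalAt.transfer (fun n A r c => A c r) ?_ ?_ ?_ ?_ h
  · intro n A
    rfl
  · intro n A B
    apply Finset.card_nbij' (fun p => (p.2, p.1)) (fun p => (p.2, p.1))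
    · intro p hp
      simp only [Finset.mem_coe, Finset.mem_filter, Finset.mem_univ, true_and] at hp ⊢
      exact hp
    · intro p hp
      simp only [Finset.mem_coe, Finset.mem_filter, Finset.mem_univ, true_and] at hp ⊢
      exact hp
    · intro p _
      simp
    · intro p _
      simp
  · intro n B hB r1 r2 c1 c2 hr hc hcopy
    apply hB c1 c2 r1 r2 hc hr
    exact ⟨hcopy.1, hcopy.2.2.1, hcopy.2.1, hcopy.2.2.2⟩
  · intro n A
    apply Finset.card_nbij'
      (fun t => (t.2.2.1, t.2.2.2, t.1, t.2.1))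
      (fun t => (t.2.2.1, t.2.2.2, t.1, t.2.1))
    · intro t ht
      simp only [Finset.mem_coe, Finset.mem_filter, Finset.mem_univ, true_and] at ht ⊢
      exact ⟨ht.2.1, ht.1, ht.2.2.1, ht.2.2.2.2.1, ht.2.2.2.1, ht.2.2.2.2.2⟩
    · intro t ht
      simp only [Finset.mem_coe, Finset.mem_filter, Finset.mem_univ, true_and] at ht ⊢
      exact ⟨ht.2.1, ht.1, ht.2.2.1, ht.2.2.2.2.1, ht.2.2.2.1, ht.2.2.2.2.2⟩
    · intro t _
      simp
    · intro t _
      simp

/-- The two permutation patterns (landed theorem `perm_removal`). -/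
theorem removalAt_perm (s : Bool) : RemovalAt 44 (2 ^ 236) s (!s) (!s) s := by
  intro n ε hε hε1 A hfar
  exact perm_removal s n ε hε hε1 A hfar

/-- **Assembly for all sixteen 2 x 2 patterns.**  Given the removal bound for the pattern
`1 0 / 0 0` and for the patterns with two equal rows or two equal columns, every 2 x 2
pattern satisfies the removal bound with exponent `44` and constant `2 ^ 236`. -/
theorem all_two_by_two {CE : ℕ} {KE : ℝ} (hCE : CE ≤ 44) (hKE : KE ≤ 2 ^ 236)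
    (hE : RemovalAt CE KE true false false false)
    (hKnown : ∀ h11 h12 h21 h22 : Bool,
      ((h11 = h21 ∧ h12 = h22) ∨ (h11 = h12 ∧ h21 = h22)) →
        RemovalAt 44 (2 ^ 236) h11 h12 h21 h22)
    (h11 h12 h21 h22 : Bool) : RemovalAt 44 (2 ^ 236) h11 h12 h21 h22 := by
  have hE' : RemovalAt 44 (2 ^ 236) true false false false := hE.mono hCE hKE
  have e2 : RemovalAt 44 (2 ^ 236) false true false false := hE'.colRev
  have e3 : RemovalAt 44 (2 ^ 236) false false true false := hE'.rowRev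
  have e4 : RemovalAt 44 (2 ^ 236) false false false true := e2.rowRev
  have f1 : RemovalAt 44 (2 ^ 236) false true true true := hE'.compl
  have f2 : RemovalAt 44 (2 ^ 236) true false true true := e2.compl
  have f3 : RemovalAt 44 (2 ^ 236) true true false true := e3.compl
  have f4 : RemovalAt 44 (2 ^ 236) true true true false := e4.compl
  have p1 : RemovalAt 44 (2 ^ 236) true false false true := removalAt_perm true
  have p2 : RemovalAt 44 (2 ^ 236) false true true false := removalAt_perm false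
  cases h11 <;> cases h12 <;> cases h21 <;> cases h22
  all_goals first
    | exact hE' | exact e2 | exact e3 | exact e4
    | exact f1 | exact f2 | exact f3 | exact f4
    | exact p1 | exact p2
    | exact hKnown _ _ _ _ (Or.inl ⟨rfl, rfl⟩)
    | exact hKnown _ _ _ _ (Or.inr ⟨rfl, rfl⟩)

end Vale.Agent.Lib.P037
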