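import Mathlib

/-!
# P037: polynomial removal is inherited under duplication of a row or a column

Patterns are rectangular, `H : Fin k → Fin l → Bool`.  An ordered copy of `H` in a square
host `A : Fin n → Fin n → Bool` is a pair of strictly increasing maps `ρ : Fin k → Fin n`
(rows) and `γ : Fin l → Fin n` (columns) with `A (ρ i) (γ j) = H i j`.

`removal_dupRow`: if `H` satisfies a polynomial removal bound then so does the pattern
obtained by repeating row `p` of `H` (next to itself).  `removal_dupCol`: same for columns.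
-/

namespace Vale.Agent.Lib.P037.Blowup

open Finset

variable {n k l : ℕ}

/-- Ordered copies of the `k × l` pattern `H` in the `n × n` matrix `A`. -/
def pcop (H : Fin k → Fin l → Bool) (A : Fin n → Fin n → Bool) :
    Finset ((Fin k → Fin n) × (Fin l → Fin n)) :=
  univ.filter fun t => StrictMono t.1 ∧ StrictMono t.2 ∧ ∀ i j, A (t.1 i) (t.2 j) = H i j

/-- Number of entries in which `A` and `B` differ. -/
def pdiff (A B : Fin n → Fin n → Bool) : ℕ :=
  (univ.filter fun c : Fin n × Fin n => A c.1 c.2 ≠ B c.1 c.2).card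

/-- `B` contains no ordered copy of `H`. -/
def PFree (H : Fin k → Fin l → Bool) (B : Fin n → Fin n → Bool) : Prop :=
  ∀ (ρ : Fin k → Fin n) (γ : Fin l → Fin n), StrictMono ρ → StrictMono γ →
    ¬ ∀ i j, B (ρ i) (γ j) = H i j

/-- Polynomial removal bound with exponent `C` and constant `K` for the pattern `H`. -/
def PRemoval (C : ℕ) (K : ℝ) (H : Fin k → Fin l → Bool) : Prop :=
  ∀ (n : ℕ) (ε : ℝ), 0 < ε → ε ≤ 1 → ∀ A : Fin n → Fin n → Bool,
    (∀ B : Fin n → Fin n → Bool, PFree H B → ε * (n : ℝ) ^ 2 ≤ (pdiff A B : ℝ)) →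
    ε ^ C * (n : ℝ) ^ (k + l) ≤ K * ((pcop H A).card : ℝ)

/-- The index map that sends both `p` and `p + 1` to `p`. -/
def dupIdx (p : Fin k) (i : Fin (k + 1)) : Fin k :=
  ⟨if i.val ≤ p.val then i.val else i.val - 1, by
    have h1 := i.isLt
    have h2 := p.isLt
    split_ifs <;> omega⟩

/-- A section of `dupIdx p`. -/
def secIdx (p : Fin k) (i : Fin k) : Fin (k + 1) :=
  ⟨if i.val ≤ p.val then i.val else i.val + 1, by
    have h1 := i.isLt
    split_ifs <;> omega⟩

theorem dupIdx_secIdx (p i : Fin k) : dupIdx p (secIdx p i) = i := by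
  apply Fin.ext
  simp only [dupIdx, secIdx]
  split_ifs <;> omega

theorem secIdx_strictMono (p : Fin k) : StrictMono (secIdx p) := by
  intro i j hij
  rw [Fin.lt_def] at hij ⊢
  simp only [secIdx]
  split_ifs <;> omega

/-- A matrix without copies of `H` has no copies of the pattern with a repeated row. -/
theorem pfree_dup {H : Fin k → Fin l → Bool} {p : Fin k} {H' : Fin (k + 1) → Fin l → Bool}
    (hH' : ∀ i j, H' i j = H (dupIdx p i) j) {B : Fin n → Fin n → Bool} (hB : PFree H B) :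
    PFree H' B := by
  intro ρ γ hρ hγ hcopy
  apply hB (fun i => ρ (secIdx p i)) γ (hρ.comp (secIdx_strictMono p)) hγ
  intro i j
  rw [hcopy, hH', dupIdx_secIdx]

/-- Gluing two row maps that agree away from `p`. -/
def glue (p : Fin k) (ρ1 ρ2 : Fin k → Fin n) (i : Fin (k + 1)) : Fin n :=
  if i.val ≤ p.val then ρ1 (dupIdx p i) else ρ2 (dupIdx p i)

theorem glue_castSucc (p : Fin k) (ρ1 ρ2 : Fin k → Fin n) (m : Fin k) (h : m.val ≤ p.val) :
    glue p ρ1 ρ2 (Fin.castSucc m) = ρ1 m := by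
  have h1 : dupIdx p (Fin.castSucc m) = m := by
    apply Fin.ext
    simp only [dupIdx, Fin.val_castSucc]
    rw [if_pos h]
  simp only [glue, Fin.val_castSucc]
  rw [if_pos h, h1]

theorem glue_succ (p : Fin k) (ρ1 ρ2 : Fin k → Fin n) (m : Fin k) (h : p.val ≤ m.val) :
    glue p ρ1 ρ2 (Fin.succ m) = ρ2 m := by
  have h0 : ¬ (m.val + 1 ≤ p.val) := by omega
  have h1 : dupIdx p (Fin.succ m) = m := by
    apply Fin.ext
    simp only [dupIdx, Fin.val_succ]
    rw [if_neg h0]
    omega
  simp only [glue, Fin.val_succ]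
  rw [if_neg h0, h1]

theorem glue_strictMono (p : Fin k) (ρ1 ρ2 : Fin k → Fin n) (h1 : StrictMono ρ1)
    (h2 : StrictMono ρ2) (hag : ∀ i, i ≠ p → ρ1 i = ρ2 i) (hp : ρ1 p < ρ2 p) :
    StrictMono (glue p ρ1 ρ2) := by
  intro i j hij
  have hij' : i.val < j.val := hij
  have hi := i.isLt
  have hj := j.isLt
  have hpk := p.isLt
  simp only [glue]
  by_cases hi1 : i.val ≤ p.val
  · by_cases hj1 : j.val ≤ p.val
    · rw [if_pos hi1, if_pos hj1]
      apply h1
      rw [Fin.lt_def]
      simp only [dupIdx]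
      rw [if_pos hi1, if_pos hj1]
      exact hij'
    · rw [if_pos hi1, if_neg hj1]
      have hpj : p ≤ dupIdx p j := by
        rw [Fin.le_def]
        simp only [dupIdx]
        rw [if_neg hj1]
        omega
      by_cases hi2 : i.val = p.val
      · have hip : dupIdx p i = p := by
          apply Fin.ext
          simp only [dupIdx]
          rw [if_pos hi1]
          exact hi2
        rw [hip]
        exact lt_of_lt_of_le hp (h2.monotone hpj)
      · have hne : dupIdx p i ≠ p := by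
          intro hc
          have := congrArg Fin.val hc
          simp only [dupIdx] at this
          rw [if_pos hi1] at this
          exact hi2 this
        rw [hag _ hne]
        apply h2
        rw [Fin.lt_def]
        simp only [dupIdx]
        rw [if_pos hi1, if_neg hj1]
        omega
  · have hj1 : ¬ j.val ≤ p.val := by omega
    rw [if_neg hi1, if_neg hj1]
    apply h2
    rw [Fin.lt_def]
    simp only [dupIdx]
    rw [if_neg hi1, if_neg hj1]
    omega

theorem glue_inj (p : Fin k) (ρ1 ρ2 ρ1' ρ2' : Fin k → Fin n)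
    (hag : ∀ i, i ≠ p → ρ1 i = ρ2 i) (hag' : ∀ i, i ≠ p → ρ1' i = ρ2' i)
    (h : glue p ρ1 ρ2 = glue p ρ1' ρ2') : ρ1 = ρ1' ∧ ρ2 = ρ2' := by
  constructor
  · funext m
    by_cases hm : m.val ≤ p.val
    · rw [← glue_castSucc p ρ1 ρ2 m hm, ← glue_castSucc p ρ1' ρ2' m hm, h]
    · have hne : m ≠ p := by
        intro hc
        rw [hc] at hm
        exact hm (le_refl _)
      have hm' : p.val ≤ m.val := by omega
      rw [hag m hne, hag' m hne, ← glue_succ p ρ1 ρ2 m hm', ← glue_succ p ρ1' ρ2' m hm', h]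
  · funext m
    by_cases hm : p.val ≤ m.val
    · rw [← glue_succ p ρ1 ρ2 m hm, ← glue_succ p ρ1' ρ2' m hm, h]
    · have hne : m ≠ p := by
        intro hc
        rw [hc] at hm
        exact hm (le_refl _)
      have hm' : m.val ≤ p.val := by omega
      rw [← hag m hne, ← hag' m hne, ← glue_castSucc p ρ1 ρ2 m hm',
        ← glue_castSucc p ρ1' ρ2' m hm', h]

/-- The context of a pair of index maps: forget the row index at position `p`. -/
def ctx (p : Fin k) (t : (Fin k → Fin n) × (Fin l → Fin n)) :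
    ({i : Fin k // i ≠ p} → Fin n) × (Fin l → Fin n) :=
  (fun i => t.1 i.val, t.2)

theorem ctx_eq_iff (p : Fin k) (x y : (Fin k → Fin n) × (Fin l → Fin n)) :
    ctx p x = ctx p y ↔ (∀ i, i ≠ p → x.1 i = y.1 i) ∧ x.2 = y.2 := by
  constructor
  · intro h
    simp only [ctx, Prod.mk.injEq] at h
    refine ⟨fun i hi => ?_, h.2⟩
    exact congrFun h.1 ⟨i, hi⟩
  · rintro ⟨h1, h2⟩
    simp only [ctx, Prod.mk.injEq]
    refine ⟨?_, h2⟩
    funext i
    exact h1 i.val i.property

theorem card_ctx (p : Fin k) :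
    Fintype.card (({i : Fin k // i ≠ p} → Fin n) × (Fin l → Fin n)) * n = n ^ (k + l) := by
  have hk : 1 ≤ k := by
    have := p.isLt
    omega
  have h1 : Fintype.card {i : Fin k // i ≠ p} = k - 1 := by
    have := Fintype.card_subtype_compl (fun i : Fin k => i = p)
    simp only [Fintype.card_subtype_eq, Fintype.card_fin] at this
    exact this
  rw [Fintype.card_prod, Fintype.card_fun, Fintype.card_fun, h1, Fintype.card_fin,
    Fintype.card_fin]
  have h2 : k + l = (k - 1) + l + 1 := by omega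
  rw [h2, pow_succ, pow_add]

/-- **Counting step.**  Pairs of copies of `H` that agree outside row `p` are either equal
or give a copy of the pattern with row `p` repeated; Cauchy-Schwarz over the contexts. -/
theorem dup_count (H : Fin k → Fin l → Bool) (p : Fin k) (H' : Fin (k + 1) → Fin l → Bool)
    (hH' : ∀ i j, H' i j = H (dupIdx p i) j) (A : Fin n → Fin n → Bool) :
    (pcop H A).card ^ 2 * n ≤ n ^ (k + l) * ((pcop H A).card + 2 * (pcop H' A).card) := by
  classical
  set S := pcop H A with hS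
  set S' := pcop H' A with hS'
  set P := (S ×ˢ S).filter (fun xy => ctx p xy.1 = ctx p xy.2) with hP
  -- fibres
  have ha : S.card = ∑ t : ({i : Fin k // i ≠ p} → Fin n) × (Fin l → Fin n),
      (S.filter (fun x => ctx p x = t)).card :=
    Finset.card_eq_sum_card_fiberwise (f := ctx p) (t := univ) (fun _ _ => Finset.mem_coe.2 (mem_univ _))
  have hb : (∑ t : ({i : Fin k // i ≠ p} → Fin n) × (Fin l → Fin n),
      (S.filter (fun x => ctx p x = t)).card) ^ 2 ≤
      (univ : Finset (({i : Fin k // i ≠ p} → Fin n) × (Fin l → Fin n))).card *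
      ∑ t : ({i : Fin k // i ≠ p} → Fin n) × (Fin l → Fin n),
        (S.filter (fun x => ctx p x = t)).card ^ 2 :=
    sq_sum_le_card_mul_sum_sq
  have hc : P.card = ∑ t : ({i : Fin k // i ≠ p} → Fin n) × (Fin l → Fin n),
      (S.filter (fun x => ctx p x = t)).card ^ 2 := by
    rw [Finset.card_eq_sum_card_fiberwise (s := P) (f := fun xy => ctx p xy.1) (t := univ)
      (fun _ _ => Finset.mem_coe.2 (mem_univ _))]
    refine Finset.sum_congr rfl ?_
    intro t _
    rw [sq, ← Finset.card_product]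
    congr 1
    ext ⟨x, y⟩
    simp only [hP, mem_filter, mem_product]
    constructor
    · rintro ⟨⟨⟨hx, hy⟩, hxy⟩, hxt⟩
      exact ⟨⟨hx, hxt⟩, hy, hxy ▸ hxt⟩
    · rintro ⟨⟨hx, hxt⟩, hy, hyt⟩
      exact ⟨⟨⟨hx, hy⟩, hxt.trans hyt.symm⟩, hxt⟩
  -- the three kinds of pairs
  have hmem : ∀ x, x ∈ S ↔ StrictMono x.1 ∧ StrictMono x.2 ∧ ∀ i j, A (x.1 i) (x.2 j) = H i j := by
    intro x
    simp only [hS, pcop, mem_filter, mem_univ, true_and]
  have hmem' : ∀ x, x ∈ S' ↔
      StrictMono x.1 ∧ StrictMono x.2 ∧ ∀ i j, A (x.1 i) (x.2 j) = H' i j := by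
    intro x
    simp only [hS', pcop, mem_filter, mem_univ, true_and]
  have hglue : ∀ x ∈ S, ∀ y ∈ S, ctx p x = ctx p y → x.1 p < y.1 p →
      (glue p x.1 y.1, x.2) ∈ S' := by
    intro x hx y hy hxy hlt
    rw [hmem] at hx hy
    rw [ctx_eq_iff] at hxy
    rw [hmem']
    refine ⟨glue_strictMono p x.1 y.1 hx.1 hy.1 hxy.1 hlt, hx.2.1, ?_⟩
    intro i j
    rw [hH']
    simp only [glue]
    split_ifs with hi
    · exact hx.2.2 _ _
    · rw [hxy.2]
      exact hy.2.2 _ _
  set Peq := P.filter (fun xy => xy.1.1 p = xy.2.1 p) with hPeq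
  set Plt := P.filter (fun xy => xy.1.1 p < xy.2.1 p) with hPlt
  set Pgt := P.filter (fun xy => xy.2.1 p < xy.1.1 p) with hPgt
  have hsplit : P ⊆ Peq ∪ (Plt ∪ Pgt) := by
    intro xy hxy
    simp only [hPeq, hPlt, hPgt, mem_union, mem_filter]
    rcases lt_trichotomy (xy.1.1 p) (xy.2.1 p) with h | h | h
    · exact Or.inr (Or.inl ⟨hxy, h⟩)
    · exact Or.inl ⟨hxy, h⟩
    · exact Or.inr (Or.inr ⟨hxy, h⟩)
  have heq : Peq.card ≤ S.card := by
    apply Finset.card_le_card_of_injOn (fun xy => xy.1)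
    · intro xy hxy
      simp only [hPeq, hP, mem_coe, mem_filter, mem_product] at hxy
      exact hxy.1.1.1
    · intro xy hxy xy' hxy' h
      simp only [hPeq, hP, mem_coe, mem_filter, mem_product] at hxy hxy'
      have e1 : xy.1 = xy.2 := by
        have hc1 := (ctx_eq_iff p _ _).1 hxy.1.2
        apply Prod.ext
        · funext i
          by_cases hi : i = p
          · rw [hi]; exact hxy.2
          · exact hc1.1 i hi
        · exact hc1.2
      have e2 : xy'.1 = xy'.2 := by
        have hc1 := (ctx_eq_iff p _ _).1 hxy'.1.2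
        apply Prod.ext
        · funext i
          by_cases hi : i = p
          · rw [hi]; exact hxy'.2
          · exact hc1.1 i hi
        · exact hc1.2
      simp only at h
      apply Prod.ext
      · exact h
      · rw [← e1, ← e2]; exact h
  have hlt : Plt.card ≤ S'.card := by
    apply Finset.card_le_card_of_injOn (fun xy => (glue p xy.1.1 xy.2.1, xy.1.2))
    · intro xy hxy
      simp only [hPlt, hP, mem_coe, mem_filter, mem_product] at hxy
      exact hglue _ hxy.1.1.1 _ hxy.1.1.2 hxy.1.2 hxy.2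
    · intro xy hxy xy' hxy' h
      simp only [hPlt, hP, mem_coe, mem_filter, mem_product] at hxy hxy'
      have hc1 := (ctx_eq_iff p _ _).1 hxy.1.2
      have hc2 := (ctx_eq_iff p _ _).1 hxy'.1.2
      simp only [Prod.mk.injEq] at h
      obtain ⟨g1, g2⟩ := glue_inj p _ _ _ _ hc1.1 hc2.1 h.1
      apply Prod.ext
      · exact Prod.ext g1 h.2
      · apply Prod.ext g2
        rw [← hc1.2, ← hc2.2]
        exact h.2
  have hgt : Pgt.card ≤ S'.card := by
    apply Finset.card_le_card_of_injOn (fun xy => (glue p xy.2.1 xy.1.1, xy.2.2))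
    · intro xy hxy
      simp only [hPgt, hP, mem_coe, mem_filter, mem_product] at hxy
      exact hglue _ hxy.1.1.2 _ hxy.1.1.1 hxy.1.2.symm hxy.2
    · intro xy hxy xy' hxy' h
      simp only [hPgt, hP, mem_coe, mem_filter, mem_product] at hxy hxy'
      have hc1 := (ctx_eq_iff p _ _).1 hxy.1.2.symm
      have hc2 := (ctx_eq_iff p _ _).1 hxy'.1.2.symm
      simp only [Prod.mk.injEq] at h
      obtain ⟨g1, g2⟩ := glue_inj p _ _ _ _ hc1.1 hc2.1 h.1
      apply Prod.ext
      · apply Prod.ext g2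
        rw [← hc1.2, ← hc2.2]
        exact h.2
      · exact Prod.ext g1 h.2
  have hPle : P.card ≤ S.card + 2 * S'.card := by
    have h1 := Finset.card_le_card hsplit
    have h2 := Finset.card_union_le Peq (Plt ∪ Pgt)
    have h3 := Finset.card_union_le Plt Pgt
    omega
  have hmain : S.card ^ 2 ≤
      (univ : Finset (({i : Fin k // i ≠ p} → Fin n) × (Fin l → Fin n))).card *
        (S.card + 2 * S'.card) := by
    calc S.card ^ 2 = (∑ t : ({i : Fin k // i ≠ p} → Fin n) × (Fin l → Fin n),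
          (S.filter (fun x => ctx p x = t)).card) ^ 2 := by rw [← ha]
      _ ≤ _ := hb
      _ = (univ : Finset (({i : Fin k // i ≠ p} → Fin n) × (Fin l → Fin n))).card * P.card := by
          rw [hc]
      _ ≤ _ := Nat.mul_le_mul_left _ hPle
  have hcard := card_ctx (n := n) (l := l) p
  rw [← Finset.card_univ] at hcard
  calc S.card ^ 2 * n ≤
      (univ : Finset (({i : Fin k // i ≠ p} → Fin n) × (Fin l → Fin n))).card *
        (S.card + 2 * S'.card) * n := Nat.mul_le_mul_right _ hmain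
    _ = (univ : Finset (({i : Fin k // i ≠ p} → Fin n) × (Fin l → Fin n))).card * n *
        (S.card + 2 * S'.card) := by ring
    _ = n ^ (k + l) * (S.card + 2 * S'.card) := by rw [hcard]

theorem pdiff_self (A : Fin n → Fin n → Bool) : pdiff A A = 0 := by
  simp [pdiff]

/-- A matrix that is far from `H`-free contains a copy of `H` (if `n > 0`). -/
theorem one_le_card_pcop {H : Fin k → Fin l → Bool} {ε : ℝ} (hε : 0 < ε) (hn : 0 < n)
    {A : Fin n → Fin n → Bool}
    (hfar : ∀ B : Fin n → Fin n → Bool, PFree H B → ε * (n : ℝ) ^ 2 ≤ (pdiff A B : ℝ)) :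
    1 ≤ (pcop H A).card := by
  by_contra hcon
  have h0 : pcop H A = ∅ := by
    rw [← Finset.card_eq_zero]
    omega
  have hfree : PFree H A := by
    intro ρ γ hρ hγ hcopy
    have : (ρ, γ) ∈ pcop H A := by
      simp only [pcop, mem_filter, mem_univ, true_and]
      exact ⟨hρ, hγ, hcopy⟩
    rw [h0] at this
    exact absurd this (Finset.notMem_empty _)
  have h1 := hfar A hfree
  rw [pdiff_self] at h1
  have h2 : (0 : ℝ) < (n : ℝ) ^ 2 := by positivity
  have h3 : 0 < ε * (n : ℝ) ^ 2 := mul_pos hε h2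
  simp only [Nat.cast_zero] at h1
  linarith

/-- Real-number core of the duplication step. -/
theorem dup_arith (m : ℕ) (_hm : 2 ≤ m) (x K N nn s s' : ℝ) (hx0 : 0 < x) (_hx1 : x ≤ 1)
    (hK : 1 ≤ K) (hN : 0 < N) (hnn : 1 ≤ nn) (hs : 0 ≤ s) (hs' : 1 ≤ s')
    (h1 : x * N ≤ K * s) (h2 : s ^ 2 * nn ≤ N * (s + 2 * s')) :
    x ^ m * nn ^ m ≤ (2 * K) ^ m * s' ∨ x ^ 2 * (N * nn) ≤ (2 * K) ^ 2 * s' := by
  by_cases hcase : s * nn < 2 * N
  · left
    have h3 : x * N * nn < 2 * K * N := by
      have : x * N * nn ≤ K * s * nn := by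
        apply mul_le_mul_of_nonneg_right h1 (by linarith)
      nlinarith
    have h4 : x * nn < 2 * K := by
      by_contra hcon
      push Not at hcon
      nlinarith
    have h5 : 0 ≤ x * nn := by positivity
    have h6 : (x * nn) ^ m ≤ (2 * K) ^ m := pow_le_pow_left₀ h5 h4.le m
    have h7 : (0 : ℝ) ≤ (2 * K) ^ m := by positivity
    calc x ^ m * nn ^ m = (x * nn) ^ m := by rw [mul_pow]
      _ ≤ (2 * K) ^ m := h6
      _ ≤ (2 * K) ^ m * s' := by nlinarith
  · right
    push Not at hcase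
    -- s^2 nn ≤ N s + 2 N s' ≤ s^2 nn / 2 + 2 N s'
    have h3 : s ^ 2 * nn ≤ 4 * N * s' := by nlinarith
    have h4 : (x * N) ^ 2 ≤ (K * s) ^ 2 := by
      apply pow_le_pow_left₀ (by positivity) h1
    have h5 : x ^ 2 * N ^ 2 * nn ≤ K ^ 2 * (4 * N * s') := by
      have : (x * N) ^ 2 * nn ≤ (K * s) ^ 2 * nn := by
        apply mul_le_mul_of_nonneg_right h4 (by linarith)
      have h6 : (K * s) ^ 2 * nn = K ^ 2 * (s ^ 2 * nn) := by ring
      have h7 : K ^ 2 * (s ^ 2 * nn) ≤ K ^ 2 * (4 * N * s') := by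
        apply mul_le_mul_of_nonneg_left h3 (by positivity)
      calc x ^ 2 * N ^ 2 * nn = (x * N) ^ 2 * nn := by ring
        _ ≤ (K * s) ^ 2 * nn := this
        _ = K ^ 2 * (s ^ 2 * nn) := h6
        _ ≤ K ^ 2 * (4 * N * s') := h7
    have h8 : N * (x ^ 2 * (N * nn)) ≤ N * ((2 * K) ^ 2 * s') := by
      calc N * (x ^ 2 * (N * nn)) = x ^ 2 * N ^ 2 * nn := by ring
        _ ≤ K ^ 2 * (4 * N * s') := h5
        _ = N * ((2 * K) ^ 2 * s') := by ring
    exact le_of_mul_le_mul_left h8 hN

/-- **Row duplication.**  If `H` has a polynomial removal bound, so does the pattern `H'`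
obtained by repeating row `p`. -/
theorem removal_dupRow {C : ℕ} {K : ℝ} (hK : 1 ≤ K) (H : Fin k → Fin l → Bool) (p : Fin k)
    (H' : Fin (k + 1) → Fin l → Bool) (hH' : ∀ i j, H' i j = H (dupIdx p i) j)
    (h : PRemoval C K H) : PRemoval (C * (k + l + 1)) ((2 * K) ^ (k + l + 1)) H' := by
  intro n ε hε hε1 A hfar
  have hk : 1 ≤ k := by
    have := p.isLt
    omega
  rcases Nat.eq_zero_or_pos n with hn | hn
  · subst hn
    have h0 : ((0 : ℕ) : ℝ) ^ (k + 1 + l) = 0 := by
      simp
    rw [h0, mul_zero]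
    have : (0 : ℝ) ≤ (2 * K) ^ (k + l + 1) := by positivity
    exact mul_nonneg this (Nat.cast_nonneg _)
  have hfarH : ∀ B : Fin n → Fin n → Bool, PFree H B → ε * (n : ℝ) ^ 2 ≤ (pdiff A B : ℝ) :=
    fun B hB => hfar B (pfree_dup hH' hB)
  have h1 := h n ε hε hε1 A hfarH
  have hs' : 1 ≤ (pcop H' A).card := one_le_card_pcop hε hn hfar
  have hc := dup_count H p H' hH' A
  have hcR : ((pcop H A).card : ℝ) ^ 2 * (n : ℝ) ≤
      (n : ℝ) ^ (k + l) * (((pcop H A).card : ℝ) + 2 * ((pcop H' A).card : ℝ)) := by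
    exact_mod_cast hc
  have hnR : (1 : ℝ) ≤ (n : ℝ) := by exact_mod_cast hn
  have hN : (0 : ℝ) < (n : ℝ) ^ (k + l) := by positivity
  have hx0 : 0 < ε ^ C := pow_pos hε C
  have hx1 : ε ^ C ≤ 1 := pow_le_one₀ hε.le hε1
  have hs'R : (1 : ℝ) ≤ ((pcop H' A).card : ℝ) := by exact_mod_cast hs'
  have hm : 2 ≤ k + l + 1 := by omega
  have he : k + 1 + l = k + l + 1 := by omega
  rw [he]
  rcases dup_arith (k + l + 1) hm (ε ^ C) K ((n : ℝ) ^ (k + l)) (n : ℝ)
      ((pcop H A).card : ℝ) ((pcop H' A).card : ℝ) hx0 hx1 hK hN hnR (Nat.cast_nonneg _) hs'R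
      h1 hcR with hA | hB
  · rw [pow_mul]
    exact hA
  · have h2 : ε ^ (C * (k + l + 1)) ≤ (ε ^ C) ^ 2 := by
      rw [← pow_mul]
      apply pow_le_pow_of_le_one hε.le hε1
      nlinarith
    have h3 : (2 * K) ^ 2 ≤ (2 * K) ^ (k + l + 1) :=
      pow_le_pow_right₀ (by linarith) hm
    have h4 : (n : ℝ) ^ (k + l + 1) = (n : ℝ) ^ (k + l) * (n : ℝ) := by rw [pow_succ]
    have h5 : (0 : ℝ) ≤ (n : ℝ) ^ (k + l) * (n : ℝ) := by positivity
    have h6 : (0 : ℝ) ≤ ((pcop H' A).card : ℝ) := Nat.cast_nonneg _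
    calc ε ^ (C * (k + l + 1)) * (n : ℝ) ^ (k + l + 1)
        = ε ^ (C * (k + l + 1)) * ((n : ℝ) ^ (k + l) * (n : ℝ)) := by rw [h4]
      _ ≤ (ε ^ C) ^ 2 * ((n : ℝ) ^ (k + l) * (n : ℝ)) := mul_le_mul_of_nonneg_right h2 h5
      _ ≤ (2 * K) ^ 2 * ((pcop H' A).card : ℝ) := hB
      _ ≤ (2 * K) ^ (k + l + 1) * ((pcop H' A).card : ℝ) := mul_le_mul_of_nonneg_right h3 h6

/-- Transposing host and pattern. -/
theorem removal_transpose {C : ℕ} {K : ℝ} (H : Fin k → Fin l → Bool) (h : PRemoval C K H) :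
    PRemoval C K (fun (j : Fin l) (i : Fin k) => H i j) := by
  intro n ε hε hε1 A hfar
  have hfar' : ∀ B : Fin n → Fin n → Bool, PFree H B →
      ε * (n : ℝ) ^ 2 ≤ (pdiff (fun r c => A c r) B : ℝ) := by
    intro B hB
    have hB' : PFree (fun (j : Fin l) (i : Fin k) => H i j) (fun r c => B c r) := by
      intro ρ γ hρ hγ hcopy
      exact hB γ ρ hγ hρ (fun i j => hcopy j i)
    have h1 := hfar _ hB'
    have h2 : pdiff A (fun r c => B c r) = pdiff (fun r c => A c r) B := by
      simp only [pdiff]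
      apply Finset.card_bij (fun c _ => (c.2, c.1))
      · intro c hc
        simp only [mem_filter, mem_univ, true_and] at hc ⊢
        exact hc
      · intro c _ c' _ hcc
        simp only [Prod.mk.injEq] at hcc
        exact Prod.ext hcc.2 hcc.1
      · intro c hc
        refine ⟨(c.2, c.1), ?_, rfl⟩
        simp only [mem_filter, mem_univ, true_and] at hc ⊢
        exact hc
    rw [h2] at h1
    exact h1
  have h3 := h n ε hε hε1 (fun r c => A c r) hfar'
  have h4 : (pcop H (fun r c => A c r)).card =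
      (pcop (fun (j : Fin l) (i : Fin k) => H i j) A).card := by
    apply Finset.card_bij (fun t _ => (t.2, t.1))
    · intro t ht
      simp only [pcop, mem_filter, mem_univ, true_and] at ht ⊢
      exact ⟨ht.2.1, ht.1, fun i j => ht.2.2 j i⟩
    · intro t _ t' _ htt
      simp only [Prod.mk.injEq] at htt
      exact Prod.ext htt.2 htt.1
    · intro t ht
      refine ⟨(t.2, t.1), ?_, rfl⟩
      simp only [pcop, mem_filter, mem_univ, true_and] at ht ⊢
      exact ⟨ht.2.1, ht.1, fun i j => ht.2.2 j i⟩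
  rw [h4] at h3
  have h5 : l + k = k + l := by omega
  rw [h5]
  exact h3

/-- **Column duplication.** -/
theorem removal_dupCol {C : ℕ} {K : ℝ} (hK : 1 ≤ K) (H : Fin k → Fin l → Bool) (q : Fin l)
    (H' : Fin k → Fin (l + 1) → Bool) (hH' : ∀ i j, H' i j = H i (dupIdx q j))
    (h : PRemoval C K H) : PRemoval (C * (l + k + 1)) ((2 * K) ^ (l + k + 1)) H' := by
  have h1 := removal_transpose H h
  have h2 := removal_dupRow hK (fun (j : Fin l) (i : Fin k) => H i j) q
    (fun (j : Fin (l + 1)) (i : Fin k) => H' i j) (fun j i => hH' i j) h1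
  exact removal_transpose _ h2

/-- The `k × l` block pattern built from a `2 × 2` pattern `h`: rows below `p` are of the
first kind, rows from `p` on of the second kind; same for columns and `q`. -/
def blk (h : Bool → Bool → Bool) (p q k l : ℕ) : Fin k → Fin l → Bool :=
  fun i j => h (decide (p ≤ i.val)) (decide (q ≤ j.val))

/-- Growing the number of rows of a block pattern. -/
theorem blk_rows (h : Bool → Bool → Bool) (q l : ℕ)
    (hbase : ∃ (C : ℕ) (K : ℝ), 1 ≤ K ∧ PRemoval C K (blk h 1 q 2 l)) :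
    ∀ k : ℕ, 2 ≤ k → ∀ p : ℕ, 1 ≤ p → p < k →
      ∃ (C : ℕ) (K : ℝ), 1 ≤ K ∧ PRemoval C K (blk h p q k l) := by
  intro k hk
  induction k, hk using Nat.le_induction with
  | base =>
    intro p hp hp2
    have : p = 1 := by omega
    subst this
    exact hbase
  | succ k hk ih =>
    intro p hp hpk
    by_cases hlt : p < k
    · obtain ⟨C, K, hK, hR⟩ := ih p hp hlt
      refine ⟨C * (k + l + 1), (2 * K) ^ (k + l + 1), ?_, ?_⟩
      · exact one_le_pow₀ (by linarith)
      · apply removal_dupRow hK (blk h p q k l) ⟨k - 1, by omega⟩ (blk h p q (k + 1) l) ?_ hR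
        intro i j
        have hi := i.isLt
        have hiff : (p ≤ i.val) ↔ (p ≤ (dupIdx (⟨k - 1, by omega⟩ : Fin k) i).val) := by
          simp only [dupIdx]
          split_ifs <;> omega
        simp only [blk]
        rw [decide_eq_decide.mpr hiff]
    · have hpk' : p = k := by omega
      subst hpk'
      obtain ⟨C, K, hK, hR⟩ := ih (p - 1) (by omega) (by omega)
      refine ⟨C * (p + l + 1), (2 * K) ^ (p + l + 1), ?_, ?_⟩
      · exact one_le_pow₀ (by linarith)
      · apply removal_dupRow hK (blk h (p - 1) q p l) ⟨0, by omega⟩ (blk h p q (p + 1) l) ?_ hR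
        intro i j
        have hi := i.isLt
        have hiff : (p ≤ i.val) ↔ (p - 1 ≤ (dupIdx (⟨0, by omega⟩ : Fin p) i).val) := by
          simp only [dupIdx]
          split_ifs <;> omega
        simp only [blk]
        rw [decide_eq_decide.mpr hiff]

/-- Growing the number of columns of a block pattern. -/
theorem blk_cols (h : Bool → Bool → Bool) (p k : ℕ)
    (hbase : ∃ (C : ℕ) (K : ℝ), 1 ≤ K ∧ PRemoval C K (blk h p 1 k 2)) :
    ∀ l : ℕ, 2 ≤ l → ∀ q : ℕ, 1 ≤ q → q < l →
      ∃ (C : ℕ) (K : ℝ), 1 ≤ K ∧ PRemoval C K (blk h p q k l) := by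
  intro l hl
  induction l, hl using Nat.le_induction with
  | base =>
    intro q hq hq2
    have : q = 1 := by omega
    subst this
    exact hbase
  | succ l hl ih =>
    intro q hq hql
    by_cases hlt : q < l
    · obtain ⟨C, K, hK, hR⟩ := ih q hq hlt
      refine ⟨C * (l + k + 1), (2 * K) ^ (l + k + 1), ?_, ?_⟩
      · exact one_le_pow₀ (by linarith)
      · apply removal_dupCol hK (blk h p q k l) ⟨l - 1, by omega⟩ (blk h p q k (l + 1)) ?_ hR
        intro i j
        have hj := j.isLt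
        have hiff : (q ≤ j.val) ↔ (q ≤ (dupIdx (⟨l - 1, by omega⟩ : Fin l) j).val) := by
          simp only [dupIdx]
          split_ifs <;> omega
        simp only [blk]
        rw [decide_eq_decide.mpr hiff]
    · have hql' : q = l := by omega
      subst hql'
      obtain ⟨C, K, hK, hR⟩ := ih (q - 1) (by omega) (by omega)
      refine ⟨C * (q + k + 1), (2 * K) ^ (q + k + 1), ?_, ?_⟩
      · exact one_le_pow₀ (by linarith)
      · apply removal_dupCol hK (blk h p (q - 1) k q) ⟨0, by omega⟩ (blk h p q k (q + 1)) ?_ hR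
        intro i j
        have hj := j.isLt
        have hiff : (q ≤ j.val) ↔ (q - 1 ≤ (dupIdx (⟨0, by omega⟩ : Fin q) j).val) := by
          simp only [dupIdx]
          split_ifs <;> omega
        simp only [blk]
        rw [decide_eq_decide.mpr hiff]

theorem blk_two_00 (h : Bool → Bool → Bool) : blk h 1 1 2 2 0 0 = h false false := rfl
theorem blk_two_01 (h : Bool → Bool → Bool) : blk h 1 1 2 2 0 1 = h false true := rfl
theorem blk_two_10 (h : Bool → Bool → Bool) : blk h 1 1 2 2 1 0 = h true false := rfl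
theorem blk_two_11 (h : Bool → Bool → Bool) : blk h 1 1 2 2 1 1 = h true true := rfl

theorem strictMono_pair {a b : Fin n} (hab : a < b) : StrictMono (![a, b] : Fin 2 → Fin n) := by
  intro i j hij
  have h1 : i.val < j.val := hij
  have h2 := j.isLt
  have hi : i = 0 := Fin.ext (by simp only [Fin.val_zero]; omega)
  have hj : j = 1 := Fin.ext (by simp only [Fin.val_one]; omega)
  subst hi
  subst hj
  simpa using hab

/-- From a removal bound for the `2 × 2` pattern with entries `h false false`,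
`h false true`, `h true false`, `h true true` (stated with rows `r1 < r2` and columns
`c1 < c2`) to the bound in the present form. -/
theorem removal_two (h : Bool → Bool → Bool) (C : ℕ) (K : ℝ) (hK : 0 ≤ K)
    (h2 : ∀ (n : ℕ) (ε : ℝ), 0 < ε → ε ≤ 1 → ∀ A : Fin n → Fin n → Bool,
      (∀ B : Fin n → Fin n → Bool,
        (∀ r1 r2 c1 c2 : Fin n, r1 < r2 → c1 < c2 →
          ¬ (B r1 c1 = h false false ∧ B r1 c2 = h false true ∧
            B r2 c1 = h true false ∧ B r2 c2 = h true true)) →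
        ε * (n : ℝ) ^ 2 ≤
          ((Finset.univ.filter fun p : Fin n × Fin n => A p.1 p.2 ≠ B p.1 p.2).card : ℝ)) →
      ε ^ C * (n : ℝ) ^ 4 ≤ K *
        ((Finset.univ.filter fun t : Fin n × Fin n × Fin n × Fin n =>
          t.1 < t.2.1 ∧ t.2.2.1 < t.2.2.2 ∧ A t.1 t.2.2.1 = h false false ∧
            A t.1 t.2.2.2 = h false true ∧ A t.2.1 t.2.2.1 = h true false ∧
            A t.2.1 t.2.2.2 = h true true).card : ℝ)) :
    PRemoval C K (blk h 1 1 2 2) := by
  intro n ε hε hε1 A hfar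
  have hfar2 : ∀ B : Fin n → Fin n → Bool,
      (∀ r1 r2 c1 c2 : Fin n, r1 < r2 → c1 < c2 →
        ¬ (B r1 c1 = h false false ∧ B r1 c2 = h false true ∧
          B r2 c1 = h true false ∧ B r2 c2 = h true true)) →
      ε * (n : ℝ) ^ 2 ≤
        ((Finset.univ.filter fun p : Fin n × Fin n => A p.1 p.2 ≠ B p.1 p.2).card : ℝ) := by
    intro B hB
    apply hfar B
    intro ρ γ hρ hγ hcopy
    have h01 : (0 : Fin 2) < 1 := by decide
    apply hB (ρ 0) (ρ 1) (γ 0) (γ 1) (hρ h01) (hγ h01)
    refine ⟨?_, ?_, ?_, ?_⟩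
    · rw [hcopy, blk_two_00]
    · rw [hcopy, blk_two_01]
    · rw [hcopy, blk_two_10]
    · rw [hcopy, blk_two_11]
  have h3 := h2 n ε hε hε1 A hfar2
  have h4 : (Finset.univ.filter fun t : Fin n × Fin n × Fin n × Fin n =>
          t.1 < t.2.1 ∧ t.2.2.1 < t.2.2.2 ∧ A t.1 t.2.2.1 = h false false ∧
            A t.1 t.2.2.2 = h false true ∧ A t.2.1 t.2.2.1 = h true false ∧
            A t.2.1 t.2.2.2 = h true true).card ≤ (pcop (blk h 1 1 2 2) A).card := by
    apply Finset.card_le_card_of_injOn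
      (fun t => ((![t.1, t.2.1] : Fin 2 → Fin n), (![t.2.2.1, t.2.2.2] : Fin 2 → Fin n)))
    · intro t ht
      simp only [mem_coe, mem_filter, mem_univ, true_and] at ht
      obtain ⟨hr, hc, e1, e2, e3, e4⟩ := ht
      simp only [pcop, mem_coe, mem_filter, mem_univ, true_and]
      refine ⟨strictMono_pair hr, strictMono_pair hc, ?_⟩
      refine Fin.forall_fin_two.2 ⟨Fin.forall_fin_two.2 ⟨?_, ?_⟩, Fin.forall_fin_two.2 ⟨?_, ?_⟩⟩
      · rw [blk_two_00]; exact e1
      · rw [blk_two_01]; exact e2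
      · rw [blk_two_10]; exact e3
      · rw [blk_two_11]; exact e4
    · intro t _ t' _ htt
      simp only [Prod.mk.injEq] at htt
      have a1 := congrFun htt.1 0
      have a2 := congrFun htt.1 1
      have a3 := congrFun htt.2 0
      have a4 := congrFun htt.2 1
      simp only [Matrix.cons_val_zero, Matrix.cons_val_one] at a1 a2 a3 a4
      exact Prod.ext a1 (Prod.ext a2 (Prod.ext a3 a4))
  have h5 : ((Finset.univ.filter fun t : Fin n × Fin n × Fin n × Fin n =>
          t.1 < t.2.1 ∧ t.2.2.1 < t.2.2.2 ∧ A t.1 t.2.2.1 = h false false ∧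
            A t.1 t.2.2.2 = h false true ∧ A t.2.1 t.2.2.1 = h true false ∧
            A t.2.1 t.2.2.2 = h true true).card : ℝ) ≤ ((pcop (blk h 1 1 2 2) A).card : ℝ) := by
    exact_mod_cast h4
  have h6 : (2 : ℕ) + 2 = 4 := rfl
  rw [h6]
  exact le_trans h3 (mul_le_mul_of_nonneg_left h5 hK)

/-- **Block patterns.**  If every `2 × 2` pattern has a polynomial removal bound with exponent
`C0` and constant `K0 ≥ 1`, then every block pattern `blk h p q k l` with `1 ≤ p < k` and
`1 ≤ q < l` has a polynomial removal bound. -/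
theorem block_removal (C0 : ℕ) (K0 : ℝ) (hK0 : 1 ≤ K0)
    (hall : ∀ h11 h12 h21 h22 : Bool,
      ∀ (n : ℕ) (ε : ℝ), 0 < ε → ε ≤ 1 → ∀ A : Fin n → Fin n → Bool,
      (∀ B : Fin n → Fin n → Bool,
        (∀ r1 r2 c1 c2 : Fin n, r1 < r2 → c1 < c2 →
          ¬ (B r1 c1 = h11 ∧ B r1 c2 = h12 ∧ B r2 c1 = h21 ∧ B r2 c2 = h22)) →
        ε * (n : ℝ) ^ 2 ≤
          ((Finset.univ.filter fun p : Fin n × Fin n => A p.1 p.2 ≠ B p.1 p.2).card : ℝ)) →
      ε ^ C0 * (n : ℝ) ^ 4 ≤ K0 *
        ((Finset.univ.filter fun t : Fin n × Fin n × Fin n × Fin n =>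
          t.1 < t.2.1 ∧ t.2.2.1 < t.2.2.2 ∧ A t.1 t.2.2.1 = h11 ∧ A t.1 t.2.2.2 = h12 ∧
            A t.2.1 t.2.2.1 = h21 ∧ A t.2.1 t.2.2.2 = h22).card : ℝ))
    (h : Bool → Bool → Bool) (k l p q : ℕ) (hp : 1 ≤ p) (hpk : p < k) (hq : 1 ≤ q)
    (hql : q < l) :
    ∃ (C : ℕ) (K : ℝ), 1 ≤ K ∧ PRemoval C K (blk h p q k l) := by
  have hbase : ∃ (C : ℕ) (K : ℝ), 1 ≤ K ∧ PRemoval C K (blk h 1 1 2 2) :=
    ⟨C0, K0, hK0, removal_two h C0 K0 (by linarith)
      (hall (h false false) (h false true) (h true false) (h true true))⟩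
  have hrows := blk_rows h 1 2 hbase k (by omega) p hp hpk
  exact blk_cols h p k hrows l (by omega) q hq hql

end Vale.Agent.Lib.P037.Blowup
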