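import Mathlib
import Vale.Agent.Lib.P037.Blowup

/-!
# P037: symmetries of the polynomial removal bound for rectangular patterns

`PRemoval C K H` (see `Blowup.lean`) is invariant under complementing the pattern, reversing
the order of its rows, and reversing the order of its columns (and under transposition, see
`removal_transpose`).  Together with `removal_dupRow` and `removal_dupCol` this transfers a
bound for one pattern to all its symmetric variants and blow-ups.
-/

namespace Vale.Agent.Lib.P037.Blowup

open Finset

variable {n k l : ℕ}

/-- Complementing host and pattern. -/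
theorem removal_compl {C : ℕ} {K : ℝ} (H : Fin k → Fin l → Bool) (h : PRemoval C K H) :
    PRemoval C K (fun i j => !H i j) := by
  intro n ε hε hε1 A hfar
  have hfar' : ∀ B : Fin n → Fin n → Bool, PFree H B →
      ε * (n : ℝ) ^ 2 ≤ (pdiff (fun r c => !A r c) B : ℝ) := by
    intro B hB
    have hB' : PFree (fun i j => !H i j) (fun r c => !B r c) := by
      intro ρ γ hρ hγ hcopy
      apply hB ρ γ hρ hγ
      intro i j
      have := hcopy i j
      simpa using this
    have h1 := hfar _ hB'
    have h2 : pdiff A (fun r c => !B r c) = pdiff (fun r c => !A r c) B := by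
      simp only [pdiff]
      congr 1
      ext c
      simp only [mem_filter, mem_univ, true_and]
      cases A c.1 c.2 <;> cases B c.1 c.2 <;> simp
    rw [h2] at h1
    exact h1
  have h3 := h n ε hε hε1 (fun r c => !A r c) hfar'
  have h4 : pcop H (fun r c => !A r c) = pcop (fun i j => !H i j) A := by
    ext t
    simp only [pcop, mem_filter, mem_univ, true_and]
    constructor
    · rintro ⟨h1, h2, h3⟩
      refine ⟨h1, h2, fun i j => ?_⟩
      have := h3 i j
      rw [← this]
      simp
    · rintro ⟨h1, h2, h3⟩
      refine ⟨h1, h2, fun i j => ?_⟩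
      rw [h3 i j]
      simp
  rw [h4] at h3
  exact h3

theorem strictMono_rev_comp_rev {ρ : Fin k → Fin n} (hρ : StrictMono ρ) :
    StrictMono (fun i => Fin.rev (ρ (Fin.rev i))) := by
  intro i j hij
  simp only
  rw [Fin.rev_lt_rev]
  apply hρ
  rw [Fin.rev_lt_rev]
  exact hij

/-- Reversing the order of the rows of host and pattern. -/
theorem removal_rowRev {C : ℕ} {K : ℝ} (H : Fin k → Fin l → Bool) (h : PRemoval C K H) :
    PRemoval C K (fun i j => H (Fin.rev i) j) := by
  intro n ε hε hε1 A hfar
  have hfar' : ∀ B : Fin n → Fin n → Bool, PFree H B →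
      ε * (n : ℝ) ^ 2 ≤ (pdiff (fun r c => A (Fin.rev r) c) B : ℝ) := by
    intro B hB
    have hB' : PFree (fun i j => H (Fin.rev i) j) (fun r c => B (Fin.rev r) c) := by
      intro ρ γ hρ hγ hcopy
      apply hB (fun i => Fin.rev (ρ (Fin.rev i))) γ (strictMono_rev_comp_rev hρ) hγ
      intro i j
      have := hcopy (Fin.rev i) j
      simp only [Fin.rev_rev] at this
      exact this
    have h1 := hfar _ hB'
    have h2 : pdiff A (fun r c => B (Fin.rev r) c) = pdiff (fun r c => A (Fin.rev r) c) B := by
      simp only [pdiff]
      apply Finset.card_bij (fun c _ => (Fin.rev c.1, c.2))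
      · intro c hc
        simp only [mem_filter, mem_univ, true_and, Fin.rev_rev] at hc ⊢
        exact hc
      · intro c _ c' _ hcc
        simp only [Prod.mk.injEq] at hcc
        exact Prod.ext (Fin.rev_injective hcc.1) hcc.2
      · intro c hc
        refine ⟨(Fin.rev c.1, c.2), ?_, ?_⟩
        · simp only [mem_filter, mem_univ, true_and, Fin.rev_rev] at hc ⊢
          exact hc
        · simp only [Fin.rev_rev]
    rw [h2] at h1
    exact h1
  have h3 := h n ε hε hε1 (fun r c => A (Fin.rev r) c) hfar'
  have h4 : (pcop H (fun r c => A (Fin.rev r) c)).card =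
      (pcop (fun i j => H (Fin.rev i) j) A).card := by
    apply Finset.card_bij (fun t _ => ((fun i => Fin.rev (t.1 (Fin.rev i))), t.2))
    · intro t ht
      simp only [pcop, mem_filter, mem_univ, true_and] at ht ⊢
      refine ⟨strictMono_rev_comp_rev ht.1, ht.2.1, fun i j => ?_⟩
      exact ht.2.2 (Fin.rev i) j
    · intro t _ t' _ htt
      simp only [Prod.mk.injEq] at htt
      apply Prod.ext
      · funext i
        have := congrFun htt.1 (Fin.rev i)
        simp only [Fin.rev_rev] at this
        exact Fin.rev_injective this
      · exact htt.2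
    · intro t ht
      refine ⟨((fun i => Fin.rev (t.1 (Fin.rev i))), t.2), ?_, ?_⟩
      · simp only [pcop, mem_filter, mem_univ, true_and] at ht ⊢
        refine ⟨strictMono_rev_comp_rev ht.1, ht.2.1, fun i j => ?_⟩
        simp only [Fin.rev_rev]
        have := ht.2.2 (Fin.rev i) j
        simp only [Fin.rev_rev] at this
        exact this
      · apply Prod.ext
        · funext i
          simp only [Fin.rev_rev]
        · rfl
  rw [h4] at h3
  exact h3

/-- Reversing the order of the columns of host and pattern. -/
theorem removal_colRev {C : ℕ} {K : ℝ} (H : Fin k → Fin l → Bool) (h : PRemoval C K H) :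
    PRemoval C K (fun i j => H i (Fin.rev j)) := by
  have h1 := removal_transpose H h
  have h2 := removal_rowRev (fun (j : Fin l) (i : Fin k) => H i j) h1
  exact removal_transpose _ h2

end Vale.Agent.Lib.P037.Blowup
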