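import Mathlib
import Vale.Agent.Lib.P037.SortCost
import Vale.Agent.Lib.P037.Mixing

/-!
# P037: two-row patterns with complementary rows -- definitions

The pattern is `[u ; not u]` for `u : Fin l → Bool`.  A copy is a pair of rows `x < y` and a
strictly increasing `γ : Fin l → Fin n` with `A x (γ j) = u j` and `A y (γ j) = !u j`.

The columns are cut into consecutive intervals of width `D` (`blockRows n D i`, here used
for columns).  Inside an interval the columns are ranked by their number of ones
(`cpos`, position `0` = most ones).  `just` moves the ones of every row, inside every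
interval, to the columns of smallest position.  `cmat` is the coarsened version with class
width `g` and offsets `θ`.
-/

namespace Vale.Agent.Lib.P037.CM

open Finset
open Vale.Agent.Lib.P037

variable {n l : ℕ}

/-- The transposed matrix. -/
def tr (A : Fin n → Fin n → Bool) : Fin n → Fin n → Bool := fun r c => A c r

/-- Copies of the two-row pattern `[u ; not u]`: rows `x < y`, strictly increasing
columns `γ`, row `x` reads `u` and row `y` reads the complement of `u`. -/
def cmcop (u : Fin l → Bool) (A : Fin n → Fin n → Bool) :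
    Finset (Fin n × Fin n × (Fin l → Fin n)) :=
  univ.filter fun t => t.1 < t.2.1 ∧ StrictMono t.2.2 ∧
    ∀ j, A t.1 (t.2.2 j) = u j ∧ A t.2.1 (t.2.2 j) = !u j

/-- The word `u` alternates. -/
def Alt (u : Fin l → Bool) : Prop := ∀ j j' : Fin l, j'.val = j.val + 1 → u j' = !u j

/-- Position of column `c` inside its interval: `0` for the column with the most ones. -/
def cpos (A : Fin n → Fin n → Bool) (D : ℕ) (c : Fin n) : ℕ :=
  (blockRows n D (c.val / D)).card - 1 - rank (tr A) D c

/-- Number of ones of row `x` inside interval `i`. -/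
def csize (A : Fin n → Fin n → Bool) (D i : ℕ) (x : Fin n) : ℕ :=
  ((blockRows n D i).filter fun c => A x c = true).card

/-- Justified matrix: inside every interval the ones of a row sit on the columns of
smallest position. -/
def just (A : Fin n → Fin n → Bool) (D : ℕ) : Fin n → Fin n → Bool :=
  fun x c => decide (cpos A D c < csize A D (c.val / D) x)

/-- Class index of a column. -/
def ckap (A : Fin n → Fin n → Bool) (D g : ℕ) (θ : ℕ → ℕ) (c : Fin n) : ℕ :=
  (cpos A D c + θ (c.val / D)) / g

/-- Level of row `x` in interval `i`. -/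
def clev (A : Fin n → Fin n → Bool) (D g : ℕ) (θ : ℕ → ℕ) (i : ℕ) (x : Fin n) : ℕ :=
  (csize A D i x + θ i) / g

/-- Justified and coarsened matrix. -/
def cmat (A : Fin n → Fin n → Bool) (D g : ℕ) (θ : ℕ → ℕ) : Fin n → Fin n → Bool :=
  fun x c => decide (1 ≤ ckap A D g θ c ∧ ckap A D g θ c < clev A D g θ (c.val / D) x)

/-- Hybrid: intervals with index below `i` are justified and coarsened, the others are
those of `A`. -/
def chyb (A : Fin n → Fin n → Bool) (D g : ℕ) (θ : ℕ → ℕ) (i : ℕ) :
    Fin n → Fin n → Bool :=
  fun x c => if c.val / D < i then cmat A D g θ x c else A x c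

theorem csize_eq (A : Fin n → Fin n → Bool) (D i : ℕ) (x : Fin n) :
    csize A D i x = colCount (tr A) D i x := rfl

theorem mem_int {D i : ℕ} {c : Fin n} : c ∈ blockRows n D i ↔ c.val / D = i :=
  mem_blockRows

theorem self_mem_int (D : ℕ) (c : Fin n) : c ∈ blockRows n D (c.val / D) :=
  mem_blockRows.2 rfl

theorem csize_le (A : Fin n → Fin n → Bool) (D i : ℕ) (x : Fin n) :
    csize A D i x ≤ (blockRows n D i).card :=
  card_filter_le _ _

theorem rank_lt (A : Fin n → Fin n → Bool) (D : ℕ) (c : Fin n) :
    rank (tr A) D c < (blockRows n D (c.val / D)).card :=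
  rank_lt_card (tr A) (self_mem_int D c)

theorem cpos_lt (A : Fin n → Fin n → Bool) (D : ℕ) (c : Fin n) :
    cpos A D c < (blockRows n D (c.val / D)).card := by
  have h := rank_lt A D c
  unfold cpos
  omega

theorem cpos_add_rank (A : Fin n → Fin n → Bool) (D : ℕ) (c : Fin n) :
    cpos A D c + rank (tr A) D c + 1 = (blockRows n D (c.val / D)).card := by
  have h := rank_lt A D c
  unfold cpos
  omega

theorem cpos_injOn (A : Fin n → Fin n → Bool) (D i : ℕ) :
    Set.InjOn (cpos A D) (blockRows n D i : Set (Fin n)) := by
  intro c hc c' hc' h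
  have hc1 : c.val / D = i := mem_int.1 hc
  have hc2 : c'.val / D = i := mem_int.1 hc'
  have h1 := cpos_add_rank A D c
  have h2 := cpos_add_rank A D c'
  rw [hc1] at h1
  rw [hc2] at h2
  have h3 : cpos A D c = cpos A D c' := h
  exact rank_injOn (tr A) D i hc hc' (by omega)

/-- The justified matrix is the sorted transposed matrix. -/
theorem just_eq_sorted (A : Fin n → Fin n → Bool) (D : ℕ) (x c : Fin n) :
    just A D x c = sorted (tr A) D c x := by
  have h := cpos_add_rank A D c
  unfold just sorted
  rw [csize_eq]
  apply decide_eq_decide.2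
  constructor <;> intro h' <;> omega

/-- Exactly `F` columns of an interval have position below `F`. -/
theorem card_cpos_lt (A : Fin n → Fin n → Bool) (D i : ℕ) {F : ℕ}
    (hF : F ≤ (blockRows n D i).card) :
    ((blockRows n D i).filter fun c => cpos A D c < F).card = F := by
  have h0 := count_ge (tr A) D i hF
  have h1 : ((blockRows n D i).filter fun c => cpos A D c < F)
      = ((blockRows n D i).filter fun r => (blockRows n D i).card ≤ rank (tr A) D r + F) := by
    apply filter_congr
    intro c hc
    have hc1 : c.val / D = i := mem_int.1 hc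
    have h := cpos_add_rank A D c
    rw [hc1] at h
    constructor <;> intro h' <;> omega
  rw [h1, h0]

/-- Exactly `b - a` columns of an interval have position in `[a, b)`. -/
theorem card_cpos_Ico (A : Fin n → Fin n → Bool) (D i : ℕ) {a b : ℕ} (hab : a ≤ b)
    (hb : b ≤ (blockRows n D i).card) :
    ((blockRows n D i).filter fun c => a ≤ cpos A D c ∧ cpos A D c < b).card = b - a := by
  have h1 := card_cpos_lt A D i hb
  have h2 := card_cpos_lt A D i (le_trans hab hb)
  have h3 : ((blockRows n D i).filter fun c => cpos A D c < b)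
      = ((blockRows n D i).filter fun c => a ≤ cpos A D c ∧ cpos A D c < b)
        ∪ ((blockRows n D i).filter fun c => cpos A D c < a) := by
    ext c
    simp only [mem_filter, mem_union]
    constructor
    · rintro ⟨hc, h⟩
      by_cases h' : a ≤ cpos A D c
      · exact Or.inl ⟨hc, h', h⟩
      · exact Or.inr ⟨hc, by omega⟩
    · rintro (⟨hc, _, h⟩ | ⟨hc, h⟩)
      · exact ⟨hc, h⟩
      · exact ⟨hc, by omega⟩
  have h4 : Disjoint ((blockRows n D i).filter fun c => a ≤ cpos A D c ∧ cpos A D c < b)
      ((blockRows n D i).filter fun c => cpos A D c < a) := by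
    rw [Finset.disjoint_left]
    intro c hc hc'
    have := (mem_filter.1 hc).2.1
    have := (mem_filter.1 hc').2
    omega
  rw [h3, card_union_of_disjoint h4] at h1
  omega

theorem int_card_le (D i : ℕ) (hD : 0 < D) : (blockRows n D i).card ≤ D :=
  mix_card_blockRows_le n D i hD

theorem int_idx_lt (D : ℕ) (_hD : 0 < D) (c : Fin n) : c.val / D < n / D + 1 := by
  have : c.val / D ≤ n / D := Nat.div_le_div_right (le_of_lt c.isLt)
  omega

theorem chyb_zero (A : Fin n → Fin n → Bool) (D g : ℕ) (θ : ℕ → ℕ) : chyb A D g θ 0 = A := by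
  funext x c
  simp [chyb]

theorem chyb_top (A : Fin n → Fin n → Bool) (D g : ℕ) (θ : ℕ → ℕ) (hD : 0 < D) :
    chyb A D g θ (n / D + 1) = cmat A D g θ := by
  funext x c
  have := int_idx_lt D hD c
  simp [chyb, this]

/-- The coarsened matrix is below the justified one. -/
theorem cmat_le_just (A : Fin n → Fin n → Bool) (D g : ℕ) (θ : ℕ → ℕ) (hg : 0 < g)
    (x c : Fin n) (h : cmat A D g θ x c = true) : just A D x c = true := by
  unfold cmat at h
  unfold just
  rw [decide_eq_true_eq] at h ⊢
  obtain ⟨_, h2⟩ := h
  unfold ckap clev at h2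
  have h3 := Nat.div_mul_le_self (csize A D (c.val / D) x + θ (c.val / D)) g
  have h4 := Nat.lt_div_mul_add (a := cpos A D c + θ (c.val / D)) hg
  have h5 : ((cpos A D c + θ (c.val / D)) / g + 1) * g
      ≤ (csize A D (c.val / D) x + θ (c.val / D)) / g * g :=
    Nat.mul_le_mul_right g h2
  nlinarith

end Vale.Agent.Lib.P037.CM
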