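import Mathlib
import Vale.Agent.Lib.P037.CMDefs
import Vale.Agent.Lib.P037.Master

/-!
# P037: complementary-rows two-row patterns -- cost of justification and coarsening

`just_cost`: the number of entries changed by justifying every row inside every column
interval is bounded through the mixing numbers of the transposed matrix (`sort_cost`).
`cmat_cost`: the coarsened matrix `cmat` differs from `A` in at most the justification cost
plus `2 * g` entries per row and interval.
-/

namespace Vale.Agent.Lib.P037.CM

open Finset
open Vale.Agent.Lib.P037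

variable {n : ℕ}

theorem just_cost (A : Fin n → Fin n → Bool) (D : ℕ) (hD : 0 < D) :
    (∑ i ∈ range (n / D + 1), ∑ c ∈ blockRows n D i,
        (univ.filter fun x => tr A c x ≠ sorted (tr A) D c x).card) ^ 4
      ≤ (n / D + 1) ^ 3 * (16 * n ^ 2 * D ^ 2 *
          ∑ i ∈ range (n / D + 1), mixB (tr A) (blockRows n D i)) := by
  classical
  have hpm := pow_sum_le_card_mul_sum_pow (s := range (n / D + 1))
    (f := fun j => ∑ r ∈ blockRows n D j,
      (univ.filter fun c => tr A r c ≠ sorted (tr A) D r c).card)
    (fun i _ => Nat.zero_le _) 3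
  rw [Finset.card_range] at hpm
  have hsc : ∀ j ∈ range (n / D + 1),
      (∑ r ∈ blockRows n D j, (univ.filter fun c => tr A r c ≠ sorted (tr A) D r c).card) ^ 4
        ≤ 16 * n ^ 2 * D ^ 2 * mixB (tr A) (blockRows n D j) := by
    intro j _
    have h1 := sort_cost (tr A) D j
    have h2 := card_blockRows_le (n := n) D j hD
    have h3 : (blockRows n D j).card ^ 2 ≤ D ^ 2 := Nat.pow_le_pow_left h2 2
    calc _ ≤ 16 * n ^ 2 * (blockRows n D j).card ^ 2 * mixB (tr A) (blockRows n D j) := h1
      _ ≤ 16 * n ^ 2 * D ^ 2 * mixB (tr A) (blockRows n D j) :=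
        Nat.mul_le_mul_right _ (Nat.mul_le_mul_left _ h3)
  calc _ ≤ ((n / D + 1 : ℕ)) ^ 3 * ∑ j ∈ range (n / D + 1),
          (∑ r ∈ blockRows n D j,
            (univ.filter fun c => tr A r c ≠ sorted (tr A) D r c).card) ^ 4 := by
        exact_mod_cast hpm
    _ ≤ (n / D + 1) ^ 3 * ∑ j ∈ range (n / D + 1),
          16 * n ^ 2 * D ^ 2 * mixB (tr A) (blockRows n D j) :=
        Nat.mul_le_mul_left _ (Finset.sum_le_sum hsc)
    _ = (n / D + 1) ^ 3 * (16 * n ^ 2 * D ^ 2 *
          ∑ j ∈ range (n / D + 1), mixB (tr A) (blockRows n D j)) := by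
        rw [← Finset.mul_sum]

/-- The number of entries in which `A` and its justification differ is the sorting cost of
the transposed matrix. -/
theorem diff_just (A : Fin n → Fin n → Bool) (D : ℕ) :
    (univ.filter fun p : Fin n × Fin n => A p.1 p.2 ≠ just A D p.1 p.2).card
      = ∑ i ∈ range (n / D + 1), ∑ c ∈ blockRows n D i,
          (univ.filter fun x => tr A c x ≠ sorted (tr A) D c x).card := by
  classical
  rw [← sum_blocks D (fun c => (univ.filter fun x => tr A c x ≠ sorted (tr A) D c x).card),
    ← diff_rows (tr A) (sorted (tr A) D)]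
  apply Finset.card_bij (fun p _ => (p.2, p.1))
  · intro p hp
    have h := (Finset.mem_filter.mp hp).2
    refine Finset.mem_filter.mpr ⟨Finset.mem_univ _, ?_⟩
    rw [just_eq_sorted] at h
    exact h
  · intro p _ p' _ h
    have h1 := congrArg Prod.fst h
    have h2 := congrArg Prod.snd h
    exact Prod.ext h2 h1
  · intro p hp
    have h := (Finset.mem_filter.mp hp).2
    refine ⟨(p.2, p.1), Finset.mem_filter.mpr ⟨Finset.mem_univ _, ?_⟩, rfl⟩
    rw [just_eq_sorted]
    exact h

/-- Inside one interval, a row of the justified matrix and of the coarsened matrix differ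
in at most `2 * g` columns. -/
theorem coarse_cost_cm (A : Fin n → Fin n → Bool) (D g : ℕ) (hg : 0 < g) (θ : ℕ → ℕ)
    (hθ : ∀ i, θ i < g) (x : Fin n) (i : ℕ) :
    ((blockRows n D i).filter fun c => just A D x c ≠ cmat A D g θ x c).card ≤ 2 * g := by
  classical
  have hsub : ((blockRows n D i).filter fun c => just A D x c ≠ cmat A D g θ x c).card
      ≤ (range g ∪ Finset.Ico (csize A D i x - g) (csize A D i x)).card := by
    apply Finset.card_le_card_of_injOn (fun c => cpos A D c)
    · intro c hc
      have hc1 := (Finset.mem_filter.mp hc).1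
      have hc2 := (Finset.mem_filter.mp hc).2
      have hi : c.val / D = i := mem_int.1 hc1
      have hθi := hθ i
      simp only [Finset.coe_union, Finset.coe_range, Finset.coe_Ico, Set.mem_union,
        Set.mem_Iio, Set.mem_Ico]
      by_cases hj : just A D x c = true
      · have hcm : cmat A D g θ x c = false := by
          by_contra hne
          have : cmat A D g θ x c = true := by
            cases h : cmat A D g θ x c
            · exact absurd h hne
            · rfl
          exact hc2 (by rw [hj, this])
        unfold just at hj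
        rw [decide_eq_true_eq, hi] at hj
        unfold cmat at hcm
        rw [decide_eq_false_iff_not, hi] at hcm
        unfold ckap clev at hcm
        rw [hi] at hcm
        by_cases h1 : cpos A D c < g
        · exact Or.inl h1
        · right
          refine ⟨?_, hj⟩
          have h2 : 1 ≤ (cpos A D c + θ i) / g := by
            rw [Nat.le_div_iff_mul_le hg]
            omega
          have h3 : ¬ (cpos A D c + θ i) / g < (csize A D i x + θ i) / g := fun h => hcm ⟨h2, h⟩
          have h4 : (csize A D i x + θ i) / g ≤ (cpos A D c + θ i) / g := not_lt.mp h3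
          have h5 := Nat.div_mul_le_self (cpos A D c + θ i) g
          have h6 := Nat.lt_div_mul_add (a := csize A D i x + θ i) hg
          have h7 : (csize A D i x + θ i) / g * g ≤ (cpos A D c + θ i) / g * g :=
            Nat.mul_le_mul_right g h4
          omega
      · exfalso
        have hjf : just A D x c = false := by
          cases h : just A D x c
          · rfl
          · exact absurd h hj
        have hcm : cmat A D g θ x c = true := by
          cases h : cmat A D g θ x c
          · exact absurd (by rw [hjf, h]) hc2
          · rfl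
        have := cmat_le_just A D g θ hg x c hcm
        rw [hjf] at this
        exact Bool.false_ne_true this
    · intro c hc c' hc' e
      exact cpos_injOn A D i (Finset.mem_filter.mp hc).1 (Finset.mem_filter.mp hc').1 e
  have hcard : (range g ∪ Finset.Ico (csize A D i x - g) (csize A D i x)).card ≤ 2 * g := by
    refine le_trans (Finset.card_union_le _ _) ?_
    rw [Finset.card_range, Nat.card_Ico]
    omega
  exact le_trans hsub hcard

/-- The coarsening changes at most `2 * g` entries per row and interval. -/
theorem diff_just_cmat (A : Fin n → Fin n → Bool) (D g : ℕ) (hg : 0 < g) (θ : ℕ → ℕ)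
    (hθ : ∀ i, θ i < g) :
    (univ.filter fun p : Fin n × Fin n => just A D p.1 p.2 ≠ cmat A D g θ p.1 p.2).card
      ≤ 2 * g * n * (n / D + 1) := by
  classical
  rw [diff_rows]
  have hrow : ∀ x ∈ (univ : Finset (Fin n)),
      (univ.filter fun c => just A D x c ≠ cmat A D g θ x c).card ≤ (n / D + 1) * (2 * g) := by
    intro x _
    rw [Finset.card_filter,
      sum_blocks D (fun c => if just A D x c ≠ cmat A D g θ x c then 1 else 0)]
    calc ∑ j ∈ range (n / D + 1), ∑ r ∈ blockRows n D j,
          (if just A D x r ≠ cmat A D g θ x r then 1 else 0)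
        ≤ ∑ j ∈ range (n / D + 1), 2 * g := by
          apply Finset.sum_le_sum
          intro j _
          rw [← Finset.card_filter]
          exact coarse_cost_cm A D g hg θ hθ x j
      _ = (n / D + 1) * (2 * g) := by
          rw [Finset.sum_const, Finset.card_range, smul_eq_mul]
  calc ∑ x : Fin n, (univ.filter fun c => just A D x c ≠ cmat A D g θ x c).card
      ≤ ∑ _x : Fin n, (n / D + 1) * (2 * g) := Finset.sum_le_sum hrow
    _ = 2 * g * n * (n / D + 1) := by
        rw [Finset.sum_const, Finset.card_univ, Fintype.card_fin, smul_eq_mul]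
        ring

theorem cmat_cost (A : Fin n → Fin n → Bool) (D g : ℕ) (_hD : 0 < D) (hg : 0 < g)
    (θ : ℕ → ℕ) (hθ : ∀ i, θ i < g) :
    (univ.filter fun p : Fin n × Fin n => A p.1 p.2 ≠ cmat A D g θ p.1 p.2).card
      ≤ (∑ i ∈ range (n / D + 1), ∑ c ∈ blockRows n D i,
          (univ.filter fun x => tr A c x ≠ sorted (tr A) D c x).card)
        + 2 * g * n * (n / D + 1) := by
  have h1 := diff_triangle A (just A D) (cmat A D g θ)
  have h2 := diff_just A D
  have h3 := diff_just_cmat A D g hg θ hθ
  omega

end Vale.Agent.Lib.P037.CM
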