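import Mathlib
import Vale.Agent.Lib.P037.Blowup
import Vale.Agent.Lib.P037.CMDefs

/-!
# P037: the family generated by two-row patterns with complementary rows

From a polynomial removal bound for the two-row patterns `[u ; not u]` with `u` alternating
(`cm2 u`), the closure of polynomial removal under repeating a row or a column
(`Blowup.removal_dupRow`, `Blowup.removal_dupCol`) gives

* `cm2_nonconst`: `[u ; not u]` for every non-constant `u`;
* `cmBlk_removal`: the `k × l` patterns `H i j = u j XOR [p ≤ i]`, `1 ≤ p < k`;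
* `cmBlkT_removal`: their transposes `H i j = w i XOR [q ≤ j]`, `1 ≤ q < l`.
-/

namespace Vale.Agent.Lib.P037.CM

open Finset Vale.Agent.Lib.P037.Blowup

variable {l : ℕ}

/-- The two-row pattern `[u ; not u]`. -/
def cm2 (u : Fin l → Bool) : Fin 2 → Fin l → Bool := fun i j => if i = 0 then u j else !u j

/-- The `k`-row pattern whose rows below `p` read `u` and whose rows from `p` on read the
complement of `u`. -/
def cmBlk (u : Fin l → Bool) (p k : ℕ) : Fin k → Fin l → Bool :=
  fun i j => xor (u j) (decide (p ≤ i.val))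

/-- A word that is not alternating has two equal adjacent letters and is obtained from a
shorter word by repeating a letter. -/
theorem exists_dup_of_not_alt {m : ℕ} (u : Fin (m + 1) → Bool) (h : ¬ Alt u) :
    ∃ (q : Fin m) (u' : Fin m → Bool), ∀ i : Fin (m + 1), u i = u' (dupIdx q i) := by
  unfold Alt at h
  simp only [not_forall] at h
  obtain ⟨j, j', hjj, hne⟩ := h
  have hjlt : j.val < m := by
    have := j'.isLt
    omega
  have heq : u j' = u j := by
    cases h1 : u j' <;> cases h2 : u j <;> simp_all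
  refine ⟨⟨j.val, hjlt⟩, fun i => u (secIdx ⟨j.val, hjlt⟩ i), ?_⟩
  intro i
  show u i = u (secIdx ⟨j.val, hjlt⟩ (dupIdx ⟨j.val, hjlt⟩ i))
  by_cases h1 : i.val ≤ j.val
  · have e : secIdx ⟨j.val, hjlt⟩ (dupIdx ⟨j.val, hjlt⟩ i) = i := by
      apply Fin.ext
      simp only [secIdx, dupIdx]
      split_ifs
      omega
    rw [e]
  · by_cases h2 : i.val = j.val + 1
    · have e1 : i = j' := Fin.ext (by omega)
      have e2 : secIdx ⟨j.val, hjlt⟩ (dupIdx ⟨j.val, hjlt⟩ i) = j := by
        apply Fin.ext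
        simp only [secIdx, dupIdx]
        split_ifs <;> omega
      rw [e2, e1, heq]
    · have e : secIdx ⟨j.val, hjlt⟩ (dupIdx ⟨j.val, hjlt⟩ i) = i := by
        apply Fin.ext
        simp only [secIdx, dupIdx]
        split_ifs <;> omega
      rw [e]

/-- From alternating words to all non-constant words. -/
theorem cm2_nonconst
    (hbase : ∀ (l : ℕ), 2 ≤ l → ∀ u : Fin l → Bool, Alt u →
      ∃ (C : ℕ) (K : ℝ), 1 ≤ K ∧ PRemoval C K (cm2 u)) :
    ∀ (l : ℕ) (u : Fin l → Bool), (∃ a b, u a ≠ u b) →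
      ∃ (C : ℕ) (K : ℝ), 1 ≤ K ∧ PRemoval C K (cm2 u) := by
  intro l
  induction l with
  | zero =>
    intro u hu
    obtain ⟨a, _, _⟩ := hu
    exact a.elim0
  | succ m ih =>
    intro u hu
    by_cases halt : Alt u
    · have h2 : 2 ≤ m + 1 := by
        obtain ⟨a, b, hab⟩ := hu
        by_contra h
        have hm : m = 0 := by omega
        subst hm
        have hab' : a = b := Fin.ext (by have := a.isLt; have := b.isLt; omega)
        exact hab (by rw [hab'])
      exact hbase (m + 1) h2 u halt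
    · obtain ⟨q, u', hu'⟩ := exists_dup_of_not_alt u halt
      have hnc : ∃ a b, u' a ≠ u' b := by
        obtain ⟨a, b, hab⟩ := hu
        refine ⟨dupIdx q a, dupIdx q b, ?_⟩
        rw [← hu' a, ← hu' b]
        exact hab
      obtain ⟨C, K, hK, hR⟩ := ih u' hnc
      refine ⟨C * (m + 2 + 1), (2 * K) ^ (m + 2 + 1), one_le_pow₀ (by linarith), ?_⟩
      apply removal_dupCol hK (cm2 u') q (cm2 u) ?_ hR
      intro i j
      simp only [cm2]
      rw [hu' j]

/-- Growing the number of rows of a pattern with two kinds of rows. -/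
theorem rows_grow (F : Bool → Fin l → Bool)
    (hbase : ∃ (C : ℕ) (K : ℝ), 1 ≤ K ∧
      PRemoval C K (fun (i : Fin 2) (j : Fin l) => F (decide (1 ≤ i.val)) j)) :
    ∀ k : ℕ, 2 ≤ k → ∀ p : ℕ, 1 ≤ p → p < k →
      ∃ (C : ℕ) (K : ℝ), 1 ≤ K ∧
        PRemoval C K (fun (i : Fin k) (j : Fin l) => F (decide (p ≤ i.val)) j) := by
  intro k hk
  induction k, hk using Nat.le_induction with
  | base =>
    intro p hp hp2
    have : p = 1 := by omega
    subst this
    exact hbase
  | succ k hk ih =>
    intro p hp hpk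
    by_cases hlt : p < k
    · obtain ⟨C, K, hK, hR⟩ := ih p hp hlt
      refine ⟨C * (k + l + 1), (2 * K) ^ (k + l + 1), ?_, ?_⟩
      · exact one_le_pow₀ (by linarith)
      · apply removal_dupRow hK (fun (i : Fin k) (j : Fin l) => F (decide (p ≤ i.val)) j)
          ⟨k - 1, by omega⟩ (fun (i : Fin (k + 1)) (j : Fin l) => F (decide (p ≤ i.val)) j) ?_ hR
        intro i j
        have hi := i.isLt
        have hiff : (p ≤ i.val) ↔ (p ≤ (dupIdx (⟨k - 1, by omega⟩ : Fin k) i).val) := by
          simp only [dupIdx]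
          split_ifs <;> omega
        show F (decide (p ≤ i.val)) j =
          F (decide (p ≤ (dupIdx (⟨k - 1, by omega⟩ : Fin k) i).val)) j
        rw [decide_eq_decide.mpr hiff]
    · have hpk' : p = k := by omega
      subst hpk'
      obtain ⟨C, K, hK, hR⟩ := ih (p - 1) (by omega) (by omega)
      refine ⟨C * (p + l + 1), (2 * K) ^ (p + l + 1), ?_, ?_⟩
      · exact one_le_pow₀ (by linarith)
      · apply removal_dupRow hK (fun (i : Fin p) (j : Fin l) => F (decide (p - 1 ≤ i.val)) j)
          ⟨0, by omega⟩ (fun (i : Fin (p + 1)) (j : Fin l) => F (decide (p ≤ i.val)) j) ?_ hR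
        intro i j
        have hi := i.isLt
        have hiff : (p ≤ i.val) ↔ (p - 1 ≤ (dupIdx (⟨0, by omega⟩ : Fin p) i).val) := by
          simp only [dupIdx]
          split_ifs <;> omega
        show F (decide (p ≤ i.val)) j =
          F (decide (p - 1 ≤ (dupIdx (⟨0, by omega⟩ : Fin p) i).val)) j
        rw [decide_eq_decide.mpr hiff]

theorem cmBlk_two (u : Fin l → Bool) :
    (fun (i : Fin 2) (j : Fin l) => xor (u j) (decide (1 ≤ i.val))) = cm2 u := by
  funext i j
  fin_cases i
  · simp [cm2]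
  · simp [cm2]

/-- Patterns with a block of rows `u` above a block of rows `not u`, `u` non-constant. -/
theorem cmBlk_removal
    (hbase : ∀ (l : ℕ), 2 ≤ l → ∀ u : Fin l → Bool, Alt u →
      ∃ (C : ℕ) (K : ℝ), 1 ≤ K ∧ PRemoval C K (cm2 u))
    (k l p : ℕ) (u : Fin l → Bool) (hu : ∃ a b, u a ≠ u b) (hp : 1 ≤ p) (hpk : p < k) :
    ∃ (C : ℕ) (K : ℝ), 1 ≤ K ∧ PRemoval C K (cmBlk u p k) := by
  have h1 := cm2_nonconst hbase l u hu
  rw [← cmBlk_two u] at h1
  exact rows_grow (fun b j => xor (u j) b) h1 k (by omega) p hp hpk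

/-- The transposed family: a block of columns `w` followed by a block of columns `not w`. -/
theorem cmBlkT_removal
    (hbase : ∀ (l : ℕ), 2 ≤ l → ∀ u : Fin l → Bool, Alt u →
      ∃ (C : ℕ) (K : ℝ), 1 ≤ K ∧ PRemoval C K (cm2 u))
    (k l q : ℕ) (w : Fin k → Bool) (hw : ∃ a b, w a ≠ w b) (hq : 1 ≤ q) (hql : q < l) :
    ∃ (C : ℕ) (K : ℝ), 1 ≤ K ∧
      PRemoval C K (fun (i : Fin k) (j : Fin l) => xor (w i) (decide (q ≤ j.val))) := by
  obtain ⟨C, K, hK, hR⟩ := cmBlk_removal hbase l k q w hw hq hql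
  exact ⟨C, K, hK, removal_transpose (cmBlk w q l) hR⟩

end Vale.Agent.Lib.P037.CM
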