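import Mathlib
import Vale.Agent.Lib.P037.CMDefs

/-!
# P037: two-row patterns with complementary rows -- the final kill

In the coarsened matrix `cmat A D g θ` a copy of `[u ; not u]` (with `u` alternating) uses
columns of pairwise distinct intervals, and its *local type* is the list of (interval, class
index) of its columns.  All classes of a local type carrying a copy have exactly `g` columns,
so a pair of rows carries at least `g ^ l` copies of that type.  Killing the pairs type by
type with the sorting lemma gives a small set `Z` of rows whose zeroing removes all copies.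
-/

namespace Vale.Agent.Lib.P037.CM

open Finset
open Vale.Agent.Lib.P037

variable {n l : ℕ}

/-- The entry of the coarsened matrix in row `x` at a column of interval `p.1` and class
index `p.2`. -/
def lvl (A : Fin n → Fin n → Bool) (D g : ℕ) (θ : ℕ → ℕ) (p : ℕ × ℕ) (x : Fin n) : Bool :=
  decide (1 ≤ p.2 ∧ p.2 < clev A D g θ p.1 x)

theorem cmat_eq_lvl (A : Fin n → Fin n → Bool) (D g : ℕ) (θ : ℕ → ℕ) (x c : Fin n) :
    cmat A D g θ x c = lvl A D g θ (c.val / D, ckap A D g θ c) x := rfl

/-- A class of index `v ≥ 1` below the level of some row has exactly `g` columns. -/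
theorem card_class (A : Fin n → Fin n → Bool) (D g : ℕ) (hg : 0 < g) (θ : ℕ → ℕ)
    (hθ : ∀ i, θ i < g) (i v : ℕ) (z : Fin n) (hv : 1 ≤ v)
    (hz : v < clev A D g θ i z) :
    ((blockRows n D i).filter fun c => ckap A D g θ c = v).card = g := by
  have hw : g ≤ g * v := Nat.le_mul_of_pos_right g hv
  have h1 : (v + 1) * g ≤ csize A D i z + θ i := by
    have h0 : v + 1 ≤ (csize A D i z + θ i) / g := hz
    exact (Nat.le_div_iff_mul_le hg).1 h0
  have h2 := csize_le A D i z
  have h3 := hθ i
  have e2 : (v + 1) * g = g * v + g := by ring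
  have hb : g * v + g - θ i ≤ (blockRows n D i).card := by omega
  have hab : g * v - θ i ≤ g * v + g - θ i := by omega
  have hcard := card_cpos_Ico A D i hab hb
  have hset : ((blockRows n D i).filter fun c => ckap A D g θ c = v)
      = ((blockRows n D i).filter fun c =>
          g * v - θ i ≤ cpos A D c ∧ cpos A D c < g * v + g - θ i) := by
    apply filter_congr
    intro c hc
    have hc1 : c.val / D = i := mem_int.1 hc
    unfold ckap
    rw [hc1]
    have e1 : v * g = g * v := Nat.mul_comm _ _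
    constructor
    · intro h
      have ha : v ≤ (cpos A D c + θ i) / g := by omega
      have hb' : (cpos A D c + θ i) / g < v + 1 := by omega
      have ha' := (Nat.le_div_iff_mul_le hg).1 ha
      have hb'' := (Nat.div_lt_iff_lt_mul hg).1 hb'
      omega
    · rintro ⟨ha, hb'⟩
      have ha' : v ≤ (cpos A D c + θ i) / g := (Nat.le_div_iff_mul_le hg).2 (by omega)
      have hb'' : (cpos A D c + θ i) / g < v + 1 := (Nat.div_lt_iff_lt_mul hg).2 (by omega)
      omega
  rw [hset, hcard]
  omega

/-- Class indices are below `D / g + 2`. -/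
theorem ckap_lt (A : Fin n → Fin n → Bool) (D g : ℕ) (hD : 0 < D) (hg : 0 < g) (θ : ℕ → ℕ)
    (hθ : ∀ i, θ i < g) (c : Fin n) : ckap A D g θ c < D / g + 2 := by
  unfold ckap
  rw [Nat.div_lt_iff_lt_mul hg]
  have h1 := cpos_lt A D c
  have h2 := int_card_le (n := n) D (c.val / D) hD
  have h3 := hθ (c.val / D)
  have h4 := Nat.div_add_mod D g
  have h5 := Nat.mod_lt D hg
  have e : (D / g + 2) * g = g * (D / g) + 2 * g := by ring
  omega

/-- The coarsened matrix is pure on every interval: two rows cannot cross there. -/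
theorem cmat_pure_kill (A : Fin n → Fin n → Bool) (D g : ℕ) (θ : ℕ → ℕ) (x y c c' : Fin n)
    (hcc : c.val / D = c'.val / D)
    (h1 : cmat A D g θ x c = true) (h2 : cmat A D g θ y c = false)
    (h3 : cmat A D g θ x c' = false) (h4 : cmat A D g θ y c' = true) : False := by
  unfold cmat at h1 h2 h3 h4
  rw [decide_eq_true_eq] at h1 h4
  rw [decide_eq_false_iff_not] at h2 h3
  rw [hcc] at h1 h2
  omega

/-- The columns of a copy in the coarsened matrix lie in strictly increasing intervals. -/
theorem copy_int_strict (u : Fin l → Bool) (hu : Alt u) (A : Fin n → Fin n → Bool) (D g : ℕ)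
    (θ : ℕ → ℕ) (x y : Fin n) (γ : Fin l → Fin n) (hγ : StrictMono γ)
    (hc : ∀ j, cmat A D g θ x (γ j) = u j ∧ cmat A D g θ y (γ j) = !u j) :
    StrictMono fun j => (γ j).val / D := by
  intro j j' hjj
  have hmono : ∀ a b : Fin l, a ≤ b → (γ a).val / D ≤ (γ b).val / D := by
    intro a b hab
    apply Nat.div_le_div_right
    exact hγ.monotone hab
  by_contra hne
  have hle := hmono j j' (le_of_lt hjj)
  have hjv : j.val < j'.val := hjj
  have hj1 : j.val + 1 < l := by
    have := j'.isLt
    omega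
  have hA := hmono j ⟨j.val + 1, hj1⟩ (by rw [Fin.le_def]; simp)
  have hB := hmono ⟨j.val + 1, hj1⟩ j' (by rw [Fin.le_def]; simp; omega)
  have hcc : (γ j).val / D = (γ ⟨j.val + 1, hj1⟩).val / D := by
    simp only at hne
    omega
  have hu1 : u ⟨j.val + 1, hj1⟩ = !u j := hu j ⟨j.val + 1, hj1⟩ rfl
  obtain ⟨ha, hb⟩ := hc j
  obtain ⟨ha', hb'⟩ := hc ⟨j.val + 1, hj1⟩
  rw [hu1] at ha' hb'
  rw [Bool.not_not] at hb'
  cases huj : u j
  · rw [huj] at ha hb ha' hb'
    simp only [Bool.not_false] at hb ha'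
    exact cmat_pure_kill A D g θ y x (γ j) (γ ⟨j.val + 1, hj1⟩) hcc hb ha hb' ha'
  · rw [huj] at ha hb ha' hb'
    simp only [Bool.not_true] at hb ha'
    exact cmat_pure_kill A D g θ x y (γ j) (γ ⟨j.val + 1, hj1⟩) hcc ha hb ha' hb'

/-- **Final kill.**  Some set `Z` of rows with
`|Z|^2 g^l ≤ 4 ((n/D+1)(D/g+2))^l N(cmat)` meets every copy of the coarsened matrix; zeroing
the rows of `Z` leaves a matrix without copies. -/
theorem cm_kill (u : Fin l → Bool) (hu : Alt u) (ht : ∃ j, u j = true)
    (hf : ∃ j, u j = false) (A : Fin n → Fin n → Bool) (D g : ℕ) (hD : 0 < D) (hg : 0 < g)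
    (θ : ℕ → ℕ) (hθ : ∀ i, θ i < g) :
    ∃ Z : Finset (Fin n),
      Z.card ^ 2 * g ^ l ≤
          4 * ((n / D + 1) * (D / g + 2)) ^ l * (cmcop u (cmat A D g θ)).card ∧
        cmcop u (fun x c => if x ∈ Z then false else cmat A D g θ x c) = ∅ := by
  classical
  set S : Finset (ℕ × ℕ) := range (n / D + 1) ×ˢ range (D / g + 2) with hS
  set T : Finset (Fin l → ℕ × ℕ) :=
    (Fintype.piFinset fun _ : Fin l => S).filter (fun τ => StrictMono fun j => (τ j).1)
    with hT
  set U : (Fin l → ℕ × ℕ) → Finset (Fin n) :=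
    fun τ => univ.filter fun x => ∀ j, lvl A D g θ (τ j) x = u j
  set V : (Fin l → ℕ × ℕ) → Finset (Fin n) :=
    fun τ => univ.filter fun y => ∀ j, lvl A D g θ (τ j) y = !u j
  set P : (Fin l → ℕ × ℕ) → ℕ :=
    fun τ => (((U τ) ×ˢ (V τ)).filter fun p => p.1 < p.2).card
  have hkill : ∀ τ, ∃ Z : Finset (Fin n), Z.card ≤ 2 * Nat.sqrt (P τ) ∧
      ∀ x ∈ U τ, ∀ y ∈ V τ, x < y → x ∈ Z ∨ y ∈ Z :=
    fun τ => Vale.Agent.Results.P037.FewRowTypes.kill_pairs (U τ) (V τ)
  choose Zt hZc hZk using hkill
  set ty : (Fin n × Fin n × (Fin l → Fin n)) → (Fin l → ℕ × ℕ) :=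
    fun t j => ((t.2.2 j).val / D, ckap A D g θ (t.2.2 j))
  -- every pair of a type carries `g ^ l` copies of that type
  have hfib : ∀ τ ∈ T, P τ * g ^ l
      ≤ ((cmcop u (cmat A D g θ)).filter fun t => ty t = τ).card := by
    intro τ hτ
    by_cases hP0 : P τ = 0
    · rw [hP0]
      simp
    · have hne : (((U τ) ×ˢ (V τ)).filter fun p => p.1 < p.2).Nonempty := by
        rw [← Finset.card_pos]
        exact Nat.pos_of_ne_zero hP0
      obtain ⟨⟨x0, y0⟩, hxy⟩ := hne
      rw [mem_filter, mem_product] at hxy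
      obtain ⟨⟨hx0, hy0⟩, _⟩ := hxy
      have hx0' : ∀ j, lvl A D g θ (τ j) x0 = u j := (mem_filter.1 hx0).2
      have hy0' : ∀ j, lvl A D g θ (τ j) y0 = !u j := (mem_filter.1 hy0).2
      set K : Fin l → Finset (Fin n) :=
        fun j => (blockRows n D (τ j).1).filter fun c => ckap A D g θ c = (τ j).2
      have hKc : ∀ j, (K j).card = g := by
        intro j
        have hz : ∃ z, 1 ≤ (τ j).2 ∧ (τ j).2 < clev A D g θ (τ j).1 z := by
          cases huj : u j
          · refine ⟨y0, ?_⟩
            have h := hy0' j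
            rw [huj] at h
            simpa [lvl] using h
          · refine ⟨x0, ?_⟩
            have h := hx0' j
            rw [huj] at h
            simpa [lvl] using h
        obtain ⟨z, hz1, hz2⟩ := hz
        exact card_class A D g hg θ hθ (τ j).1 (τ j).2 z hz1 hz2
      have hτmono : StrictMono fun j => (τ j).1 := (mem_filter.1 hτ).2
      have hprod : ∏ j : Fin l, (K j).card = g ^ l := by
        simp [hKc]
      have hcard : ((((U τ) ×ˢ (V τ)).filter fun p => p.1 < p.2) ×ˢ Fintype.piFinset K).card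
          = P τ * g ^ l := by
        rw [card_product, Fintype.card_piFinset, hprod]
      rw [← hcard]
      apply Finset.card_le_card_of_injOn (fun q => (q.1.1, q.1.2, q.2))
      · intro q hq
        have hq' := Finset.mem_coe.1 hq
        rw [mem_product] at hq'
        obtain ⟨hq1, hq2⟩ := hq'
        rw [mem_filter, mem_product] at hq1
        obtain ⟨⟨hqx, hqy⟩, hlt⟩ := hq1
        rw [Fintype.mem_piFinset] at hq2
        have hγint : ∀ j, (q.2 j).val / D = (τ j).1 :=
          fun j => mem_int.1 (mem_filter.1 (hq2 j)).1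
        have hγk : ∀ j, ckap A D g θ (q.2 j) = (τ j).2 := fun j => (mem_filter.1 (hq2 j)).2
        apply Finset.mem_coe.2
        rw [mem_filter]
        refine ⟨?_, ?_⟩
        · rw [cmcop, mem_filter]
          refine ⟨mem_univ _, hlt, ?_, ?_⟩
          · intro j j' hjj
            have h1 : (τ j).1 < (τ j').1 := hτmono hjj
            have h2 := hγint j
            have h3 := hγint j'
            show (q.2 j).val < (q.2 j').val
            by_contra hcon
            have h4 : (q.2 j').val / D ≤ (q.2 j).val / D :=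
              Nat.div_le_div_right (by omega)
            omega
          · intro j
            have e : ∀ z, cmat A D g θ z (q.2 j) = lvl A D g θ (τ j) z := by
              intro z
              rw [cmat_eq_lvl, hγint j, hγk j]
            exact ⟨by rw [e]; exact (mem_filter.1 hqx).2 j,
              by rw [e]; exact (mem_filter.1 hqy).2 j⟩
        · funext j
          exact Prod.ext (hγint j) (hγk j)
      · intro q _ q' _ h
        obtain ⟨⟨a, b⟩, c⟩ := q
        obtain ⟨⟨a', b'⟩, c'⟩ := q'
        simp only [Prod.mk.injEq] at h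
        obtain ⟨h1, h2, h3⟩ := h
        subst h1 h2 h3
        rfl
  have hcount : ∑ τ ∈ T, P τ * g ^ l ≤ (cmcop u (cmat A D g θ)).card := by
    calc ∑ τ ∈ T, P τ * g ^ l
        ≤ ∑ τ ∈ T, ((cmcop u (cmat A D g θ)).filter fun t => ty t = τ).card :=
          Finset.sum_le_sum hfib
      _ = (T.biUnion fun τ => (cmcop u (cmat A D g θ)).filter fun t => ty t = τ).card := by
          rw [Finset.card_biUnion]
          intro τ _ τ' _ hne
          rw [Function.onFun, Finset.disjoint_left]
          intro t ht1 ht2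
          exact hne ((mem_filter.1 ht1).2.symm.trans (mem_filter.1 ht2).2)
      _ ≤ (cmcop u (cmat A D g θ)).card := by
          apply Finset.card_le_card
          intro t ht'
          rw [mem_biUnion] at ht'
          obtain ⟨τ, _, ht''⟩ := ht'
          exact (mem_filter.1 ht'').1
  refine ⟨T.biUnion Zt, ?_, ?_⟩
  · have h1 : (T.biUnion Zt).card ≤ ∑ τ ∈ T, 2 * Nat.sqrt (P τ) :=
      le_trans Finset.card_biUnion_le (Finset.sum_le_sum fun τ _ => hZc τ)
    have h2 : (∑ τ ∈ T, 2 * Nat.sqrt (P τ)) ^ 2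
        ≤ T.card * ∑ τ ∈ T, (2 * Nat.sqrt (P τ)) ^ 2 :=
      sq_sum_le_card_mul_sum_sq
    have h3 : ∑ τ ∈ T, (2 * Nat.sqrt (P τ)) ^ 2 ≤ 4 * ∑ τ ∈ T, P τ := by
      rw [Finset.mul_sum]
      apply Finset.sum_le_sum
      intro τ _
      have := Nat.sqrt_le' (P τ)
      nlinarith
    have h4 : T.card ≤ ((n / D + 1) * (D / g + 2)) ^ l := by
      calc T.card ≤ (Fintype.piFinset fun _ : Fin l => S).card := Finset.card_filter_le _ _
        _ = ((n / D + 1) * (D / g + 2)) ^ l := by
          rw [Fintype.card_piFinset]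
          simp [hS]
    have h5 : (T.biUnion Zt).card ^ 2 ≤ T.card * (4 * ∑ τ ∈ T, P τ) :=
      calc (T.biUnion Zt).card ^ 2 ≤ (∑ τ ∈ T, 2 * Nat.sqrt (P τ)) ^ 2 :=
            Nat.pow_le_pow_left h1 2
        _ ≤ T.card * ∑ τ ∈ T, (2 * Nat.sqrt (P τ)) ^ 2 := h2
        _ ≤ T.card * (4 * ∑ τ ∈ T, P τ) := Nat.mul_le_mul_left _ h3
    have h6 : (∑ τ ∈ T, P τ) * g ^ l ≤ (cmcop u (cmat A D g θ)).card := by
      rw [Finset.sum_mul]
      exact hcount
    calc (T.biUnion Zt).card ^ 2 * g ^ l ≤ T.card * (4 * ∑ τ ∈ T, P τ) * g ^ l :=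
          Nat.mul_le_mul_right _ h5
      _ = 4 * T.card * ((∑ τ ∈ T, P τ) * g ^ l) := by ring
      _ ≤ 4 * ((n / D + 1) * (D / g + 2)) ^ l * (cmcop u (cmat A D g θ)).card :=
          Nat.mul_le_mul (Nat.mul_le_mul_left 4 h4) h6
  · rw [Finset.eq_empty_iff_forall_notMem]
    rintro ⟨x, y, γ⟩ hmem
    rw [cmcop, mem_filter] at hmem
    obtain ⟨_, hxy, hγ, hc⟩ := hmem
    dsimp only at hxy hγ hc
    have hxZ : x ∉ T.biUnion Zt := by
      intro hx
      obtain ⟨j, hj⟩ := ht
      have h := (hc j).1
      rw [if_pos hx, hj] at h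
      exact Bool.false_ne_true h
    have hyZ : y ∉ T.biUnion Zt := by
      intro hy
      obtain ⟨j, hj⟩ := hf
      have h := (hc j).2
      rw [if_pos hy, hj] at h
      simp at h
    have hc' : ∀ j, cmat A D g θ x (γ j) = u j ∧ cmat A D g θ y (γ j) = !u j := by
      intro j
      have h := hc j
      rw [if_neg hxZ, if_neg hyZ] at h
      exact h
    have hτT : (fun j => ((γ j).val / D, ckap A D g θ (γ j))) ∈ T := by
      rw [hT, mem_filter, Fintype.mem_piFinset]
      refine ⟨fun j => ?_, copy_int_strict u hu A D g θ x y γ hγ hc'⟩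
      rw [hS, mem_product, mem_range, mem_range]
      exact ⟨int_idx_lt D hD (γ j), ckap_lt A D g hD hg θ hθ (γ j)⟩
    have hxU : x ∈ U (fun j => ((γ j).val / D, ckap A D g θ (γ j))) :=
      mem_filter.2 ⟨mem_univ _, fun j => (hc' j).1⟩
    have hyV : y ∈ V (fun j => ((γ j).val / D, ckap A D g θ (γ j))) :=
      mem_filter.2 ⟨mem_univ _, fun j => (hc' j).2⟩
    rcases hZk _ x hxU y hyV hxy with h | h
    · exact hxZ (mem_biUnion.2 ⟨_, hτT, h⟩)
    · exact hyZ (mem_biUnion.2 ⟨_, hτT, h⟩)

end Vale.Agent.Lib.P037.CM
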