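import Mathlib
import Vale.Agent.Lib.P037.CMDefs

/-!
# P037: the mixing bound for complementary two-row patterns

For a pair of rows `a < b` and a column interval `i` let `pint`, `qint` be the numbers of
columns of the interval reading `1 0`, resp. `0 1`.  If `l` intervals have both numbers at
least `k0`, the pair carries at least `k0 ^ l` copies.  Hence the total mixing of the
column intervals is small unless there are many copies.
-/

namespace Vale.Agent.Lib.P037.CM

open Finset
open Vale.Agent.Lib.P037

variable {n l : ℕ}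

/-- Number of copies carried by the ordered pair of rows `(a, b)`. -/
def pcnt (u : Fin l → Bool) (A : Fin n → Fin n → Bool) (a b : Fin n) : ℕ :=
  ((univ : Finset (Fin l → Fin n)).filter fun γ =>
    StrictMono γ ∧ ∀ j, A a (γ j) = u j ∧ A b (γ j) = !u j).card

/-- Columns of interval `i` reading `1 0` on the rows `a`, `b`. -/
def pint (A : Fin n → Fin n → Bool) (D i : ℕ) (a b : Fin n) : ℕ :=
  ((blockRows n D i).filter fun c => A a c = true ∧ A b c = false).card

/-- Columns of interval `i` reading `0 1` on the rows `a`, `b`. -/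
def qint (A : Fin n → Fin n → Bool) (D i : ℕ) (a b : Fin n) : ℕ :=
  ((blockRows n D i).filter fun c => A a c = false ∧ A b c = true).card

theorem card_cmcop_eq (u : Fin l → Bool) (A : Fin n → Fin n → Bool) :
    (cmcop u A).card = ∑ a : Fin n, ∑ b : Fin n, if a < b then pcnt u A a b else 0 := by
  unfold cmcop pcnt
  rw [card_filter, Fintype.sum_prod_type]
  apply sum_congr rfl
  intro a _
  rw [Fintype.sum_prod_type]
  apply sum_congr rfl
  intro b _
  dsimp only
  by_cases hab : a < b
  · rw [if_pos hab, card_filter]
    apply sum_congr rfl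
    intro γ _
    simp only [hab, true_and]
  · rw [if_neg hab]
    apply sum_eq_zero
    intro γ _
    simp only [hab, false_and, if_false]

theorem pint_le (A : Fin n → Fin n → Bool) (D i : ℕ) (hD : 0 < D) (a b : Fin n) :
    pint A D i a b ≤ D :=
  le_trans (card_filter_le _ _) (int_card_le D i hD)

theorem qint_le (A : Fin n → Fin n → Bool) (D i : ℕ) (hD : 0 < D) (a b : Fin n) :
    qint A D i a b ≤ D :=
  le_trans (card_filter_le _ _) (int_card_le D i hD)

/-- `l` increasing intervals, each with at least `k0` columns of both kinds, give at least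
`k0 ^ l` copies on the pair. -/
theorem heavy_copies (u : Fin l → Bool) (A : Fin n → Fin n → Bool) (D k0 : ℕ) (a b : Fin n)
    (f : Fin l → ℕ) (hf : StrictMono f)
    (hp : ∀ j, k0 ≤ pint A D (f j) a b) (hq : ∀ j, k0 ≤ qint A D (f j) a b) :
    k0 ^ l ≤ pcnt u A a b := by
  classical
  set F : Fin l → Finset (Fin n) := fun j =>
    (blockRows n D (f j)).filter fun c => A a c = u j ∧ A b c = !u j with hF
  have hFc : ∀ j, k0 ≤ (F j).card := by
    intro j
    cases hj : u j
    · have h := hq j
      unfold qint at h
      simpa [hF, hj] using h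
    · have h := hp j
      unfold pint at h
      simpa [hF, hj] using h
  have hsub : Fintype.piFinset F ⊆ (univ.filter fun γ : Fin l → Fin n =>
      StrictMono γ ∧ ∀ j, A a (γ j) = u j ∧ A b (γ j) = !u j) := by
    intro γ hγ
    rw [Fintype.mem_piFinset] at hγ
    have hmem : ∀ j, (γ j).val / D = f j ∧ A a (γ j) = u j ∧ A b (γ j) = !u j := by
      intro j
      have h := mem_filter.1 (hγ j)
      exact ⟨mem_int.1 h.1, h.2⟩
    refine mem_filter.2 ⟨mem_univ _, ?_, fun j => (hmem j).2⟩
    intro j j' hjj'
    have h1 := hf hjj'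
    rw [← (hmem j).1, ← (hmem j').1] at h1
    by_contra hlt
    have hle : γ j' ≤ γ j := not_lt.1 hlt
    have h2 : (γ j').val / D ≤ (γ j).val / D := Nat.div_le_div_right hle
    omega
  calc k0 ^ l = ∏ _j : Fin l, k0 := by simp
    _ ≤ ∏ j : Fin l, (F j).card :=
        Finset.prod_le_prod (fun _ _ => Nat.zero_le _) (fun j _ => hFc j)
    _ = (Fintype.piFinset F).card := (Fintype.card_piFinset F).symm
    _ ≤ pcnt u A a b := card_le_card hsub

/-- The mixing of one pair of rows. -/
theorem pair_mix (u : Fin l → Bool) (A : Fin n → Fin n → Bool) (D k0 : ℕ) (hD : 0 < D)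
    (a b : Fin n) :
    k0 ^ l * ∑ i ∈ range (n / D + 1), pint A D i a b * qint A D i a b
      ≤ k0 ^ l * (l * D ^ 2 + (n / D + 1) * k0 * D)
        + (n / D + 1) * D ^ 2 * pcnt u A a b := by
  classical
  set Hv : Finset ℕ := (range (n / D + 1)).filter
    fun i => k0 ≤ pint A D i a b ∧ k0 ≤ qint A D i a b with hHv
  have hterm : ∀ i, pint A D i a b * qint A D i a b ≤ D ^ 2 := by
    intro i
    have h1 := pint_le A D i hD a b
    have h2 := qint_le A D i hD a b
    nlinarith
  by_cases hc : Hv.card ≤ l
  · have hsplit := Finset.sum_filter_add_sum_filter_not (range (n / D + 1))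
      (fun i => k0 ≤ pint A D i a b ∧ k0 ≤ qint A D i a b)
      (fun i => pint A D i a b * qint A D i a b)
    have hA : ∑ i ∈ Hv, pint A D i a b * qint A D i a b ≤ l * D ^ 2 := by
      calc ∑ i ∈ Hv, pint A D i a b * qint A D i a b ≤ ∑ _i ∈ Hv, D ^ 2 :=
            sum_le_sum (fun i _ => hterm i)
        _ = Hv.card * D ^ 2 := by rw [sum_const, smul_eq_mul]
        _ ≤ l * D ^ 2 := Nat.mul_le_mul_right _ hc
    have hB : ∑ i ∈ (range (n / D + 1)).filter
          (fun i => ¬ (k0 ≤ pint A D i a b ∧ k0 ≤ qint A D i a b)),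
          pint A D i a b * qint A D i a b ≤ (n / D + 1) * k0 * D := by
      calc ∑ i ∈ (range (n / D + 1)).filter
              (fun i => ¬ (k0 ≤ pint A D i a b ∧ k0 ≤ qint A D i a b)),
              pint A D i a b * qint A D i a b
          ≤ ∑ _i ∈ (range (n / D + 1)).filter
              (fun i => ¬ (k0 ≤ pint A D i a b ∧ k0 ≤ qint A D i a b)), k0 * D := by
            apply sum_le_sum
            intro i hi
            have hi' := (mem_filter.1 hi).2
            have h1 := pint_le A D i hD a b
            have h2 := qint_le A D i hD a b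
            by_cases hpk : k0 ≤ pint A D i a b
            · have hqk : qint A D i a b < k0 := by
                by_contra hq'
                exact hi' ⟨hpk, not_lt.1 hq'⟩
              calc pint A D i a b * qint A D i a b ≤ D * k0 :=
                    Nat.mul_le_mul h1 (le_of_lt hqk)
                _ = k0 * D := Nat.mul_comm _ _
            · exact Nat.mul_le_mul (le_of_lt (not_le.1 hpk)) h2
        _ = ((range (n / D + 1)).filter
              (fun i => ¬ (k0 ≤ pint A D i a b ∧ k0 ≤ qint A D i a b))).card * (k0 * D) := by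
            rw [sum_const, smul_eq_mul]
        _ ≤ (n / D + 1) * (k0 * D) := by
            apply Nat.mul_le_mul_right
            calc _ ≤ (range (n / D + 1)).card := card_filter_le _ _
              _ = n / D + 1 := card_range _
        _ = (n / D + 1) * k0 * D := by ring
    have hsum : ∑ i ∈ range (n / D + 1), pint A D i a b * qint A D i a b
        ≤ l * D ^ 2 + (n / D + 1) * k0 * D := by
      rw [← hsplit]
      exact Nat.add_le_add hA hB
    calc k0 ^ l * ∑ i ∈ range (n / D + 1), pint A D i a b * qint A D i a b
        ≤ k0 ^ l * (l * D ^ 2 + (n / D + 1) * k0 * D) := Nat.mul_le_mul_left _ hsum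
      _ ≤ _ := Nat.le_add_right _ _
  · have hc' : l ≤ Hv.card := le_of_lt (not_le.1 hc)
    obtain ⟨Hv', hsub, hcard⟩ := Finset.exists_subset_card_eq hc'
    have hcop : k0 ^ l ≤ pcnt u A a b := by
      apply heavy_copies u A D k0 a b (fun j => Hv'.orderEmbOfFin hcard j)
        (Hv'.orderEmbOfFin hcard).strictMono
      · intro j
        have hm := hsub (Finset.orderEmbOfFin_mem Hv' hcard j)
        exact (mem_filter.1 hm).2.1
      · intro j
        have hm := hsub (Finset.orderEmbOfFin_mem Hv' hcard j)
        exact (mem_filter.1 hm).2.2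
    have hsum : ∑ i ∈ range (n / D + 1), pint A D i a b * qint A D i a b
        ≤ (n / D + 1) * D ^ 2 := by
      calc ∑ i ∈ range (n / D + 1), pint A D i a b * qint A D i a b
          ≤ ∑ _i ∈ range (n / D + 1), D ^ 2 := sum_le_sum (fun i _ => hterm i)
        _ = (n / D + 1) * D ^ 2 := by rw [sum_const, card_range, smul_eq_mul]
    calc k0 ^ l * ∑ i ∈ range (n / D + 1), pint A D i a b * qint A D i a b
        ≤ pcnt u A a b * ((n / D + 1) * D ^ 2) := Nat.mul_le_mul hcop hsum
      _ = (n / D + 1) * D ^ 2 * pcnt u A a b := Nat.mul_comm _ _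
      _ ≤ _ := Nat.le_add_left _ _

/-- **Mixing bound.** -/
theorem mix_cm (u : Fin l → Bool) (_hu : Alt u) (A : Fin n → Fin n → Bool)
    (D k0 : ℕ) (hD : 0 < D) (_hk : 0 < k0) :
    k0 ^ l * ∑ i ∈ range (n / D + 1), mixB (tr A) (blockRows n D i)
      ≤ k0 ^ l * (n ^ 2 * (l * D ^ 2 + (n / D + 1) * k0 * D))
        + (n / D + 1) * D ^ 2 * (cmcop u A).card := by
  classical
  have h1 : ∑ i ∈ range (n / D + 1), mixB (tr A) (blockRows n D i)
      = ∑ a : Fin n, ∑ b : Fin n,
          if a < b then ∑ i ∈ range (n / D + 1), pint A D i a b * qint A D i a b else 0 := by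
    unfold mixB
    rw [sum_comm]
    apply sum_congr rfl
    intro a _
    rw [sum_comm]
    apply sum_congr rfl
    intro b _
    by_cases hab : a < b
    · simp only [hab, if_true]
      rfl
    · simp [hab]
  rw [h1, mul_sum]
  calc ∑ a : Fin n, k0 ^ l * ∑ b : Fin n,
        (if a < b then ∑ i ∈ range (n / D + 1), pint A D i a b * qint A D i a b else 0)
      ≤ ∑ a : Fin n, ∑ b : Fin n, (k0 ^ l * (l * D ^ 2 + (n / D + 1) * k0 * D)
          + (n / D + 1) * D ^ 2 * (if a < b then pcnt u A a b else 0)) := by
        apply sum_le_sum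
        intro a _
        rw [mul_sum]
        apply sum_le_sum
        intro b _
        by_cases hab : a < b
        · simp only [hab, if_true]
          exact pair_mix u A D k0 hD a b
        · simp [hab]
    _ = k0 ^ l * (n ^ 2 * (l * D ^ 2 + (n / D + 1) * k0 * D))
          + (n / D + 1) * D ^ 2 * (cmcop u A).card := by
        rw [card_cmcop_eq]
        simp only [sum_add_distrib, sum_const, card_univ, Fintype.card_fin, smul_eq_mul,
          ← mul_sum]
        ring

end Vale.Agent.Lib.P037.CM
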