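import Mathlib
import Vale.Agent.Lib.P037.CMDefs

/-!
# P037: the replacement lemma for complementary two-row patterns

If the matrices `Bt t` (`t < g`) agree with `B` outside an order-convex set `J` of columns,
every `Bt t` is pure on `J` (no pair of rows reads both `1 0` and `0 1` on columns of `J`)
and the average number of `1 0` columns inside `J` does not exceed that of `B`, for every
ordered pair of rows, then the average number of copies does not exceed that of `B`.
-/

namespace Vale.Agent.Lib.P037.CM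

open Finset

variable {n l : ℕ}

/-- Copies with no column in `J`. -/
def cop0 (u : Fin l → Bool) (J : Finset (Fin n)) (M : Fin n → Fin n → Bool) :
    Finset (Fin n × Fin n × (Fin l → Fin n)) :=
  (cmcop u M).filter fun e => ∀ j, e.2.2 j ∉ J

/-- Copies with exactly the column of index `j` in `J`. -/
def cop1 (u : Fin l → Bool) (J : Finset (Fin n)) (M : Fin n → Fin n → Bool) (j : Fin l) :
    Finset (Fin n × Fin n × (Fin l → Fin n)) :=
  (cmcop u M).filter fun e => e.2.2 j ∈ J ∧ ∀ j', j' ≠ j → e.2.2 j' ∉ J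

/-- Frames: all of a copy with exactly column `j` in `J`, except the letter at `j`. -/
def frame (u : Fin l → Bool) (J : Finset (Fin n)) (B : Fin n → Fin n → Bool) (j : Fin l) :
    Finset (Fin n × Fin n × (Fin l → Fin n)) :=
  univ.filter fun e => e.1 < e.2.1 ∧ StrictMono e.2.2 ∧ e.2.2 j ∈ J ∧
    ∀ j', j' ≠ j → e.2.2 j' ∉ J ∧ B e.1 (e.2.2 j') = u j' ∧ B e.2.1 (e.2.2 j') = !u j'

theorem mem_cop1_iff (u : Fin l → Bool) (J : Finset (Fin n)) (B M : Fin n → Fin n → Bool)
    (hout : ∀ x c, c ∉ J → M x c = B x c) (j : Fin l)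
    (e : Fin n × Fin n × (Fin l → Fin n)) :
    e ∈ cop1 u J M j ↔
      e ∈ frame u J B j ∧ M e.1 (e.2.2 j) = u j ∧ M e.2.1 (e.2.2 j) = !u j := by
  unfold cop1 frame cmcop
  simp only [mem_filter, mem_univ, true_and]
  constructor
  · rintro ⟨⟨h1, h2, h3⟩, h4, h5⟩
    refine ⟨⟨h1, h2, h4, fun j' hj' => ⟨h5 j' hj', ?_, ?_⟩⟩, (h3 j).1, (h3 j).2⟩
    · rw [← hout _ _ (h5 j' hj')]
      exact (h3 j').1
    · rw [← hout _ _ (h5 j' hj')]
      exact (h3 j').2
  · rintro ⟨⟨h1, h2, h4, h5⟩, h6, h7⟩
    refine ⟨⟨h1, h2, fun j' => ?_⟩, h4, fun j' hj' => (h5 j' hj').1⟩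
    by_cases hj' : j' = j
    · subst hj'
      exact ⟨h6, h7⟩
    · obtain ⟨ha, hb, hc⟩ := h5 j' hj'
      refine ⟨?_, ?_⟩
      · rw [hout _ _ ha]
        exact hb
      · rw [hout _ _ ha]
        exact hc

theorem update_mem_frame (u : Fin l → Bool) (J : Finset (Fin n))
    (hJ : ∀ a ∈ J, ∀ b ∈ J, ∀ c, a ≤ c → c ≤ b → c ∈ J)
    (B : Fin n → Fin n → Bool) (j : Fin l) (e : Fin n × Fin n × (Fin l → Fin n))
    (he : e ∈ frame u J B j) (c : Fin n) (hc : c ∈ J) :
    (e.1, e.2.1, Function.update e.2.2 j c) ∈ frame u J B j := by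
  unfold frame at he ⊢
  simp only [mem_filter, mem_univ, true_and] at he ⊢
  obtain ⟨h1, h2, h3, h4⟩ := he
  refine ⟨h1, ?_, by simp [hc], fun j' hj' => ?_⟩
  · intro a b hab
    by_cases ha : a = j
    · subst ha
      have hb : b ≠ a := ne_of_gt hab
      rw [Function.update_self, Function.update_of_ne hb]
      by_contra hlt
      have hle : e.2.2 b ≤ c := not_lt.1 hlt
      exact (h4 b hb).1 (hJ _ h3 _ hc _ (le_of_lt (h2 hab)) hle)
    · by_cases hb : b = j
      · subst hb
        rw [Function.update_self, Function.update_of_ne ha]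
        by_contra hlt
        have hle : c ≤ e.2.2 a := not_lt.1 hlt
        exact (h4 a ha).1 (hJ _ hc _ h3 _ hle (le_of_lt (h2 hab)))
      · rw [Function.update_of_ne ha, Function.update_of_ne hb]
        exact h2 hab
  · rw [Function.update_of_ne hj']
    exact h4 j' hj'

/-- Double counting: copies with exactly column `j` in `J`, times `|J|`, equal the number
of pairs (frame, column of `J` carrying the right letter). -/
theorem card_cop1_mul (u : Fin l → Bool) (J : Finset (Fin n))
    (hJ : ∀ a ∈ J, ∀ b ∈ J, ∀ c, a ≤ c → c ≤ b → c ∈ J)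
    (B M : Fin n → Fin n → Bool) (hout : ∀ x c, c ∉ J → M x c = B x c) (j : Fin l) :
    (cop1 u J M j).card * J.card
      = ∑ e ∈ frame u J B j, (J.filter fun c => M e.1 c = u j ∧ M e.2.1 c = !u j).card := by
  have h1 : ∑ e ∈ frame u J B j, (J.filter fun c => M e.1 c = u j ∧ M e.2.1 c = !u j).card
      = (((frame u J B j) ×ˢ J).filter
          fun p => M p.1.1 p.2 = u j ∧ M p.1.2.1 p.2 = !u j).card := by
    rw [card_filter, sum_product]
    apply sum_congr rfl
    intro e _
    rw [card_filter]
  rw [h1, ← card_product]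
  apply card_nbij'
    (fun p : (Fin n × Fin n × (Fin l → Fin n)) × Fin n =>
      ((p.1.1, p.1.2.1, Function.update p.1.2.2 j p.2), p.1.2.2 j))
    (fun p : (Fin n × Fin n × (Fin l → Fin n)) × Fin n =>
      ((p.1.1, p.1.2.1, Function.update p.1.2.2 j p.2), p.1.2.2 j))
  · intro p hp
    have hp' := mem_product.1 (mem_coe.1 hp)
    obtain ⟨hf, hx, hy⟩ := (mem_cop1_iff u J B M hout j p.1).1 hp'.1
    have hfj : p.1.2.2 j ∈ J := by
      unfold frame at hf
      simp only [mem_filter, mem_univ, true_and] at hf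
      exact hf.2.2.1
    rw [mem_coe, mem_filter, mem_product]
    exact ⟨⟨update_mem_frame u J hJ B j p.1 hf p.2 hp'.2, hfj⟩, hx, hy⟩
  · intro p hp
    have hp' := mem_filter.1 (mem_coe.1 hp)
    have hp'' := mem_product.1 hp'.1
    have hfj : p.1.2.2 j ∈ J := by
      have hf := hp''.1
      unfold frame at hf
      simp only [mem_filter, mem_univ, true_and] at hf
      exact hf.2.2.1
    rw [mem_coe, mem_product]
    refine ⟨(mem_cop1_iff u J B M hout j _).2
      ⟨update_mem_frame u J hJ B j p.1 hp''.1 p.2 hp''.2, ?_, ?_⟩, hfj⟩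
    · simp only [Function.update_self]
      exact hp'.2.1
    · simp only [Function.update_self]
      exact hp'.2.2
  · intro p _
    simp only [Function.update_self, Function.update_idem, Function.update_eq_self]
  · intro p _
    simp only [Function.update_self, Function.update_idem, Function.update_eq_self]

/-- In a matrix that is pure on `J`, a copy has at most one column in `J`. -/
theorem pure_two (u : Fin l → Bool) (hu : Alt u) (J : Finset (Fin n))
    (hJ : ∀ a ∈ J, ∀ b ∈ J, ∀ c, a ≤ c → c ≤ b → c ∈ J)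
    (M : Fin n → Fin n → Bool)
    (hpure : ∀ x y, ∀ c ∈ J, ∀ c' ∈ J,
      ¬ (M x c = true ∧ M y c = false ∧ M x c' = false ∧ M y c' = true))
    (e : Fin n × Fin n × (Fin l → Fin n)) (he : e ∈ cmcop u M) (a b : Fin l) (hab : a < b)
    (ha : e.2.2 a ∈ J) (hb : e.2.2 b ∈ J) : False := by
  unfold cmcop at he
  simp only [mem_filter, mem_univ, true_and] at he
  obtain ⟨_, hm, hl⟩ := he
  have hab' : a.val < b.val := hab
  have hlt : a.val + 1 < l := by
    have := b.isLt
    omega
  have h1 : a < (⟨a.val + 1, hlt⟩ : Fin l) := by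
    rw [Fin.lt_def]
    simp
  have h2 : (⟨a.val + 1, hlt⟩ : Fin l) ≤ b := by
    rw [Fin.le_def]
    simp only
    omega
  have hJ1 : e.2.2 ⟨a.val + 1, hlt⟩ ∈ J :=
    hJ _ ha _ hb _ (le_of_lt (hm h1)) (hm.monotone h2)
  have hu1 : u ⟨a.val + 1, hlt⟩ = !u a := hu a ⟨a.val + 1, hlt⟩ rfl
  obtain ⟨p1, p2⟩ := hl a
  obtain ⟨p3, p4⟩ := hl ⟨a.val + 1, hlt⟩
  rw [hu1] at p3 p4
  cases hua : u a
  · rw [hua] at p1 p2 p3 p4
    exact hpure e.1 e.2.1 _ hJ1 _ ha ⟨by simpa using p3, by simpa using p4,
      by simpa using p1, by simpa using p2⟩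
  · rw [hua] at p1 p2 p3 p4
    exact hpure e.1 e.2.1 _ ha _ hJ1 ⟨by simpa using p1, by simpa using p2,
      by simpa using p3, by simpa using p4⟩

theorem cmcop_subset_pure (u : Fin l → Bool) (hu : Alt u) (J : Finset (Fin n))
    (hJ : ∀ a ∈ J, ∀ b ∈ J, ∀ c, a ≤ c → c ≤ b → c ∈ J)
    (M : Fin n → Fin n → Bool)
    (hpure : ∀ x y, ∀ c ∈ J, ∀ c' ∈ J,
      ¬ (M x c = true ∧ M y c = false ∧ M x c' = false ∧ M y c' = true)) :
    cmcop u M ⊆ cop0 u J M ∪ univ.biUnion (cop1 u J M) := by
  intro e he
  rw [mem_union]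
  by_cases h0 : ∀ j, e.2.2 j ∉ J
  · left
    unfold cop0
    exact mem_filter.2 ⟨he, h0⟩
  · right
    have h0' : ∃ j, e.2.2 j ∈ J := by
      by_contra hne
      exact h0 (fun j hj => hne ⟨j, hj⟩)
    obtain ⟨j, hj⟩ := h0'
    rw [mem_biUnion]
    refine ⟨j, mem_univ _, ?_⟩
    unfold cop1
    refine mem_filter.2 ⟨he, hj, fun j' hj' hJ' => ?_⟩
    rcases lt_or_gt_of_ne hj' with h | h
    · exact pure_two u hu J hJ M hpure e he j' j h hJ' hj
    · exact pure_two u hu J hJ M hpure e he j j' h hj hJ'

theorem cop_parts_le (u : Fin l → Bool) (J : Finset (Fin n)) (M : Fin n → Fin n → Bool) :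
    (cop0 u J M).card + ∑ j, (cop1 u J M j).card ≤ (cmcop u M).card := by
  classical
  have hd : ((univ : Finset (Fin l)) : Set (Fin l)).PairwiseDisjoint (cop1 u J M) := by
    intro j _ j' _ hjj'
    rw [Function.onFun, Finset.disjoint_left]
    intro e he he'
    unfold cop1 at he he'
    have h1 := (mem_filter.1 he).2.1
    have h2 := (mem_filter.1 he').2.2 j hjj'
    exact h2 h1
  have hd0 : Disjoint (cop0 u J M) (univ.biUnion (cop1 u J M)) := by
    rw [Finset.disjoint_left]
    intro e he he'
    rw [mem_biUnion] at he'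
    obtain ⟨j, _, hj⟩ := he'
    unfold cop0 at he
    unfold cop1 at hj
    exact (mem_filter.1 he).2 j (mem_filter.1 hj).2.1
  rw [← card_biUnion hd, ← card_union_of_disjoint hd0]
  apply card_le_card
  apply union_subset
  · unfold cop0
    exact filter_subset _ _
  · rw [biUnion_subset]
    intro j _
    unfold cop1
    exact filter_subset _ _

theorem cop0_congr (u : Fin l → Bool) (J : Finset (Fin n)) (B M : Fin n → Fin n → Bool)
    (hout : ∀ x c, c ∉ J → M x c = B x c) : cop0 u J M = cop0 u J B := by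
  unfold cop0 cmcop
  ext e
  simp only [mem_filter, mem_univ, true_and]
  constructor
  · rintro ⟨⟨h1, h2, h3⟩, h4⟩
    refine ⟨⟨h1, h2, fun j => ?_⟩, h4⟩
    rw [← hout _ _ (h4 j), ← hout _ _ (h4 j)]
    exact h3 j
  · rintro ⟨⟨h1, h2, h3⟩, h4⟩
    refine ⟨⟨h1, h2, fun j => ?_⟩, h4⟩
    rw [hout _ _ (h4 j), hout _ _ (h4 j)]
    exact h3 j

/-- **Replacement lemma.** -/
theorem replace_avg (u : Fin l → Bool) (hu : Alt u) (J : Finset (Fin n))
    (hJ : ∀ a ∈ J, ∀ b ∈ J, ∀ c, a ≤ c → c ≤ b → c ∈ J)
    (B : Fin n → Fin n → Bool) (Bt : ℕ → Fin n → Fin n → Bool) (g : ℕ)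
    (hout : ∀ t x c, c ∉ J → Bt t x c = B x c)
    (hpure : ∀ t x y, ∀ c ∈ J, ∀ c' ∈ J,
      ¬ (Bt t x c = true ∧ Bt t y c = false ∧ Bt t x c' = false ∧ Bt t y c' = true))
    (hcnt : ∀ x y, ∑ t ∈ range g, (J.filter fun c => Bt t x c = true ∧ Bt t y c = false).card
        ≤ g * (J.filter fun c => B x c = true ∧ B y c = false).card) :
    ∑ t ∈ range g, (cmcop u (Bt t)).card ≤ g * (cmcop u B).card := by
  classical
  have hlet : ∀ (x y : Fin n) (j : Fin l),
      ∑ t ∈ range g, (J.filter fun c => Bt t x c = u j ∧ Bt t y c = !u j).card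
        ≤ g * (J.filter fun c => B x c = u j ∧ B y c = !u j).card := by
    intro x y j
    cases hj : u j
    · have h := hcnt y x
      have e1 : ∀ M : Fin n → Fin n → Bool,
          (J.filter fun c => M x c = false ∧ M y c = !false)
            = (J.filter fun c => M y c = true ∧ M x c = false) := by
        intro M
        apply filter_congr
        intro c _
        simp only [Bool.not_false]
        exact and_comm
      simp only [e1]
      exact h
    · have h := hcnt x y
      simpa using h
  have hj : ∀ j : Fin l,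
      ∑ t ∈ range g, (cop1 u J (Bt t) j).card ≤ g * (cop1 u J B j).card := by
    intro j
    by_cases hJ0 : J.card = 0
    · have hJe : J = ∅ := card_eq_zero.1 hJ0
      have hemp : ∀ M : Fin n → Fin n → Bool, cop1 u J M j = ∅ := by
        intro M
        unfold cop1
        rw [hJe]
        apply filter_eq_empty_iff.2
        intro e _ h
        exact absurd h.1 (notMem_empty _)
      simp [hemp]
    · have hpos : 0 < J.card := Nat.pos_of_ne_zero hJ0
      have h1 : (∑ t ∈ range g, (cop1 u J (Bt t) j).card) * J.card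
          ≤ (g * (cop1 u J B j).card) * J.card := by
        rw [sum_mul]
        calc ∑ t ∈ range g, (cop1 u J (Bt t) j).card * J.card
            = ∑ t ∈ range g, ∑ e ∈ frame u J B j,
                (J.filter fun c => Bt t e.1 c = u j ∧ Bt t e.2.1 c = !u j).card := by
              apply sum_congr rfl
              intro t _
              exact card_cop1_mul u J hJ B (Bt t) (hout t) j
          _ = ∑ e ∈ frame u J B j, ∑ t ∈ range g,
                (J.filter fun c => Bt t e.1 c = u j ∧ Bt t e.2.1 c = !u j).card := sum_comm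
          _ ≤ ∑ e ∈ frame u J B j,
                g * (J.filter fun c => B e.1 c = u j ∧ B e.2.1 c = !u j).card := by
              apply sum_le_sum
              intro e _
              exact hlet e.1 e.2.1 j
          _ = g * ∑ e ∈ frame u J B j,
                (J.filter fun c => B e.1 c = u j ∧ B e.2.1 c = !u j).card := by
              rw [mul_sum]
          _ = g * ((cop1 u J B j).card * J.card) := by
              rw [card_cop1_mul u J hJ B B (fun _ _ _ => rfl) j]
          _ = (g * (cop1 u J B j).card) * J.card := by ring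
      exact Nat.le_of_mul_le_mul_right h1 hpos
  calc ∑ t ∈ range g, (cmcop u (Bt t)).card
      ≤ ∑ t ∈ range g, ((cop0 u J B).card + ∑ j, (cop1 u J (Bt t) j).card) := by
        apply sum_le_sum
        intro t _
        have h1 := card_le_card (cmcop_subset_pure u hu J hJ (Bt t) (hpure t))
        have h2 := card_union_le (cop0 u J (Bt t)) (univ.biUnion (cop1 u J (Bt t)))
        have h3 : (univ.biUnion (cop1 u J (Bt t))).card ≤ ∑ j, (cop1 u J (Bt t) j).card :=
          card_biUnion_le
        rw [cop0_congr u J B (Bt t) (hout t)] at h1 h2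
        omega
    _ = g * (cop0 u J B).card + ∑ j, ∑ t ∈ range g, (cop1 u J (Bt t) j).card := by
        rw [sum_add_distrib, sum_const, card_range, smul_eq_mul, sum_comm]
    _ ≤ g * (cop0 u J B).card + ∑ j : Fin l, g * (cop1 u J B j).card := by
        apply Nat.add_le_add_left
        apply sum_le_sum
        intro j _
        exact hj j
    _ = g * ((cop0 u J B).card + ∑ j, (cop1 u J B j).card) := by
        rw [mul_add, mul_sum]
    _ ≤ g * (cmcop u B).card := Nat.mul_le_mul_left g (cop_parts_le u J B)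

end Vale.Agent.Lib.P037.CM
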