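import Mathlib
import Vale.Agent.Lib.P037.CMDefs
import Vale.Agent.Lib.P037.Hybrid
import Vale.Agent.Lib.P037.CMReplace

/-!
# P037: complementary rows -- offsets for the coarsening

There are offsets `θ` (one for every column interval) for which the justified and coarsened
matrix `cmat A D g θ` has no more copies of `[u ; not u]` than `A`.  The intervals are
treated one at a time; for one interval the offsets `t < g` are averaged with the
replacement lemma `replace_avg`.
-/

namespace Vale.Agent.Lib.P037.CM

open Finset
open Vale.Agent.Lib.P037

variable {n l : ℕ}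

/-- Hermite's identity: the sum of `(a + t) / g` over `t < g` is `a`. -/
theorem hermite_sum (g : ℕ) (hg : 0 < g) (a : ℕ) : ∑ t ∈ range g, (a + t) / g = a := by
  induction a with
  | zero =>
    apply Finset.sum_eq_zero
    intro t ht
    rw [Finset.mem_range] at ht
    rw [Nat.zero_add]
    exact Nat.div_eq_of_lt ht
  | succ a ih =>
    have h1 : ∑ t ∈ range (g + 1), (a + t) / g
        = ∑ t ∈ range g, (a + 1 + t) / g + a / g := by
      rw [Finset.sum_range_succ']
      congr 1
      apply Finset.sum_congr rfl
      intro t _
      rw [show a + (t + 1) = a + 1 + t by omega]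
    have h2 : ∑ t ∈ range (g + 1), (a + t) / g
        = ∑ t ∈ range g, (a + t) / g + (a + g) / g := Finset.sum_range_succ _ _
    have h3 : (a + g) / g = a / g + 1 := Nat.add_div_right a hg
    omega

/-- Averaged level differences are at most the difference of the sizes. -/
theorem hermite_diff (g : ℕ) (hg : 0 < g) (a b : ℕ) :
    ∑ t ∈ range g, ((a + t) / g - (b + t) / g) ≤ a - b := by
  rcases le_total a b with hab | hab
  · have : ∑ t ∈ range g, ((a + t) / g - (b + t) / g) = 0 := by
      apply Finset.sum_eq_zero
      intro t _
      have : (a + t) / g ≤ (b + t) / g := Nat.div_le_div_right (by omega)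
      omega
    omega
  · have h1 : ∑ t ∈ range g, ((a + t) / g - (b + t) / g) + ∑ t ∈ range g, (b + t) / g
        = ∑ t ∈ range g, (a + t) / g := by
      rw [← Finset.sum_add_distrib]
      apply Finset.sum_congr rfl
      intro t _
      have : (b + t) / g ≤ (a + t) / g := Nat.div_le_div_right (by omega)
      omega
    rw [hermite_sum g hg a, hermite_sum g hg b] at h1
    omega

theorem chyb_in_new (A : Fin n → Fin n → Bool) (D g : ℕ) (θ : ℕ → ℕ) (i t : ℕ)
    (x c : Fin n) (hc : c ∈ blockRows n D i) :
    chyb A D g (Function.update θ i t) (i + 1) x c =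
      decide (1 ≤ (cpos A D c + t) / g ∧ (cpos A D c + t) / g < (csize A D i x + t) / g) := by
  have hc' : c.val / D = i := mem_int.1 hc
  unfold chyb cmat ckap clev
  rw [hc', if_pos (Nat.lt_succ_self i), Function.update_self]

theorem chyb_in_old (A : Fin n → Fin n → Bool) (D g : ℕ) (θ : ℕ → ℕ) (i : ℕ)
    (x c : Fin n) (hc : c ∈ blockRows n D i) : chyb A D g θ i x c = A x c := by
  have hc' : c.val / D = i := mem_int.1 hc
  unfold chyb
  rw [hc', if_neg (lt_irrefl i)]

theorem chyb_out (A : Fin n → Fin n → Bool) (D g : ℕ) (θ : ℕ → ℕ) (i t : ℕ)
    (x c : Fin n) (hc : c ∉ blockRows n D i) :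
    chyb A D g (Function.update θ i t) (i + 1) x c = chyb A D g θ i x c := by
  have hc' : c.val / D ≠ i := fun h => hc (mem_int.2 h)
  unfold chyb cmat ckap clev
  rw [Function.update_of_ne hc']
  by_cases h : c.val / D < i
  · rw [if_pos h, if_pos (by omega)]
  · rw [if_neg h, if_neg (by omega)]

/-- The ones of row `x` inside an interval are ones of row `y` or columns reading `1 0`. -/
theorem csize_diff (A : Fin n → Fin n → Bool) (D i : ℕ) (x y : Fin n) :
    csize A D i x ≤
      ((blockRows n D i).filter fun c => A x c = true ∧ A y c = false).card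
        + csize A D i y := by
  classical
  unfold csize
  refine le_trans (Finset.card_le_card ?_) (Finset.card_union_le _ _)
  intro c hc
  rw [Finset.mem_filter] at hc
  rw [Finset.mem_union, Finset.mem_filter, Finset.mem_filter]
  by_cases h : A y c = true
  · exact Or.inr ⟨hc.1, h⟩
  · exact Or.inl ⟨hc.1, hc.2, by simpa using h⟩

/-- For one offset: the columns of the interval on which the new rows `x`, `y` read `1 0`
number at most `g` times the difference of the levels. -/
theorem new_count_le (A : Fin n → Fin n → Bool) (D g : ℕ) (hg : 0 < g) (i t : ℕ)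
    (x y : Fin n) :
    ((blockRows n D i).filter fun c =>
        decide (1 ≤ (cpos A D c + t) / g ∧ (cpos A D c + t) / g < (csize A D i x + t) / g) = true ∧
        decide (1 ≤ (cpos A D c + t) / g ∧ (cpos A D c + t) / g < (csize A D i y + t) / g)
          = false).card
      ≤ g * ((csize A D i x + t) / g - (csize A D i y + t) / g) := by
  classical
  set ka := (csize A D i x + t) / g with hka
  set kb := (csize A D i y + t) / g with hkb
  have hsub : ((blockRows n D i).filter fun c =>
        decide (1 ≤ (cpos A D c + t) / g ∧ (cpos A D c + t) / g < ka) = true ∧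
        decide (1 ≤ (cpos A D c + t) / g ∧ (cpos A D c + t) / g < kb) = false)
      ⊆ (blockRows n D i).filter fun c => g * kb ≤ cpos A D c + t ∧ cpos A D c + t < g * ka := by
    intro c hc
    rw [Finset.mem_filter] at hc ⊢
    obtain ⟨hcJ, h1, h2⟩ := hc
    rw [decide_eq_true_eq] at h1
    rw [decide_eq_false_iff_not] at h2
    refine ⟨hcJ, ?_, ?_⟩
    · have h3 : kb ≤ (cpos A D c + t) / g := by
        by_contra h
        exact h2 ⟨h1.1, by omega⟩
      calc g * kb ≤ g * ((cpos A D c + t) / g) := Nat.mul_le_mul_left g h3
        _ ≤ cpos A D c + t := Nat.mul_div_le _ _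
    · have h3 : (cpos A D c + t) / g + 1 ≤ ka := h1.2
      calc cpos A D c + t < g * ((cpos A D c + t) / g + 1) := Nat.lt_mul_div_succ _ hg
        _ ≤ g * ka := Nat.mul_le_mul_left g h3
  have hcard : ((blockRows n D i).filter fun c =>
      g * kb ≤ cpos A D c + t ∧ cpos A D c + t < g * ka).card
      ≤ (Finset.Ico (g * kb) (g * ka)).card := by
    apply Finset.card_le_card_of_injOn (fun c => cpos A D c + t)
    · intro c hc
      have hc' := (Finset.mem_filter.1 (Finset.mem_coe.1 hc)).2
      exact Finset.mem_coe.2 (Finset.mem_Ico.2 hc')
    · intro c hc c' hc' h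
      have hc1 := (Finset.mem_filter.1 (Finset.mem_coe.1 hc)).1
      have hc2 := (Finset.mem_filter.1 (Finset.mem_coe.1 hc')).1
      apply cpos_injOn A D i (Finset.mem_coe.2 hc1) (Finset.mem_coe.2 hc2)
      have h' : cpos A D c + t = cpos A D c' + t := h
      omega
  rw [Nat.card_Ico] at hcard
  calc _ ≤ _ := Finset.card_le_card hsub
    _ ≤ g * ka - g * kb := hcard
    _ = g * (ka - kb) := (Nat.mul_sub g ka kb).symm

/-- There are offsets for which the justified and coarsened matrix has no more copies of
`[u ; not u]` than `A` (all intervals with index below `i` treated). -/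
theorem exists_offsets_hyb (u : Fin l → Bool) (hu : Alt u) (A : Fin n → Fin n → Bool)
    (D g : ℕ) (hg : 0 < g) :
    ∀ i, ∃ θ : ℕ → ℕ, (∀ j, θ j < g) ∧
      (cmcop u (chyb A D g θ i)).card ≤ (cmcop u A).card := by
  classical
  intro i
  induction i with
  | zero => exact ⟨fun _ => 0, fun _ => hg, by rw [chyb_zero]⟩
  | succ i ih =>
    obtain ⟨θ, hθ, hN⟩ := ih
    have key : ∑ t ∈ range g, (cmcop u (chyb A D g (Function.update θ i t) (i + 1))).card
        ≤ g * (cmcop u (chyb A D g θ i)).card := by
      apply replace_avg u hu (blockRows n D i) (blockRows_convex D i) (chyb A D g θ i)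
        (fun t => chyb A D g (Function.update θ i t) (i + 1)) g
      · intro t x c hc
        exact chyb_out A D g θ i t x c hc
      · intro t x y c hc c' hc'
        rw [chyb_in_new A D g θ i t x c hc, chyb_in_new A D g θ i t y c hc,
          chyb_in_new A D g θ i t x c' hc', chyb_in_new A D g θ i t y c' hc']
        simp only [decide_eq_true_eq, decide_eq_false_iff_not]
        intro h
        omega
      · intro x y
        have e1 : ∀ t, ((blockRows n D i).filter fun c =>
            chyb A D g (Function.update θ i t) (i + 1) x c = true ∧
            chyb A D g (Function.update θ i t) (i + 1) y c = false)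
            = (blockRows n D i).filter fun c =>
              decide (1 ≤ (cpos A D c + t) / g ∧
                (cpos A D c + t) / g < (csize A D i x + t) / g) = true ∧
              decide (1 ≤ (cpos A D c + t) / g ∧
                (cpos A D c + t) / g < (csize A D i y + t) / g) = false := by
          intro t
          apply Finset.filter_congr
          intro c hc
          rw [chyb_in_new A D g θ i t x c hc, chyb_in_new A D g θ i t y c hc]
        have e2 : ((blockRows n D i).filter fun c =>
            chyb A D g θ i x c = true ∧ chyb A D g θ i y c = false)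
            = (blockRows n D i).filter fun c => A x c = true ∧ A y c = false := by
          apply Finset.filter_congr
          intro c hc
          rw [chyb_in_old A D g θ i x c hc, chyb_in_old A D g θ i y c hc]
        simp only [e1]
        rw [e2]
        calc ∑ t ∈ range g, ((blockRows n D i).filter fun c =>
              decide (1 ≤ (cpos A D c + t) / g ∧
                (cpos A D c + t) / g < (csize A D i x + t) / g) = true ∧
              decide (1 ≤ (cpos A D c + t) / g ∧
                (cpos A D c + t) / g < (csize A D i y + t) / g) = false).card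
            ≤ ∑ t ∈ range g, g * ((csize A D i x + t) / g - (csize A D i y + t) / g) :=
              Finset.sum_le_sum fun t _ => new_count_le A D g hg i t x y
          _ = g * ∑ t ∈ range g, ((csize A D i x + t) / g - (csize A D i y + t) / g) := by
              rw [Finset.mul_sum]
          _ ≤ g * (csize A D i x - csize A D i y) :=
              Nat.mul_le_mul_left g (hermite_diff g hg _ _)
          _ ≤ g * ((blockRows n D i).filter fun c => A x c = true ∧ A y c = false).card := by
              apply Nat.mul_le_mul_left g
              have := csize_diff A D i x y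
              omega
    have hex : ∃ t ∈ range g, (cmcop u (chyb A D g (Function.update θ i t) (i + 1))).card
        ≤ (cmcop u (chyb A D g θ i)).card := by
      apply Finset.exists_le_of_sum_le (Finset.nonempty_range_iff.mpr hg.ne')
      rw [Finset.sum_const, Finset.card_range, smul_eq_mul]
      exact key
    obtain ⟨t, ht, hle⟩ := hex
    refine ⟨Function.update θ i t, ?_, le_trans hle hN⟩
    intro j
    by_cases hj : j = i
    · rw [hj, Function.update_self]
      exact Finset.mem_range.mp ht
    · rw [Function.update_of_ne hj]
      exact hθ j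

/-- There are offsets `θ < g` for which the justified and coarsened matrix `cmat A D g θ`
has no more copies of `[u ; not u]` than `A`. -/
theorem exists_offsets_cm (u : Fin l → Bool) (hu : Alt u) (A : Fin n → Fin n → Bool)
    (D g : ℕ) (hD : 0 < D) (hg : 0 < g) :
    ∃ θ : ℕ → ℕ, (∀ i, θ i < g) ∧ (cmcop u (cmat A D g θ)).card ≤ (cmcop u A).card := by
  obtain ⟨θ, hθ, h⟩ := exists_offsets_hyb u hu A D g hg (n / D + 1)
  rw [chyb_top A D g θ hD] at h
  exact ⟨θ, hθ, h⟩

end Vale.Agent.Lib.P037.CM
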