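import Mathlib
import Vale.Agent.Lib.P037.CMDefs
import Vale.Agent.Lib.P037.CMCost
import Vale.Agent.Lib.P037.CMOffsets
import Vale.Agent.Lib.P037.CMMix
import Vale.Agent.Lib.P037.CMKill
import Vale.Agent.Lib.P037.Blowup

/-!
# P037: complementary-rows two-row patterns -- assembly

`cm_removal`: for every alternating word `u` of length `l ≥ 2`, the two-row pattern
`[u ; not u]` satisfies a polynomial removal bound (in the `PRemoval` shape of
`Blowup.lean`), with exponent `10 * l + 16`.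
-/

namespace Vale.Agent.Lib.P037.CM

open Finset
open Vale.Agent.Lib.P037

variable {n l : ℕ}

/-- The two-row pattern `[u ; not u]`. -/
def cmPat (u : Fin l → Bool) : Fin 2 → Fin l → Bool := fun i j => if i = 0 then u j else !u j

/-- Every copy counted by `cmcop` is a copy of `cmPat u` in the sense of `Blowup.pcop`. -/
theorem cmcop_card_le (u : Fin l → Bool) (A : Fin n → Fin n → Bool) :
    (cmcop u A).card ≤ (Blowup.pcop (cmPat u) A).card := by
  classical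
  apply Finset.card_le_card_of_injOn (fun t => ((![t.1, t.2.1] : Fin 2 → Fin n), t.2.2))
  · intro t ht
    have ht' := Finset.mem_filter.mp (Finset.mem_coe.mp ht)
    obtain ⟨_, hxy, hγ, hcopy⟩ := ht'
    rw [Finset.mem_coe]
    unfold Blowup.pcop
    refine Finset.mem_filter.mpr ⟨Finset.mem_univ _, Blowup.strictMono_pair hxy, hγ, ?_⟩
    intro i j
    fin_cases i
    · simpa [cmPat] using (hcopy j).1
    · simpa [cmPat] using (hcopy j).2
  · intro t _ t' _ h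
    have h1 := congrArg Prod.fst h
    have h2 := congrArg Prod.snd h
    have h10 := congrFun h1 0
    have h11 := congrFun h1 1
    simp only [Matrix.cons_val_zero, Matrix.cons_val_one] at h10 h11
    exact Prod.ext h10 (Prod.ext h11 h2)

/-- A matrix without copies in the sense of `cmcop` is `cmPat u`-free. -/
theorem pfree_of_cmcop_empty (u : Fin l → Bool) (B : Fin n → Fin n → Bool)
    (h : cmcop u B = ∅) : Blowup.PFree (cmPat u) B := by
  intro ρ γ hρ hγ hcopy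
  have hmem : (ρ 0, ρ 1, γ) ∈ cmcop u B := by
    unfold cmcop
    refine Finset.mem_filter.mpr ⟨Finset.mem_univ _, hρ (by decide), hγ, fun j => ⟨?_, ?_⟩⟩
    · have h0 := hcopy 0 j
      simpa [cmPat] using h0
    · have h1 := hcopy 1 j
      simpa [cmPat] using h1
  rw [h] at hmem
  exact absurd hmem (Finset.notMem_empty _)

/-- Changing only the rows of `Z` changes at most `n * |Z|` entries. -/
theorem zero_rows_cost (M B : Fin n → Fin n → Bool) (Z : Finset (Fin n))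
    (hB : ∀ x c, x ∉ Z → B x c = M x c) :
    (univ.filter fun p : Fin n × Fin n => M p.1 p.2 ≠ B p.1 p.2).card ≤ n * Z.card := by
  classical
  calc (univ.filter fun p : Fin n × Fin n => M p.1 p.2 ≠ B p.1 p.2).card
      ≤ (Z ×ˢ (univ : Finset (Fin n))).card := by
        apply Finset.card_le_card
        intro p hp
        have h := (Finset.mem_filter.mp hp).2
        rw [Finset.mem_product]
        refine ⟨?_, Finset.mem_univ _⟩
        by_contra hZ
        exact h (hB p.1 p.2 hZ).symm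
    _ = n * Z.card := by
        rw [Finset.card_product, Finset.card_univ, Fintype.card_fin, Nat.mul_comm]

/-- Arithmetic of the case in which the final row deletion carries the distance. -/
theorem cm_arith_z (l n q N a g I e z : ℕ)
    (hn2 : n ≤ 2 * q * z) (hz : z ^ 2 * g ^ l ≤ 4 * (I * e) ^ l * N)
    (hI : I ≤ 2 * a) (he : e ≤ 34 * q) (hng : n ≤ 64 * a * q * g) :
    n ^ (l + 2) ≤ 16 * q ^ 2 * ((64 * a * q) * (68 * a * q)) ^ l * N := by
  have h1 : n ^ l ≤ (64 * a * q) ^ l * g ^ l := by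
    rw [← mul_pow]
    exact Nat.pow_le_pow_left hng l
  have h2 : n ^ 2 ≤ 4 * q ^ 2 * z ^ 2 := by
    calc n ^ 2 ≤ (2 * q * z) ^ 2 := Nat.pow_le_pow_left hn2 2
      _ = 4 * q ^ 2 * z ^ 2 := by ring
  have h3 : (I * e) ^ l ≤ (68 * a * q) ^ l := by
    apply Nat.pow_le_pow_left
    calc I * e ≤ (2 * a) * (34 * q) := Nat.mul_le_mul hI he
      _ = 68 * a * q := by ring
  calc n ^ (l + 2) = n ^ l * n ^ 2 := by rw [pow_add]
    _ ≤ ((64 * a * q) ^ l * g ^ l) * (4 * q ^ 2 * z ^ 2) := Nat.mul_le_mul h1 h2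
    _ = 4 * q ^ 2 * (64 * a * q) ^ l * (z ^ 2 * g ^ l) := by ring
    _ ≤ 4 * q ^ 2 * (64 * a * q) ^ l * (4 * (I * e) ^ l * N) := Nat.mul_le_mul_left _ hz
    _ ≤ 4 * q ^ 2 * (64 * a * q) ^ l * (4 * (68 * a * q) ^ l * N) := by
        apply Nat.mul_le_mul_left
        apply Nat.mul_le_mul_right
        exact Nat.mul_le_mul_left _ h3
    _ = 16 * q ^ 2 * ((64 * a * q) * (68 * a * q)) ^ l * N := by
        rw [mul_pow (64 * a * q) (68 * a * q) l]
        ring

/-- Arithmetic of the case in which the justification carries the distance. -/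
theorem cm_arith_s (l n q N D k0 I S Mix : ℕ) (hn : 0 < n)
    (hS4 : n ^ 2 ≤ 4 * q * S)
    (hS : S ^ 4 ≤ I ^ 3 * (16 * n ^ 2 * D ^ 2 * Mix))
    (hMix : k0 ^ l * Mix ≤ k0 ^ l * (n ^ 2 * (l * D ^ 2 + I * k0 * D)) + I * D ^ 2 * N)
    (hID : I * D ≤ 2 * n)
    (haD : 2 ^ 17 * l * q ^ 4 * D ≤ n)
    (hbk : 2 ^ 18 * q ^ 4 * k0 ≤ D) :
    k0 ^ l * n ^ 2 ≤ 2 ^ 17 * q ^ 4 * N := by
  set X : ℕ := k0 ^ l with hX
  have e1 : 4 * (4096 * q ^ 4 * n ^ 4 * l * I ^ 3 * D ^ 4) ≤ n ^ 8 := by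
    calc 4 * (4096 * q ^ 4 * n ^ 4 * l * I ^ 3 * D ^ 4)
        = 2 ^ 14 * q ^ 4 * l * n ^ 4 * D * (I * D) ^ 3 := by ring
      _ ≤ 2 ^ 14 * q ^ 4 * l * n ^ 4 * D * (2 * n) ^ 3 :=
          Nat.mul_le_mul_left _ (Nat.pow_le_pow_left hID 3)
      _ = (2 ^ 17 * l * q ^ 4 * D) * n ^ 7 := by ring
      _ ≤ n * n ^ 7 := Nat.mul_le_mul_right _ haD
      _ = n ^ 8 := by ring
  have e2 : 4 * (4096 * q ^ 4 * n ^ 4 * I ^ 4 * D ^ 3 * k0) ≤ n ^ 8 := by
    have h16 : 16 * (4 * (4096 * q ^ 4 * n ^ 4 * I ^ 4 * D ^ 3 * k0)) ≤ 16 * n ^ 8 := by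
      calc 16 * (4 * (4096 * q ^ 4 * n ^ 4 * I ^ 4 * D ^ 3 * k0))
          = (2 ^ 18 * q ^ 4 * k0) * (n ^ 4 * I ^ 4 * D ^ 3) := by ring
        _ ≤ D * (n ^ 4 * I ^ 4 * D ^ 3) := Nat.mul_le_mul_right _ hbk
        _ = n ^ 4 * (I * D) ^ 4 := by ring
        _ ≤ n ^ 4 * (2 * n) ^ 4 := Nat.mul_le_mul_left _ (Nat.pow_le_pow_left hID 4)
        _ = 16 * n ^ 8 := by ring
    omega
  have e3 : 4096 * q ^ 4 * n ^ 2 * I ^ 4 * D ^ 4 * N ≤ 2 ^ 16 * q ^ 4 * n ^ 6 * N := by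
    calc 4096 * q ^ 4 * n ^ 2 * I ^ 4 * D ^ 4 * N
        = 4096 * q ^ 4 * n ^ 2 * N * (I * D) ^ 4 := by ring
      _ ≤ 4096 * q ^ 4 * n ^ 2 * N * (2 * n) ^ 4 :=
          Nat.mul_le_mul_left _ (Nat.pow_le_pow_left hID 4)
      _ = 2 ^ 16 * q ^ 4 * n ^ 6 * N := by ring
  have h8 : n ^ 8 ≤ 256 * q ^ 4 * (I ^ 3 * (16 * n ^ 2 * D ^ 2 * Mix)) := by
    calc n ^ 8 = (n ^ 2) ^ 4 := by ring
      _ ≤ (4 * q * S) ^ 4 := Nat.pow_le_pow_left hS4 4
      _ = 256 * q ^ 4 * S ^ 4 := by ring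
      _ ≤ 256 * q ^ 4 * (I ^ 3 * (16 * n ^ 2 * D ^ 2 * Mix)) := Nat.mul_le_mul_left _ hS
  have main : X * n ^ 8 ≤ X * (4096 * q ^ 4 * n ^ 4 * l * I ^ 3 * D ^ 4)
      + X * (4096 * q ^ 4 * n ^ 4 * I ^ 4 * D ^ 3 * k0)
      + 4096 * q ^ 4 * n ^ 2 * I ^ 4 * D ^ 4 * N := by
    calc X * n ^ 8 ≤ X * (256 * q ^ 4 * (I ^ 3 * (16 * n ^ 2 * D ^ 2 * Mix))) :=
          Nat.mul_le_mul_left _ h8
      _ = 4096 * q ^ 4 * I ^ 3 * n ^ 2 * D ^ 2 * (X * Mix) := by ring
      _ ≤ 4096 * q ^ 4 * I ^ 3 * n ^ 2 * D ^ 2 *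
            (X * (n ^ 2 * (l * D ^ 2 + I * k0 * D)) + I * D ^ 2 * N) :=
          Nat.mul_le_mul_left _ hMix
      _ = X * (4096 * q ^ 4 * n ^ 4 * l * I ^ 3 * D ^ 4)
          + X * (4096 * q ^ 4 * n ^ 4 * I ^ 4 * D ^ 3 * k0)
          + 4096 * q ^ 4 * n ^ 2 * I ^ 4 * D ^ 4 * N := by ring
  have f1 : 4 * (X * (4096 * q ^ 4 * n ^ 4 * l * I ^ 3 * D ^ 4)) ≤ X * n ^ 8 := by
    calc 4 * (X * (4096 * q ^ 4 * n ^ 4 * l * I ^ 3 * D ^ 4))
        = X * (4 * (4096 * q ^ 4 * n ^ 4 * l * I ^ 3 * D ^ 4)) := by ring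
      _ ≤ X * n ^ 8 := Nat.mul_le_mul_left _ e1
  have f2 : 4 * (X * (4096 * q ^ 4 * n ^ 4 * I ^ 4 * D ^ 3 * k0)) ≤ X * n ^ 8 := by
    calc 4 * (X * (4096 * q ^ 4 * n ^ 4 * I ^ 4 * D ^ 3 * k0))
        = X * (4 * (4096 * q ^ 4 * n ^ 4 * I ^ 4 * D ^ 3 * k0)) := by ring
      _ ≤ X * n ^ 8 := Nat.mul_le_mul_left _ e2
  have f3 : X * n ^ 8 ≤ 2 ^ 17 * q ^ 4 * n ^ 6 * N := by
    have e3' : 2 ^ 17 * q ^ 4 * n ^ 6 * N = 2 * (2 ^ 16 * q ^ 4 * n ^ 6 * N) := by ring
    omega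
  have hn6 : 0 < n ^ 6 := by positivity
  have f4 : n ^ 6 * (X * n ^ 2) ≤ n ^ 6 * (2 ^ 17 * q ^ 4 * N) := by
    calc n ^ 6 * (X * n ^ 2) = X * n ^ 8 := by ring
      _ ≤ 2 ^ 17 * q ^ 4 * n ^ 6 * N := f3
      _ = n ^ 6 * (2 ^ 17 * q ^ 4 * N) := by ring
  exact Nat.le_of_mul_le_mul_left f4 hn6

/-- Collecting constants. -/
theorem final_const (l q M c e : ℕ) (hq : 1 ≤ q) (hc : c ≤ M ^ 2) (he : e ≤ 16) :
    c * q ^ e * (M * q ^ 10) ^ l ≤ M ^ (l + 2) * q ^ (10 * l + 16) := by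
  have h1 : q ^ e ≤ q ^ 16 := Nat.pow_le_pow_right hq he
  calc c * q ^ e * (M * q ^ 10) ^ l ≤ M ^ 2 * q ^ 16 * (M * q ^ 10) ^ l :=
        Nat.mul_le_mul_right _ (Nat.mul_le_mul hc h1)
    _ = M ^ (l + 2) * q ^ (10 * l + 16) := by
        rw [mul_pow, ← pow_mul, pow_add, pow_add]
        ring

/-- Natural-number form of the removal bound for `[u ; not u]`, `u` alternating. -/
theorem cm_nat (l : ℕ) (hl : 2 ≤ l) (u : Fin l → Bool) (hu : Alt u) (n q : ℕ) (hq : 1 ≤ q)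
    (A : Fin n → Fin n → Bool)
    (hfar : ∀ B : Fin n → Fin n → Bool, cmcop u B = ∅ →
      n ^ 2 ≤ q * (univ.filter fun p : Fin n × Fin n => A p.1 p.2 ≠ B p.1 p.2).card) :
    n ^ (l + 2) ≤ (2 ^ 47 * l ^ 2) ^ (l + 2) * q ^ (10 * l + 16) * (cmcop u A).card := by
  classical
  by_cases hn0 : n = 0
  · subst hn0
    simp
  have hnpos : 0 < n := Nat.pos_of_ne_zero hn0
  have hN : 1 ≤ (cmcop u A).card := by
    by_contra h
    have h0 : (cmcop u A).card = 0 := by omega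
    have hA : cmcop u A = ∅ := Finset.card_eq_zero.mp h0
    have h1 := hfar A hA
    have hz : (univ.filter fun p : Fin n × Fin n => A p.1 p.2 ≠ A p.1 p.2).card = 0 := by
      simp
    rw [hz, Nat.mul_zero] at h1
    have h2 : 0 < n ^ 2 := by positivity
    omega
  have hl1 : 1 ≤ l := by omega
  have hll : l ≤ l ^ 2 := by nlinarith
  obtain ⟨M, hM⟩ : ∃ M : ℕ, M = 2 ^ 47 * l ^ 2 := ⟨_, rfl⟩
  rw [← hM]
  have hM47 : 2 ^ 47 ≤ M := by
    rw [hM]
    have : 1 ≤ l ^ 2 := by nlinarith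
    omega
  have hMsq : 2 ^ 17 ≤ M ^ 2 := le_trans (by norm_num) (Nat.pow_le_pow_left hM47 2)
  have hq8 : q ^ 8 ≤ q ^ 10 := Nat.pow_le_pow_right hq (by norm_num)
  by_cases hsm : n < 2 ^ 35 * l * q ^ 8
  · have h1 : n ≤ M * q ^ 8 := by
      calc n ≤ 2 ^ 35 * l * q ^ 8 := le_of_lt hsm
        _ ≤ M * q ^ 8 := by
            apply Nat.mul_le_mul_right
            rw [hM]
            omega
    calc n ^ (l + 2) ≤ (M * q ^ 8) ^ (l + 2) := Nat.pow_le_pow_left h1 _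
      _ = M ^ (l + 2) * q ^ (8 * (l + 2)) := by rw [mul_pow, ← pow_mul]
      _ ≤ M ^ (l + 2) * q ^ (10 * l + 16) :=
          Nat.mul_le_mul_left _ (Nat.pow_le_pow_right hq (by omega))
      _ ≤ M ^ (l + 2) * q ^ (10 * l + 16) * (cmcop u A).card := Nat.le_mul_of_pos_right _ hN
  · have hn : 2 ^ 35 * l * q ^ 8 ≤ n := not_lt.mp hsm
    obtain ⟨a, ha⟩ : ∃ a : ℕ, a = 2 ^ 17 * l * q ^ 4 := ⟨_, rfl⟩
    obtain ⟨b, hb⟩ : ∃ b : ℕ, b = 2 ^ 18 * q ^ 4 := ⟨_, rfl⟩
    have hq4 : 1 ≤ q ^ 4 := Nat.one_le_pow _ _ hq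
    have hqq4 : q ≤ q ^ 4 := by
      calc q = q ^ 1 := (pow_one q).symm
        _ ≤ q ^ 4 := Nat.pow_le_pow_right hq (by norm_num)
    have hapos : 0 < a := by
      rw [ha]
      positivity
    have hbpos : 0 < b := by
      rw [hb]
      positivity
    obtain ⟨D, hD⟩ : ∃ D : ℕ, D = n / a := ⟨_, rfl⟩
    obtain ⟨g, hg⟩ : ∃ g : ℕ, g = D / (16 * q) := ⟨_, rfl⟩
    obtain ⟨k0, hk0⟩ : ∃ k0 : ℕ, k0 = D / b := ⟨_, rfl⟩
    have hab : b * a ≤ n := by
      calc b * a = 2 ^ 35 * l * q ^ 8 := by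
            rw [ha, hb]
            ring
        _ ≤ n := hn
    have hDb : b ≤ D := by
      rw [hD, Nat.le_div_iff_mul_le hapos]
      exact hab
    have hb16 : 16 * q ≤ b := by
      rw [hb]
      omega
    have hDpos : 0 < D := by omega
    have hD1 : a * D ≤ n := by
      rw [hD]
      exact Nat.mul_div_le n a
    have hD2 : n < a * (D + 1) := by
      rw [hD]
      exact Nat.lt_mul_div_succ n hapos
    have hD3 : n < 2 * a * D := by nlinarith
    have h16 : 0 < 16 * q := by omega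
    have hg1 : 16 * q * g ≤ D := by
      rw [hg]
      exact Nat.mul_div_le D (16 * q)
    have hg2 : D < 16 * q * (g + 1) := by
      rw [hg]
      exact Nat.lt_mul_div_succ D h16
    have hgpos : 0 < g := by
      rw [hg, Nat.lt_iff_add_one_le, Nat.le_div_iff_mul_le h16]
      omega
    have hg3 : D < 32 * q * g := by nlinarith
    have hk1 : b * k0 ≤ D := by
      rw [hk0]
      exact Nat.mul_div_le D b
    have hk2 : D < b * (k0 + 1) := by
      rw [hk0]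
      exact Nat.lt_mul_div_succ D hbpos
    have hkpos : 0 < k0 := by
      rw [hk0, Nat.lt_iff_add_one_le, Nat.le_div_iff_mul_le hbpos]
      omega
    have hk3 : D < 2 * b * k0 := by nlinarith
    have hDn : D ≤ n := le_trans (Nat.le_mul_of_pos_left D hapos) hD1
    have hID : (n / D + 1) * D ≤ 2 * n := by
      have := Nat.div_mul_le_self n D
      nlinarith
    have hI2 : n / D + 1 ≤ 2 * a := by
      have : n / D < 2 * a := by
        rw [Nat.div_lt_iff_lt_mul hDpos]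
        exact hD3
      omega
    have he : D / g + 2 ≤ 34 * q := by
      have : D / g < 32 * q := by
        rw [Nat.div_lt_iff_lt_mul hgpos]
        exact hg3
      omega
    have ht : ∃ j, u j = true ∧ True := by
      have h01 := hu ⟨0, by omega⟩ ⟨1, by omega⟩ rfl
      cases h : u ⟨0, by omega⟩
      · rw [h] at h01
        exact ⟨⟨1, by omega⟩, h01, trivial⟩
      · exact ⟨⟨0, by omega⟩, h, trivial⟩
    have hf : ∃ j, u j = false ∧ True := by
      have h01 := hu ⟨0, by omega⟩ ⟨1, by omega⟩ rfl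
      cases h : u ⟨0, by omega⟩
      · exact ⟨⟨0, by omega⟩, h, trivial⟩
      · rw [h] at h01
        exact ⟨⟨1, by omega⟩, h01, trivial⟩
    obtain ⟨jt, hjt, _⟩ := ht
    obtain ⟨jf, hjf, _⟩ := hf
    obtain ⟨θ, hθ, hNθ⟩ := exists_offsets_cm u hu A D g hDpos hgpos
    obtain ⟨Z, hZ1, hZ2⟩ := cm_kill u hu ⟨jt, hjt⟩ ⟨jf, hjf⟩ A D g hDpos hgpos θ hθ
    obtain ⟨B, hB⟩ : ∃ B : Fin n → Fin n → Bool,
        B = fun x c => if x ∈ Z then false else cmat A D g θ x c := ⟨_, rfl⟩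
    rw [← hB] at hZ2
    have hfarB := hfar B hZ2
    have hcost := cmat_cost A D g hDpos hgpos θ hθ
    have hzero := zero_rows_cost (cmat A D g θ) B Z (fun x c hx => by
      rw [hB]
      simp only [if_neg hx])
    have htri := diff_triangle A (cmat A D g θ) B
    have hS := just_cost A D hDpos
    have hMix := mix_cm u hu A D k0 hDpos hkpos
    obtain ⟨S, hSdef⟩ : ∃ S : ℕ, S = ∑ i ∈ range (n / D + 1), ∑ c ∈ blockRows n D i,
        (univ.filter fun x => tr A c x ≠ sorted (tr A) D c x).card := ⟨_, rfl⟩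
    obtain ⟨Mix, hMixdef⟩ : ∃ Mix : ℕ,
        Mix = ∑ i ∈ range (n / D + 1), mixB (tr A) (blockRows n D i) := ⟨_, rfl⟩
    obtain ⟨d, hddef⟩ : ∃ d : ℕ,
        d = (univ.filter fun p : Fin n × Fin n => A p.1 p.2 ≠ B p.1 p.2).card := ⟨_, rfl⟩
    rw [← hSdef] at hcost hS
    rw [← hMixdef] at hS hMix
    rw [← hddef] at hfarB htri
    have hd : d ≤ S + 2 * g * n * (n / D + 1) + n * Z.card := by omega
    have hz : Z.card ^ 2 * g ^ l ≤ 4 * ((n / D + 1) * (D / g + 2)) ^ l * (cmcop u A).card :=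
      le_trans hZ1 (Nat.mul_le_mul_left _ hNθ)
    by_cases hSs : 4 * q * S ≤ n ^ 2
    · have hT2 : 4 * (q * (2 * g * n * (n / D + 1))) ≤ n ^ 2 := by
        have h2 : 2 * (4 * (q * (2 * g * n * (n / D + 1)))) ≤ 2 * n ^ 2 := by
          calc 2 * (4 * (q * (2 * g * n * (n / D + 1))))
              = (16 * q * g) * (n * (n / D + 1)) := by ring
            _ ≤ D * (n * (n / D + 1)) := Nat.mul_le_mul_right _ hg1
            _ = n * ((n / D + 1) * D) := by ring
            _ ≤ n * (2 * n) := Nat.mul_le_mul_left _ hID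
            _ = 2 * n ^ 2 := by ring
        omega
      have h3 : n ^ 2 ≤ 2 * (q * (n * Z.card)) := by
        have h4 : q * d ≤ q * (S + 2 * g * n * (n / D + 1) + n * Z.card) :=
          Nat.mul_le_mul_left _ hd
        have h5 : q * (S + 2 * g * n * (n / D + 1) + n * Z.card)
            = q * S + q * (2 * g * n * (n / D + 1)) + q * (n * Z.card) := by ring
        have h6 : 4 * (q * S) ≤ n ^ 2 := by
          calc 4 * (q * S) = 4 * q * S := by ring
            _ ≤ n ^ 2 := hSs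
        omega
      have hn2 : n ≤ 2 * q * Z.card := by
        have h4 : n * n ≤ n * (2 * q * Z.card) := by
          calc n * n = n ^ 2 := by ring
            _ ≤ 2 * (q * (n * Z.card)) := h3
            _ = n * (2 * q * Z.card) := by ring
        exact Nat.le_of_mul_le_mul_left h4 hnpos
      have hng : n ≤ 64 * a * q * g := by
        calc n ≤ 2 * a * D := le_of_lt hD3
          _ ≤ 2 * a * (32 * q * g) := Nat.mul_le_mul_left _ (le_of_lt hg3)
          _ = 64 * a * q * g := by ring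
      have hres := cm_arith_z l n q (cmcop u A).card a g (n / D + 1) (D / g + 2) Z.card
        hn2 hz hI2 he hng
      have hc : (64 * a * q) * (68 * a * q) ≤ M * q ^ 10 := by
        calc (64 * a * q) * (68 * a * q) = 4352 * 2 ^ 34 * (l ^ 2 * q ^ 10) := by
              rw [ha]
              ring
          _ ≤ 2 ^ 47 * (l ^ 2 * q ^ 10) := Nat.mul_le_mul_right _ (by norm_num)
          _ = M * q ^ 10 := by
              rw [hM]
              ring
      calc n ^ (l + 2) ≤ 16 * q ^ 2 * ((64 * a * q) * (68 * a * q)) ^ l * (cmcop u A).card :=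
            hres
        _ ≤ 16 * q ^ 2 * (M * q ^ 10) ^ l * (cmcop u A).card := by
            apply Nat.mul_le_mul_right
            apply Nat.mul_le_mul_left
            exact Nat.pow_le_pow_left hc l
        _ ≤ M ^ (l + 2) * q ^ (10 * l + 16) * (cmcop u A).card := by
            apply Nat.mul_le_mul_right
            exact final_const l q M 16 2 hq (le_trans (by norm_num) hMsq) (by norm_num)
    · have hS4 : n ^ 2 ≤ 4 * q * S := le_of_lt (not_le.mp hSs)
      have haD : 2 ^ 17 * l * q ^ 4 * D ≤ n := by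
        rw [← ha]
        exact hD1
      have hbk : 2 ^ 18 * q ^ 4 * k0 ≤ D := by
        rw [← hb]
        exact hk1
      have hres := cm_arith_s l n q (cmcop u A).card D k0 (n / D + 1) S Mix hnpos hS4 hS hMix
        hID haD hbk
      have hnk : n ≤ 4 * a * b * k0 := by
        calc n ≤ 2 * a * D := le_of_lt hD3
          _ ≤ 2 * a * (2 * b * k0) := Nat.mul_le_mul_left _ (le_of_lt hk3)
          _ = 4 * a * b * k0 := by ring
      have hc : 4 * a * b ≤ M * q ^ 10 := by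
        calc 4 * a * b = 2 ^ 37 * l * q ^ 8 := by
              rw [ha, hb]
              ring
          _ ≤ 2 ^ 47 * l ^ 2 * q ^ 10 := by
              apply Nat.mul_le_mul _ hq8
              have : 2 ^ 37 * l ≤ 2 ^ 47 * l := Nat.mul_le_mul_right _ (by norm_num)
              have : 2 ^ 47 * l ≤ 2 ^ 47 * l ^ 2 := Nat.mul_le_mul_left _ hll
              omega
          _ = M * q ^ 10 := by rw [hM]
      calc n ^ (l + 2) = n ^ l * n ^ 2 := by rw [pow_add]
        _ ≤ (4 * a * b * k0) ^ l * n ^ 2 :=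
            Nat.mul_le_mul_right _ (Nat.pow_le_pow_left hnk l)
        _ = (4 * a * b) ^ l * (k0 ^ l * n ^ 2) := by
            rw [mul_pow (4 * a * b) k0 l]
            ring
        _ ≤ (4 * a * b) ^ l * (2 ^ 17 * q ^ 4 * (cmcop u A).card) :=
            Nat.mul_le_mul_left _ hres
        _ ≤ (M * q ^ 10) ^ l * (2 ^ 17 * q ^ 4 * (cmcop u A).card) :=
            Nat.mul_le_mul_right _ (Nat.pow_le_pow_left hc l)
        _ = 2 ^ 17 * q ^ 4 * (M * q ^ 10) ^ l * (cmcop u A).card := by ring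
        _ ≤ M ^ (l + 2) * q ^ (10 * l + 16) * (cmcop u A).card := by
            apply Nat.mul_le_mul_right
            exact final_const l q M (2 ^ 17) 4 hq hMsq (by norm_num)

/-- **Polynomial removal for the two-row pattern `[u ; not u]`, `u` alternating.** -/
theorem cm_removal (l : ℕ) (hl : 2 ≤ l) (u : Fin l → Bool) (hu : Alt u) :
    ∃ (C : ℕ) (K : ℝ), 1 ≤ K ∧ Blowup.PRemoval C K (cmPat u) := by
  refine ⟨10 * l + 16, ((2 ^ 47 * l ^ 2) ^ (l + 2) * 2 ^ (10 * l + 16) : ℕ), ?_, ?_⟩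
  · have h1 : 1 ≤ (2 ^ 47 * l ^ 2) ^ (l + 2) * 2 ^ (10 * l + 16) := by
      have hl2 : 1 ≤ l ^ 2 := by nlinarith
      have h2 : 1 ≤ 2 ^ 47 * l ^ 2 := by omega
      exact Nat.one_le_iff_ne_zero.mpr (by positivity)
    exact_mod_cast h1
  · intro n ε hε hε1 A hfar
    obtain ⟨q, hqdef⟩ : ∃ q : ℕ, q = ⌈1 / ε⌉₊ := ⟨_, rfl⟩
    have h1ε : 1 ≤ 1 / ε := by
      rw [le_div_iff₀ hε]
      linarith
    have hq1 : (1 / ε) ≤ (q : ℝ) := by
      rw [hqdef]
      exact Nat.le_ceil _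
    have hq2 : (q : ℝ) < 1 / ε + 1 := by
      rw [hqdef]
      exact Nat.ceil_lt_add_one (by positivity)
    have hq : 1 ≤ q := by
      have : (1 : ℝ) ≤ (q : ℝ) := le_trans h1ε hq1
      exact_mod_cast this
    have hnat := cm_nat l hl u hu n q hq A (by
      intro B hB
      have h := hfar B (pfree_of_cmcop_empty u B hB)
      unfold Blowup.pdiff at h
      have h2 : (n : ℝ) ^ 2 ≤ (q : ℝ) *
          ((univ.filter fun p : Fin n × Fin n => A p.1 p.2 ≠ B p.1 p.2).card : ℝ) := by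
        have hd0 : (0 : ℝ) ≤
            ((univ.filter fun p : Fin n × Fin n => A p.1 p.2 ≠ B p.1 p.2).card : ℝ) :=
          Nat.cast_nonneg _
        calc (n : ℝ) ^ 2 = (1 / ε) * (ε * (n : ℝ) ^ 2) := by field_simp
          _ ≤ (1 / ε) *
              ((univ.filter fun p : Fin n × Fin n => A p.1 p.2 ≠ B p.1 p.2).card : ℝ) :=
              mul_le_mul_of_nonneg_left h (by positivity)
          _ ≤ (q : ℝ) *
              ((univ.filter fun p : Fin n × Fin n => A p.1 p.2 ≠ B p.1 p.2).card : ℝ) :=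
              mul_le_mul_of_nonneg_right hq1 hd0
      exact_mod_cast h2)
    have hnat2 : n ^ (2 + l) ≤ (2 ^ 47 * l ^ 2) ^ (l + 2) * q ^ (10 * l + 16) *
        (Blowup.pcop (cmPat u) A).card := by
      rw [Nat.add_comm 2 l]
      exact le_trans hnat (Nat.mul_le_mul_left _ (cmcop_card_le u A))
    have hreal : (n : ℝ) ^ (2 + l) ≤ ((2 ^ 47 * l ^ 2) ^ (l + 2) : ℕ) *
        (q : ℝ) ^ (10 * l + 16) * ((Blowup.pcop (cmPat u) A).card : ℝ) := by
      exact_mod_cast hnat2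
    have hqε : ε * (q : ℝ) ≤ 2 := by
      have : ε * (q : ℝ) ≤ ε * (1 / ε + 1) := mul_le_mul_of_nonneg_left (le_of_lt hq2) hε.le
      have e : ε * (1 / ε + 1) = 1 + ε := by field_simp
      linarith
    have hpow : ε ^ (10 * l + 16) * (q : ℝ) ^ (10 * l + 16) ≤ 2 ^ (10 * l + 16) := by
      rw [← mul_pow]
      exact pow_le_pow_left₀ (by positivity) hqε _
    obtain ⟨Nr, hNr⟩ : ∃ Nr : ℝ, Nr = ((Blowup.pcop (cmPat u) A).card : ℝ) := ⟨_, rfl⟩
    rw [← hNr] at hreal ⊢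
    have hNr0 : 0 ≤ Nr := by
      rw [hNr]
      exact Nat.cast_nonneg _
    obtain ⟨Mr, hMr⟩ : ∃ Mr : ℝ, Mr = (((2 ^ 47 * l ^ 2) ^ (l + 2) : ℕ) : ℝ) := ⟨_, rfl⟩
    have hMr0 : 0 ≤ Mr := by
      rw [hMr]
      exact Nat.cast_nonneg _
    rw [← hMr] at hreal
    have hK : (((2 ^ 47 * l ^ 2) ^ (l + 2) * 2 ^ (10 * l + 16) : ℕ) : ℝ)
        = Mr * 2 ^ (10 * l + 16) := by
      rw [hMr]
      push_cast
      ring
    rw [hK]
    calc ε ^ (10 * l + 16) * (n : ℝ) ^ (2 + l)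
        ≤ ε ^ (10 * l + 16) * (Mr * (q : ℝ) ^ (10 * l + 16) * Nr) :=
          mul_le_mul_of_nonneg_left hreal (by positivity)
      _ = Mr * (ε ^ (10 * l + 16) * (q : ℝ) ^ (10 * l + 16)) * Nr := by ring
      _ ≤ Mr * 2 ^ (10 * l + 16) * Nr := by
          apply mul_le_mul_of_nonneg_right _ hNr0
          exact mul_le_mul_of_nonneg_left hpow hMr0

end Vale.Agent.Lib.P037.CM
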