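import Mathlib
import Vale.Agent.Lib.P037.CMDefs

/-!
# P037: complementary rows -- two facts about the coarsened matrix

* `class_card`: a class of columns `{c in interval i : ckap c = v}` whose index `v` satisfies
  `1 ≤ v < clev i z` for some row `z` has exactly `g` columns.
* `cmcop_cmat_intervals`: the columns of a copy of `[u ; not u]` (with `u` alternating) in
  the coarsened matrix lie in distinct, increasing intervals and have class index `≥ 1`.
-/

namespace Vale.Agent.Lib.P037.CM

open Finset
open Vale.Agent.Lib.P037

variable {n l : ℕ}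

/-- A class of columns whose index is positive and below the level of some row has exactly
`g` columns. -/
theorem class_card (A : Fin n → Fin n → Bool) (D g : ℕ) (hg : 0 < g) (θ : ℕ → ℕ)
    (hθ : ∀ i, θ i < g) (i v : ℕ) (z : Fin n) (hv1 : 1 ≤ v)
    (hv2 : v < clev A D g θ i z) :
    ((blockRows n D i).filter fun c => ckap A D g θ c = v).card = g := by
  classical
  have hθi := hθ i
  -- the level bound gives room for the class inside the interval
  have hlev : g * (v + 1) ≤ csize A D i z + θ i := by
    unfold clev at hv2
    calc g * (v + 1) ≤ g * ((csize A D i z + θ i) / g) := Nat.mul_le_mul_left g hv2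
      _ ≤ csize A D i z + θ i := Nat.mul_div_le _ _
  have hsz := csize_le A D i z
  have hgv : g ≤ g * v := Nat.le_mul_of_pos_right g hv1
  have hmul : g * (v + 1) = g * v + g := by ring
  have hset : ((blockRows n D i).filter fun c => ckap A D g θ c = v)
      = (blockRows n D i).filter fun c =>
          g * v - θ i ≤ cpos A D c ∧ cpos A D c < g * (v + 1) - θ i := by
    apply Finset.filter_congr
    intro c hc
    have hc' : c.val / D = i := mem_int.1 hc
    unfold ckap
    rw [hc']
    constructor
    · intro h
      have h1 := Nat.mul_div_le (cpos A D c + θ i) g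
      have h2 := Nat.lt_mul_div_succ (cpos A D c + θ i) hg
      rw [h] at h1 h2
      constructor <;> omega
    · rintro ⟨h1, h2⟩
      apply Nat.div_eq_of_lt_le
      · rw [Nat.mul_comm]; omega
      · rw [Nat.mul_comm]; omega
  rw [hset, card_cpos_Ico A D i (by omega) (by omega)]
  omega

/-- Reading an entry of the coarsened matrix. -/
theorem cmat_true_iff (A : Fin n → Fin n → Bool) (D g : ℕ) (θ : ℕ → ℕ) (x c : Fin n) :
    cmat A D g θ x c = true ↔
      (1 ≤ ckap A D g θ c ∧ ckap A D g θ c < clev A D g θ (c.val / D) x) := by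
  unfold cmat
  rw [decide_eq_true_eq]

theorem cmat_false_iff (A : Fin n → Fin n → Bool) (D g : ℕ) (θ : ℕ → ℕ) (x c : Fin n) :
    cmat A D g θ x c = false ↔
      ¬ (1 ≤ ckap A D g θ c ∧ ckap A D g θ c < clev A D g θ (c.val / D) x) := by
  unfold cmat
  rw [decide_eq_false_iff_not]

/-- Two columns of one interval cannot read `1 0` and `0 1` on the same pair of rows of
the coarsened matrix. -/
theorem cmat_pure (A : Fin n → Fin n → Bool) (D g : ℕ) (θ : ℕ → ℕ) (x y c c' : Fin n)
    (hcc : c.val / D = c'.val / D) :
    ¬ (cmat A D g θ x c = true ∧ cmat A D g θ y c = false ∧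
        cmat A D g θ x c' = false ∧ cmat A D g θ y c' = true) := by
  rw [cmat_true_iff, cmat_false_iff, cmat_false_iff, cmat_true_iff, hcc]
  intro h
  omega

/-- The columns of a copy of `[u ; not u]`, `u` alternating, in the coarsened matrix lie in
distinct increasing intervals, and all have class index at least `1`. -/
theorem cmcop_cmat_intervals (u : Fin l → Bool) (hu : Alt u) (A : Fin n → Fin n → Bool)
    (D g : ℕ) (θ : ℕ → ℕ) (x y : Fin n) (γ : Fin l → Fin n)
    (h : (x, y, γ) ∈ cmcop u (cmat A D g θ)) :
    StrictMono (fun j => (γ j).val / D) ∧ ∀ j, 1 ≤ ckap A D g θ (γ j) := by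
  classical
  unfold cmcop at h
  rw [Finset.mem_filter] at h
  obtain ⟨_, _, hmono, hread⟩ := h
  constructor
  · intro j j' hjj'
    have hjj : j.val < j'.val := hjj'
    have hj1 : j.val + 1 < l := by
      have := j'.isLt
      omega
    have hlt : γ j < γ ⟨j.val + 1, hj1⟩ := hmono (Fin.mk_lt_mk.2 (by simp))
    have hle2 : γ ⟨j.val + 1, hj1⟩ ≤ γ j' := hmono.monotone (Fin.mk_le_mk.2 (by omega))
    have hB : (γ ⟨j.val + 1, hj1⟩).val / D ≤ (γ j').val / D := Nat.div_le_div_right hle2
    have hle : (γ j).val / D ≤ (γ ⟨j.val + 1, hj1⟩).val / D :=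
      Nat.div_le_div_right (le_of_lt hlt)
    have hA : (γ j).val / D < (γ ⟨j.val + 1, hj1⟩).val / D := by
      rcases Nat.lt_or_ge ((γ j).val / D) ((γ ⟨j.val + 1, hj1⟩).val / D) with h1 | h1
      · exact h1
      · exfalso
        have heq : (γ j).val / D = (γ ⟨j.val + 1, hj1⟩).val / D := le_antisymm hle h1
        have halt : u ⟨j.val + 1, hj1⟩ = !u j := hu j ⟨j.val + 1, hj1⟩ rfl
        have r1 := hread j
        have r2 := hread ⟨j.val + 1, hj1⟩
        rw [halt] at r2
        cases hb : u j with
        | true =>
          rw [hb] at r1 r2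
          simp only [Bool.not_true, Bool.not_false] at r1 r2
          exact cmat_pure A D g θ x y (γ j) (γ ⟨j.val + 1, hj1⟩) heq
            ⟨r1.1, r1.2, r2.1, r2.2⟩
        | false =>
          rw [hb] at r1 r2
          simp only [Bool.not_true, Bool.not_false] at r1 r2
          exact cmat_pure A D g θ x y (γ ⟨j.val + 1, hj1⟩) (γ j) heq.symm
            ⟨r2.1, r2.2, r1.1, r1.2⟩
    show (γ j).val / D < (γ j').val / D
    omega
  · intro j
    have r := hread j
    cases hb : u j with
    | true =>
      rw [hb] at r
      exact ((cmat_true_iff A D g θ x (γ j)).1 r.1).1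
    | false =>
      rw [hb] at r
      simp only [Bool.not_false] at r
      exact ((cmat_true_iff A D g θ y (γ j)).1 r.2).1

end Vale.Agent.Lib.P037.CM
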