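import Mathlib

namespace Vale.Agent.Lib.P037

open Finset

/-- Choice of an anchor row.  `Z` is a finite set of rows (the zero rows of a column),
`V` a set of forbidden rows and `X` a weight on rows with total weight at most `Xa` on `Z`.
Either `Z` is small, or there is a row `σ` of `Z` outside `V` such that the number of rows
of `Z` after `σ` plus the weight of `σ` is at most `|V| + 2 * sqrt Xa`. -/
theorem exists_anchor {n : ℕ} (Z V : Finset (Fin n)) (X : Fin n → ℕ) (Xa : ℕ)
    (hX : ∑ σ ∈ Z, X σ ≤ Xa) :
    Z.card ≤ V.card + Nat.sqrt Xa ∨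
    ∃ σ ∈ Z, σ ∉ V ∧
      (Z.filter fun r => σ < r).card + X σ ≤ V.card + 2 * Nat.sqrt Xa := by
  by_cases hZ : Z.card ≤ V.card + Nat.sqrt Xa
  · exact Or.inl hZ
  right
  have hZ' : V.card + Nat.sqrt Xa + 1 ≤ Z.card := by omega
  -- rank from the top
  have hinj : Set.InjOn (fun σ : Fin n => (Z.filter fun r => σ < r).card)
      (Z : Set (Fin n)) := by
    intro σ hσ σ' hσ' heq
    simp only at heq
    by_contra hne
    rcases lt_or_gt_of_ne hne with h | h
    · have hss : (Z.filter fun r => σ' < r) ⊂ (Z.filter fun r => σ < r) := by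
        refine Finset.ssubset_iff_subset_ne.2 ⟨?_, ?_⟩
        · intro r hr
          simp only [Finset.mem_filter] at hr ⊢
          exact ⟨hr.1, lt_trans h hr.2⟩
        · intro heq2
          have hmem : σ' ∈ (Z.filter fun r => σ < r) := by
            simp only [Finset.mem_filter]
            exact ⟨hσ', h⟩
          rw [← heq2] at hmem
          simp only [Finset.mem_filter] at hmem
          exact lt_irrefl _ hmem.2
      have := Finset.card_lt_card hss
      omega
    · have hss : (Z.filter fun r => σ < r) ⊂ (Z.filter fun r => σ' < r) := by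
        refine Finset.ssubset_iff_subset_ne.2 ⟨?_, ?_⟩
        · intro r hr
          simp only [Finset.mem_filter] at hr ⊢
          exact ⟨hr.1, lt_trans h hr.2⟩
        · intro heq2
          have hmem : σ ∈ (Z.filter fun r => σ' < r) := by
            simp only [Finset.mem_filter]
            exact ⟨hσ, h⟩
          rw [← heq2] at hmem
          simp only [Finset.mem_filter] at hmem
          exact lt_irrefl _ hmem.2
      have := Finset.card_lt_card hss
      omega
  have himg : Z.image (fun σ : Fin n => (Z.filter fun r => σ < r).card)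
      = Finset.range Z.card := by
    apply Finset.eq_of_subset_of_card_le
    · intro k hk
      simp only [Finset.mem_image] at hk
      obtain ⟨σ, hσ, rfl⟩ := hk
      simp only [Finset.mem_range]
      have hsub : (Z.filter fun r => σ < r) ⊆ Z.erase σ := by
        intro r hr
        simp only [Finset.mem_filter] at hr
        simp only [Finset.mem_erase]
        exact ⟨ne_of_gt hr.2, hr.1⟩
      have h1 := Finset.card_le_card hsub
      have h2 := Finset.card_erase_of_mem hσ
      have h3 : 0 < Z.card := Finset.card_pos.2 ⟨σ, hσ⟩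
      omega
    · rw [Finset.card_image_of_injOn hinj, Finset.card_range]
  -- the last L rows of Z
  have hS : V.card + Nat.sqrt Xa + 1 ≤
      (Z.filter fun σ => (Z.filter fun r => σ < r).card < V.card + Nat.sqrt Xa + 1).card := by
    have hsub : Finset.range (V.card + Nat.sqrt Xa + 1) ⊆
        (Z.filter fun σ => (Z.filter fun r => σ < r).card < V.card + Nat.sqrt Xa + 1).image
          (fun σ : Fin n => (Z.filter fun r => σ < r).card) := by
      intro k hk
      simp only [Finset.mem_range] at hk
      have hk2 : k ∈ Finset.range Z.card := by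
        simp only [Finset.mem_range]
        omega
      rw [← himg] at hk2
      simp only [Finset.mem_image] at hk2
      obtain ⟨σ, hσ, hσk⟩ := hk2
      simp only [Finset.mem_image, Finset.mem_filter]
      exact ⟨σ, ⟨hσ, by omega⟩, hσk⟩
    have h1 := Finset.card_le_card hsub
    rw [Finset.card_range] at h1
    exact le_trans h1 Finset.card_image_le
  -- candidates
  have hcand : Nat.sqrt Xa + 1 ≤
      ((Z.filter fun σ => (Z.filter fun r => σ < r).card < V.card + Nat.sqrt Xa + 1) \ V).card := by
    have := Finset.le_card_sdiff V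
      (Z.filter fun σ => (Z.filter fun r => σ < r).card < V.card + Nat.sqrt Xa + 1)
    omega
  by_contra hcon
  have hall : ∀ σ ∈ ((Z.filter fun σ => (Z.filter fun r => σ < r).card
      < V.card + Nat.sqrt Xa + 1) \ V), Nat.sqrt Xa + 1 ≤ X σ := by
    intro σ hσ
    simp only [Finset.mem_sdiff, Finset.mem_filter] at hσ
    by_contra hlt
    apply hcon
    refine ⟨σ, hσ.1.1, hσ.2, ?_⟩
    omega
  have hsum1 : ((Z.filter fun σ => (Z.filter fun r => σ < r).card
      < V.card + Nat.sqrt Xa + 1) \ V).card * (Nat.sqrt Xa + 1) ≤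
      ∑ σ ∈ ((Z.filter fun σ => (Z.filter fun r => σ < r).card
      < V.card + Nat.sqrt Xa + 1) \ V), X σ := by
    have := Finset.card_nsmul_le_sum _ (fun σ => X σ) (Nat.sqrt Xa + 1) hall
    simpa [smul_eq_mul] using this
  have hsum2 : ∑ σ ∈ ((Z.filter fun σ => (Z.filter fun r => σ < r).card
      < V.card + Nat.sqrt Xa + 1) \ V), X σ ≤ ∑ σ ∈ Z, X σ := by
    apply Finset.sum_le_sum_of_subset
    intro σ hσ
    simp only [Finset.mem_sdiff, Finset.mem_filter] at hσ
    exact hσ.1.1
  have hsq : Xa < (Nat.sqrt Xa + 1) * (Nat.sqrt Xa + 1) := Nat.lt_succ_sqrt Xa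
  have hmul : (Nat.sqrt Xa + 1) * (Nat.sqrt Xa + 1) ≤
      ((Z.filter fun σ => (Z.filter fun r => σ < r).card
      < V.card + Nat.sqrt Xa + 1) \ V).card * (Nat.sqrt Xa + 1) :=
    Nat.mul_le_mul_right _ hcand
  omega

end Vale.Agent.Lib.P037
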