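import Mathlib

namespace Vale.Agent.Lib.P037

open Finset

/-- The ordered copies of the pattern `1 0 / 0 0` in `A` (rows `t.1 < t.2.1`, columns
`t.2.2.1 < t.2.2.2`; `true` is the entry one and `false` is the entry zero). -/
def eCop {n : ℕ} (A : Fin n → Fin n → Bool) : Finset (Fin n × Fin n × Fin n × Fin n) :=
  univ.filter fun t => t.1 < t.2.1 ∧ t.2.2.1 < t.2.2.2 ∧ A t.1 t.2.2.1 = true ∧
    A t.1 t.2.2.2 = false ∧ A t.2.1 t.2.2.1 = false ∧ A t.2.1 t.2.2.2 = false

/-- Swapping a sum of filtered cardinalities. -/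
theorem eavg_sum_card_comm {α β : Type*} [Fintype α] (s : Finset β) (P : α → β → Prop)
    [∀ a b, Decidable (P a b)] :
    ∑ a : α, (s.filter (P a)).card = ∑ b ∈ s, (univ.filter fun a => P a b).card := by
  simp only [Finset.card_filter]
  rw [Finset.sum_comm]

/-- The number of maps avoiding a set. -/
theorem eavg_card_avoid (n q : ℕ) (S : Finset (Fin n)) :
    (univ.filter fun f : Fin q → Fin n => ∀ i, f i ∉ S).card = (n - S.card) ^ q := by
  have h : (univ.filter fun f : Fin q → Fin n => ∀ i, f i ∉ S) =
      Fintype.piFinset (fun _ : Fin q => Sᶜ) := by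
    ext f
    simp [Fintype.mem_piFinset]
  rw [h, Fintype.card_piFinset]
  simp [Finset.card_compl]

/-- Bernoulli-type inequality. -/
theorem eavg_bern (n q : ℕ) : n ^ (q + 1) + (q + 1) * n ^ q ≤ (n + 1) ^ (q + 1) := by
  induction q with
  | zero => simp
  | succ q ih =>
    have h1 : (n + 1) ^ (q + 1 + 1) = (n + 1) * (n + 1) ^ (q + 1) := by ring
    have h2 : (n + 1) * (n ^ (q + 1) + (q + 1) * n ^ q) ≤ (n + 1) * (n + 1) ^ (q + 1) :=
      Nat.mul_le_mul_left _ ih
    have h3 : n ^ (q + 1 + 1) + (q + 1 + 1) * n ^ (q + 1) ≤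
        (n + 1) * (n ^ (q + 1) + (q + 1) * n ^ q) := by
      have : (n + 1) * (n ^ (q + 1) + (q + 1) * n ^ q) =
          n ^ (q + 1 + 1) + (q + 1 + 1) * n ^ (q + 1) + (q + 1) * n ^ q := by ring
      omega
    omega

/-- Power sums are bounded by the next power. -/
theorem eavg_pow_sum (n q : ℕ) : (q + 1) * ∑ i ∈ range n, i ^ q ≤ n ^ (q + 1) := by
  induction n with
  | zero => simp
  | succ n ih =>
    rw [Finset.sum_range_succ, Nat.mul_add]
    have := eavg_bern n q
    omega

/-- Tail sum: for a set `Z` of columns, the sum over `c ∈ Z` of the number of maps that avoid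
the part of `Z` at or after `c` is at most the power sum. -/
theorem eavg_tail_sum (n q : ℕ) (Z : Finset (Fin n)) :
    ∑ c ∈ Z, (univ.filter fun f : Fin q → Fin n => ∀ i, f i ∉ Z.filter (fun g => c ≤ g)).card
      ≤ ∑ i ∈ range n, i ^ q := by
  have h1 : ∀ c ∈ Z, (univ.filter fun f : Fin q → Fin n =>
      ∀ i, f i ∉ Z.filter (fun g => c ≤ g)).card = (n - (Z.filter (fun g => c ≤ g)).card) ^ q :=
    fun c _ => eavg_card_avoid n q _
  rw [Finset.sum_congr rfl h1]
  have hinj : Set.InjOn (fun c : Fin n => n - (Z.filter (fun g => c ≤ g)).card) (Z : Set (Fin n)) := by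
    intro c hc c' hc' h
    have hle : ∀ d : Fin n, (Z.filter (fun g => d ≤ g)).card ≤ n := by
      intro d
      calc (Z.filter (fun g => d ≤ g)).card ≤ (univ : Finset (Fin n)).card :=
            Finset.card_le_card (Finset.subset_univ _)
        _ = n := by simp
    have hstrict : ∀ d d' : Fin n, d ∈ Z → d < d' →
        (Z.filter (fun g => d' ≤ g)).card < (Z.filter (fun g => d ≤ g)).card := by
      intro d d' hd hdd
      apply Finset.card_lt_card
      rw [Finset.ssubset_iff_of_subset]
      · refine ⟨d, ?_, ?_⟩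
        · simp [hd]
        · simp [hdd]
      · intro g hg
        rw [Finset.mem_filter] at hg ⊢
        exact ⟨hg.1, le_trans hdd.le hg.2⟩
    simp only at h
    rcases lt_trichotomy c c' with hlt | heq | hgt
    · have := hstrict c c' hc hlt
      have h2 := hle c
      have h3 := hle c'
      omega
    · exact heq
    · have := hstrict c' c hc' hgt
      have h2 := hle c
      have h3 := hle c'
      omega
  have himg : ∑ c ∈ Z, (n - (Z.filter (fun g => c ≤ g)).card) ^ q =
      ∑ i ∈ Z.image (fun c : Fin n => n - (Z.filter (fun g => c ≤ g)).card), i ^ q := by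
    rw [Finset.sum_image]
    intro c hc c' hc' h
    exact hinj hc hc' h
  rw [himg]
  apply Finset.sum_le_sum_of_subset
  intro i hi
  rw [Finset.mem_image] at hi
  obtain ⟨c, hc, rfl⟩ := hi
  rw [Finset.mem_range]
  have hpos : 0 < (Z.filter (fun g => c ≤ g)).card := by
    apply Finset.card_pos.mpr
    exact ⟨c, by simp [hc]⟩
  have hn : 0 < n := lt_of_le_of_lt (Nat.zero_le _) c.isLt
  omega

/-- The coordinate trick: if all maps of `S` take the value `y` at `j` and all their
modifications at `j` lie in `T`, then `n * |S| ≤ |T|`. -/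
theorem eavg_update (n q : ℕ) (S T : Finset (Fin q → Fin n)) (j : Fin q) (y : Fin n)
    (hS : ∀ f ∈ S, f j = y) (hT : ∀ f ∈ S, ∀ z, Function.update f j z ∈ T) :
    n * S.card ≤ T.card := by
  have hcard : (S ×ˢ (univ : Finset (Fin n))).card = n * S.card := by
    rw [Finset.card_product]
    simp [Nat.mul_comm]
  rw [← hcard]
  apply Finset.card_le_card_of_injOn (fun p : (Fin q → Fin n) × Fin n => Function.update p.1 j p.2)
  · intro p hp
    rw [Finset.mem_coe, Finset.mem_product] at hp
    exact hT p.1 hp.1 p.2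
  · intro p hp p' hp' h
    rw [Finset.mem_coe, Finset.mem_product] at hp hp'
    simp only at h
    have hz : p.2 = p'.2 := by
      have := congrFun h j
      simpa using this
    have hf : p.1 = p'.1 := by
      funext k
      by_cases hk : k = j
      · rw [hk, hS p.1 hp.1, hS p'.1 hp'.1]
      · have := congrFun h k
        simpa [Function.update_of_ne hk] using this
    exact Prod.ext hf hz

/-- Maps hitting one prescribed value. -/
theorem eavg_hit_one (n q : ℕ) (y : Fin n) :
    n * (univ.filter fun f : Fin q → Fin n => y ∈ univ.image f).card ≤ q * n ^ q := by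
  have hsub : (univ.filter fun f : Fin q → Fin n => y ∈ univ.image f) ⊆
      (univ : Finset (Fin q)).biUnion (fun i => univ.filter fun f : Fin q → Fin n => f i = y) := by
    intro f hf
    rw [Finset.mem_filter, Finset.mem_image] at hf
    obtain ⟨i, _, hi⟩ := hf.2
    rw [Finset.mem_biUnion]
    exact ⟨i, Finset.mem_univ _, by simp [hi]⟩
  have h1 : ∀ i : Fin q, n * (univ.filter fun f : Fin q → Fin n => f i = y).card ≤ n ^ q := by
    intro i
    have := eavg_update n q (univ.filter fun f : Fin q → Fin n => f i = y) univ i y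
      (by intro f hf; simpa using hf) (by intro f _ z; exact Finset.mem_univ _)
    simpa using this
  calc n * (univ.filter fun f : Fin q → Fin n => y ∈ univ.image f).card
      ≤ n * ((univ : Finset (Fin q)).biUnion
          (fun i => univ.filter fun f : Fin q → Fin n => f i = y)).card :=
        Nat.mul_le_mul_left _ (Finset.card_le_card hsub)
    _ ≤ n * ∑ i : Fin q, (univ.filter fun f : Fin q → Fin n => f i = y).card :=
        Nat.mul_le_mul_left _ Finset.card_biUnion_le
    _ = ∑ i : Fin q, n * (univ.filter fun f : Fin q → Fin n => f i = y).card := by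
        rw [Finset.mul_sum]
    _ ≤ ∑ _i : Fin q, n ^ q := Finset.sum_le_sum fun i _ => h1 i
    _ = q * n ^ q := by simp

/-- Maps hitting two prescribed distinct values. -/
theorem eavg_hit_two (n q : ℕ) (x y : Fin n) (hxy : x ≠ y) :
    n ^ 2 * (univ.filter fun f : Fin q → Fin n => x ∈ univ.image f ∧ y ∈ univ.image f).card
      ≤ q ^ 2 * n ^ q := by
  have hsub : (univ.filter fun f : Fin q → Fin n => x ∈ univ.image f ∧ y ∈ univ.image f) ⊆
      (univ : Finset (Fin q × Fin q)).biUnion
        (fun p => univ.filter fun f : Fin q → Fin n => f p.1 = x ∧ f p.2 = y) := by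
    intro f hf
    rw [Finset.mem_filter, Finset.mem_image, Finset.mem_image] at hf
    obtain ⟨i, _, hi⟩ := hf.2.1
    obtain ⟨j, _, hj⟩ := hf.2.2
    rw [Finset.mem_biUnion]
    exact ⟨(i, j), Finset.mem_univ _, by simp [hi, hj]⟩
  have h1 : ∀ p : Fin q × Fin q,
      n ^ 2 * (univ.filter fun f : Fin q → Fin n => f p.1 = x ∧ f p.2 = y).card ≤ n ^ q := by
    intro p
    by_cases hp : p.1 = p.2
    · have hempty : (univ.filter fun f : Fin q → Fin n => f p.1 = x ∧ f p.2 = y) = ∅ := by
        apply Finset.filter_false_of_mem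
        intro f _ hf
        apply hxy
        rw [← hf.1, ← hf.2, hp]
      rw [hempty]
      simp
    · have ha := eavg_update n q (univ.filter fun f : Fin q → Fin n => f p.1 = x ∧ f p.2 = y)
        (univ.filter fun f : Fin q → Fin n => f p.1 = x) p.2 y
        (by intro f hf; rw [Finset.mem_filter] at hf; exact hf.2.2)
        (by
          intro f hf z
          rw [Finset.mem_filter] at hf ⊢
          refine ⟨Finset.mem_univ _, ?_⟩
          rw [Function.update_of_ne hp]
          exact hf.2.1)
      have hb := eavg_update n q (univ.filter fun f : Fin q → Fin n => f p.1 = x) univ p.1 x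
        (by intro f hf; simpa using hf) (by intro f _ z; exact Finset.mem_univ _)
      have hb' : n * (univ.filter fun f : Fin q → Fin n => f p.1 = x).card ≤ n ^ q := by
        simpa using hb
      calc n ^ 2 * (univ.filter fun f : Fin q → Fin n => f p.1 = x ∧ f p.2 = y).card
          = n * (n * (univ.filter fun f : Fin q → Fin n => f p.1 = x ∧ f p.2 = y).card) := by ring
        _ ≤ n * (univ.filter fun f : Fin q → Fin n => f p.1 = x).card :=
            Nat.mul_le_mul_left _ ha
        _ ≤ n ^ q := hb'
  calc n ^ 2 * (univ.filter fun f : Fin q → Fin n => x ∈ univ.image f ∧ y ∈ univ.image f).card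
      ≤ n ^ 2 * ((univ : Finset (Fin q × Fin q)).biUnion
          (fun p => univ.filter fun f : Fin q → Fin n => f p.1 = x ∧ f p.2 = y)).card :=
        Nat.mul_le_mul_left _ (Finset.card_le_card hsub)
    _ ≤ n ^ 2 * ∑ p : Fin q × Fin q,
          (univ.filter fun f : Fin q → Fin n => f p.1 = x ∧ f p.2 = y).card :=
        Nat.mul_le_mul_left _ Finset.card_biUnion_le
    _ = ∑ p : Fin q × Fin q,
          n ^ 2 * (univ.filter fun f : Fin q → Fin n => f p.1 = x ∧ f p.2 = y).card := by
        rw [Finset.mul_sum]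
    _ ≤ ∑ _p : Fin q × Fin q, n ^ q := Finset.sum_le_sum fun p _ => h1 p
    _ = q ^ 2 * n ^ q := by simp [sq]

/-- Tail bound for a decidable predicate `z` on columns: averaged over all maps `f`, the
number of columns `c` with `z c` such that no value of `f` at or after `c` satisfies `z`. -/
theorem eavg_tail_pred (n q : ℕ) (z : Fin n → Prop) [DecidablePred z] :
    q * ∑ c : Fin n, (univ.filter fun f : Fin q → Fin n =>
        z c ∧ ∀ g ∈ univ.image f, c ≤ g → ¬ z g).card ≤ n ^ (q + 1) := by
  set Z : Finset (Fin n) := univ.filter z with hZ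
  have h1 : ∀ c : Fin n, (univ.filter fun f : Fin q → Fin n =>
        z c ∧ ∀ g ∈ univ.image f, c ≤ g → ¬ z g).card =
      if z c then (univ.filter fun f : Fin q → Fin n =>
        ∀ i, f i ∉ Z.filter (fun g => c ≤ g)).card else 0 := by
    intro c
    by_cases hc : z c
    · rw [if_pos hc]
      congr 1
      ext f
      rw [Finset.mem_filter, Finset.mem_filter]
      constructor
      · rintro ⟨_, _, h⟩
        refine ⟨Finset.mem_univ _, ?_⟩
        intro i hi
        rw [Finset.mem_filter] at hi
        have hzi : z (f i) := by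
          have h0 := hi.1
          rw [hZ, Finset.mem_filter] at h0
          exact h0.2
        exact h (f i) (Finset.mem_image_of_mem f (Finset.mem_univ i)) hi.2 hzi
      · rintro ⟨_, h⟩
        refine ⟨Finset.mem_univ _, hc, ?_⟩
        intro g hg hcg hzg
        rw [Finset.mem_image] at hg
        obtain ⟨i, _, rfl⟩ := hg
        apply h i
        rw [Finset.mem_filter]
        refine ⟨?_, hcg⟩
        rw [hZ, Finset.mem_filter]
        exact ⟨Finset.mem_univ _, hzg⟩
    · rw [if_neg hc]
      apply Finset.card_eq_zero.mpr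
      apply Finset.filter_false_of_mem
      intro f _ hf
      exact hc hf.1
  have h2 : ∑ c : Fin n, (univ.filter fun f : Fin q → Fin n =>
        z c ∧ ∀ g ∈ univ.image f, c ≤ g → ¬ z g).card =
      ∑ c ∈ Z, (univ.filter fun f : Fin q → Fin n =>
        ∀ i, f i ∉ Z.filter (fun g => c ≤ g)).card := by
    rw [Finset.sum_congr rfl (fun c _ => h1 c), hZ, Finset.sum_filter]
  rw [h2]
  calc q * ∑ c ∈ Z, (univ.filter fun f : Fin q → Fin n =>
        ∀ i, f i ∉ Z.filter (fun g => c ≤ g)).card
      ≤ q * ∑ i ∈ range n, i ^ q := Nat.mul_le_mul_left _ (eavg_tail_sum n q Z)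
    _ ≤ (q + 1) * ∑ i ∈ range n, i ^ q := Nat.mul_le_mul_right _ (Nat.le_succ q)
    _ ≤ n ^ (q + 1) := eavg_pow_sum n q

/-- Counting form of the Markov inequality with factor four. -/
theorem eavg_markov {α : Type*} [Fintype α] (w : α → ℕ) (B : ℕ)
    (h : ∑ f, w f ≤ Fintype.card α * B) (hpos : 0 < Fintype.card α) :
    4 * (univ.filter fun f => 4 * B < w f).card < Fintype.card α := by
  set F1 := (univ.filter fun f => 4 * B < w f).card with hF1
  have h1 : (4 * B + 1) * F1 ≤ ∑ f, w f := by
    calc (4 * B + 1) * F1 = ∑ _f ∈ univ.filter (fun f => 4 * B < w f), (4 * B + 1) := by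
          rw [Finset.sum_const, smul_eq_mul, Nat.mul_comm]
      _ ≤ ∑ f ∈ univ.filter (fun f => 4 * B < w f), w f := by
          apply Finset.sum_le_sum
          intro f hf
          rw [Finset.mem_filter] at hf
          omega
      _ ≤ ∑ f, w f := Finset.sum_le_sum_of_subset (Finset.filter_subset _ _)
  by_contra hcon
  have hcon' : Fintype.card α ≤ 4 * F1 := Nat.le_of_not_lt hcon
  have h2 : Fintype.card α * B ≤ 4 * F1 * B := Nat.mul_le_mul_right _ hcon'
  have h3 : (4 * B + 1) * F1 = 4 * F1 * B + F1 := by ring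
  have h4 : F1 = 0 := by
    have : 4 * F1 * B + F1 ≤ 4 * F1 * B := by
      rw [← h3]
      exact le_trans h1 (le_trans h h2)
    omega
  rw [h4] at hcon'
  omega

/-- **Choice of the column sample.**  For every `q` there is a set `Q` of at most `q`
columns such that simultaneously: (a) at most `4 n^2 / q` zeros of `A` have no zero of their
row in a column of `Q` at or after them; (b) at most `4 (q/n)^2 N` copies have both columns in
`Q`; (c) at most `4 (q/n) N` copies have their right column in `Q`; (d) at most `4 n^3 / q`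
triples (row, row, column) consist of a common zero of the two rows with no common zero in a
column of `Q` at or after it.  Here `N` is the number of copies of the pattern. -/
theorem exists_good_cols (n q : ℕ) (A : Fin n → Fin n → Bool) :
    ∃ Q : Finset (Fin n), Q.card ≤ q ∧
      q * (univ.filter fun p : Fin n × Fin n =>
            A p.1 p.2 = false ∧ ∀ g ∈ Q, p.2 ≤ g → A p.1 g = true).card ≤ 4 * n ^ 2 ∧
      n ^ 2 * ((eCop A).filter fun t => t.2.2.1 ∈ Q ∧ t.2.2.2 ∈ Q).card
        ≤ 4 * q ^ 2 * (eCop A).card ∧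
      n * ((eCop A).filter fun t => t.2.2.2 ∈ Q).card ≤ 4 * q * (eCop A).card ∧
      q * (univ.filter fun p : Fin n × Fin n × Fin n =>
            A p.1 p.2.2 = false ∧ A p.2.1 p.2.2 = false ∧
              ∀ g ∈ Q, p.2.2 ≤ g → ¬ (A p.1 g = false ∧ A p.2.1 g = false)).card
        ≤ 4 * n ^ 3 := by
  classical
  rcases Nat.eq_zero_or_pos n with hn | hn
  · subst hn
    refine ⟨∅, by simp, ?_, ?_, ?_, ?_⟩
    · simp
    · simp [eCop]
    · simp [eCop]
    · simp
  set N := (eCop A).card with hN
  have hcard : Fintype.card (Fin q → Fin n) = n ^ q := by simp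
  have hpos : 0 < Fintype.card (Fin q → Fin n) := by
    rw [hcard]
    exact Nat.pow_pos hn
  -- (a)
  have hSa : ∑ f : Fin q → Fin n, q * (univ.filter fun p : Fin n × Fin n =>
      A p.1 p.2 = false ∧ ∀ g ∈ univ.image f, p.2 ≤ g → A p.1 g = true).card
      ≤ Fintype.card (Fin q → Fin n) * n ^ 2 := by
    rw [← Finset.mul_sum, hcard]
    have e1 : ∑ f : Fin q → Fin n, (univ.filter fun p : Fin n × Fin n =>
        A p.1 p.2 = false ∧ ∀ g ∈ univ.image f, p.2 ≤ g → A p.1 g = true).card =
        ∑ p : Fin n × Fin n, (univ.filter fun f : Fin q → Fin n =>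
          A p.1 p.2 = false ∧ ∀ g ∈ univ.image f, p.2 ≤ g → A p.1 g = true).card :=
      eavg_sum_card_comm univ
        (fun (f : Fin q → Fin n) (p : Fin n × Fin n) =>
          A p.1 p.2 = false ∧ ∀ g ∈ univ.image f, p.2 ≤ g → A p.1 g = true)
    rw [e1, Fintype.sum_prod_type, Finset.mul_sum]
    have hr : ∀ r : Fin n, q * ∑ c : Fin n, (univ.filter fun f : Fin q → Fin n =>
        A r c = false ∧ ∀ g ∈ univ.image f, c ≤ g → A r g = true).card ≤ n ^ (q + 1) := by
      intro r
      have h0 := eavg_tail_pred n q (fun c => A r c = false)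
      simp only [Bool.not_eq_false] at h0
      exact h0
    calc ∑ r : Fin n, q * ∑ c : Fin n, (univ.filter fun f : Fin q → Fin n =>
          A r c = false ∧ ∀ g ∈ univ.image f, c ≤ g → A r g = true).card
        ≤ ∑ _r : Fin n, n ^ (q + 1) := Finset.sum_le_sum fun r _ => hr r
      _ = n ^ q * n ^ 2 := by
          simp only [Finset.sum_const, Finset.card_univ, Fintype.card_fin, smul_eq_mul]
          ring
  -- (d)
  have hSd : ∑ f : Fin q → Fin n, q * (univ.filter fun p : Fin n × Fin n × Fin n =>
      A p.1 p.2.2 = false ∧ A p.2.1 p.2.2 = false ∧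
        ∀ g ∈ univ.image f, p.2.2 ≤ g → ¬ (A p.1 g = false ∧ A p.2.1 g = false)).card
      ≤ Fintype.card (Fin q → Fin n) * n ^ 3 := by
    rw [← Finset.mul_sum, hcard]
    have e1 : ∑ f : Fin q → Fin n, (univ.filter fun p : Fin n × Fin n × Fin n =>
        A p.1 p.2.2 = false ∧ A p.2.1 p.2.2 = false ∧
          ∀ g ∈ univ.image f, p.2.2 ≤ g → ¬ (A p.1 g = false ∧ A p.2.1 g = false)).card =
        ∑ p : Fin n × Fin n × Fin n, (univ.filter fun f : Fin q → Fin n =>
          A p.1 p.2.2 = false ∧ A p.2.1 p.2.2 = false ∧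
            ∀ g ∈ univ.image f, p.2.2 ≤ g → ¬ (A p.1 g = false ∧ A p.2.1 g = false)).card :=
      eavg_sum_card_comm univ
        (fun (f : Fin q → Fin n) (p : Fin n × Fin n × Fin n) =>
          A p.1 p.2.2 = false ∧ A p.2.1 p.2.2 = false ∧
            ∀ g ∈ univ.image f, p.2.2 ≤ g → ¬ (A p.1 g = false ∧ A p.2.1 g = false))
    rw [e1, Fintype.sum_prod_type, Finset.mul_sum]
    have hr : ∀ r r' : Fin n, q * ∑ c : Fin n, (univ.filter fun f : Fin q → Fin n =>
        A r c = false ∧ A r' c = false ∧
          ∀ g ∈ univ.image f, c ≤ g → ¬ (A r g = false ∧ A r' g = false)).card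
        ≤ n ^ (q + 1) := by
      intro r r'
      have h0 := eavg_tail_pred n q (fun c => A r c = false ∧ A r' c = false)
      simp only [and_assoc] at h0
      exact h0
    calc ∑ r : Fin n, q * ∑ p : Fin n × Fin n, (univ.filter fun f : Fin q → Fin n =>
          A r p.2 = false ∧ A p.1 p.2 = false ∧
            ∀ g ∈ univ.image f, p.2 ≤ g → ¬ (A r g = false ∧ A p.1 g = false)).card
        = ∑ r : Fin n, ∑ r' : Fin n, q * ∑ c : Fin n, (univ.filter fun f : Fin q → Fin n =>
          A r c = false ∧ A r' c = false ∧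
            ∀ g ∈ univ.image f, c ≤ g → ¬ (A r g = false ∧ A r' g = false)).card := by
          apply Finset.sum_congr rfl
          intro r _
          rw [Fintype.sum_prod_type, Finset.mul_sum]
      _ ≤ ∑ _r : Fin n, ∑ _r' : Fin n, n ^ (q + 1) :=
          Finset.sum_le_sum fun r _ => Finset.sum_le_sum fun r' _ => hr r r'
      _ = n ^ q * n ^ 3 := by
          simp only [Finset.sum_const, Finset.card_univ, Fintype.card_fin, smul_eq_mul]
          ring
  -- (b)
  have hSb : ∑ f : Fin q → Fin n, n ^ 2 * ((eCop A).filter fun t =>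
      t.2.2.1 ∈ univ.image f ∧ t.2.2.2 ∈ univ.image f).card
      ≤ Fintype.card (Fin q → Fin n) * (q ^ 2 * N) := by
    rw [← Finset.mul_sum, hcard]
    have e1 : ∑ f : Fin q → Fin n, ((eCop A).filter fun t =>
        t.2.2.1 ∈ univ.image f ∧ t.2.2.2 ∈ univ.image f).card =
        ∑ t ∈ eCop A, (univ.filter fun f : Fin q → Fin n =>
          t.2.2.1 ∈ univ.image f ∧ t.2.2.2 ∈ univ.image f).card :=
      eavg_sum_card_comm (eCop A)
        (fun (f : Fin q → Fin n) (t : Fin n × Fin n × Fin n × Fin n) =>
          t.2.2.1 ∈ univ.image f ∧ t.2.2.2 ∈ univ.image f)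
    rw [e1, Finset.mul_sum]
    calc ∑ t ∈ eCop A, n ^ 2 * (univ.filter fun f : Fin q → Fin n =>
          t.2.2.1 ∈ univ.image f ∧ t.2.2.2 ∈ univ.image f).card
        ≤ ∑ _t ∈ eCop A, q ^ 2 * n ^ q := by
          apply Finset.sum_le_sum
          intro t ht
          apply eavg_hit_two
          have h0 : t.2.2.1 < t.2.2.2 := by
            unfold eCop at ht
            rw [Finset.mem_filter] at ht
            exact ht.2.2.1
          exact ne_of_lt h0
      _ = n ^ q * (q ^ 2 * N) := by
          rw [Finset.sum_const, smul_eq_mul, ← hN]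
          ring
  -- (c)
  have hSc : ∑ f : Fin q → Fin n, n * ((eCop A).filter fun t =>
      t.2.2.2 ∈ univ.image f).card
      ≤ Fintype.card (Fin q → Fin n) * (q * N) := by
    rw [← Finset.mul_sum, hcard]
    have e1 : ∑ f : Fin q → Fin n, ((eCop A).filter fun t =>
        t.2.2.2 ∈ univ.image f).card =
        ∑ t ∈ eCop A, (univ.filter fun f : Fin q → Fin n =>
          t.2.2.2 ∈ univ.image f).card :=
      eavg_sum_card_comm (eCop A)
        (fun (f : Fin q → Fin n) (t : Fin n × Fin n × Fin n × Fin n) =>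
          t.2.2.2 ∈ univ.image f)
    rw [e1, Finset.mul_sum]
    calc ∑ t ∈ eCop A, n * (univ.filter fun f : Fin q → Fin n =>
          t.2.2.2 ∈ univ.image f).card
        ≤ ∑ _t ∈ eCop A, q * n ^ q := Finset.sum_le_sum fun t _ => eavg_hit_one n q _
      _ = n ^ q * (q * N) := by
          rw [Finset.sum_const, smul_eq_mul, ← hN]
          ring
  have hMa := eavg_markov _ _ hSa hpos
  have hMb := eavg_markov _ _ hSb hpos
  have hMc := eavg_markov _ _ hSc hpos
  have hMd := eavg_markov _ _ hSd hpos
  by_contra hno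
  have hall : ∀ f : Fin q → Fin n,
      f ∈ (univ.filter fun f : Fin q → Fin n => 4 * n ^ 2 < q * (univ.filter
          fun p : Fin n × Fin n =>
            A p.1 p.2 = false ∧ ∀ g ∈ univ.image f, p.2 ≤ g → A p.1 g = true).card) ∪
        (univ.filter fun f : Fin q → Fin n => 4 * (q ^ 2 * N) < n ^ 2 * ((eCop A).filter
          fun t => t.2.2.1 ∈ univ.image f ∧ t.2.2.2 ∈ univ.image f).card) ∪
        (univ.filter fun f : Fin q → Fin n => 4 * (q * N) < n * ((eCop A).filter
          fun t => t.2.2.2 ∈ univ.image f).card) ∪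
        (univ.filter fun f : Fin q → Fin n => 4 * n ^ 3 < q * (univ.filter
          fun p : Fin n × Fin n × Fin n =>
            A p.1 p.2.2 = false ∧ A p.2.1 p.2.2 = false ∧
              ∀ g ∈ univ.image f, p.2.2 ≤ g →
                ¬ (A p.1 g = false ∧ A p.2.1 g = false)).card) := by
    intro f
    by_contra hf
    simp only [Finset.mem_union, Finset.mem_filter, Finset.mem_univ, true_and, not_or,
      not_lt] at hf
    apply hno
    refine ⟨univ.image f, ?_, hf.1.1.1, ?_, ?_, hf.2⟩
    · calc (univ.image f).card ≤ (univ : Finset (Fin q)).card := Finset.card_image_le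
        _ = q := by simp
    · have := hf.1.1.2
      rw [Nat.mul_assoc]
      exact this
    · have := hf.1.2
      rw [Nat.mul_assoc]
      exact this
  have hsub : (univ : Finset (Fin q → Fin n)) ⊆ _ := fun f _ => hall f
  have hle := Finset.card_le_card hsub
  have hu1 := Finset.card_union_le
    ((univ.filter fun f : Fin q → Fin n => 4 * n ^ 2 < q * (univ.filter
          fun p : Fin n × Fin n =>
            A p.1 p.2 = false ∧ ∀ g ∈ univ.image f, p.2 ≤ g → A p.1 g = true).card) ∪
        (univ.filter fun f : Fin q → Fin n => 4 * (q ^ 2 * N) < n ^ 2 * ((eCop A).filter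
          fun t => t.2.2.1 ∈ univ.image f ∧ t.2.2.2 ∈ univ.image f).card) ∪
        (univ.filter fun f : Fin q → Fin n => 4 * (q * N) < n * ((eCop A).filter
          fun t => t.2.2.2 ∈ univ.image f).card))
    (univ.filter fun f : Fin q → Fin n => 4 * n ^ 3 < q * (univ.filter
          fun p : Fin n × Fin n × Fin n =>
            A p.1 p.2.2 = false ∧ A p.2.1 p.2.2 = false ∧
              ∀ g ∈ univ.image f, p.2.2 ≤ g →
                ¬ (A p.1 g = false ∧ A p.2.1 g = false)).card)
  have hu2 := Finset.card_union_le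
    ((univ.filter fun f : Fin q → Fin n => 4 * n ^ 2 < q * (univ.filter
          fun p : Fin n × Fin n =>
            A p.1 p.2 = false ∧ ∀ g ∈ univ.image f, p.2 ≤ g → A p.1 g = true).card) ∪
        (univ.filter fun f : Fin q → Fin n => 4 * (q ^ 2 * N) < n ^ 2 * ((eCop A).filter
          fun t => t.2.2.1 ∈ univ.image f ∧ t.2.2.2 ∈ univ.image f).card))
    (univ.filter fun f : Fin q → Fin n => 4 * (q * N) < n * ((eCop A).filter
          fun t => t.2.2.2 ∈ univ.image f).card)
  have hu3 := Finset.card_union_le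
    (univ.filter fun f : Fin q → Fin n => 4 * n ^ 2 < q * (univ.filter
          fun p : Fin n × Fin n =>
            A p.1 p.2 = false ∧ ∀ g ∈ univ.image f, p.2 ≤ g → A p.1 g = true).card)
    (univ.filter fun f : Fin q → Fin n => 4 * (q ^ 2 * N) < n ^ 2 * ((eCop A).filter
          fun t => t.2.2.1 ∈ univ.image f ∧ t.2.2.2 ∈ univ.image f).card)
  rw [Finset.card_univ] at hle
  omega

end Vale.Agent.Lib.P037
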