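import Mathlib

/-!
# P037, pattern E = [[1,0],[0,0]]: the forest on a set Q of columns and the fitting theorem

Zero entries are `false`.  `A` is a square 0/1 matrix, `Q` a set of columns on which `A`
contains no copy of E (`QExact`).  Two columns of `Q` are linked at row `r` when they are
both zero in some row at or after `r`; `ELe A Q r` is the reflexive transitive closure.
`efit_efree`: any matrix `B` that agrees with `A` on the columns of `Q` and whose other
columns follow an anchor `(sigma a, gamma a)` through this forest contains no copy of E.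
-/

namespace Vale.Agent.Lib.P037

variable {n : ℕ}

/-- Columns `x < y` of `Q` are linked at row `r`: both are zero in some row at or after `r`. -/
def ELink (A : Fin n → Fin n → Bool) (Q : Finset (Fin n)) (r x y : Fin n) : Prop :=
  x < y ∧ x ∈ Q ∧ y ∈ Q ∧ ∃ r', r ≤ r' ∧ A r' x = false ∧ A r' y = false

/-- Reflexive transitive closure of the links alive at row `r`. -/
def ELe (A : Fin n → Fin n → Bool) (Q : Finset (Fin n)) (r : Fin n) : Fin n → Fin n → Prop :=
  Relation.ReflTransGen (ELink A Q r)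

/-- `A` has no copy of E = [[1,0],[0,0]] inside the columns of `Q`. -/
def QExact (A : Fin n → Fin n → Bool) (Q : Finset (Fin n)) : Prop :=
  ∀ r r' x y, r < r' → x < y → x ∈ Q → y ∈ Q → A r x = true → A r y = false →
    A r' x = false → A r' y = false → False

section
variable {A : Fin n → Fin n → Bool} {Q : Finset (Fin n)} {r r' x y z : Fin n}

theorem elink_mono (h : r ≤ r') (hl : ELink A Q r' x y) : ELink A Q r x y := by
  obtain ⟨h1, h2, h3, r'', h4, h5, h6⟩ := hl
  exact ⟨h1, h2, h3, r'', le_trans h h4, h5, h6⟩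

theorem ele_mono (h : r ≤ r') (hl : ELe A Q r' x y) : ELe A Q r x y := by
  induction hl with
  | refl => exact Relation.ReflTransGen.refl
  | tail _ hab ih => exact Relation.ReflTransGen.tail ih (elink_mono h hab)

theorem ele_refl : ELe A Q r x x := Relation.ReflTransGen.refl

theorem ele_trans (h1 : ELe A Q r x y) (h2 : ELe A Q r y z) : ELe A Q r x z :=
  Relation.ReflTransGen.trans h1 h2

theorem ele_le (h : ELe A Q r x y) : x ≤ y := by
  induction h with
  | refl => exact le_refl _
  | tail _ hl ih => exact le_trans ih (le_of_lt hl.1)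

theorem elink_h1 (hQ : QExact A Q) (hl : ELink A Q r x y) (hy : A r y = false) :
    A r x = false := by
  obtain ⟨hxy, hxQ, hyQ, r', hr, hx', hy'⟩ := hl
  rcases eq_or_lt_of_le hr with h | h
  · subst h; exact hx'
  · by_contra hc
    have hx1 : A r x = true := by simpa using hc
    exact hQ r r' x y h hxy hxQ hyQ hx1 hy hx' hy'

/-- (H1) the zero set of a row inside `Q` is closed downwards. -/
theorem ele_h1 (hQ : QExact A Q) (h : ELe A Q r x y) (hy : A r y = false) :
    A r x = false := by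
  induction h with
  | refl => exact hy
  | tail _ hl ih => exact ih (elink_h1 hQ hl hy)

/-- a nontrivial chain stays inside `Q` -/
theorem ele_mem_left (h : ELe A Q r x y) (hy : y ∈ Q) : x ∈ Q := by
  induction h with
  | refl => exact hy
  | tail _ hl ih => exact ih hl.2.1

/-- (H2) two zeros of one row inside `Q` are comparable. -/
theorem ele_h2 (hxQ : x ∈ Q) (hyQ : y ∈ Q) (hxy : x ≤ y) (hx : A r x = false)
    (hy : A r y = false) : ELe A Q r x y := by
  rcases eq_or_lt_of_le hxy with h | h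
  · subst h; exact Relation.ReflTransGen.refl
  · exact Relation.ReflTransGen.single ⟨h, hxQ, hyQ, r, le_refl _, hx, hy⟩

/-- (T1) the predecessors of a column form a chain. -/
theorem ele_t1 (hQ : QExact A Q) (r : Fin n) :
    ∀ z x y : Fin n, ELe A Q r x z → ELe A Q r y z → x ≤ y → ELe A Q r x y := by
  intro z
  induction z using WellFoundedLT.induction with
  | ind z ih =>
    intro x y hx hy hxy
    rcases Relation.ReflTransGen.cases_tail hy with h | ⟨y', hy', hly⟩
    · subst h; exact hx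
    rcases Relation.ReflTransGen.cases_tail hx with h | ⟨x', hx', hlx⟩
    · have h1 : y ≤ z := ele_le hy
      have h2 : x = y := le_antisymm hxy (h ▸ h1)
      subst h2; exact Relation.ReflTransGen.refl
    obtain ⟨hxz, hx'Q, hzQ, r1, hr1, hx1, hz1⟩ := hlx
    obtain ⟨hyz, hy'Q, _, r2, hr2, hy2, hz2⟩ := hly
    have key : A r1 y' = false ∧ r ≤ r1 ∨ A r2 x' = false ∧ r ≤ r2 := by
      rcases le_total r1 r2 with h12 | h21
      · exact Or.inl ⟨elink_h1 hQ ⟨hyz, hy'Q, hzQ, r2, h12, hy2, hz2⟩ hz1, hr1⟩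
      · exact Or.inr ⟨elink_h1 hQ ⟨hxz, hx'Q, hzQ, r1, h21, hx1, hz1⟩ hz2, hr2⟩
    rcases lt_trichotomy x' y' with hlt | heq | hgt
    · have hl : ELink A Q r x' y' := by
        refine ⟨hlt, hx'Q, hy'Q, ?_⟩
        rcases key with ⟨h, _⟩ | ⟨h, _⟩
        · exact ⟨r1, hr1, hx1, h⟩
        · exact ⟨r2, hr2, h, hy2⟩
      exact ih y' hyz x y (hx'.tail hl) hy' hxy
    · subst heq; exact ih x' hxz x y hx' hy' hxy
    · have hl : ELink A Q r y' x' := by
        refine ⟨hgt, hy'Q, hx'Q, ?_⟩
        rcases key with ⟨h, _⟩ | ⟨h, _⟩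
        · exact ⟨r1, hr1, h, hx1⟩
        · exact ⟨r2, hr2, hy2, h⟩
      exact ih x' hxz x y hx' (hy'.tail hl) hxy

end

/-- **Theorem 1.** Let `A` have no copy of E inside the columns of `Q`.  Let `B` agree with
`A` on the columns of `Q`, and let every other column `a` of `B` follow an anchor
`(sigma a, gamma a)`: `B r a` is zero exactly when `r ≤ sigma a` and row `r` of `A` has a zero
`g ∈ Q`, `a < g`, below `gamma a` in the forest alive at `r`.  Then `B` has no copy of E.
No condition on the anchors is needed; `gamma a = a` gives an all-ones column. -/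
theorem efit_efree {A B : Fin n → Fin n → Bool} {Q : Finset (Fin n)} (hQ : QExact A Q)
    (sigma gamma : Fin n → Fin n)
    (hBQ : ∀ r a, a ∈ Q → B r a = A r a)
    (hB : ∀ r a, a ∉ Q → (B r a = false ↔
      r ≤ sigma a ∧ ∃ g ∈ Q, A r g = false ∧ a < g ∧ ELe A Q r g (gamma a))) :
    ∀ r r' x y, r < r' → x < y → B r x = true → B r y = false →
      B r' x = false → B r' y = false → False := by
  intro r r' x y hrr hxy h1 h2 h3 h4
  have hle : r ≤ r' := le_of_lt hrr
  by_cases hxQ : x ∈ Q
  · by_cases hyQ : y ∈ Q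
    · rw [hBQ _ _ hxQ] at h1 h3
      rw [hBQ _ _ hyQ] at h2 h4
      exact hQ r r' x y hrr hxy hxQ hyQ h1 h2 h3 h4
    · rw [hBQ _ _ hxQ] at h1 h3
      obtain ⟨_, g, hgQ, hg0, hyg, hgγ⟩ := (hB r y hyQ).1 h2
      obtain ⟨_, g', hg'Q, hg'0, hyg', hg'γ⟩ := (hB r' y hyQ).1 h4
      have e1 : ELe A Q r' x g' := ele_h2 hxQ hg'Q (le_of_lt (lt_trans hxy hyg')) h3 hg'0
      have e2 : ELe A Q r x (gamma y) := ele_mono hle (ele_trans e1 hg'γ)
      have e3 : ELe A Q r x g := ele_t1 hQ r _ _ _ e2 hgγ (le_of_lt (lt_trans hxy hyg))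
      have : A r x = false := ele_h1 hQ e3 hg0
      rw [this] at h1
      exact Bool.false_ne_true h1
  · have hgoal : B r x = false → False := fun h => by
      rw [h] at h1; exact Bool.false_ne_true h1
    apply hgoal
    obtain ⟨hσ, gx, hgxQ, hgx0, hxgx, hgxγ⟩ := (hB r' x hxQ).1 h3
    have hσ' : r ≤ sigma x := le_trans hle hσ
    have hgxγr : ELe A Q r gx (gamma x) := ele_mono hle hgxγ
    by_cases hyQ : y ∈ Q
    · rw [hBQ _ _ hyQ] at h2 h4
      rcases le_or_gt gx y with hgy | hgy
      · have e1 : ELe A Q r gx y := ele_mono hle (ele_h2 hgxQ hyQ hgy hgx0 h4)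
        exact (hB r x hxQ).2 ⟨hσ', gx, hgxQ, ele_h1 hQ e1 h2, hxgx, hgxγr⟩
      · have e1 : ELe A Q r y gx := ele_mono hle (ele_h2 hyQ hgxQ (le_of_lt hgy) h4 hgx0)
        exact (hB r x hxQ).2 ⟨hσ', y, hyQ, h2, hxy, ele_trans e1 hgxγr⟩
    · obtain ⟨_, g, hgQ, hg0, hyg, hgγ⟩ := (hB r y hyQ).1 h2
      obtain ⟨_, g', hg'Q, hg'0, hyg', hg'γ⟩ := (hB r' y hyQ).1 h4
      have hg'γr : ELe A Q r g' (gamma y) := ele_mono hle hg'γ
      have hxg : x < g := lt_trans hxy hyg
      have hxg' : x < g' := lt_trans hxy hyg'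
      rcases le_or_gt g' g with hgg | hgg
      · have e1 : ELe A Q r g' g := ele_t1 hQ r _ _ _ hg'γr hgγ hgg
        have hg'r : A r g' = false := ele_h1 hQ e1 hg0
        rcases le_or_gt gx g' with hc | hc
        · have e2 : ELe A Q r gx g' := ele_mono hle (ele_h2 hgxQ hg'Q hc hgx0 hg'0)
          exact (hB r x hxQ).2 ⟨hσ', gx, hgxQ, ele_h1 hQ e2 hg'r, hxgx, hgxγr⟩
        · have e2 : ELe A Q r g' gx :=
            ele_mono hle (ele_h2 hg'Q hgxQ (le_of_lt hc) hg'0 hgx0)
          exact (hB r x hxQ).2 ⟨hσ', g', hg'Q, hg'r, hxg', ele_trans e2 hgxγr⟩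
      · have e1 : ELe A Q r g g' := ele_t1 hQ r _ _ _ hgγ hg'γr (le_of_lt hgg)
        rcases le_or_gt g' gx with hc | hc
        · have e2 : ELe A Q r g' gx := ele_mono hle (ele_h2 hg'Q hgxQ hc hg'0 hgx0)
          exact (hB r x hxQ).2
            ⟨hσ', g, hgQ, hg0, hxg, ele_trans e1 (ele_trans e2 hgxγr)⟩
        · have e2 : ELe A Q r gx g' :=
            ele_mono hle (ele_h2 hgxQ hg'Q (le_of_lt hc) hgx0 hg'0)
          rcases le_or_gt gx g with hd | hd
          · have e3 : ELe A Q r gx g := ele_t1 hQ r _ _ _ e2 e1 hd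
            exact (hB r x hxQ).2 ⟨hσ', gx, hgxQ, ele_h1 hQ e3 hg0, hxgx, hgxγr⟩
          · have e3 : ELe A Q r g gx := ele_t1 hQ r _ _ _ e1 e2 (le_of_lt hd)
            exact (hB r x hxQ).2 ⟨hσ', g, hgQ, hg0, hxg, ele_trans e3 hgxγr⟩

end Vale.Agent.Lib.P037
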