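import Mathlib

/-!
# P037, pattern E = [[1,0],[0,0]]: the link induction (cost part (III) of the column fit)

Convention: `false` is a zero, `true` is a one.  A copy of E in `A` is a pair of rows
`r1 < r2` and a pair of columns `c1 < c2` with `A r1 c1 = true` and the other three
entries `false`.

The lemma is stated for an abstract relation `link` on columns, so that it can be applied to
any definition of the forest order `<=_r` whose links have `s` co-occurrence rows after `r`.
-/

namespace Vale.Agent.Lib.P037.ELink

open Finset

/-- **Link induction.**  `A1` has no copy with both columns in `Q`; every link `x < y`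
(of columns in `Q`) has at least `s` rows after `r` in which `x` and `y` are both zero;
`V` is a set of fewer than `s` rows that meets every copy of `A1` on a column pair `(a, g)`
with `g ∈ Q`, `a < g`.  If `sigma ∉ V` is a row after `r` with zeros at `a` and at `gam`,
and `g` is a zero of row `r` that is linked to `gam` by a chain of links, `a < g`, then
row `r` has a zero at `a` or lies in `V`. -/
theorem link_claim {n : ℕ} (A1 : Fin n → Fin n → Bool) (Q V : Finset (Fin n)) (s : ℕ)
    (a r : Fin n) (link : Fin n → Fin n → Prop)
    (hlink : ∀ x y, link x y → x < y ∧ x ∈ Q ∧ y ∈ Q ∧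
      s ≤ (univ.filter (fun r2 : Fin n => r < r2 ∧ A1 r2 x = false ∧ A1 r2 y = false)).card)
    (hQ : ∀ r1 r2 c1 c2 : Fin n, r1 < r2 → c1 < c2 → c1 ∈ Q → c2 ∈ Q →
      A1 r1 c2 = false → A1 r2 c1 = false → A1 r2 c2 = false → A1 r1 c1 = false)
    (hV : ∀ r1 r2 g : Fin n, r1 < r2 → a < g → g ∈ Q →
      A1 r1 a = true → A1 r1 g = false → A1 r2 a = false → A1 r2 g = false →
      r1 ∈ V ∨ r2 ∈ V)
    (hVs : V.card < s)
    (sigma gam g : Fin n) (hsV : sigma ∉ V) (hrs : r < sigma)
    (hsa : A1 sigma a = false) (hsg : A1 sigma gam = false)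
    (hag : a < g) (hgQ : g ∈ Q) (hrg : A1 r g = false)
    (hchain : Relation.ReflTransGen link g gam) :
    A1 r a = false ∨ r ∈ V := by
  have key : ∀ h, Relation.ReflTransGen link h gam → a < h →
      ∃ y, r < y ∧ y ∉ V ∧ A1 y h = false ∧ A1 y a = false := by
    intro h hh
    induction hh using Relation.ReflTransGen.head_induction_on with
    | refl => intro _; exact ⟨sigma, hrs, hsV, hsg, hsa⟩
    | @head h h' hl _ ih =>
      intro hah
      obtain ⟨hlt, hhQ, hh'Q, hcard⟩ := hlink _ _ hl
      obtain ⟨y, hry, hyV, hyh', hya⟩ := ih (lt_trans hah hlt)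
      have hex : ∃ lam, lam ∈ univ.filter
          (fun r2 : Fin n => r < r2 ∧ A1 r2 h = false ∧ A1 r2 h' = false) ∧ lam ∉ V := by
        by_contra hcon
        push Not at hcon
        have hsub : univ.filter
            (fun r2 : Fin n => r < r2 ∧ A1 r2 h = false ∧ A1 r2 h' = false) ⊆ V :=
          fun x hx => hcon x hx
        have := card_le_card hsub
        omega
      obtain ⟨lam, hlam, hlamV⟩ := hex
      simp only [mem_filter, mem_univ, true_and] at hlam
      obtain ⟨hrl, hlh, hlh'⟩ := hlam
      rcases lt_trichotomy y lam with hyl | hyl | hyl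
      · exact ⟨y, hry, hyV, hQ y lam h h' hyl hlt hhQ hh'Q hyh' hlh hlh', hya⟩
      · subst hyl; exact ⟨y, hry, hyV, hlh, hya⟩
      · refine ⟨lam, hrl, hlamV, hlh, ?_⟩
        by_contra hla
        have hla' : A1 lam a = true := by simpa using hla
        rcases hV lam y h' hyl (lt_trans hah hlt) hh'Q hla' hlh' hya hyh' with h1 | h1
        · exact hlamV h1
        · exact hyV h1
  obtain ⟨y, hry, hyV, hyg, hya⟩ := key g hchain hag
  by_cases hra : A1 r a = false
  · exact Or.inl hra
  · right
    have hra' : A1 r a = true := by simpa using hra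
    rcases hV r y g hry hag hgQ hra' hrg hya hyg with h1 | h1
    · exact h1
    · exact absurd h1 hyV

end Vale.Agent.Lib.P037.ELink
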