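import Mathlib
import Vale.Agent.Lib.P037.EForest
import Vale.Agent.Lib.P037.ELink
import Vale.Agent.Lib.P037.EAnchor

/-!
# P037, pattern E = [[1,0],[0,0]]: cost of fitting one column

Zero entries are `false`.  `A1` is exact on the columns `Q`; `A2` is `A1` with some rows made
all ones, such that every pair of `Q`-zeros of a row of `A2` has `s` later common zero rows
in `A1`, and every zero of `A2` has a `Q`-zero of its row at or after it.  For a column
`a ∉ Q` and a set `V` of fewer than `s` rows meeting all copies of `A1` on column pairs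
`(a, g)`, `g ∈ Q`, either the column has few zeros or an anchor `(σ, γ)` fits it well.
-/

namespace Vale.Agent.Lib.P037

open Finset

/-- `A2` is exact on `Q` when `A1` is and every row of `A2` is all ones or a row of `A1`. -/
theorem ecol_exact {n : ℕ} {A1 A2 : Fin n → Fin n → Bool} {Q : Finset (Fin n)}
    (hQ1 : QExact A1 Q)
    (hrow : ∀ r, (∀ c, A2 r c = true) ∨ (∀ c, A2 r c = A1 r c)) : QExact A2 Q := by
  intro r r' x y hrr hxy hxQ hyQ h1 h2 h3 h4
  have e1 : ∀ c, A2 r c = A1 r c := by
    rcases hrow r with h | h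
    · rw [h y] at h2
      exact absurd h2 (by simp)
    · exact h
  have e2 : ∀ c, A2 r' c = A1 r' c := by
    rcases hrow r' with h | h
    · rw [h y] at h4
      exact absurd h4 (by simp)
    · exact h
  rw [e1] at h1 h2
  rw [e2] at h3 h4
  exact hQ1 r r' x y hrr hxy hxQ hyQ h1 h2 h3 h4

/-- **Cost of one column.**  Either column `a` of `A2` has at most `|V| + sqrt Xa` zeros, or
there is an anchor `(σ, γ)` such that every column `col` following the anchor rule differs
from column `a` of `A2` in at most `2 |V| + 2 sqrt Xa` rows.  `Xa` bounds the number of pairs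
of rows `r < r'` with zeros at `a` and no common zero in a column of `Q` after `a`. -/
theorem ecol_cost {n : ℕ} (s : ℕ) (A1 A2 : Fin n → Fin n → Bool) (Q : Finset (Fin n))
    (hQ1 : QExact A1 Q)
    (hrow : ∀ r, (∀ c, A2 r c = true) ∨ (∀ c, A2 r c = A1 r c))
    (hrob : ∀ r x y, x ∈ Q → y ∈ Q → x < y → A2 r x = false → A2 r y = false →
      s ≤ (univ.filter fun r' : Fin n => r < r' ∧ A1 r' x = false ∧ A1 r' y = false).card)
    (hcov : ∀ r c, A2 r c = false → ∃ g ∈ Q, c ≤ g ∧ A2 r g = false)
    (a : Fin n) (ha : a ∉ Q) (V : Finset (Fin n))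
    (hV : ∀ r1 r2 g : Fin n, r1 < r2 → a < g → g ∈ Q → A1 r1 a = true → A1 r1 g = false →
      A1 r2 a = false → A1 r2 g = false → r1 ∈ V ∨ r2 ∈ V)
    (hVs : V.card < s) (Xa : ℕ)
    (hX : (univ.filter fun p : Fin n × Fin n => p.1 < p.2 ∧ A2 p.1 a = false ∧
      A2 p.2 a = false ∧ ∀ g ∈ Q, a < g → ¬ (A2 p.1 g = false ∧ A2 p.2 g = false)).card ≤ Xa) :
    (univ.filter fun r : Fin n => A2 r a = false).card ≤ V.card + Nat.sqrt Xa ∨
    ∃ σ γ : Fin n, ∀ col : Fin n → Bool,
      (∀ r, col r = false ↔ (r ≤ σ ∧ ∃ g ∈ Q, A2 r g = false ∧ a < g ∧ ELe A2 Q r g γ)) →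
      (univ.filter fun r : Fin n => A2 r a ≠ col r).card ≤ 2 * V.card + 2 * Nat.sqrt Xa := by
  classical
  set Z := univ.filter fun r : Fin n => A2 r a = false with hZ
  set X : Fin n → ℕ := fun σ => (univ.filter fun r : Fin n => r < σ ∧ A2 r a = false ∧
    ∀ g ∈ Q, a < g → ¬ (A2 r g = false ∧ A2 σ g = false)).card with hXdef
  have hXsum : ∑ σ ∈ Z, X σ ≤ Xa := by
    refine le_trans ?_ hX
    have hsig : ∑ σ ∈ Z, X σ = (Z.sigma fun σ => univ.filter fun r : Fin n =>
        r < σ ∧ A2 r a = false ∧ ∀ g ∈ Q, a < g → ¬ (A2 r g = false ∧ A2 σ g = false)).card := by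
      rw [Finset.card_sigma]
    rw [hsig]
    apply Finset.card_le_card_of_injOn (fun x : (_ : Fin n) × Fin n => (x.2, x.1))
    · intro x hx
      rw [Finset.mem_coe, Finset.mem_sigma] at hx
      rw [Finset.mem_coe, Finset.mem_filter]
      obtain ⟨hx1, hx2⟩ := hx
      rw [Finset.mem_filter] at hx2
      rw [hZ, Finset.mem_filter] at hx1
      exact ⟨Finset.mem_univ _, hx2.2.1, hx2.2.2.1, hx1.2, hx2.2.2.2⟩
    · intro x _ y _ hxy
      simp only [Prod.mk.injEq] at hxy
      obtain ⟨x1, x2⟩ := x
      obtain ⟨y1, y2⟩ := y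
      simp only at hxy
      obtain ⟨h1, h2⟩ := hxy
      subst h1
      subst h2
      rfl
  rcases exists_anchor Z V X Xa hXsum with hsmall | ⟨σ, hσZ, hσV, hσ⟩
  · left
    exact hsmall
  right
  have hσa : A2 σ a = false := by
    rw [hZ, Finset.mem_filter] at hσZ
    exact hσZ.2
  obtain ⟨g0, hg0Q, hag0, hσg0⟩ := hcov σ a hσa
  have hag0' : a < g0 := lt_of_le_of_ne hag0 (fun h => ha (h ▸ hg0Q))
  set G := Q.filter (fun g => a < g ∧ A2 σ g = false) with hG
  have hGne : G.Nonempty := ⟨g0, by rw [hG, Finset.mem_filter]; exact ⟨hg0Q, hag0', hσg0⟩⟩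
  set γ := G.min' hGne with hγ
  have hγG : γ ∈ G := Finset.min'_mem G hGne
  have hγQ : γ ∈ Q := by
    rw [hG, Finset.mem_filter] at hγG
    exact hγG.1
  have haγ : a < γ := by
    rw [hG, Finset.mem_filter] at hγG
    exact hγG.2.1
  have hσγ : A2 σ γ = false := by
    rw [hG, Finset.mem_filter] at hγG
    exact hγG.2.2
  have hγmin : ∀ g ∈ Q, a < g → A2 σ g = false → γ ≤ g := by
    intro g hgQ hag hg
    apply Finset.min'_le G g
    rw [hG, Finset.mem_filter]
    exact ⟨hgQ, hag, hg⟩
  refine ⟨σ, γ, ?_⟩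
  intro col hcol
  have hQ2 : QExact A2 Q := ecol_exact hQ1 hrow
  have hlive : ∀ r c0, A2 r c0 = false → ∀ c, A2 r c = A1 r c := by
    intro r c0 h0
    rcases hrow r with h | h
    · rw [h c0] at h0
      exact absurd h0 (by simp)
    · exact h
  have hsub : (univ.filter fun r : Fin n => A2 r a ≠ col r) ⊆
      (Z.filter fun r => σ < r) ∪ (univ.filter fun r : Fin n => r < σ ∧ A2 r a = false ∧
        ∀ g ∈ Q, a < g → ¬ (A2 r g = false ∧ A2 σ g = false)) ∪ V := by
    intro r hr
    rw [Finset.mem_filter] at hr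
    have hne := hr.2
    rcases lt_trichotomy r σ with hlt | heq | hgt
    · by_cases hra : A2 r a = false
      · have hcolr : ¬ (col r = false) := fun h => hne (by rw [hra, h])
        rw [hcol r] at hcolr
        apply Finset.mem_union_left
        apply Finset.mem_union_right
        rw [Finset.mem_filter]
        refine ⟨Finset.mem_univ _, hlt, hra, ?_⟩
        rintro g hgQ hag ⟨hrg, hσg⟩
        apply hcolr
        refine ⟨le_of_lt hlt, γ, hγQ, ?_, haγ, ele_refl⟩
        have hγg := hγmin g hgQ hag hσg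
        rcases eq_or_lt_of_le hγg with h | h
        · rw [h]
          exact hrg
        · by_contra hc
          have hc1 : A2 r γ = true := by simpa using hc
          exact hQ2 r σ γ g hlt h hγQ hgQ hc1 hrg hσγ hσg
      · have hra1 : A2 r a = true := by simpa using hra
        have hcolr : col r = false := by
          by_contra h
          have h1 : col r = true := by simpa using h
          exact hne (by rw [hra1, h1])
        obtain ⟨_, g, hgQ, hrg, hag, hchain⟩ := (hcol r).1 hcolr
        apply Finset.mem_union_right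
        have e1 := hlive r g hrg
        have e2 := hlive σ a hσa
        have hlink : ∀ x y, ELink A2 Q r x y → x < y ∧ x ∈ Q ∧ y ∈ Q ∧
            s ≤ (univ.filter (fun r2 : Fin n =>
              r < r2 ∧ A1 r2 x = false ∧ A1 r2 y = false)).card := by
          rintro x y ⟨hxy, hxQ, hyQ, r', hrr', hx, hy⟩
          refine ⟨hxy, hxQ, hyQ, le_trans (hrob r' x y hxQ hyQ hxy hx hy) ?_⟩
          apply Finset.card_le_card
          intro r2 hr2
          rw [Finset.mem_filter] at hr2 ⊢
          exact ⟨hr2.1, lt_of_le_of_lt hrr' hr2.2.1, hr2.2.2⟩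
        have hQ' : ∀ r1 r2 c1 c2 : Fin n, r1 < r2 → c1 < c2 → c1 ∈ Q → c2 ∈ Q →
            A1 r1 c2 = false → A1 r2 c1 = false → A1 r2 c2 = false → A1 r1 c1 = false := by
          intro r1 r2 c1 c2 h12 hc12 hc1 hc2 h1 h2 h3
          by_contra hc
          have hc' : A1 r1 c1 = true := by simpa using hc
          exact hQ1 r1 r2 c1 c2 h12 hc12 hc1 hc2 hc' h1 h2 h3
        have hclaim := ELink.link_claim A1 Q V s a r (ELink A2 Q r) hlink hQ' hV hVs σ γ g hσV
          hlt (by rw [← e2 a]; exact hσa) (by rw [← e2 γ]; exact hσγ) hag hgQ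
          (by rw [← e1 g]; exact hrg) hchain
        rcases hclaim with h | h
        · rw [← e1 a, hra1] at h
          exact absurd h (by simp)
        · exact h
    · exfalso
      apply hne
      have hcolσ : col r = false := by
        rw [hcol r]
        refine ⟨le_of_eq heq, γ, hγQ, ?_, haγ, ele_refl⟩
        rw [heq]
        exact hσγ
      rw [hcolσ, heq]
      exact hσa
    · have hcolr : col r = true := by
        by_contra h
        have h1 : col r = false := by simpa using h
        have := ((hcol r).1 h1).1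
        exact absurd hgt (not_lt.mpr this)
      have hra : A2 r a = false := by
        by_contra h
        have h1 : A2 r a = true := by simpa using h
        exact hne (by rw [h1, hcolr])
      apply Finset.mem_union_left
      apply Finset.mem_union_left
      rw [Finset.mem_filter, hZ, Finset.mem_filter]
      exact ⟨⟨Finset.mem_univ _, hra⟩, hgt⟩
  have hc1 := Finset.card_le_card hsub
  have hc2 := Finset.card_union_le ((Z.filter fun r => σ < r) ∪
    (univ.filter fun r : Fin n => r < σ ∧ A2 r a = false ∧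
        ∀ g ∈ Q, a < g → ¬ (A2 r g = false ∧ A2 σ g = false))) V
  have hc3 := Finset.card_union_le (Z.filter fun r => σ < r)
    (univ.filter fun r : Fin n => r < σ ∧ A2 r a = false ∧
        ∀ g ∈ Q, a < g → ¬ (A2 r g = false ∧ A2 σ g = false))
  have hσ' : (Z.filter fun r => σ < r).card + (univ.filter fun r : Fin n => r < σ ∧
      A2 r a = false ∧ ∀ g ∈ Q, a < g → ¬ (A2 r g = false ∧ A2 σ g = false)).card
      ≤ V.card + 2 * Nat.sqrt Xa := hσ
  omega

end Vale.Agent.Lib.P037
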