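import Mathlib
import Vale.Agent.Lib.P037.EForest

/-!
# P037, pattern E: the third column cost (a one of the matrix that the fit turns into a zero)

`A1` has no copy of E inside the columns of `Q`; `A2` is a second matrix (in the application: `A1` with some rows
raised to all ones) such that every pair of columns of `Q` that is zero in a row of `A2` is zero in at
least `s` later rows of `A1` (`hrob`).  `V` is a set of fewer than `s` rows that meets every
copy of E in `A1` on the column pairs `(a, g)`, `g ∈ Q`, `a < g`.  If the anchor row `sigma`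
lies outside `V`, then every row `r < sigma` with a one at `a` and a zero `g ∈ Q`, `a < g`,
below the anchor column `gamma` in the forest of `A2` alive at `r`, lies in `V`.
-/

namespace Vale.Agent.Lib.P037

variable {n : ℕ}

theorem cost_three {A1 A2 : Fin n → Fin n → Bool} {Q : Finset (Fin n)} (V : Finset (Fin n))
    (s : ℕ) (a : Fin n) (hex : QExact A1 Q)
    (hrob : ∀ r x y, x ∈ Q → y ∈ Q → x < y → A2 r x = false → A2 r y = false →
      s ≤ (Finset.univ.filter (fun r' : Fin n => r < r' ∧ A1 r' x = false ∧ A1 r' y = false)).card)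
    (hV : ∀ r r' g, r < r' → g ∈ Q → a < g → A1 r a = true → A1 r g = false →
      A1 r' a = false → A1 r' g = false → r ∈ V ∨ r' ∈ V)
    (hs : V.card < s)
    {sigma gamma : Fin n} (hσV : sigma ∉ V) (hσa : A1 sigma a = false)
    (hσγ : A1 sigma gamma = false)
    {r g : Fin n} (hr : r < sigma) (hgQ : g ∈ Q) (hag : a < g) (hra : A1 r a = true)
    (hrg : A1 r g = false) (hle : ELe A2 Q r g gamma) : r ∈ V := by
  -- invariant along the chain
  have inv : ∀ h : Fin n, ELe A2 Q r h gamma → a < h →
      ∃ y, r < y ∧ y ∉ V ∧ A1 y h = false ∧ A1 y a = false := by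
    intro h hh
    induction hh using Relation.ReflTransGen.head_induction_on with
    | refl => intro _; exact ⟨sigma, hr, hσV, hσγ, hσa⟩
    | @head h h' hl _ ih =>
      intro hah
      obtain ⟨hhh, hhQ, hh'Q, r'', hr'', h0, h0'⟩ := hl
      obtain ⟨y, hry, hyV, hyh', hya⟩ := ih (lt_trans hah hhh)
      -- a later row outside V in which h, h' are both zero in A1
      have hcard := hrob r'' h h' hhQ hh'Q hhh h0 h0'
      have hex2 : ∃ lam ∈ Finset.univ.filter
          (fun r' : Fin n => r'' < r' ∧ A1 r' h = false ∧ A1 r' h' = false), lam ∉ V := by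
        by_contra hcon
        simp only [not_exists, not_and, not_not] at hcon
        have : (Finset.univ.filter
          (fun r' : Fin n => r'' < r' ∧ A1 r' h = false ∧ A1 r' h' = false)).card ≤ V.card :=
          Finset.card_le_card (fun z hz => hcon z hz)
        omega
      obtain ⟨lam, hlam, hlamV⟩ := hex2
      obtain ⟨hlt, hlh, hlh'⟩ := (Finset.mem_filter.1 hlam).2
      have hrl : r < lam := lt_of_le_of_lt hr'' hlt
      rcases le_or_gt y lam with hyl | hyl
      · -- y ≤ lam : y has a zero at h
        refine ⟨y, hry, hyV, ?_, hya⟩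
        rcases eq_or_lt_of_le hyl with he | hlt'
        · rw [he]; exact hlh
        · by_contra hc
          have hy1 : A1 y h = true := by simpa using hc
          exact hex y lam h h' hlt' hhh hhQ hh'Q hy1 hyh' hlh hlh'
      · -- lam < y : lam has a zero at a
        refine ⟨lam, hrl, hlamV, hlh, ?_⟩
        by_contra hc
        have hl1 : A1 lam a = true := by simpa using hc
        rcases hV lam y h' hyl hh'Q (lt_trans hah hhh) hl1 hlh' hya hyh' with h1 | h1
        · exact hlamV h1
        · exact hyV h1
  obtain ⟨y, hry, hyV, hyg, hya⟩ := inv g hle hag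
  rcases hV r y g hry hgQ hag hra hrg hya hyg with h1 | h1
  · exact h1
  · exact absurd h1 hyV

/-- Variant of `cost_three` with the weakest robustness hypothesis: every pair of columns of
`Q` that is zero in a row `r` of `A2` is zero in some row of `A1` at or after `r` outside `V`
(for instance because there are more such rows than `V` has elements; the row `r` itself
counts).  So `V.card ≤ s` suffices when the last `s` rows of every pair were removed. -/
theorem cost_three_le {A1 A2 : Fin n → Fin n → Bool} {Q : Finset (Fin n)} (V : Finset (Fin n))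
    (a : Fin n) (hex : QExact A1 Q)
    (hrob : ∀ r x y, x ∈ Q → y ∈ Q → x < y → A2 r x = false → A2 r y = false →
      ∃ lam, r ≤ lam ∧ lam ∉ V ∧ A1 lam x = false ∧ A1 lam y = false)
    (hV : ∀ r r' g, r < r' → g ∈ Q → a < g → A1 r a = true → A1 r g = false →
      A1 r' a = false → A1 r' g = false → r ∈ V ∨ r' ∈ V)
    {sigma gamma : Fin n} (hσV : sigma ∉ V) (hσa : A1 sigma a = false)
    (hσγ : A1 sigma gamma = false)
    {r g : Fin n} (hr : r ≤ sigma) (hgQ : g ∈ Q) (hag : a < g) (hra : A1 r a = true)
    (hrg : A1 r g = false) (hle : ELe A2 Q r g gamma) : r ∈ V := by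
  have inv : ∀ h : Fin n, ELe A2 Q r h gamma → a < h →
      ∃ y, r ≤ y ∧ y ∉ V ∧ A1 y h = false ∧ A1 y a = false := by
    intro h hh
    induction hh using Relation.ReflTransGen.head_induction_on with
    | refl => intro _; exact ⟨sigma, hr, hσV, hσγ, hσa⟩
    | @head h h' hl _ ih =>
      intro hah
      obtain ⟨hhh, hhQ, hh'Q, r'', hr'', h0, h0'⟩ := hl
      obtain ⟨y, hry, hyV, hyh', hya⟩ := ih (lt_trans hah hhh)
      obtain ⟨lam, hlt, hlamV, hlh, hlh'⟩ := hrob r'' h h' hhQ hh'Q hhh h0 h0'
      have hrl : r ≤ lam := le_trans hr'' hlt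
      rcases le_or_gt y lam with hyl | hyl
      · refine ⟨y, hry, hyV, ?_, hya⟩
        rcases eq_or_lt_of_le hyl with he | hlt'
        · rw [he]; exact hlh
        · by_contra hc
          have hy1 : A1 y h = true := by simpa using hc
          exact hex y lam h h' hlt' hhh hhQ hh'Q hy1 hyh' hlh hlh'
      · refine ⟨lam, hrl, hlamV, hlh, ?_⟩
        by_contra hc
        have hl1 : A1 lam a = true := by simpa using hc
        rcases hV lam y h' hyl hh'Q (lt_trans hah hhh) hl1 hlh' hya hyh' with h1 | h1
        · exact hlamV h1
        · exact hyV h1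
  obtain ⟨y, hry, hyV, hyg, hya⟩ := inv g hle hag
  rcases eq_or_lt_of_le hry with he | hlt
  · rw [← he, hra] at hya
    exact absurd hya (by simp)
  · rcases hV r y g hlt hgQ hag hra hrg hya hyg with h1 | h1
    · exact h1
    · exact absurd h1 hyV

end Vale.Agent.Lib.P037
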