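import Mathlib

namespace Vale.Agent.Lib.P037.EFin

open Finset

theorem sq_cancel {a b : ℕ} (h : a ^ 2 ≤ b ^ 2) : a ≤ b :=
  (Nat.pow_le_pow_iff_left (by norm_num)).mp h

theorem half_floor (n k : ℕ) (hk : 0 < k) (hkn : k ≤ n) : n ≤ 2 * (k * (n / k)) := by
  have h1 := Nat.lt_mul_div_succ n hk
  have h3 : 1 ≤ n / k := (Nat.le_div_iff_mul_le hk).mpr (by simpa using hkn)
  have h4 : k ≤ k * (n / k) := Nat.le_mul_of_pos_right k h3
  have h5 : k * (n / k + 1) = k * (n / k) + k := by ring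
  omega

/-- Pure arithmetic: with the parameters `q = 512 p ^ 2`, `s = n / (8 p q ^ 2)`,
`L = n / (8 p)`, the bounds of the core construction give fewer than `n ^ 2 / p` changes,
provided the number `N` of copies is at most `n ^ 4 / (2 ^ 36 p ^ 8) ^ 2` and
`n ≥ 2 ^ 21 p ^ 5`. -/
theorem arith (n p N TR d1 SV U nb s L D : ℕ) (hp : 1 ≤ p)
    (hn : 2 ^ 21 * p ^ 5 ≤ n)
    (hN : N * (2 ^ 36 * p ^ 8) ^ 2 ≤ n ^ 4)
    (hs : s = n / (8 * p * (512 * p ^ 2) ^ 2)) (hL : L = n / (8 * p))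
    (h1 : (512 * p ^ 2) * TR ≤ 4 * n ^ 2)
    (h2 : n ^ 2 * d1 ^ 2 ≤ 16 * (512 * p ^ 2) ^ 4 * N)
    (h3 : SV ^ 2 ≤ 16 * (512 * p ^ 2) ^ 2 * N)
    (h4 : (512 * p ^ 2) * (L * U) ≤ 4 * n ^ 3)
    (h5 : nb * s ≤ SV)
    (h6 : D ≤ TR + n * d1 + n * ((512 * p ^ 2) ^ 2 * s) + n * L + 2 * SV + U + n * nb) :
    p * D < n ^ 2 := by
  have hp0 : 0 < p := hp
  have hnpos : 0 < n := by
    have : 0 < 2 ^ 21 * p ^ 5 := by positivity
    omega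
  have hpp2 : p ≤ p ^ 2 := Nat.le_self_pow (by norm_num) p
  have hpp4 : p ≤ p ^ 4 := Nat.le_self_pow (by norm_num) p
  have hpp5 : p ≤ p ^ 5 := Nat.le_self_pow (by norm_num) p
  have hpp6 : p ≤ p ^ 6 := Nat.le_self_pow (by norm_num) p
  -- (a)
  have ha : 128 * (p * TR) ≤ n ^ 2 := by
    have e1 : 4 * (128 * (p * TR)) ≤ 4 * n ^ 2 := by
      calc 4 * (128 * (p * TR)) = 512 * TR * p := by ring
        _ ≤ 512 * TR * p ^ 2 := Nat.mul_le_mul_left _ hpp2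
        _ = (512 * p ^ 2) * TR := by ring
        _ ≤ 4 * n ^ 2 := h1
    exact Nat.le_of_mul_le_mul_left e1 (by norm_num)
  -- (b)
  have hb : 2 ^ 16 * (p * (n * d1)) ≤ n ^ 2 := by
    have s1 : (n * d1 * (2 ^ 36 * p ^ 8)) ^ 2 ≤ (4 * (512 * p ^ 2) ^ 2 * n ^ 2) ^ 2 := by
      calc (n * d1 * (2 ^ 36 * p ^ 8)) ^ 2 = (n ^ 2 * d1 ^ 2) * (2 ^ 36 * p ^ 8) ^ 2 := by ring
        _ ≤ (16 * (512 * p ^ 2) ^ 4 * N) * (2 ^ 36 * p ^ 8) ^ 2 := Nat.mul_le_mul_right _ h2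
        _ = 16 * (512 * p ^ 2) ^ 4 * (N * (2 ^ 36 * p ^ 8) ^ 2) := by ring
        _ ≤ 16 * (512 * p ^ 2) ^ 4 * n ^ 4 := Nat.mul_le_mul_left _ hN
        _ = (4 * (512 * p ^ 2) ^ 2 * n ^ 2) ^ 2 := by ring
    have s2 : n * d1 * (2 ^ 36 * p ^ 8) ≤ 4 * (512 * p ^ 2) ^ 2 * n ^ 2 := sq_cancel s1
    have s3 : (2 ^ 20 * p ^ 4) * (2 ^ 16 * p ^ 4 * (n * d1)) ≤ (2 ^ 20 * p ^ 4) * n ^ 2 := by
      calc (2 ^ 20 * p ^ 4) * (2 ^ 16 * p ^ 4 * (n * d1)) = n * d1 * (2 ^ 36 * p ^ 8) := by ring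
        _ ≤ 4 * (512 * p ^ 2) ^ 2 * n ^ 2 := s2
        _ = (2 ^ 20 * p ^ 4) * n ^ 2 := by ring
    have s4 : 2 ^ 16 * p ^ 4 * (n * d1) ≤ n ^ 2 :=
      Nat.le_of_mul_le_mul_left s3 (by positivity)
    calc 2 ^ 16 * (p * (n * d1)) = 2 ^ 16 * (n * d1) * p := by ring
      _ ≤ 2 ^ 16 * (n * d1) * p ^ 4 := Nat.mul_le_mul_left _ hpp4
      _ = 2 ^ 16 * p ^ 4 * (n * d1) := by ring
      _ ≤ n ^ 2 := s4
  -- (c)
  have hs' : s * (8 * p * (512 * p ^ 2) ^ 2) ≤ n := by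
    rw [hs]; exact Nat.div_mul_le_self _ _
  have hc : 8 * (p * (n * ((512 * p ^ 2) ^ 2 * s))) ≤ n ^ 2 := by
    calc 8 * (p * (n * ((512 * p ^ 2) ^ 2 * s))) = n * (s * (8 * p * (512 * p ^ 2) ^ 2)) := by
          ring
      _ ≤ n * n := Nat.mul_le_mul_left _ hs'
      _ = n ^ 2 := by ring
  -- (d)
  have hL' : L * (8 * p) ≤ n := by
    rw [hL]; exact Nat.div_mul_le_self _ _
  have hd : 8 * (p * (n * L)) ≤ n ^ 2 := by
    calc 8 * (p * (n * L)) = n * (L * (8 * p)) := by ring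
      _ ≤ n * n := Nat.mul_le_mul_left _ hL'
      _ = n ^ 2 := by ring
  -- (e)
  have hSVw : SV * (2 ^ 36 * p ^ 8) ≤ 4 * (512 * p ^ 2) * n ^ 2 := by
    have s1 : (SV * (2 ^ 36 * p ^ 8)) ^ 2 ≤ (4 * (512 * p ^ 2) * n ^ 2) ^ 2 := by
      calc (SV * (2 ^ 36 * p ^ 8)) ^ 2 = SV ^ 2 * (2 ^ 36 * p ^ 8) ^ 2 := by ring
        _ ≤ (16 * (512 * p ^ 2) ^ 2 * N) * (2 ^ 36 * p ^ 8) ^ 2 := Nat.mul_le_mul_right _ h3
        _ = 16 * (512 * p ^ 2) ^ 2 * (N * (2 ^ 36 * p ^ 8) ^ 2) := by ring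
        _ ≤ 16 * (512 * p ^ 2) ^ 2 * n ^ 4 := Nat.mul_le_mul_left _ hN
        _ = (4 * (512 * p ^ 2) * n ^ 2) ^ 2 := by ring
    exact sq_cancel s1
  have he : 2 ^ 24 * (p * (2 * SV)) ≤ n ^ 2 := by
    have s3 : (2 ^ 11 * p ^ 2) * (2 ^ 25 * p ^ 6 * SV) ≤ (2 ^ 11 * p ^ 2) * n ^ 2 := by
      calc (2 ^ 11 * p ^ 2) * (2 ^ 25 * p ^ 6 * SV) = SV * (2 ^ 36 * p ^ 8) := by ring
        _ ≤ 4 * (512 * p ^ 2) * n ^ 2 := hSVw
        _ = (2 ^ 11 * p ^ 2) * n ^ 2 := by ring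
    have s4 : 2 ^ 25 * p ^ 6 * SV ≤ n ^ 2 := Nat.le_of_mul_le_mul_left s3 (by positivity)
    calc 2 ^ 24 * (p * (2 * SV)) = 2 ^ 25 * SV * p := by ring
      _ ≤ 2 ^ 25 * SV * p ^ 6 := Nat.mul_le_mul_left _ hpp6
      _ = 2 ^ 25 * p ^ 6 * SV := by ring
      _ ≤ n ^ 2 := s4
  -- (f)
  have h8p : 8 * p ≤ n := by
    calc 8 * p ≤ 2 ^ 21 * p := Nat.mul_le_mul_right _ (by norm_num)
      _ ≤ 2 ^ 21 * p ^ 5 := Nat.mul_le_mul_left _ hpp5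
      _ ≤ n := hn
  have hnL : n ≤ 2 * (8 * p * L) := by
    rw [hL]; exact half_floor n (8 * p) (by omega) h8p
  have hf : 8 * (p * U) ≤ n ^ 2 := by
    have s1 : (64 * p * n) * (8 * (p * U)) ≤ (64 * p * n) * n ^ 2 := by
      calc (64 * p * n) * (8 * (p * U)) = (512 * p ^ 2) * U * n := by ring
        _ ≤ (512 * p ^ 2) * U * (2 * (8 * p * L)) := Nat.mul_le_mul_left _ hnL
        _ = 16 * p * ((512 * p ^ 2) * (L * U)) := by ring
        _ ≤ 16 * p * (4 * n ^ 3) := Nat.mul_le_mul_left _ h4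
        _ = (64 * p * n) * n ^ 2 := by ring
    exact Nat.le_of_mul_le_mul_left s1 (by positivity)
  -- (g)
  have hK : 8 * p * (512 * p ^ 2) ^ 2 ≤ n := by
    calc 8 * p * (512 * p ^ 2) ^ 2 = 2 ^ 21 * p ^ 5 := by ring
      _ ≤ n := hn
  have hnS : n ≤ 2 * (8 * p * (512 * p ^ 2) ^ 2 * s) := by
    rw [hs]; exact half_floor n (8 * p * (512 * p ^ 2) ^ 2) (by positivity) hK
  have hg : 8 * (p * (n * nb)) ≤ n ^ 2 := by
    have s1 : (2 ^ 33 * p ^ 7) * (8 * (p * (n * nb))) ≤ (2 ^ 33 * p ^ 7) * n ^ 2 := by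
      calc (2 ^ 33 * p ^ 7) * (8 * (p * (n * nb))) = (2 ^ 36 * p ^ 8) * nb * n := by ring
        _ ≤ (2 ^ 36 * p ^ 8) * nb * (2 * (8 * p * (512 * p ^ 2) ^ 2 * s)) :=
            Nat.mul_le_mul_left _ hnS
        _ = 2 * (8 * p * (512 * p ^ 2) ^ 2) * (2 ^ 36 * p ^ 8) * (nb * s) := by ring
        _ ≤ 2 * (8 * p * (512 * p ^ 2) ^ 2) * (2 ^ 36 * p ^ 8) * SV :=
            Nat.mul_le_mul_left _ h5
        _ = 2 * (8 * p * (512 * p ^ 2) ^ 2) * (SV * (2 ^ 36 * p ^ 8)) := by ring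
        _ ≤ 2 * (8 * p * (512 * p ^ 2) ^ 2) * (4 * (512 * p ^ 2) * n ^ 2) :=
            Nat.mul_le_mul_left _ hSVw
        _ = (2 ^ 33 * p ^ 7) * n ^ 2 := by ring
    exact Nat.le_of_mul_le_mul_left s1 (by positivity)
  have h7 : p * D ≤ p * TR + p * (n * d1) + p * (n * ((512 * p ^ 2) ^ 2 * s)) + p * (n * L)
      + p * (2 * SV) + p * U + p * (n * nb) := by
    calc p * D ≤ p * (TR + n * d1 + n * ((512 * p ^ 2) ^ 2 * s) + n * L + 2 * SV + U + n * nb) :=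
          Nat.mul_le_mul_left _ h6
      _ = _ := by ring
  have hn2 : 0 < n ^ 2 := by positivity
  have e16 : (2 : ℕ) ^ 16 = 65536 := by norm_num
  have e24 : (2 : ℕ) ^ 24 = 16777216 := by norm_num
  rw [e16] at hb
  rw [e24] at he
  generalize p * TR = a at *
  generalize p * (n * d1) = b at *
  generalize p * (n * ((512 * p ^ 2) ^ 2 * s)) = c at *
  generalize p * (n * L) = d at *
  generalize p * (2 * SV) = e at *
  generalize p * U = f at *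
  generalize p * (n * nb) = g at *
  generalize n ^ 2 = X at *
  generalize p * D = Y at *
  omega

/-- Deleting the top rows of all copies: an `E`-free matrix at distance at most `n * N`. -/
theorem small_case {n : ℕ} (A : Fin n → Fin n → Bool) :
    ∃ B : Fin n → Fin n → Bool,
      (∀ r r' x y : Fin n, r < r' → x < y →
        ¬ (B r x = true ∧ B r y = false ∧ B r' x = false ∧ B r' y = false)) ∧
      (univ.filter fun p : Fin n × Fin n => A p.1 p.2 ≠ B p.1 p.2).card ≤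
        n * (univ.filter fun t : Fin n × Fin n × Fin n × Fin n =>
          t.1 < t.2.1 ∧ t.2.2.1 < t.2.2.2 ∧ A t.1 t.2.2.1 = true ∧ A t.1 t.2.2.2 = false ∧
            A t.2.1 t.2.2.1 = false ∧ A t.2.1 t.2.2.2 = false).card := by
  classical
  set C := univ.filter fun t : Fin n × Fin n × Fin n × Fin n =>
      t.1 < t.2.1 ∧ t.2.2.1 < t.2.2.2 ∧ A t.1 t.2.2.1 = true ∧ A t.1 t.2.2.2 = false ∧
        A t.2.1 t.2.2.1 = false ∧ A t.2.1 t.2.2.2 = false with hC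
  set T : Finset (Fin n) := C.image (fun t => t.1) with hT
  refine ⟨fun r c => if r ∈ T then true else A r c, ?_, ?_⟩
  · intro r r' x y hr hx ⟨h1, h2, h3, h4⟩
    dsimp only at h1 h2 h3 h4
    have hrT : r ∉ T := by
      intro hmem
      rw [if_pos hmem] at h2
      exact Bool.noConfusion h2
    have hr'T : r' ∉ T := by
      intro hmem
      rw [if_pos hmem] at h3
      exact Bool.noConfusion h3
    rw [if_neg hrT] at h1 h2
    rw [if_neg hr'T] at h3 h4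
    apply hrT
    rw [hT]
    apply Finset.mem_image.mpr
    exact ⟨(r, r', x, y), Finset.mem_filter.mpr ⟨Finset.mem_univ _, hr, hx, h1, h2, h3, h4⟩, rfl⟩
  · have hsub : (univ.filter fun p : Fin n × Fin n =>
        A p.1 p.2 ≠ (if p.1 ∈ T then true else A p.1 p.2)) ⊆ T ×ˢ (univ : Finset (Fin n)) := by
      intro p hp
      rw [Finset.mem_filter] at hp
      rw [Finset.mem_product]
      refine ⟨?_, Finset.mem_univ _⟩
      by_contra hnot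
      apply hp.2
      rw [if_neg hnot]
    calc (univ.filter fun p : Fin n × Fin n =>
          A p.1 p.2 ≠ (if p.1 ∈ T then true else A p.1 p.2)).card
        ≤ (T ×ˢ (univ : Finset (Fin n))).card := Finset.card_le_card hsub
      _ = T.card * n := by rw [Finset.card_product]; simp
      _ ≤ C.card * n := Nat.mul_le_mul_right _ Finset.card_image_le
      _ = n * C.card := by ring

/-- Natural-number form of the removal bound, from the core bound and the small case. -/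
theorem e_nat_of_core {n : ℕ} (P : (Fin n → Fin n → Bool) → Prop)
    (d : (Fin n → Fin n → Bool) → ℕ) (N p : ℕ) (hp : 1 ≤ p)
    (hcore : ∀ q s L : ℕ, 1 ≤ L → ∃ B : Fin n → Fin n → Bool, P B ∧
      ∃ TR d1 SV U nb : ℕ, q * TR ≤ 4 * n ^ 2 ∧ n ^ 2 * d1 ^ 2 ≤ 16 * q ^ 4 * N ∧
        SV ^ 2 ≤ 16 * q ^ 2 * N ∧ q * (L * U) ≤ 4 * n ^ 3 ∧ nb * s ≤ SV ∧
        d B ≤ TR + n * d1 + n * (q ^ 2 * s) + n * L + 2 * SV + U + n * nb)
    (hsmall : ∃ B : Fin n → Fin n → Bool, P B ∧ d B ≤ n * N)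
    (hfar : ∀ B : Fin n → Fin n → Bool, P B → n ^ 2 ≤ p * d B) :
    n ^ 4 ≤ 2 ^ 72 * p ^ 16 * N := by
  by_cases hn0 : n = 0
  · subst hn0; simp
  have hnpos : 0 < n := Nat.pos_of_ne_zero hn0
  by_cases hw : n ^ 4 < N * (2 ^ 36 * p ^ 8) ^ 2
  · calc n ^ 4 ≤ N * (2 ^ 36 * p ^ 8) ^ 2 := le_of_lt hw
      _ = 2 ^ 72 * p ^ 16 * N := by ring
  have hN : N * (2 ^ 36 * p ^ 8) ^ 2 ≤ n ^ 4 := not_lt.mp hw
  by_cases hsm : n < 2 ^ 21 * p ^ 5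
  · obtain ⟨B, hB, hd⟩ := hsmall
    have h1 := hfar B hB
    have h2 : n * n ≤ n * (p * N) := by
      calc n * n = n ^ 2 := by ring
        _ ≤ p * d B := h1
        _ ≤ p * (n * N) := Nat.mul_le_mul_left _ hd
        _ = n * (p * N) := by ring
    have h3 : n ≤ p * N := Nat.le_of_mul_le_mul_left h2 hnpos
    have h4 : n ^ 3 ≤ (2 ^ 21 * p ^ 5) ^ 3 := Nat.pow_le_pow_left (le_of_lt hsm) 3
    calc n ^ 4 = n ^ 3 * n := by ring
      _ ≤ (2 ^ 21 * p ^ 5) ^ 3 * (p * N) := Nat.mul_le_mul h4 h3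
      _ = 2 ^ 63 * p ^ 16 * N := by ring
      _ ≤ 2 ^ 72 * p ^ 16 * N := by
          apply Nat.mul_le_mul_right
          apply Nat.mul_le_mul_right
          norm_num
  · have hn : 2 ^ 21 * p ^ 5 ≤ n := not_lt.mp hsm
    have hpp5 : p ≤ p ^ 5 := Nat.le_self_pow (by norm_num) p
    have h8p : 8 * p ≤ n := by
      calc 8 * p ≤ 2 ^ 21 * p := Nat.mul_le_mul_right _ (by norm_num)
        _ ≤ 2 ^ 21 * p ^ 5 := Nat.mul_le_mul_left _ hpp5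
        _ ≤ n := hn
    have hL1 : 1 ≤ n / (8 * p) := by
      rw [Nat.le_div_iff_mul_le (by omega)]
      omega
    obtain ⟨B, hB, TR, d1, SV, U, nb, h1, h2, h3, h4, h5, h6⟩ :=
      hcore (512 * p ^ 2) (n / (8 * p * (512 * p ^ 2) ^ 2)) (n / (8 * p)) hL1
    have hlt := arith n p N TR d1 SV U nb _ _ (d B) hp hn hN rfl rfl h1 h2 h3 h4 h5 h6
    have hge := hfar B hB
    omega

/-- Real form: from `ε`-farness to the count, given the core bound. -/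
theorem e_real_of_core {n : ℕ} (P : (Fin n → Fin n → Bool) → Prop)
    (d : (Fin n → Fin n → Bool) → ℕ) (N : ℕ)
    (hcore : ∀ q s L : ℕ, 1 ≤ L → ∃ B : Fin n → Fin n → Bool, P B ∧
      ∃ TR d1 SV U nb : ℕ, q * TR ≤ 4 * n ^ 2 ∧ n ^ 2 * d1 ^ 2 ≤ 16 * q ^ 4 * N ∧
        SV ^ 2 ≤ 16 * q ^ 2 * N ∧ q * (L * U) ≤ 4 * n ^ 3 ∧ nb * s ≤ SV ∧
        d B ≤ TR + n * d1 + n * (q ^ 2 * s) + n * L + 2 * SV + U + n * nb)
    (hsmall : ∃ B : Fin n → Fin n → Bool, P B ∧ d B ≤ n * N)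
    (ε : ℝ) (hε : 0 < ε) (hε1 : ε ≤ 1)
    (hfar : ∀ B : Fin n → Fin n → Bool, P B → ε * (n : ℝ) ^ 2 ≤ (d B : ℝ)) :
    ε ^ 16 * (n : ℝ) ^ 4 ≤ 2 ^ 88 * (N : ℝ) := by
  set q : ℕ := ⌈1 / ε⌉₊ with hqdef
  have h1ε : 1 ≤ 1 / ε := by
    rw [le_div_iff₀ hε]
    linarith
  have hq1 : (1 / ε) ≤ (q : ℝ) := Nat.le_ceil _
  have hq2 : (q : ℝ) < 1 / ε + 1 := Nat.ceil_lt_add_one (by positivity)
  have hq : 1 ≤ q := by
    have : (1 : ℝ) ≤ (q : ℝ) := le_trans h1ε hq1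
    exact_mod_cast this
  have hnat := e_nat_of_core P d N q hq hcore hsmall (by
    intro B hB
    have h := hfar B hB
    have h2 : (n : ℝ) ^ 2 ≤ (q : ℝ) * (d B : ℝ) := by
      have hd0 : (0 : ℝ) ≤ (d B : ℝ) := Nat.cast_nonneg _
      calc (n : ℝ) ^ 2 = (1 / ε) * (ε * (n : ℝ) ^ 2) := by field_simp
        _ ≤ (1 / ε) * (d B : ℝ) := mul_le_mul_of_nonneg_left h (by positivity)
        _ ≤ (q : ℝ) * (d B : ℝ) := mul_le_mul_of_nonneg_right hq1 hd0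
    exact_mod_cast h2)
  have hreal : (n : ℝ) ^ 4 ≤ 2 ^ 72 * (q : ℝ) ^ 16 * (N : ℝ) := by
    exact_mod_cast hnat
  have hqε : ε * (q : ℝ) ≤ 2 := by
    have : ε * (q : ℝ) ≤ ε * (1 / ε + 1) := mul_le_mul_of_nonneg_left (le_of_lt hq2) hε.le
    have e : ε * (1 / ε + 1) = 1 + ε := by field_simp
    linarith
  have hpow : ε ^ 16 * (q : ℝ) ^ 16 ≤ 2 ^ 16 := by
    rw [← mul_pow]
    exact pow_le_pow_left₀ (by positivity) hqε 16
  have hNr0 : (0 : ℝ) ≤ (N : ℝ) := Nat.cast_nonneg _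
  calc ε ^ 16 * (n : ℝ) ^ 4 ≤ ε ^ 16 * (2 ^ 72 * (q : ℝ) ^ 16 * (N : ℝ)) :=
        mul_le_mul_of_nonneg_left hreal (by positivity)
    _ = 2 ^ 72 * (ε ^ 16 * (q : ℝ) ^ 16) * (N : ℝ) := by ring
    _ ≤ 2 ^ 72 * 2 ^ 16 * (N : ℝ) := by
        apply mul_le_mul_of_nonneg_right _ hNr0
        exact mul_le_mul_of_nonneg_left hpow (by positivity)
    _ = 2 ^ 88 * (N : ℝ) := by norm_num

end Vale.Agent.Lib.P037.EFin
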