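import Mathlib

namespace Vale.Agent.Lib.P037.EPat

open Finset

variable {n : ℕ}

/-- The matrix `M` has no copy of the pattern `1 0 / 0 0` whose two columns lie in `Q`. -/
def QFree (M : Fin n → Fin n → Bool) (Q : Finset (Fin n)) : Prop :=
  ∀ r r' x y : Fin n, x ∈ Q → y ∈ Q → r < r' → x < y →
    ¬ (M r x = true ∧ M r y = false ∧ M r' x = false ∧ M r' y = false)

/-- A link between two columns of `Q` that is alive at row `r`: the two columns are both
zero in some row at or below `r`. -/
def Link (M : Fin n → Fin n → Bool) (Q : Finset (Fin n)) (r x y : Fin n) : Prop :=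
  x ∈ Q ∧ y ∈ Q ∧ x < y ∧ ∃ r' : Fin n, r ≤ r' ∧ M r' x = false ∧ M r' y = false

/-- The forest order at row `r`: the reflexive transitive closure of the links alive at `r`. -/
abbrev Le (M : Fin n → Fin n → Bool) (Q : Finset (Fin n)) (r : Fin n) : Fin n → Fin n → Prop :=
  Relation.ReflTransGen (Link M Q r)

theorem Le.mono {M : Fin n → Fin n → Bool} {Q : Finset (Fin n)} {r r' x y : Fin n}
    (h : r ≤ r') (hxy : Le M Q r' x y) : Le M Q r x y := by
  have hmono : Link M Q r' ≤ Link M Q r := by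
    rintro a b ⟨ha, hb, hab, r'', hr'', h1, h2⟩
    exact ⟨ha, hb, hab, r'', le_trans h hr'', h1, h2⟩
  exact Relation.ReflTransGen.mono hmono x y hxy

theorem Le.le {M : Fin n → Fin n → Bool} {Q : Finset (Fin n)} {r x y : Fin n}
    (hxy : Le M Q r x y) : x ≤ y := by
  induction hxy with
  | refl => exact le_refl _
  | tail _ hl ih => exact le_trans ih (le_of_lt hl.2.2.1)

theorem Le.zero_of_zero {M : Fin n → Fin n → Bool} {Q : Finset (Fin n)} (hf : QFree M Q)
    {r x y : Fin n} (hxy : Le M Q r x y) (hy : M r y = false) : M r x = false := by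
  induction hxy using Relation.ReflTransGen.head_induction_on with
  | refl => exact hy
  | @head a c hlink _ ih =>
    obtain ⟨ha, hb, hab, r', hr', h1, h2⟩ := hlink
    rcases eq_or_lt_of_le hr' with heq | hlt
    · rw [heq]; exact h1
    · by_contra hne
      have h3 : M r a = true := by simpa using hne
      exact hf r r' a c ha hb hlt hab ⟨h3, ih, h1, h2⟩

theorem Le.of_zero {M : Fin n → Fin n → Bool} {Q : Finset (Fin n)} {r r0 x y : Fin n}
    (hx : x ∈ Q) (hy : y ∈ Q) (hxy : x ≤ y) (hr : r ≤ r0) (h1 : M r0 x = false)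
    (h2 : M r0 y = false) : Le M Q r x y := by
  rcases eq_or_lt_of_le hxy with h | h
  · rw [h]
  · exact Relation.ReflTransGen.single ⟨hx, hy, h, r0, hr, h1, h2⟩

theorem Le.total {M : Fin n → Fin n → Bool} {Q : Finset (Fin n)} (hf : QFree M Q) (r : Fin n)
    (z : Fin n) :
    ∀ x y : Fin n, Le M Q r x z → Le M Q r y z → x ≤ y → Le M Q r x y := by
  induction z using WellFoundedLT.induction with
  | _ z ih =>
    intro x y hxz hyz hxy
    rcases Relation.ReflTransGen.cases_tail hyz with hyeq | ⟨v, hyv, hvz⟩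
    · rw [← hyeq]; exact hxz
    rcases Relation.ReflTransGen.cases_tail hxz with hxeq | ⟨u, hxu, huz⟩
    · have h1 : y ≤ z := Le.le hyz
      have h2 : x = y := le_antisymm hxy (by rw [← hxeq]; exact h1)
      rw [h2]
    obtain ⟨hu, hz, huz', r1, hr1, a1, b1⟩ := huz
    obtain ⟨hv, _, hvz', r2, hr2, a2, b2⟩ := hvz
    have hrow : ∃ r0 : Fin n, r ≤ r0 ∧ M r0 u = false ∧ M r0 v = false := by
      rcases le_total r1 r2 with h12 | h21
      · refine ⟨r1, hr1, a1, ?_⟩
        rcases eq_or_lt_of_le h12 with heq | hlt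
        · rw [heq]; exact a2
        · by_contra hne
          have h3 : M r1 v = true := by simpa using hne
          exact hf r1 r2 v z hv hz hlt hvz' ⟨h3, b1, a2, b2⟩
      · refine ⟨r2, hr2, ?_, a2⟩
        rcases eq_or_lt_of_le h21 with heq | hlt
        · rw [heq]; exact a1
        · by_contra hne
          have h3 : M r2 u = true := by simpa using hne
          exact hf r2 r1 u z hu hz hlt huz' ⟨h3, b2, a1, b1⟩
    obtain ⟨r0, hr0, c1, c2⟩ := hrow
    rcases le_total u v with huv | hvu
    · have h1 : Le M Q r u v := Le.of_zero hu hv huv hr0 c1 c2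
      exact ih v hvz' x y (Relation.ReflTransGen.trans hxu h1) hyv hxy
    · have h1 : Le M Q r v u := Le.of_zero hv hu hvu hr0 c2 c1
      exact ih u huz' x y hxu (Relation.ReflTransGen.trans hyv h1) hxy

open Classical in
/-- The fitted matrix.  On the columns of `Q` it equals `M`.  A column `a` outside `Q` is
rebuilt from an anchor column `γ a` and a last row `σ a`: the entry in row `r` is zero exactly
when the column is kept, `r ≤ σ a`, and row `r` of `M` has a zero in a column `g` of `Q`
with `a < g` that lies below the anchor in the forest order at row `r`. -/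
noncomputable def fit (M : Fin n → Fin n → Bool) (Q : Finset (Fin n)) (keep : Fin n → Bool)
    (γ σ : Fin n → Fin n) : Fin n → Fin n → Bool :=
  fun r a => if a ∈ Q then M r a else
    !decide (keep a = true ∧ r ≤ σ a ∧
      ∃ g ∈ Q, M r g = false ∧ a < g ∧ Le M Q r g (γ a))

theorem fit_of_mem (M : Fin n → Fin n → Bool) (Q : Finset (Fin n)) (keep : Fin n → Bool)
    (γ σ : Fin n → Fin n) (r : Fin n) {a : Fin n} (ha : a ∈ Q) :
    fit M Q keep γ σ r a = M r a := by
  simp [fit, ha]

theorem fit_zero_iff (M : Fin n → Fin n → Bool) (Q : Finset (Fin n)) (keep : Fin n → Bool)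
    (γ σ : Fin n → Fin n) (r : Fin n) {a : Fin n} (ha : a ∉ Q) :
    fit M Q keep γ σ r a = false ↔ (keep a = true ∧ r ≤ σ a ∧
      ∃ g ∈ Q, M r g = false ∧ a < g ∧ Le M Q r g (γ a)) := by
  simp [fit, ha]

theorem fit_one_iff (M : Fin n → Fin n → Bool) (Q : Finset (Fin n)) (keep : Fin n → Bool)
    (γ σ : Fin n → Fin n) (r : Fin n) {a : Fin n} (ha : a ∉ Q) :
    fit M Q keep γ σ r a = true ↔ ¬ (keep a = true ∧ r ≤ σ a ∧
      ∃ g ∈ Q, M r g = false ∧ a < g ∧ Le M Q r g (γ a)) := by
  rw [← fit_zero_iff M Q keep γ σ r ha]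
  simp

/-- The fitted matrix contains no copy of the pattern `1 0 / 0 0`, whatever the anchors. -/
theorem fit_free (M : Fin n → Fin n → Bool) (Q : Finset (Fin n)) (keep : Fin n → Bool)
    (γ σ : Fin n → Fin n) (hf : QFree M Q) :
    ∀ r r' x y : Fin n, r < r' → x < y →
      ¬ (fit M Q keep γ σ r x = true ∧ fit M Q keep γ σ r y = false ∧
        fit M Q keep γ σ r' x = false ∧ fit M Q keep γ σ r' y = false) := by
  intro r r' x y hr hxy ⟨h1, h2, h3, h4⟩
  by_cases hx : x ∈ Q
  · by_cases hy : y ∈ Q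
    · rw [fit_of_mem _ _ _ _ _ _ hx] at h1 h3
      rw [fit_of_mem _ _ _ _ _ _ hy] at h2 h4
      exact hf r r' x y hx hy hr hxy ⟨h1, h2, h3, h4⟩
    · rw [fit_of_mem _ _ _ _ _ _ hx] at h1 h3
      rw [fit_zero_iff _ _ _ _ _ _ hy] at h2 h4
      obtain ⟨_, _, g, hg, hgz, hyg, hgγ⟩ := h2
      obtain ⟨_, _, g', hg', hg'z, hyg', hg'γ⟩ := h4
      have hxg' : Le M Q r' x g' :=
        Le.of_zero hx hg' (le_of_lt (lt_trans hxy hyg')) (le_refl r') h3 hg'z
      have h5 : Le M Q r x (γ y) :=
        Relation.ReflTransGen.trans (hxg'.mono hr.le) (hg'γ.mono hr.le)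
      have hxg : Le M Q r x g := Le.total hf r (γ y) x g h5 hgγ (le_of_lt (lt_trans hxy hyg))
      have h6 : M r x = false := Le.zero_of_zero hf hxg hgz
      rw [h6] at h1
      exact Bool.false_ne_true h1
  · rw [fit_one_iff _ _ _ _ _ _ hx] at h1
    rw [fit_zero_iff _ _ _ _ _ _ hx] at h3
    obtain ⟨hk, hr'σ, h', hh', hh'z, hxh', hh'γ⟩ := h3
    apply h1
    refine ⟨hk, le_trans hr.le hr'σ, ?_⟩
    by_cases hy : y ∈ Q
    · rw [fit_of_mem _ _ _ _ _ _ hy] at h2 h4
      rcases le_total h' y with hle | hle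
      · have h5 : Le M Q r' h' y := Le.of_zero hh' hy hle (le_refl r') hh'z h4
        have h6 : M r h' = false := Le.zero_of_zero hf (h5.mono hr.le) h2
        exact ⟨h', hh', h6, hxh', hh'γ.mono hr.le⟩
      · have h5 : Le M Q r' y h' := Le.of_zero hy hh' hle (le_refl r') h4 hh'z
        exact ⟨y, hy, h2, hxy,
          Relation.ReflTransGen.trans (h5.mono hr.le) (hh'γ.mono hr.le)⟩
    · rw [fit_zero_iff _ _ _ _ _ _ hy] at h2 h4
      obtain ⟨_, _, g, hg, hgz, hyg, hgγ⟩ := h2
      obtain ⟨_, _, g', hg', hg'z, hyg', hg'γ⟩ := h4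
      rcases le_total h' g' with hle | hle
      · have h5 : Le M Q r' h' g' := Le.of_zero hh' hg' hle (le_refl r') hh'z hg'z
        have h6 : Le M Q r h' (γ y) :=
          Relation.ReflTransGen.trans (h5.mono hr.le) (hg'γ.mono hr.le)
        rcases le_total h' g with hle2 | hle2
        · have h7 : Le M Q r h' g := Le.total hf r (γ y) h' g h6 hgγ hle2
          exact ⟨h', hh', Le.zero_of_zero hf h7 hgz, hxh', hh'γ.mono hr.le⟩
        · have h7 : Le M Q r g h' := Le.total hf r (γ y) g h' hgγ h6 hle2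
          exact ⟨g, hg, hgz, lt_trans hxy hyg,
            Relation.ReflTransGen.trans h7 (hh'γ.mono hr.le)⟩
      · have h5 : Le M Q r' g' h' := Le.of_zero hg' hh' hle (le_refl r') hg'z hh'z
        have h6 : Le M Q r g' (γ x) :=
          Relation.ReflTransGen.trans (h5.mono hr.le) (hh'γ.mono hr.le)
        rcases le_total g g' with hle2 | hle2
        · have h7 : Le M Q r g g' := Le.total hf r (γ y) g g' hgγ (hg'γ.mono hr.le) hle2
          exact ⟨g, hg, hgz, lt_trans hxy hyg, Relation.ReflTransGen.trans h7 h6⟩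
        · have h7 : Le M Q r g' g := Le.total hf r (γ y) g' g (hg'γ.mono hr.le) hgγ hle2
          exact ⟨g', hg', Le.zero_of_zero hf h7 hgz, lt_trans hxy hyg', h6⟩

end Vale.Agent.Lib.P037.EPat
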