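import Mathlib
import Vale.Agent.Lib.P037.EPatForest

namespace Vale.Agent.Lib.P037.EPat

open Finset

variable {n : ℕ}

/-- Sorting lemma: if `P` is the number of pairs `x < y` with `x` in `X` and `y` in `Y`,
then some set `Z` of at most `2 * sqrt P` indices meets every such pair. -/
theorem kill_pairs (X Y : Finset (Fin n)) :
    ∃ Z : Finset (Fin n),
      Z.card ≤ 2 * Nat.sqrt (((X ×ˢ Y).filter fun p => p.1 < p.2).card) ∧
      ∀ x ∈ X, ∀ y ∈ Y, x < y → x ∈ Z ∨ y ∈ Z := by
  classical
  set P := ((X ×ˢ Y).filter fun p => p.1 < p.2).card with hP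
  set m := Nat.sqrt P + 1 with hm
  set d : Fin n → ℕ := fun x => (Y.filter fun y => x < y).card with hd
  have hsum : ∑ x ∈ X, d x = P := by
    rw [hP, Finset.card_filter, Finset.sum_product]
    refine Finset.sum_congr rfl ?_
    intro x _
    rw [hd]
    simp only
    rw [Finset.card_filter]
  set Z1 := X.filter (fun x => m ≤ d x) with hZ1
  have h1 : Z1.card * m ≤ P := by
    have ha : Z1.card • m ≤ ∑ x ∈ Z1, d x := by
      apply Finset.card_nsmul_le_sum
      intro x hx
      exact (Finset.mem_filter.mp hx).2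
    have hb : ∑ x ∈ Z1, d x ≤ ∑ x ∈ X, d x :=
      Finset.sum_le_sum_of_subset (Finset.filter_subset _ _)
    have hc : Z1.card * m = Z1.card • m := by simp
    omega
  have hmm : P < m * m := Nat.lt_succ_sqrt P
  have hZ1c : Z1.card ≤ Nat.sqrt P := by
    have : Z1.card * m < m * m := lt_of_le_of_lt h1 hmm
    have h2 : Z1.card < m := Nat.lt_of_mul_lt_mul_right this
    omega
  by_cases hne : (X.filter (fun x => ¬ m ≤ d x)).Nonempty
  · set x0 := (X.filter (fun x => ¬ m ≤ d x)).min' hne with hx0
    have hx0mem : x0 ∈ X.filter (fun x => ¬ m ≤ d x) := Finset.min'_mem _ hne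
    have hx0d : d x0 < m := by
      have := (Finset.mem_filter.mp hx0mem).2
      omega
    refine ⟨Z1 ∪ (Y.filter fun y => x0 < y), ?_, ?_⟩
    · have hu := Finset.card_union_le Z1 (Y.filter fun y => x0 < y)
      have : (Y.filter fun y => x0 < y).card = d x0 := rfl
      omega
    · intro x hx y hy hxy
      by_cases hxm : m ≤ d x
      · left
        exact Finset.mem_union_left _ (Finset.mem_filter.mpr ⟨hx, hxm⟩)
      · right
        have hle : x0 ≤ x := Finset.min'_le _ x (Finset.mem_filter.mpr ⟨hx, hxm⟩)
        exact Finset.mem_union_right _ (Finset.mem_filter.mpr ⟨hy, lt_of_le_of_lt hle hxy⟩)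
  · refine ⟨Z1, by omega, ?_⟩
    intro x hx y _ _
    left
    by_contra hxZ
    apply hne
    refine ⟨x, Finset.mem_filter.mpr ⟨hx, ?_⟩⟩
    intro hxm
    exact hxZ (Finset.mem_filter.mpr ⟨hx, hxm⟩)

/-- A subset of `T` of size `min L (card T)` that is closed upwards inside `T`. -/
theorem exists_upper_subset (T : Finset (Fin n)) (L : ℕ) :
    ∃ S : Finset (Fin n), S ⊆ T ∧ S.card = min L T.card ∧
      ∀ x ∈ S, ∀ y ∈ T, x < y → y ∈ S := by
  induction L with
  | zero => exact ⟨∅, empty_subset _, by simp, by simp⟩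
  | succ L ih =>
    obtain ⟨S, hST, hc, hup⟩ := ih
    by_cases h : S = T
    · refine ⟨S, hST, ?_, hup⟩
      have h1 : S.card = T.card := by rw [h]
      have h2 : T.card ≤ L := by
        rw [h1] at hc
        exact (min_eq_right_iff.mp hc.symm)
      rw [h1]
      exact (min_eq_right (by omega)).symm
    · have hss : S ⊂ T := lt_of_le_of_ne hST h
      have hlt : S.card < T.card := Finset.card_lt_card hss
      have hne : (T \ S).Nonempty := by
        rw [Finset.nonempty_iff_ne_empty]
        intro he
        exact h (Finset.Subset.antisymm hST (Finset.sdiff_eq_empty_iff_subset.mp he))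
      have hm : (T \ S).max' hne ∈ T \ S := Finset.max'_mem _ hne
      have hmT : (T \ S).max' hne ∈ T := (Finset.mem_sdiff.mp hm).1
      have hmS : (T \ S).max' hne ∉ S := (Finset.mem_sdiff.mp hm).2
      have hSL : S.card = L := by
        rw [hc]
        apply min_eq_left
        by_contra hcon
        push Not at hcon
        have : S.card = T.card := by rw [hc]; exact min_eq_right hcon.le
        omega
      refine ⟨insert ((T \ S).max' hne) S, ?_, ?_, ?_⟩
      · intro x hx
        rcases Finset.mem_insert.mp hx with rfl | hx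
        · exact hmT
        · exact hST hx
      · rw [Finset.card_insert_of_notMem hmS, hSL]
        exact (min_eq_left (by omega)).symm
      · intro x hx y hy hxy
        rcases Finset.mem_insert.mp hx with hxm | hxS
        · by_contra hyn
          have hyS : y ∉ S := fun hyS => hyn (Finset.mem_insert_of_mem hyS)
          have hle : y ≤ (T \ S).max' hne :=
            Finset.le_max' _ y (Finset.mem_sdiff.mpr ⟨hy, hyS⟩)
          rw [hxm] at hxy
          exact absurd hxy (not_lt.mpr hle)
        · exact Finset.mem_insert_of_mem (hup x hxS y hy hxy)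

/-- Truncation: every entry to the right of the last zero of the row in a column of `Q`
is set to one. -/
def trunc (A : Fin n → Fin n → Bool) (Q : Finset (Fin n)) : Fin n → Fin n → Bool :=
  fun r c => A r c || decide (∀ g ∈ Q, A r g = false → g < c)

/-- Row deletion: the rows of `D` are set to one. -/
def del (M : Fin n → Fin n → Bool) (D : Finset (Fin n)) : Fin n → Fin n → Bool :=
  fun r c => decide (r ∈ D) || M r c

theorem trunc_zero_iff (A : Fin n → Fin n → Bool) (Q : Finset (Fin n)) (r c : Fin n) :
    trunc A Q r c = false ↔ A r c = false ∧ ∃ g ∈ Q, A r g = false ∧ c ≤ g := by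
  simp [trunc]

theorem trunc_of_mem (A : Fin n → Fin n → Bool) (Q : Finset (Fin n)) (r : Fin n) {c : Fin n}
    (hc : c ∈ Q) : trunc A Q r c = A r c := by
  cases h : A r c with
  | true => simp [trunc, h]
  | false =>
    rw [trunc_zero_iff]
    exact ⟨h, c, hc, h, le_refl c⟩

theorem del_zero_iff (M : Fin n → Fin n → Bool) (D : Finset (Fin n)) (r c : Fin n) :
    del M D r c = false ↔ r ∉ D ∧ M r c = false := by
  simp [del]

theorem del_of_notMem (M : Fin n → Fin n → Bool) {D : Finset (Fin n)} {r : Fin n} (hr : r ∉ D)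
    (c : Fin n) : del M D r c = M r c := by
  simp [del, hr]

/-- Rows missed by the hitting set `V` and lying on the forest path of the anchor
have a zero in column `a`. -/
theorem claimIII {M1 M2 : Fin n → Fin n → Bool} {Q : Finset (Fin n)} {s : ℕ}
    {V : Finset (Fin n)} {a : Fin n}
    (hf1 : QFree M1 Q)
    (hrob : ∀ x ∈ Q, ∀ y ∈ Q, x < y → ∀ r : Fin n, M2 r x = false → M2 r y = false →
      s ≤ (univ.filter fun r' : Fin n => r < r' ∧ M1 r' x = false ∧ M1 r' y = false).card)
    (hV : ∀ g ∈ Q, a < g → ∀ r r' : Fin n, r < r' → M1 r a = true → M1 r g = false →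
      M1 r' a = false → M1 r' g = false → r ∈ V ∨ r' ∈ V)
    (hVs : V.card < s)
    {σ γ r g : Fin n} (hrσ : r < σ) (hσV : σ ∉ V) (hσa : M1 σ a = false)
    (hσγ : M1 σ γ = false) (hrV : r ∉ V) (hra : M1 r a = true) (hg : g ∈ Q)
    (hrg : M1 r g = false) (hag : a < g) (hle : Le M2 Q r g γ) : False := by
  have key : ∀ h : Fin n, Le M2 Q r h γ → a < h →
      ∃ y : Fin n, r < y ∧ y ∉ V ∧ M1 y h = false ∧ M1 y a = false := by
    intro h hh
    induction hh using Relation.ReflTransGen.head_induction_on with
    | refl => intro _; exact ⟨σ, hrσ, hσV, hσγ, hσa⟩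
    | @head h h' hlink hrest ih =>
      intro hah
      obtain ⟨hhQ, hh'Q, hhh', r'', hr'', z1, z2⟩ := hlink
      obtain ⟨y', hy'r, hy'V, hy'h', hy'a⟩ := ih (lt_trans hah hhh')
      have hcard := hrob h hhQ h' hh'Q hhh' r'' z1 z2
      have hex : ∃ l : Fin n, (r'' < l ∧ M1 l h = false ∧ M1 l h' = false) ∧ l ∉ V := by
        by_contra hcon
        push Not at hcon
        have hsub : (univ.filter fun r' : Fin n =>
            r'' < r' ∧ M1 r' h = false ∧ M1 r' h' = false) ⊆ V := by
          intro l hl
          exact hcon l (Finset.mem_filter.mp hl).2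
        have := Finset.card_le_card hsub
        omega
      obtain ⟨l, ⟨hl1, hl2, hl3⟩, hlV⟩ := hex
      rcases le_or_gt y' l with hyl | hly
      · refine ⟨y', hy'r, hy'V, ?_, hy'a⟩
        rcases eq_or_lt_of_le hyl with heq | hlt
        · rw [heq]; exact hl2
        · by_contra hne
          have h3 : M1 y' h = true := by simpa using hne
          exact hf1 y' l h h' hhQ hh'Q hlt hhh' ⟨h3, hy'h', hl2, hl3⟩
      · refine ⟨l, lt_of_le_of_lt hr'' hl1, hlV, hl2, ?_⟩
        by_contra hne
        have h3 : M1 l a = true := by simpa using hne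
        rcases hV h' hh'Q (lt_trans hah hhh') l y' hly h3 hl3 hy'a hy'h' with h4 | h4
        · exact hlV h4
        · exact hy'V h4
  obtain ⟨y, hyr, hyV, hyg, hya⟩ := key g hle hag
  rcases hV g hg hag r y hyr hra hrg hya hyg with h4 | h4
  · exact hrV h4
  · exact hyV h4

/-- A zero of column `a` above the anchor row that is not on the forest path of the anchor
shares no zero in a column of `Q` to the right of `a` with the anchor row. -/
theorem claimII {M2 : Fin n → Fin n → Bool} {Q : Finset (Fin n)} (hf2 : QFree M2 Q)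
    {a σ γ r : Fin n} (hrσ : r < σ) (hγQ : γ ∈ Q) (haγ : a < γ) (hσγ : M2 σ γ = false)
    (hfirst : ∀ g ∈ Q, a < g → g < γ → M2 σ g = true)
    (hno : ¬ ∃ g ∈ Q, M2 r g = false ∧ a < g ∧ Le M2 Q r g γ) :
    ∀ g ∈ Q, a < g → ¬ (M2 r g = false ∧ M2 σ g = false) := by
  intro g hg hag ⟨h1, h2⟩
  have hγg : γ ≤ g := by
    by_contra hlt
    push Not at hlt
    have := hfirst g hg hag hlt
    rw [h2] at this
    exact Bool.false_ne_true this
  have h3 : M2 r γ = false := by
    rcases eq_or_lt_of_le hγg with heq | hlt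
    · rw [heq]; exact h1
    · by_contra hne
      have h4 : M2 r γ = true := by simpa using hne
      exact hf2 r σ γ g hγQ hg hrσ hlt ⟨h4, h1, hσγ, h2⟩
  exact hno ⟨γ, hγQ, h3, haγ, Relation.ReflTransGen.refl⟩

end Vale.Agent.Lib.P037.EPat
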