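import Mathlib
import Vale.Agent.Lib.P037.EPatColumn

namespace Vale.Agent.Lib.P037.EPat

open Finset

variable {n : ℕ}

/-- The number of copies of the pattern in `A` on the column pairs `(a, g)` with `g` in `Q`
and `a < g`. -/
def ca (A : Fin n → Fin n → Bool) (Q : Finset (Fin n)) (a : Fin n) : ℕ :=
  ∑ g ∈ Q.filter (fun g => a < g), ((univ ×ˢ univ).filter fun p : Fin n × Fin n =>
    p.1 < p.2 ∧ A p.1 a = true ∧ A p.1 g = false ∧ A p.2 a = false ∧ A p.2 g = false).card

/-- The number of pairs of rows having a common zero in column `a` and no common zero in a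
column of `Q` at or to the right of `a`. -/
def xa (A : Fin n → Fin n → Bool) (Q : Finset (Fin n)) (a : Fin n) : ℕ :=
  ∑ σ : Fin n, (univ.filter fun r : Fin n => r < σ ∧ A r a = false ∧ A σ a = false ∧
    ∀ g ∈ Q, a ≤ g → ¬ (A r g = false ∧ A σ g = false)).card

theorem copy_of_del_trunc (A : Fin n → Fin n → Bool) (Q D : Finset (Fin n)) {r r' a g : Fin n}
    (hg : g ∈ Q) (hag : a < g)
    (h1 : del (trunc A Q) D r a = true) (h2 : del (trunc A Q) D r g = false)
    (h3 : del (trunc A Q) D r' a = false) (h4 : del (trunc A Q) D r' g = false) :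
    A r a = true ∧ A r g = false ∧ A r' a = false ∧ A r' g = false := by
  rw [del_zero_iff] at h2 h3 h4
  rw [del_of_notMem _ h2.1] at h1
  have e2 := (trunc_zero_iff A Q r g).mp h2.2
  have e3 := (trunc_zero_iff A Q r' a).mp h3.2
  have e4 := (trunc_zero_iff A Q r' g).mp h4.2
  refine ⟨?_, e2.1, e3.1, e4.1⟩
  by_contra hne
  have hfa : A r a = false := by simpa using hne
  have h5 : trunc A Q r a = false := (trunc_zero_iff A Q r a).mpr ⟨hfa, g, hg, e2.1, hag.le⟩
  rw [h5] at h1
  exact Bool.false_ne_true h1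

/-- Fitting one column. -/
theorem column_fit (A : Fin n → Fin n → Bool) (Q D1 D2 : Finset (Fin n)) (s L : ℕ)
    (hL : 1 ≤ L)
    (hf1 : QFree (del (trunc A Q) D1) Q)
    (hrob : ∀ x ∈ Q, ∀ y ∈ Q, x < y → ∀ r : Fin n,
      del (trunc A Q) (D1 ∪ D2) r x = false → del (trunc A Q) (D1 ∪ D2) r y = false →
      s ≤ (univ.filter fun r' : Fin n => r < r' ∧ del (trunc A Q) D1 r' x = false ∧
        del (trunc A Q) D1 r' y = false).card)
    (a : Fin n) :
    ∃ (k : Bool) (γ σ : Fin n) (v u b : ℕ),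
      v ^ 2 ≤ 4 * Q.card * ca A Q a ∧ L * u ≤ xa A Q a ∧ b * s ≤ v ∧
      (univ.filter fun r : Fin n => del (trunc A Q) (D1 ∪ D2) r a ≠
        fit (del (trunc A Q) (D1 ∪ D2)) Q (fun _ => k) (fun _ => γ) (fun _ => σ) r a).card ≤
          L + 2 * v + u + n * b := by
  classical
  set M1 := del (trunc A Q) D1 with hM1
  set M2 := del (trunc A Q) (D1 ∪ D2) with hM2
  by_cases ha : a ∈ Q
  · refine ⟨false, a, a, 0, 0, 0, by simp, by simp, by simp, ?_⟩
    have he : (univ.filter fun r : Fin n => M2 r a ≠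
        fit M2 Q (fun _ => false) (fun _ => a) (fun _ => a) r a) = ∅ := by
      apply Finset.filter_false_of_mem
      intro r _
      rw [fit_of_mem _ _ _ _ _ _ ha]
      simp
    rw [he]
    simp
  have hsub : ∀ r c, M2 r c = false → M1 r c = false := by
    intro r c h
    rw [hM2, del_zero_iff] at h
    rw [hM1, del_zero_iff]
    exact ⟨fun h1 => h.1 (Finset.mem_union_left _ h1), h.2⟩
  have hf2 : QFree M2 Q := by
    intro r r' x y hx hy hr hxy ⟨h1, h2, h3, h4⟩
    have hr2 := (del_zero_iff _ _ _ _).mp h2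
    have hr1 : r ∉ D1 := fun h => hr2.1 (Finset.mem_union_left _ h)
    have h1' : M1 r x = true := by
      rw [hM1, del_of_notMem _ hr1 x]
      rw [hM2, del_of_notMem _ hr2.1 x] at h1
      exact h1
    exact hf1 r r' x y hx hy hr hxy ⟨h1', hsub _ _ h2, hsub _ _ h3, hsub _ _ h4⟩
  have hk : ∀ g : Fin n, ∃ Z : Finset (Fin n),
      Z.card ≤ 2 * Nat.sqrt ((((univ.filter fun r : Fin n => M1 r a = true ∧ M1 r g = false) ×ˢ
        (univ.filter fun r : Fin n => M1 r a = false ∧ M1 r g = false)).filter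
          fun p => p.1 < p.2).card) ∧
      ∀ x ∈ (univ.filter fun r : Fin n => M1 r a = true ∧ M1 r g = false),
        ∀ y ∈ (univ.filter fun r : Fin n => M1 r a = false ∧ M1 r g = false),
          x < y → x ∈ Z ∨ y ∈ Z := fun g => kill_pairs _ _
  choose Z hZc hZh using hk
  set G := Q.filter (fun g => a < g) with hG
  set V := G.biUnion Z with hVdef
  have hV : ∀ g ∈ Q, a < g → ∀ r r' : Fin n, r < r' → M1 r a = true → M1 r g = false →
      M1 r' a = false → M1 r' g = false → r ∈ V ∨ r' ∈ V := by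
    intro g hg hag r r' hrr h1 h2 h3 h4
    have hgG : g ∈ G := Finset.mem_filter.mpr ⟨hg, hag⟩
    rcases hZh g r (by simp [h1, h2]) r' (by simp [h3, h4]) hrr with h | h
    · left; exact Finset.mem_biUnion.mpr ⟨g, hgG, h⟩
    · right; exact Finset.mem_biUnion.mpr ⟨g, hgG, h⟩
  have hVcard : V.card ^ 2 ≤ 4 * Q.card * ca A Q a := by
    have h1 : V.card ≤ ∑ g ∈ G, (Z g).card := Finset.card_biUnion_le
    have h2 : (∑ g ∈ G, (Z g).card) ^ 2 ≤ G.card * ∑ g ∈ G, (Z g).card ^ 2 :=
      sq_sum_le_card_mul_sum_sq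
    have h3 : ∀ g ∈ G, (Z g).card ^ 2 ≤ 4 * ((univ ×ˢ univ).filter fun p : Fin n × Fin n =>
        p.1 < p.2 ∧ A p.1 a = true ∧ A p.1 g = false ∧ A p.2 a = false ∧
          A p.2 g = false).card := by
      intro g hgG
      have hgQ := (Finset.mem_filter.mp hgG).1
      have hag := (Finset.mem_filter.mp hgG).2
      have hle : (((univ.filter fun r : Fin n => M1 r a = true ∧ M1 r g = false) ×ˢ
          (univ.filter fun r : Fin n => M1 r a = false ∧ M1 r g = false)).filter
            fun p => p.1 < p.2).card ≤ ((univ ×ˢ univ).filter fun p : Fin n × Fin n =>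
          p.1 < p.2 ∧ A p.1 a = true ∧ A p.1 g = false ∧ A p.2 a = false ∧
            A p.2 g = false).card := by
        apply Finset.card_le_card
        intro p hp
        simp only [Finset.mem_filter, Finset.mem_product, Finset.mem_univ, true_and] at hp ⊢
        obtain ⟨⟨⟨h1, h2⟩, ⟨h3, h4⟩⟩, hlt⟩ := hp
        exact ⟨hlt, copy_of_del_trunc A Q D1 hgQ hag h1 h2 h3 h4⟩
      have hs := Nat.sqrt_le' ((((univ.filter fun r : Fin n => M1 r a = true ∧ M1 r g = false) ×ˢ
          (univ.filter fun r : Fin n => M1 r a = false ∧ M1 r g = false)).filter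
            fun p => p.1 < p.2).card)
      have hz := Nat.pow_le_pow_left (hZc g) 2
      nlinarith [hz, hs, hle]
    have h4 : ∑ g ∈ G, (Z g).card ^ 2 ≤ 4 * ca A Q a := by
      unfold ca
      rw [Finset.mul_sum]
      exact Finset.sum_le_sum h3
    have h5 : G.card ≤ Q.card := Finset.card_filter_le _ _
    calc V.card ^ 2 ≤ (∑ g ∈ G, (Z g).card) ^ 2 := Nat.pow_le_pow_left h1 2
      _ ≤ G.card * ∑ g ∈ G, (Z g).card ^ 2 := h2
      _ ≤ Q.card * (4 * ca A Q a) := Nat.mul_le_mul h5 h4
      _ = 4 * Q.card * ca A Q a := by ring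
  by_cases hs : s ≤ V.card
  · refine ⟨false, a, a, V.card, 0, 1, hVcard, by simp, by simpa using hs, ?_⟩
    have hle : (univ.filter fun r : Fin n => M2 r a ≠
        fit M2 Q (fun _ => false) (fun _ => a) (fun _ => a) r a).card ≤ n := by
      calc _ ≤ (univ : Finset (Fin n)).card := Finset.card_filter_le _ _
        _ = n := by simp
    omega
  push Not at hs
  set R := (univ.filter fun r : Fin n => M2 r a = false) \ V with hR
  obtain ⟨S, hSR, hSc, hSup⟩ := exists_upper_subset R L
  have hzero_sub : (univ.filter fun r : Fin n => M2 r a = false) ⊆ R ∪ V := by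
    intro r hr
    by_cases hrV : r ∈ V
    · exact Finset.mem_union_right _ hrV
    · exact Finset.mem_union_left _ (Finset.mem_sdiff.mpr ⟨hr, hrV⟩)
  by_cases hRL : R.card < L
  · refine ⟨false, a, a, V.card, 0, 0, hVcard, by simp, by simp, ?_⟩
    have hsub2 : (univ.filter fun r : Fin n => M2 r a ≠
        fit M2 Q (fun _ => false) (fun _ => a) (fun _ => a) r a) ⊆ R ∪ V := by
      intro r hr
      apply hzero_sub
      have hne := (Finset.mem_filter.mp hr).2
      have hfit : fit M2 Q (fun _ => false) (fun _ => a) (fun _ => a) r a = true := by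
        rw [fit_one_iff _ _ _ _ _ _ ha]
        simp
      rw [hfit] at hne
      exact Finset.mem_filter.mpr ⟨Finset.mem_univ _, by simpa using hne⟩
    have hc1 := Finset.card_le_card hsub2
    have hc2 := Finset.card_union_le R V
    omega
  push Not at hRL
  have hScard : S.card = L := by rw [hSc]; exact min_eq_left hRL
  have hSne : S.Nonempty := by
    rw [← Finset.card_pos]
    omega
  set u : Fin n → ℕ := fun σ => (univ.filter fun r : Fin n => r < σ ∧ A r a = false ∧
    A σ a = false ∧ ∀ g ∈ Q, a ≤ g → ¬ (A r g = false ∧ A σ g = false)).card with hu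
  obtain ⟨σ, hσS, hσmin⟩ := Finset.exists_min_image S u hSne
  have hLu : L * u σ ≤ xa A Q a := by
    have h1 : S.card • u σ ≤ ∑ τ ∈ S, u τ :=
      Finset.card_nsmul_le_sum S u (u σ) (fun τ hτ => hσmin τ hτ)
    have h2 : ∑ τ ∈ S, u τ ≤ ∑ τ : Fin n, u τ :=
      Finset.sum_le_sum_of_subset (Finset.subset_univ S)
    have h3 : ∑ τ : Fin n, u τ = xa A Q a := rfl
    rw [hScard, smul_eq_mul] at h1
    omega
  have hσR : σ ∈ R := hSR hσS
  have hσV : σ ∉ V := (Finset.mem_sdiff.mp hσR).2
  have hσa : M2 σ a = false := (Finset.mem_filter.mp (Finset.mem_sdiff.mp hσR).1).2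
  have hσD : σ ∉ D1 ∪ D2 := ((del_zero_iff _ _ _ _).mp hσa).1
  obtain ⟨hσA, g0, hg0Q, hg0z, hag0⟩ :=
    (trunc_zero_iff A Q σ a).mp ((del_zero_iff _ _ _ _).mp hσa).2
  have hag0' : a < g0 := lt_of_le_of_ne hag0 (fun h => ha (h ▸ hg0Q))
  have hM2Q : ∀ r : Fin n, r ∉ D1 ∪ D2 → ∀ g ∈ Q, M2 r g = A r g := by
    intro r hr g hg
    rw [hM2, del_of_notMem _ hr, trunc_of_mem A Q r hg]
  set Gσ := Q.filter (fun g => a < g ∧ M2 σ g = false) with hGσ
  have hGne : Gσ.Nonempty :=
    ⟨g0, Finset.mem_filter.mpr ⟨hg0Q, hag0', by rw [hM2Q σ hσD g0 hg0Q]; exact hg0z⟩⟩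
  set γ := Gσ.min' hGne with hγ
  have hγmem : γ ∈ Gσ := Finset.min'_mem _ hGne
  obtain ⟨hγQ, haγ, hσγ⟩ := Finset.mem_filter.mp hγmem
  have hfirst : ∀ g ∈ Q, a < g → g < γ → M2 σ g = true := by
    intro g hg hag hgγ
    by_contra hne
    have hz : M2 σ g = false := by simpa using hne
    have hle : γ ≤ g := Finset.min'_le _ g (Finset.mem_filter.mpr ⟨hg, hag, hz⟩)
    exact absurd hgγ (not_lt.mpr hle)
  refine ⟨true, γ, σ, V.card, u σ, 0, hVcard, hLu, by simp, ?_⟩
  have hsub3 : (univ.filter fun r : Fin n => M2 r a ≠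
      fit M2 Q (fun _ => true) (fun _ => γ) (fun _ => σ) r a) ⊆
      (S.erase σ ∪ V) ∪ (univ.filter fun r : Fin n => r < σ ∧ A r a = false ∧
        A σ a = false ∧ ∀ g ∈ Q, a ≤ g → ¬ (A r g = false ∧ A σ g = false)) := by
    intro r hr
    have hne := (Finset.mem_filter.mp hr).2
    rcases lt_trichotomy r σ with hlt | heq | hgt
    · cases hra : M2 r a with
      | false =>
        have hfit : fit M2 Q (fun _ => true) (fun _ => γ) (fun _ => σ) r a = true := by
          rw [hra] at hne
          simpa using hne.symm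
        rw [fit_one_iff _ _ _ _ _ _ ha] at hfit
        have hno : ¬ ∃ g ∈ Q, M2 r g = false ∧ a < g ∧ Le M2 Q r g γ :=
          fun hex => hfit ⟨rfl, hlt.le, hex⟩
        have hcl := claimII hf2 hlt hγQ haγ hσγ hfirst hno
        have hrD : r ∉ D1 ∪ D2 := ((del_zero_iff _ _ _ _).mp hra).1
        have hrA : A r a = false :=
          ((trunc_zero_iff A Q r a).mp ((del_zero_iff _ _ _ _).mp hra).2).1
        apply Finset.mem_union_right
        refine Finset.mem_filter.mpr ⟨Finset.mem_univ _, hlt, hrA, hσA, ?_⟩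
        intro g hg hag ⟨z1, z2⟩
        have hag' : a < g := lt_of_le_of_ne hag (fun h => ha (h ▸ hg))
        exact hcl g hg hag' ⟨by rw [hM2Q r hrD g hg]; exact z1,
          by rw [hM2Q σ hσD g hg]; exact z2⟩
      | true =>
        have hfit : fit M2 Q (fun _ => true) (fun _ => γ) (fun _ => σ) r a = false := by
          rw [hra] at hne
          simpa using hne.symm
        rw [fit_zero_iff _ _ _ _ _ _ ha] at hfit
        obtain ⟨_, _, g, hg, hrg, hag, hle⟩ := hfit
        apply Finset.mem_union_left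
        apply Finset.mem_union_right
        by_contra hrV
        have hrD : r ∉ D1 ∪ D2 := ((del_zero_iff _ _ _ _).mp hrg).1
        have hrD1 : r ∉ D1 := fun h => hrD (Finset.mem_union_left _ h)
        have hra1 : M1 r a = true := by
          rw [hM1, del_of_notMem _ hrD1]
          rw [hM2, del_of_notMem _ hrD] at hra
          exact hra
        exact claimIII hf1 hrob hV hs hlt hσV (hsub _ _ hσa) (hsub _ _ hσγ) hrV hra1 hg
          (hsub _ _ hrg) hag hle
    · exfalso
      apply hne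
      rw [heq, hσa]
      symm
      rw [fit_zero_iff _ _ _ _ _ _ ha]
      exact ⟨rfl, le_refl σ, γ, hγQ, hσγ, haγ, Relation.ReflTransGen.refl⟩
    · have hfit : fit M2 Q (fun _ => true) (fun _ => γ) (fun _ => σ) r a = true := by
        rw [fit_one_iff _ _ _ _ _ _ ha]
        rintro ⟨_, hle, _⟩
        exact absurd hgt (not_lt.mpr hle)
      rw [hfit] at hne
      have hra : M2 r a = false := by simpa using hne
      apply Finset.mem_union_left
      by_cases hrV : r ∈ V
      · exact Finset.mem_union_right _ hrV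
      · apply Finset.mem_union_left
        have hrR : r ∈ R :=
          Finset.mem_sdiff.mpr ⟨Finset.mem_filter.mpr ⟨Finset.mem_univ _, hra⟩, hrV⟩
        exact Finset.mem_erase.mpr ⟨ne_of_gt hgt, hSup σ hσS r hrR hgt⟩
  have hc1 := Finset.card_le_card hsub3
  have hc2 := Finset.card_union_le (S.erase σ ∪ V) (univ.filter fun r : Fin n => r < σ ∧
    A r a = false ∧ A σ a = false ∧ ∀ g ∈ Q, a ≤ g → ¬ (A r g = false ∧ A σ g = false))
  have hc3 := Finset.card_union_le (S.erase σ) V
  have hc4 : (S.erase σ).card = L - 1 := by rw [Finset.card_erase_of_mem hσS, hScard]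
  have hc5 : (univ.filter fun r : Fin n => r < σ ∧ A r a = false ∧ A σ a = false ∧
    ∀ g ∈ Q, a ≤ g → ¬ (A r g = false ∧ A σ g = false)).card = u σ := rfl
  omega

end Vale.Agent.Lib.P037.EPat
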