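import Mathlib
import Vale.Agent.Lib.P037.EPatColFit

namespace Vale.Agent.Lib.P037.EPat

open Finset

variable {n : ℕ}

/-- The number of copies of the pattern in `A` with both columns in `Q`. -/
def qq (A : Fin n → Fin n → Bool) (Q : Finset (Fin n)) : ℕ :=
  ∑ p ∈ (Q ×ˢ Q).filter (fun p => p.1 < p.2), ((univ ×ˢ univ).filter fun t : Fin n × Fin n =>
    t.1 < t.2 ∧ A t.1 p.1 = true ∧ A t.1 p.2 = false ∧ A t.2 p.1 = false ∧
      A t.2 p.2 = false).card

/-- The number of zeros of `A` with no zero of the same row in a column of `Q` at or to the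
right of it. -/
def tr (A : Fin n → Fin n → Bool) (Q : Finset (Fin n)) : ℕ :=
  (univ.filter fun p : Fin n × Fin n => A p.1 p.2 = false ∧
    ∀ g ∈ Q, p.2 ≤ g → A p.1 g = true).card

theorem qfree_union {A : Fin n → Fin n → Bool} {Q D1 : Finset (Fin n)} (D2 : Finset (Fin n))
    (hf1 : QFree (del (trunc A Q) D1) Q) : QFree (del (trunc A Q) (D1 ∪ D2)) Q := by
  intro r r' x y hx hy hr hxy ⟨h1, h2, h3, h4⟩
  have hr2 := (del_zero_iff _ _ _ _).mp h2
  have hr3 := (del_zero_iff _ _ _ _).mp h3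
  have hr4 := (del_zero_iff _ _ _ _).mp h4
  have hr1 : r ∉ D1 := fun h => hr2.1 (Finset.mem_union_left _ h)
  have hr1' : r' ∉ D1 := fun h => hr3.1 (Finset.mem_union_left _ h)
  rw [del_of_notMem _ hr2.1 x] at h1
  refine hf1 r r' x y hx hy hr hxy ⟨?_, ?_, ?_, ?_⟩
  · rw [del_of_notMem _ hr1 x]; exact h1
  · rw [del_of_notMem _ hr1 y]; exact hr2.2
  · rw [del_of_notMem _ hr1' x]; exact hr3.2
  · rw [del_of_notMem _ hr1' y]; exact hr4.2

/-- The deterministic core: for every set `Q` of columns and all parameters `s`, `L` there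
is a pattern-free matrix whose distance from `A` is controlled by four counts. -/
theorem core (A : Fin n → Fin n → Bool) (Q : Finset (Fin n)) (s L : ℕ) (hL : 1 ≤ L) :
    ∃ B : Fin n → Fin n → Bool,
      (∀ r r' x y : Fin n, r < r' → x < y →
        ¬ (B r x = true ∧ B r y = false ∧ B r' x = false ∧ B r' y = false)) ∧
      ∃ d1 SV U nb : ℕ, d1 ^ 2 ≤ 4 * Q.card ^ 2 * qq A Q ∧
        SV ^ 2 ≤ 4 * n * Q.card * ∑ a, ca A Q a ∧
        L * U ≤ ∑ a, xa A Q a ∧ nb * s ≤ SV ∧
        (univ.filter fun p : Fin n × Fin n => A p.1 p.2 ≠ B p.1 p.2).card ≤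
          tr A Q + n * d1 + n * (Q.card ^ 2 * s) + n * L + 2 * SV + U + n * nb := by
  classical
  set P2 := (Q ×ˢ Q).filter (fun p => p.1 < p.2) with hP2
  have hP2card : P2.card ≤ Q.card ^ 2 := by
    calc P2.card ≤ (Q ×ˢ Q).card := Finset.card_filter_le _ _
      _ = Q.card ^ 2 := by rw [Finset.card_product]; ring
  -- the first deletion
  have hk : ∀ p : Fin n × Fin n, ∃ Z : Finset (Fin n),
      Z.card ≤ 2 * Nat.sqrt ((((univ.filter fun r : Fin n => A r p.1 = true ∧ A r p.2 = false) ×ˢ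
        (univ.filter fun r : Fin n => A r p.1 = false ∧ A r p.2 = false)).filter
          fun t => t.1 < t.2).card) ∧
      ∀ x ∈ (univ.filter fun r : Fin n => A r p.1 = true ∧ A r p.2 = false),
        ∀ y ∈ (univ.filter fun r : Fin n => A r p.1 = false ∧ A r p.2 = false),
          x < y → x ∈ Z ∨ y ∈ Z := fun p => kill_pairs _ _
  choose Z1 hZc hZh using hk
  set D1 := P2.biUnion Z1 with hD1
  have hD1card : D1.card ^ 2 ≤ 4 * Q.card ^ 2 * qq A Q := by
    have h1 : D1.card ≤ ∑ p ∈ P2, (Z1 p).card := Finset.card_biUnion_le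
    have h2 : (∑ p ∈ P2, (Z1 p).card) ^ 2 ≤ P2.card * ∑ p ∈ P2, (Z1 p).card ^ 2 :=
      sq_sum_le_card_mul_sum_sq
    have h3 : ∀ p ∈ P2, (Z1 p).card ^ 2 ≤ 4 * ((univ ×ˢ univ).filter fun t : Fin n × Fin n =>
        t.1 < t.2 ∧ A t.1 p.1 = true ∧ A t.1 p.2 = false ∧ A t.2 p.1 = false ∧
          A t.2 p.2 = false).card := by
      intro p _
      have hle : (((univ.filter fun r : Fin n => A r p.1 = true ∧ A r p.2 = false) ×ˢ
          (univ.filter fun r : Fin n => A r p.1 = false ∧ A r p.2 = false)).filter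
            fun t => t.1 < t.2).card ≤ ((univ ×ˢ univ).filter fun t : Fin n × Fin n =>
          t.1 < t.2 ∧ A t.1 p.1 = true ∧ A t.1 p.2 = false ∧ A t.2 p.1 = false ∧
            A t.2 p.2 = false).card := by
        apply Finset.card_le_card
        intro t ht
        simp only [Finset.mem_filter, Finset.mem_product, Finset.mem_univ, true_and] at ht ⊢
        obtain ⟨⟨⟨h1, h2⟩, ⟨h3, h4⟩⟩, hlt⟩ := ht
        exact ⟨hlt, h1, h2, h3, h4⟩
      have hs := Nat.sqrt_le' ((((univ.filter fun r : Fin n => A r p.1 = true ∧ A r p.2 = false) ×ˢ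
          (univ.filter fun r : Fin n => A r p.1 = false ∧ A r p.2 = false)).filter
            fun t => t.1 < t.2).card)
      have hz := Nat.pow_le_pow_left (hZc p) 2
      nlinarith [hz, hs, hle]
    have h4 : ∑ p ∈ P2, (Z1 p).card ^ 2 ≤ 4 * qq A Q := by
      unfold qq
      rw [Finset.mul_sum]
      exact Finset.sum_le_sum h3
    calc D1.card ^ 2 ≤ (∑ p ∈ P2, (Z1 p).card) ^ 2 := Nat.pow_le_pow_left h1 2
      _ ≤ P2.card * ∑ p ∈ P2, (Z1 p).card ^ 2 := h2
      _ ≤ Q.card ^ 2 * (4 * qq A Q) := Nat.mul_le_mul hP2card h4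
      _ = 4 * Q.card ^ 2 * qq A Q := by ring
  set M1 := del (trunc A Q) D1 with hM1
  have hf1 : QFree M1 Q := by
    intro r r' x y hx hy hr hxy ⟨h1, h2, h3, h4⟩
    have hr2 := (del_zero_iff _ _ _ _).mp h2
    have hr3 := (del_zero_iff _ _ _ _).mp h3
    have hr4 := (del_zero_iff _ _ _ _).mp h4
    rw [hM1, del_of_notMem _ hr2.1 x, trunc_of_mem A Q r hx] at h1
    have e2 := hr2.2
    have e3 := hr3.2
    have e4 := hr4.2
    rw [trunc_of_mem A Q r hy] at e2
    rw [trunc_of_mem A Q r' hx] at e3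
    rw [trunc_of_mem A Q r' hy] at e4
    have hp : (x, y) ∈ P2 :=
      Finset.mem_filter.mpr ⟨Finset.mem_product.mpr ⟨hx, hy⟩, hxy⟩
    rcases hZh (x, y) r (by simp [h1, e2]) r' (by simp [e3, e4]) hr with h | h
    · exact hr2.1 (Finset.mem_biUnion.mpr ⟨(x, y), hp, h⟩)
    · exact hr3.1 (Finset.mem_biUnion.mpr ⟨(x, y), hp, h⟩)
  -- the second deletion
  have hk2 : ∀ p : Fin n × Fin n, ∃ S : Finset (Fin n),
      S ⊆ (univ.filter fun r : Fin n => M1 r p.1 = false ∧ M1 r p.2 = false) ∧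
      S.card = min s (univ.filter fun r : Fin n => M1 r p.1 = false ∧ M1 r p.2 = false).card ∧
      ∀ x ∈ S, ∀ y ∈ (univ.filter fun r : Fin n => M1 r p.1 = false ∧ M1 r p.2 = false),
        x < y → y ∈ S := fun p => exists_upper_subset _ s
  choose Lam hLsub hLcard hLup using hk2
  set D2 := P2.biUnion Lam with hD2
  have hD2card : D2.card ≤ Q.card ^ 2 * s := by
    have h1 : D2.card ≤ ∑ p ∈ P2, (Lam p).card := Finset.card_biUnion_le
    have h2 : ∑ p ∈ P2, (Lam p).card ≤ ∑ _p ∈ P2, s := by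
      apply Finset.sum_le_sum
      intro p _
      rw [hLcard p]
      exact min_le_left _ _
    rw [Finset.sum_const, smul_eq_mul] at h2
    calc D2.card ≤ P2.card * s := le_trans h1 h2
      _ ≤ Q.card ^ 2 * s := Nat.mul_le_mul_right s hP2card
  set M2 := del (trunc A Q) (D1 ∪ D2) with hM2
  have hf2 : QFree M2 Q := qfree_union D2 hf1
  have hrob : ∀ x ∈ Q, ∀ y ∈ Q, x < y → ∀ r : Fin n, M2 r x = false → M2 r y = false →
      s ≤ (univ.filter fun r' : Fin n => r < r' ∧ M1 r' x = false ∧ M1 r' y = false).card := by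
    intro x hx y hy hxy r h1 h2
    have hr1 := (del_zero_iff _ _ _ _).mp h1
    have hr2 := (del_zero_iff _ _ _ _).mp h2
    have hrD1 : r ∉ D1 := fun h => hr1.1 (Finset.mem_union_left _ h)
    have hp : (x, y) ∈ P2 :=
      Finset.mem_filter.mpr ⟨Finset.mem_product.mpr ⟨hx, hy⟩, hxy⟩
    have hrL : r ∉ Lam (x, y) := fun h =>
      hr1.1 (Finset.mem_union_right _ (Finset.mem_biUnion.mpr ⟨(x, y), hp, h⟩))
    have hrW : r ∈ (univ.filter fun r : Fin n => M1 r x = false ∧ M1 r y = false) := by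
      refine Finset.mem_filter.mpr ⟨Finset.mem_univ _, ?_, ?_⟩
      · rw [hM1, del_of_notMem _ hrD1]; exact hr1.2
      · rw [hM1, del_of_notMem _ hrD1]; exact hr2.2
    have hcs : (Lam (x, y)).card = s := by
      rw [hLcard (x, y)]
      apply min_eq_left
      by_contra hcon
      push Not at hcon
      have hc : (Lam (x, y)).card =
          (univ.filter fun r : Fin n => M1 r x = false ∧ M1 r y = false).card := by
        rw [hLcard (x, y)]
        exact min_eq_right hcon.le
      have heq := Finset.eq_of_subset_of_card_le (hLsub (x, y)) (le_of_eq hc.symm)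
      exact hrL (heq ▸ hrW)
    rw [← hcs]
    apply Finset.card_le_card
    intro l hl
    have hlW := hLsub (x, y) hl
    have hlW' := (Finset.mem_filter.mp hlW).2
    refine Finset.mem_filter.mpr ⟨Finset.mem_univ _, ?_, hlW'.1, hlW'.2⟩
    rcases lt_trichotomy r l with h | h | h
    · exact h
    · exact absurd (h ▸ hl) hrL
    · exact absurd (hLup (x, y) l hl r hrW h) hrL
  -- the columns
  have hcol := column_fit A Q D1 D2 s L hL hf1 hrob
  choose k γ σ v u b h1 h2 h3 h4 using hcol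
  refine ⟨fit M2 Q k γ σ, fit_free M2 Q k γ σ hf2, D1.card, ∑ a, v a, ∑ a, u a, ∑ a, b a,
    hD1card, ?_, ?_, ?_, ?_⟩
  · have hcs : (∑ a, v a) ^ 2 ≤ (univ : Finset (Fin n)).card * ∑ a, v a ^ 2 :=
      sq_sum_le_card_mul_sum_sq
    have hsum : ∑ a, v a ^ 2 ≤ ∑ a, 4 * Q.card * ca A Q a := Finset.sum_le_sum (fun a _ => h1 a)
    rw [← Finset.mul_sum] at hsum
    have hcard : (univ : Finset (Fin n)).card = n := by simp
    rw [hcard] at hcs
    calc (∑ a, v a) ^ 2 ≤ n * ∑ a, v a ^ 2 := hcs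
      _ ≤ n * (4 * Q.card * ∑ a, ca A Q a) := Nat.mul_le_mul_left n hsum
      _ = 4 * n * Q.card * ∑ a, ca A Q a := by ring
  · rw [Finset.mul_sum]
    exact Finset.sum_le_sum (fun a _ => h2 a)
  · rw [Finset.sum_mul]
    exact Finset.sum_le_sum (fun a _ => h3 a)
  · -- the distance
    have hsplit : (univ.filter fun p : Fin n × Fin n => A p.1 p.2 ≠ fit M2 Q k γ σ p.1 p.2) ⊆
        ((univ.filter fun p : Fin n × Fin n => A p.1 p.2 = false ∧
          ∀ g ∈ Q, p.2 ≤ g → A p.1 g = true) ∪ ((D1 ∪ D2) ×ˢ univ)) ∪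
        (univ.filter fun p : Fin n × Fin n => M2 p.1 p.2 ≠ fit M2 Q k γ σ p.1 p.2) := by
      intro p hp
      have hne := (Finset.mem_filter.mp hp).2
      by_cases hm : M2 p.1 p.2 = fit M2 Q k γ σ p.1 p.2
      · apply Finset.mem_union_left
        rw [← hm] at hne
        by_cases hD : p.1 ∈ D1 ∪ D2
        · exact Finset.mem_union_right _ (Finset.mem_product.mpr ⟨hD, Finset.mem_univ _⟩)
        · apply Finset.mem_union_left
          rw [hM2, del_of_notMem _ hD] at hne
          have hA : A p.1 p.2 = false := by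
            by_contra hAne
            have hAt : A p.1 p.2 = true := by simpa using hAne
            apply hne
            simp [trunc, hAt]
          refine Finset.mem_filter.mpr ⟨Finset.mem_univ _, hA, ?_⟩
          intro g hg hle
          by_contra hgne
          have hgz : A p.1 g = false := by simpa using hgne
          apply hne
          rw [hA]
          symm
          exact (trunc_zero_iff A Q p.1 p.2).mpr ⟨hA, g, hg, hgz, hle⟩
      · exact Finset.mem_union_right _ (Finset.mem_filter.mpr ⟨Finset.mem_univ _, hm⟩)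
    have hc1 := Finset.card_le_card hsplit
    have hc2 := Finset.card_union_le ((univ.filter fun p : Fin n × Fin n => A p.1 p.2 = false ∧
          ∀ g ∈ Q, p.2 ≤ g → A p.1 g = true) ∪ ((D1 ∪ D2) ×ˢ univ))
        (univ.filter fun p : Fin n × Fin n => M2 p.1 p.2 ≠ fit M2 Q k γ σ p.1 p.2)
    have hc3 := Finset.card_union_le (univ.filter fun p : Fin n × Fin n => A p.1 p.2 = false ∧
          ∀ g ∈ Q, p.2 ≤ g → A p.1 g = true) ((D1 ∪ D2) ×ˢ (univ : Finset (Fin n)))
    have hc4 : ((D1 ∪ D2) ×ˢ (univ : Finset (Fin n))).card = (D1 ∪ D2).card * n := by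
      rw [Finset.card_product]; simp
    have hc5 := Finset.card_union_le D1 D2
    have hc6 : (univ.filter fun p : Fin n × Fin n => M2 p.1 p.2 ≠ fit M2 Q k γ σ p.1 p.2).card =
        ∑ a, (univ.filter fun r : Fin n => M2 r a ≠ fit M2 Q k γ σ r a).card := by
      rw [Finset.card_filter, Fintype.sum_prod_type_right]
      refine Finset.sum_congr rfl ?_
      intro a _
      rw [Finset.card_filter]
    have hc7 : ∑ a, (univ.filter fun r : Fin n => M2 r a ≠ fit M2 Q k γ σ r a).card ≤
        ∑ a, (L + 2 * v a + u a + n * b a) := Finset.sum_le_sum (fun a _ => h4 a)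
    have hc8 : ∑ a : Fin n, (L + 2 * v a + u a + n * b a) =
        n * L + 2 * ∑ a, v a + ∑ a, u a + n * ∑ a, b a := by
      rw [Finset.sum_add_distrib, Finset.sum_add_distrib, Finset.sum_add_distrib,
        Finset.sum_const, ← Finset.mul_sum, ← Finset.mul_sum]
      simp
    have htr : (univ.filter fun p : Fin n × Fin n => A p.1 p.2 = false ∧
          ∀ g ∈ Q, p.2 ≤ g → A p.1 g = true).card = tr A Q := rfl
    have hm1 : (D1 ∪ D2).card * n ≤ n * D1.card + n * (Q.card ^ 2 * s) := by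
      have : (D1 ∪ D2).card ≤ D1.card + Q.card ^ 2 * s := le_trans hc5 (by omega)
      calc (D1 ∪ D2).card * n ≤ (D1.card + Q.card ^ 2 * s) * n := Nat.mul_le_mul_right n this
        _ = n * D1.card + n * (Q.card ^ 2 * s) := by ring
    omega

end Vale.Agent.Lib.P037.EPat
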