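import Mathlib
import Vale.Agent.Lib.P037.EPatCore
import Vale.Agent.Lib.P037.EAvg

namespace Vale.Agent.Lib.P037.EPat

open Finset
open Vale.Agent.Lib.P037 (eCop exists_good_cols)

variable {n : ℕ}

/-- A sum over column pairs of the numbers of copies on them is at most the number of copies
whose column pair lies in the index set. -/
theorem sum_pairs_le (A : Fin n → Fin n → Bool) (S : Finset (Fin n × Fin n))
    (hS : ∀ p ∈ S, p.1 < p.2) :
    ∑ p ∈ S, ((univ ×ˢ univ).filter fun t : Fin n × Fin n =>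
      t.1 < t.2 ∧ A t.1 p.1 = true ∧ A t.1 p.2 = false ∧ A t.2 p.1 = false ∧
        A t.2 p.2 = false).card ≤
    ((eCop A).filter fun t => (t.2.2.1, t.2.2.2) ∈ S).card := by
  classical
  have h1 : ((S ×ˢ ((univ : Finset (Fin n)) ×ˢ (univ : Finset (Fin n)))).filter
      fun x : (Fin n × Fin n) × (Fin n × Fin n) =>
        x.2.1 < x.2.2 ∧ A x.2.1 x.1.1 = true ∧ A x.2.1 x.1.2 = false ∧
          A x.2.2 x.1.1 = false ∧ A x.2.2 x.1.2 = false).card =
      ∑ p ∈ S, ((univ ×ˢ univ).filter fun t : Fin n × Fin n =>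
        t.1 < t.2 ∧ A t.1 p.1 = true ∧ A t.1 p.2 = false ∧ A t.2 p.1 = false ∧
          A t.2 p.2 = false).card := by
    rw [Finset.card_filter, Finset.sum_product]
    refine Finset.sum_congr rfl ?_
    intro p _
    rw [Finset.card_filter]
  rw [← h1]
  apply Finset.card_le_card_of_injOn
    (fun x : (Fin n × Fin n) × (Fin n × Fin n) => (x.2.1, x.2.2, x.1.1, x.1.2))
  · intro x hx
    have hx' := Finset.mem_filter.mp (Finset.mem_coe.mp hx)
    have hxS : x.1 ∈ S := (Finset.mem_product.mp hx'.1).1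
    apply Finset.mem_coe.mpr
    refine Finset.mem_filter.mpr ⟨?_, hxS⟩
    unfold eCop
    exact Finset.mem_filter.mpr ⟨Finset.mem_univ _, hx'.2.1, hS x.1 hxS, hx'.2.2⟩
  · intro x _ y _ hxy
    simp only [Prod.mk.injEq] at hxy
    obtain ⟨e1, e2, e3, e4⟩ := hxy
    exact Prod.ext (Prod.ext e3 e4) (Prod.ext e1 e2)

theorem qq_le (A : Fin n → Fin n → Bool) (Q : Finset (Fin n)) :
    qq A Q ≤ ((eCop A).filter fun t => t.2.2.1 ∈ Q ∧ t.2.2.2 ∈ Q).card := by
  classical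
  unfold qq
  refine le_trans (sum_pairs_le A _ (fun p hp => (Finset.mem_filter.mp hp).2)) ?_
  apply Finset.card_le_card
  intro t ht
  have ht' := Finset.mem_filter.mp ht
  have hm := Finset.mem_product.mp (Finset.mem_filter.mp ht'.2).1
  exact Finset.mem_filter.mpr ⟨ht'.1, hm.1, hm.2⟩

theorem ca_le (A : Fin n → Fin n → Bool) (Q : Finset (Fin n)) :
    ∑ a, ca A Q a ≤ ((eCop A).filter fun t => t.2.2.2 ∈ Q).card := by
  classical
  have h1 : ∑ a, ca A Q a = ∑ p ∈ ((univ : Finset (Fin n)) ×ˢ Q).filter (fun p => p.1 < p.2),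
      ((univ ×ˢ univ).filter fun t : Fin n × Fin n =>
        t.1 < t.2 ∧ A t.1 p.1 = true ∧ A t.1 p.2 = false ∧ A t.2 p.1 = false ∧
          A t.2 p.2 = false).card := by
    rw [Finset.sum_filter, Finset.sum_product]
    refine Finset.sum_congr rfl ?_
    intro a _
    unfold ca
    rw [Finset.sum_filter]
  rw [h1]
  refine le_trans (sum_pairs_le A _ (fun p hp => (Finset.mem_filter.mp hp).2)) ?_
  apply Finset.card_le_card
  intro t ht
  have ht' := Finset.mem_filter.mp ht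
  have hm := Finset.mem_product.mp (Finset.mem_filter.mp ht'.2).1
  exact Finset.mem_filter.mpr ⟨ht'.1, hm.2⟩

theorem xa_le (A : Fin n → Fin n → Bool) (Q : Finset (Fin n)) :
    ∑ a, xa A Q a ≤ (univ.filter fun p : Fin n × Fin n × Fin n =>
      A p.1 p.2.2 = false ∧ A p.2.1 p.2.2 = false ∧
        ∀ g ∈ Q, p.2.2 ≤ g → ¬ (A p.1 g = false ∧ A p.2.1 g = false)).card := by
  classical
  have h1 : ∑ a, xa A Q a = (univ.filter fun x : Fin n × Fin n × Fin n =>
      x.2.2 < x.2.1 ∧ A x.2.2 x.1 = false ∧ A x.2.1 x.1 = false ∧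
        ∀ g ∈ Q, x.1 ≤ g → ¬ (A x.2.2 g = false ∧ A x.2.1 g = false)).card := by
    rw [Finset.card_filter, Fintype.sum_prod_type]
    refine Finset.sum_congr rfl ?_
    intro a _
    unfold xa
    rw [Fintype.sum_prod_type]
    refine Finset.sum_congr rfl ?_
    intro σ _
    rw [Finset.card_filter]
  rw [h1]
  apply Finset.card_le_card_of_injOn (fun x : Fin n × Fin n × Fin n => (x.2.2, x.2.1, x.1))
  · intro x hx
    have hx' := (Finset.mem_filter.mp (Finset.mem_coe.mp hx)).2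
    apply Finset.mem_coe.mpr
    exact Finset.mem_filter.mpr ⟨Finset.mem_univ _, hx'.2.1, hx'.2.2.1, hx'.2.2.2⟩
  · intro x _ y _ hxy
    simp only [Prod.mk.injEq] at hxy
    obtain ⟨e1, e2, e3⟩ := hxy
    exact Prod.ext e3 (Prod.ext e2 e1)

/-- The core bound after the choice of the columns: for all parameters `q`, `s`, `L` there is
a pattern-free matrix `B` whose distance from `A` is bounded through five auxiliary numbers,
each controlled by `n`, `q`, `s`, `L` and the number of copies of the pattern in `A`. -/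
theorem core_bound (A : Fin n → Fin n → Bool) (q s L : ℕ) (hL : 1 ≤ L) :
    ∃ B : Fin n → Fin n → Bool,
      (∀ r r' x y : Fin n, r < r' → x < y →
        ¬ (B r x = true ∧ B r y = false ∧ B r' x = false ∧ B r' y = false)) ∧
      ∃ TR d1 SV U nb : ℕ, q * TR ≤ 4 * n ^ 2 ∧
        n ^ 2 * d1 ^ 2 ≤ 16 * q ^ 4 * (eCop A).card ∧
        SV ^ 2 ≤ 16 * q ^ 2 * (eCop A).card ∧
        q * (L * U) ≤ 4 * n ^ 3 ∧ nb * s ≤ SV ∧
        (univ.filter fun p : Fin n × Fin n => A p.1 p.2 ≠ B p.1 p.2).card ≤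
          TR + n * d1 + n * (q ^ 2 * s) + n * L + 2 * SV + U + n * nb := by
  obtain ⟨Q, hQc, ha, hb, hc, hd⟩ := exists_good_cols n q A
  obtain ⟨B, hB, d1, SV, U, nb, h1, h2, h3, h4, h5⟩ := core A Q s L hL
  have hQ2 : Q.card ^ 2 ≤ q ^ 2 := Nat.pow_le_pow_left hQc 2
  refine ⟨B, hB, tr A Q, d1, SV, U, nb, ha, ?_, ?_, ?_, h4, ?_⟩
  · calc n ^ 2 * d1 ^ 2 ≤ n ^ 2 * (4 * Q.card ^ 2 * qq A Q) := Nat.mul_le_mul_left _ h1
      _ = 4 * Q.card ^ 2 * (n ^ 2 * qq A Q) := by ring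
      _ ≤ 4 * q ^ 2 * (n ^ 2 * ((eCop A).filter fun t => t.2.2.1 ∈ Q ∧ t.2.2.2 ∈ Q).card) :=
          Nat.mul_le_mul (Nat.mul_le_mul_left 4 hQ2) (Nat.mul_le_mul_left _ (qq_le A Q))
      _ ≤ 4 * q ^ 2 * (4 * q ^ 2 * (eCop A).card) := Nat.mul_le_mul_left _ hb
      _ = 16 * q ^ 4 * (eCop A).card := by ring
  · calc SV ^ 2 ≤ 4 * n * Q.card * ∑ a, ca A Q a := h2
      _ = 4 * Q.card * (n * ∑ a, ca A Q a) := by ring
      _ ≤ 4 * q * (n * ((eCop A).filter fun t => t.2.2.2 ∈ Q).card) :=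
          Nat.mul_le_mul (Nat.mul_le_mul_left 4 hQc) (Nat.mul_le_mul_left _ (ca_le A Q))
      _ ≤ 4 * q * (4 * q * (eCop A).card) := Nat.mul_le_mul_left _ hc
      _ = 16 * q ^ 2 * (eCop A).card := by ring
  · calc q * (L * U) ≤ q * ∑ a, xa A Q a := Nat.mul_le_mul_left q h3
      _ ≤ q * (univ.filter fun p : Fin n × Fin n × Fin n =>
          A p.1 p.2.2 = false ∧ A p.2.1 p.2.2 = false ∧
            ∀ g ∈ Q, p.2.2 ≤ g → ¬ (A p.1 g = false ∧ A p.2.1 g = false)).card :=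
          Nat.mul_le_mul_left q (xa_le A Q)
      _ ≤ 4 * n ^ 3 := hd
  · have h6 : n * (Q.card ^ 2 * s) ≤ n * (q ^ 2 * s) :=
      Nat.mul_le_mul_left n (Nat.mul_le_mul_right s hQ2)
    have h7 : tr A Q = (univ.filter fun p : Fin n × Fin n =>
        A p.1 p.2 = false ∧ ∀ g ∈ Q, p.2 ≤ g → A p.1 g = true).card := rfl
    omega

end Vale.Agent.Lib.P037.EPat
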