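import Mathlib
import Vale.Agent.Results.P037.FewRowTypes
import Vale.Agent.Lib.P037.EAvg
import Vale.Agent.Lib.P037.EForest

/-!
Steps 1 and 2 of the argument for the pattern `E = 1 0 / 0 0` (zero = `false`):

* `raise A Q`: every row is raised to `1` after its last zero in a column of `Q`;
* `kill D A`: the rows of `D` are made all-ones;
* `exists_D1`: a small set of rows whose removal makes the matrix exactly `E`-free on the
  columns of `Q`;
* `exists_D2`: removing, for every pair of columns of `Q`, the last `s` rows that are zero in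
  both columns makes all surviving co-occurrences robust.
-/

namespace Vale.Agent.Lib.P037.ESteps

open Finset
open Vale.Agent.Results.P037.FewRowTypes (kill_pairs)
open Vale.Agent.Lib.P037 (eCop QExact ELink)

variable {n : ℕ}

/-- Raise every row to `true` after its last zero in a column of `Q`. -/
def raise (A : Fin n → Fin n → Bool) (Q : Finset (Fin n)) : Fin n → Fin n → Bool :=
  fun r c => A r c || !decide (∃ g ∈ Q, c ≤ g ∧ A r g = false)

/-- Make the rows of `D` all-ones. -/
def kill (D : Finset (Fin n)) (A : Fin n → Fin n → Bool) : Fin n → Fin n → Bool :=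
  fun r c => decide (r ∈ D) || A r c

lemma raise_eq_false_iff (A : Fin n → Fin n → Bool) (Q : Finset (Fin n)) (r c : Fin n) :
    raise A Q r c = false ↔ A r c = false ∧ ∃ g ∈ Q, c ≤ g ∧ A r g = false := by
  simp [raise]

lemma raise_of_mem (A : Fin n → Fin n → Bool) (Q : Finset (Fin n)) (r : Fin n) {g : Fin n}
    (hg : g ∈ Q) : raise A Q r g = A r g := by
  cases h : A r g with
  | true => simp [raise, h]
  | false =>
    rw [raise_eq_false_iff]
    exact ⟨h, g, hg, le_refl g, h⟩

lemma raise_tail (A : Fin n → Fin n → Bool) (Q : Finset (Fin n)) (r z : Fin n)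
    (h : raise A Q r z = false) : ∃ g ∈ Q, z ≤ g ∧ raise A Q r g = false := by
  obtain ⟨_, g, hg, hzg, hA⟩ := (raise_eq_false_iff A Q r z).1 h
  exact ⟨g, hg, hzg, by rw [raise_of_mem A Q r hg]; exact hA⟩

/-- Raising only deletes copies of `E`. -/
lemma raise_copy (A : Fin n → Fin n → Bool) (Q : Finset (Fin n)) (r1 r2 c1 c2 : Fin n)
    (hc : c1 < c2)
    (h : raise A Q r1 c1 = true ∧ raise A Q r1 c2 = false ∧ raise A Q r2 c1 = false ∧
      raise A Q r2 c2 = false) :
    A r1 c1 = true ∧ A r1 c2 = false ∧ A r2 c1 = false ∧ A r2 c2 = false := by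
  obtain ⟨h1, h2, h3, h4⟩ := h
  obtain ⟨h2a, g, hg, hcg, hAg⟩ := (raise_eq_false_iff A Q r1 c2).1 h2
  refine ⟨?_, h2a, ((raise_eq_false_iff A Q r2 c1).1 h3).1, ((raise_eq_false_iff A Q r2 c2).1 h4).1⟩
  by_contra hne
  have hf : A r1 c1 = false := by simpa using hne
  have : raise A Q r1 c1 = false :=
    (raise_eq_false_iff A Q r1 c1).2 ⟨hf, g, hg, le_trans hc.le hcg, hAg⟩
  rw [this] at h1
  exact Bool.false_ne_true h1

/-- The entries changed by raising are exactly the zeros after the last `Q`-zero. -/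
lemma raise_cost (A : Fin n → Fin n → Bool) (Q : Finset (Fin n)) :
    (univ.filter fun p : Fin n × Fin n => A p.1 p.2 ≠ raise A Q p.1 p.2)
      = univ.filter fun p : Fin n × Fin n =>
          A p.1 p.2 = false ∧ ∀ g ∈ Q, p.2 ≤ g → A p.1 g = true := by
  ext p
  simp only [mem_filter, mem_univ, true_and]
  cases h : A p.1 p.2 with
  | true => simp [raise, h]
  | false =>
    simp only [raise, h, Bool.false_or, ne_eq, true_and]
    constructor
    · intro hne g hg hpg
      by_contra hA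
      apply hne
      have : ∃ g ∈ Q, p.2 ≤ g ∧ A p.1 g = false := ⟨g, hg, hpg, by simpa using hA⟩
      simp [this]
    · intro hall hne
      have : ∃ g ∈ Q, p.2 ≤ g ∧ A p.1 g = false := by
        by_contra hno
        simp [hno] at hne
      obtain ⟨g, hg, hpg, hA⟩ := this
      rw [hall g hg hpg] at hA
      exact Bool.noConfusion hA

lemma kill_eq_false_iff (D : Finset (Fin n)) (A : Fin n → Fin n → Bool) (r c : Fin n) :
    kill D A r c = false ↔ r ∉ D ∧ A r c = false := by
  simp [kill]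

lemma kill_of_not_mem (D : Finset (Fin n)) (A : Fin n → Fin n → Bool) {r : Fin n}
    (hr : r ∉ D) (c : Fin n) : kill D A r c = A r c := by
  simp [kill, hr]

lemma kill_of_mem (D : Finset (Fin n)) (A : Fin n → Fin n → Bool) {r : Fin n}
    (hr : r ∈ D) (c : Fin n) : kill D A r c = true := by
  simp [kill, hr]

/-- Killing rows only deletes copies of `E`, and the rows of a surviving copy are not killed. -/
lemma kill_copy (D : Finset (Fin n)) (A : Fin n → Fin n → Bool) (r1 r2 c1 c2 : Fin n)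
    (h : kill D A r1 c1 = true ∧ kill D A r1 c2 = false ∧ kill D A r2 c1 = false ∧
      kill D A r2 c2 = false) :
    (A r1 c1 = true ∧ A r1 c2 = false ∧ A r2 c1 = false ∧ A r2 c2 = false) ∧ r1 ∉ D ∧ r2 ∉ D := by
  obtain ⟨h1, h2, h3, h4⟩ := h
  have h2' := (kill_eq_false_iff D A r1 c2).1 h2
  have h3' := (kill_eq_false_iff D A r2 c1).1 h3
  have h4' := (kill_eq_false_iff D A r2 c2).1 h4
  refine ⟨⟨?_, h2'.2, h3'.2, h4'.2⟩, h2'.1, h3'.1⟩
  rw [kill_of_not_mem D A h2'.1] at h1
  exact h1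

/-- Killing the rows of `D` changes at most `|D| * n` entries. -/
lemma kill_cost (D : Finset (Fin n)) (A : Fin n → Fin n → Bool) :
    (univ.filter fun p : Fin n × Fin n => A p.1 p.2 ≠ kill D A p.1 p.2).card ≤ D.card * n := by
  have hsub : (univ.filter fun p : Fin n × Fin n => A p.1 p.2 ≠ kill D A p.1 p.2)
      ⊆ D ×ˢ (univ : Finset (Fin n)) := by
    intro p hp
    simp only [mem_filter, mem_univ, true_and] at hp
    simp only [mem_product, mem_univ, and_true]
    by_contra hD
    exact hp (kill_of_not_mem D A hD p.2).symm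
  calc _ ≤ (D ×ˢ (univ : Finset (Fin n))).card := card_le_card hsub
    _ = D.card * n := by simp [card_product]

/-- The pairs `x < y` of columns of `Q`. -/
def pairs (Q : Finset (Fin n)) : Finset (Fin n × Fin n) := (Q ×ˢ Q).filter fun p => p.1 < p.2

lemma two_mul_card_pairs_le (Q : Finset (Fin n)) : 2 * (pairs Q).card ≤ Q.card ^ 2 := by
  have hdisj : Disjoint (pairs Q) ((Q ×ˢ Q).filter fun p => p.2 < p.1) := by
    rw [disjoint_left]
    intro p hp hp'
    simp only [pairs, mem_filter] at hp hp'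
    exact absurd hp.2 (not_lt.2 hp'.2.le)
  have hcard : ((Q ×ˢ Q).filter fun p => p.2 < p.1).card = (pairs Q).card := by
    apply card_nbij' (fun p => (p.2, p.1)) (fun p => (p.2, p.1))
    · intro p hp
      simp only [pairs, mem_coe, mem_filter, mem_product] at hp ⊢
      exact ⟨⟨hp.1.2, hp.1.1⟩, hp.2⟩
    · intro p hp
      simp only [pairs, mem_coe, mem_filter, mem_product] at hp ⊢
      exact ⟨⟨hp.1.2, hp.1.1⟩, hp.2⟩
    · intro p _; rfl
    · intro p _; rfl
  have hun : (pairs Q ∪ (Q ×ˢ Q).filter fun p => p.2 < p.1).card ≤ (Q ×ˢ Q).card := by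
    apply card_le_card
    intro p hp
    rcases mem_union.1 hp with h | h
    · exact (mem_filter.1 h).1
    · exact (mem_filter.1 h).1
  rw [card_union_of_disjoint hdisj, hcard, card_product] at hun
  rw [sq]
  omega


/-- Step 1b: a set `D` of rows with `|D|^2 ≤ 2 |Q|^2 * #(copies of E in M with both columns
in Q)` such that after killing `D` the matrix has no copy of `E` on two columns of `Q`. -/
lemma exists_D1 (M : Fin n → Fin n → Bool) (Q : Finset (Fin n)) :
    ∃ D : Finset (Fin n),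
      D.card ^ 2 ≤ 2 * Q.card ^ 2 *
        (univ.filter fun t : Fin n × Fin n × Fin n × Fin n =>
          t.1 < t.2.1 ∧ t.2.2.1 < t.2.2.2 ∧ M t.1 t.2.2.1 = true ∧ M t.1 t.2.2.2 = false ∧
            M t.2.1 t.2.2.1 = false ∧ M t.2.1 t.2.2.2 = false ∧
            t.2.2.1 ∈ Q ∧ t.2.2.2 ∈ Q).card ∧
      ∀ r1 r2 c1 c2 : Fin n, r1 < r2 → c1 < c2 → c1 ∈ Q → c2 ∈ Q →
        ¬ (kill D M r1 c1 = true ∧ kill D M r1 c2 = false ∧ kill D M r2 c1 = false ∧
          kill D M r2 c2 = false) := by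
  classical
  set X : Fin n × Fin n → Finset (Fin n) :=
    fun p => univ.filter fun r => M r p.1 = true ∧ M r p.2 = false with hX
  set Y : Fin n × Fin n → Finset (Fin n) :=
    fun p => univ.filter fun r => M r p.1 = false ∧ M r p.2 = false with hY
  set P : Fin n × Fin n → ℕ := fun p => ((X p ×ˢ Y p).filter fun u => u.1 < u.2).card with hP
  have hZ : ∀ p, ∃ Z : Finset (Fin n), Z.card ≤ 2 * Nat.sqrt (P p) ∧
      ∀ x ∈ X p, ∀ y ∈ Y p, x < y → x ∈ Z ∨ y ∈ Z := fun p => kill_pairs (X p) (Y p)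
  choose Z hZc hZk using hZ
  set T := univ.filter fun t : Fin n × Fin n × Fin n × Fin n =>
          t.1 < t.2.1 ∧ t.2.2.1 < t.2.2.2 ∧ M t.1 t.2.2.1 = true ∧ M t.1 t.2.2.2 = false ∧
            M t.2.1 t.2.2.1 = false ∧ M t.2.1 t.2.2.2 = false ∧
            t.2.2.1 ∈ Q ∧ t.2.2.2 ∈ Q with hT
  have hsumP : ∑ p ∈ pairs Q, P p ≤ T.card := by
    have hmaps : Set.MapsTo (fun t : Fin n × Fin n × Fin n × Fin n => (t.2.2.1, t.2.2.2))
        (T : Set (Fin n × Fin n × Fin n × Fin n)) (pairs Q : Set (Fin n × Fin n)) := by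
      intro t ht
      simp only [hT, mem_coe, mem_filter, mem_univ, true_and] at ht
      simp only [pairs, mem_coe, mem_filter, mem_product]
      exact ⟨⟨ht.2.2.2.2.2.2.1, ht.2.2.2.2.2.2.2⟩, ht.2.1⟩
    rw [card_eq_sum_card_fiberwise hmaps]
    apply sum_le_sum
    intro p hp
    simp only [pairs, mem_filter, mem_product] at hp
    apply card_le_card_of_injOn (fun u : Fin n × Fin n => (u.1, u.2, p.1, p.2))
    · intro u hu
      simp only [hX, hY, mem_coe, mem_filter, mem_product, mem_univ, true_and] at hu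
      simp only [hT, mem_coe, mem_filter, mem_univ, true_and]
      exact ⟨⟨hu.2, hp.2, hu.1.1.1, hu.1.1.2, hu.1.2.1, hu.1.2.2, hp.1.1, hp.1.2⟩, trivial⟩
    · intro u _ u' _ h
      simp only [Prod.mk.injEq, and_true] at h
      exact Prod.ext h.1 h.2
  refine ⟨(pairs Q).biUnion Z, ?_, ?_⟩
  · have h1 : ((pairs Q).biUnion Z).card ≤ ∑ p ∈ pairs Q, 2 * Nat.sqrt (P p) :=
      le_trans card_biUnion_le (sum_le_sum fun p _ => hZc p)
    have h2 : (∑ p ∈ pairs Q, 2 * Nat.sqrt (P p)) ^ 2
        ≤ (pairs Q).card * ∑ p ∈ pairs Q, (2 * Nat.sqrt (P p)) ^ 2 := by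
      have := sq_sum_le_card_mul_sum_sq (s := pairs Q) (f := fun p => 2 * Nat.sqrt (P p))
      simpa using this
    have h3 : ∑ p ∈ pairs Q, (2 * Nat.sqrt (P p)) ^ 2 ≤ 4 * T.card := by
      calc ∑ p ∈ pairs Q, (2 * Nat.sqrt (P p)) ^ 2
          ≤ ∑ p ∈ pairs Q, 4 * P p := sum_le_sum fun p _ => by
            have := Nat.sqrt_le' (P p)
            nlinarith
        _ = 4 * ∑ p ∈ pairs Q, P p := by rw [mul_sum]
        _ ≤ 4 * T.card := Nat.mul_le_mul_left _ hsumP
    have h4 := two_mul_card_pairs_le Q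
    calc ((pairs Q).biUnion Z).card ^ 2
        ≤ (∑ p ∈ pairs Q, 2 * Nat.sqrt (P p)) ^ 2 := Nat.pow_le_pow_left h1 2
      _ ≤ (pairs Q).card * (4 * T.card) := le_trans h2 (Nat.mul_le_mul_left _ h3)
      _ = 2 * (2 * (pairs Q).card) * T.card := by ring
      _ ≤ 2 * Q.card ^ 2 * T.card :=
          Nat.mul_le_mul_right _ (Nat.mul_le_mul_left _ h4)
  · intro r1 r2 c1 c2 hr hc hc1 hc2 hcopy
    obtain ⟨hM, hr1, hr2⟩ := kill_copy _ M r1 r2 c1 c2 hcopy
    have hp : (c1, c2) ∈ pairs Q := by simp [pairs, hc1, hc2, hc]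
    have hx : r1 ∈ X (c1, c2) := by simp [hX, hM.1, hM.2.1]
    have hy : r2 ∈ Y (c1, c2) := by simp [hY, hM.2.2.1, hM.2.2.2]
    rcases hZk (c1, c2) r1 hx r2 hy hr with h | h
    · exact hr1 (mem_biUnion.2 ⟨_, hp, h⟩)
    · exact hr2 (mem_biUnion.2 ⟨_, hp, h⟩)

/-- The elements of `R` with fewer than `s` elements of `R` above them are at most `s`. -/
lemma card_last_le (R : Finset (Fin n)) (s : ℕ) :
    (R.filter fun r => (R.filter fun r' => r < r').card < s).card ≤ s := by
  by_contra hlt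
  have hlt := not_le.1 hlt
  set L := R.filter fun r => (R.filter fun r' => r < r').card < s with hL
  have hne : L.Nonempty := card_pos.1 (by omega)
  have hm : L.min' hne ∈ L := min'_mem L hne
  have hsub : L.erase (L.min' hne) ⊆ R.filter fun r' => L.min' hne < r' := by
    intro x hx
    obtain ⟨hxne, hxL⟩ := mem_erase.1 hx
    have hle : L.min' hne ≤ x := min'_le L x hxL
    simp only [mem_filter]
    exact ⟨(mem_filter.1 hxL).1, lt_of_le_of_ne hle (Ne.symm hxne)⟩
  have h1 := card_le_card hsub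
  rw [card_erase_of_mem hm] at h1
  have h2 : (R.filter fun r' => L.min' hne < r').card < s := (mem_filter.1 hm).2
  omega

/-- Step 2: a set `D` of at most `s |Q|^2 / 2` rows such that after killing `D`, whenever a
row is zero in two columns `x < y` of `Q`, at least `s` later rows of `M` are zero in both. -/
lemma exists_D2 (M : Fin n → Fin n → Bool) (Q : Finset (Fin n)) (s : ℕ) :
    ∃ D : Finset (Fin n), 2 * D.card ≤ s * Q.card ^ 2 ∧
      ∀ r x y : Fin n, x ∈ Q → y ∈ Q → x < y → kill D M r x = false → kill D M r y = false →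
        s ≤ (univ.filter fun r' : Fin n => r < r' ∧ M r' x = false ∧ M r' y = false).card := by
  classical
  set R : Fin n × Fin n → Finset (Fin n) :=
    fun p => univ.filter fun r => M r p.1 = false ∧ M r p.2 = false with hR
  set L : Fin n × Fin n → Finset (Fin n) :=
    fun p => (R p).filter fun r => ((R p).filter fun r' => r < r').card < s with hL
  refine ⟨(pairs Q).biUnion L, ?_, ?_⟩
  · have h1 : ((pairs Q).biUnion L).card ≤ ∑ _p ∈ pairs Q, s :=
      le_trans card_biUnion_le (sum_le_sum fun p _ => card_last_le (R p) s)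
    rw [sum_const, smul_eq_mul] at h1
    have h4 := two_mul_card_pairs_le Q
    calc 2 * ((pairs Q).biUnion L).card ≤ 2 * ((pairs Q).card * s) := Nat.mul_le_mul_left _ h1
      _ = s * (2 * (pairs Q).card) := by ring
      _ ≤ s * Q.card ^ 2 := Nat.mul_le_mul_left _ h4
  · intro r x y hx hy hxy h1 h2
    obtain ⟨hrD, hMx⟩ := (kill_eq_false_iff _ M r x).1 h1
    obtain ⟨_, hMy⟩ := (kill_eq_false_iff _ M r y).1 h2
    have hp : (x, y) ∈ pairs Q := by simp [pairs, hx, hy, hxy]
    have hrR : r ∈ R (x, y) := by simp [hR, hMx, hMy]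
    have hrL : r ∉ L (x, y) := fun h => hrD (mem_biUnion.2 ⟨_, hp, h⟩)
    have hcard : ¬ ((R (x, y)).filter fun r' => r < r').card < s := by
      intro h
      exact hrL (mem_filter.2 ⟨hrR, h⟩)
    have hcard := not_lt.1 hcard
    refine le_trans hcard (card_le_card ?_)
    intro r' hr'
    simp only [hR, mem_filter, mem_univ, true_and] at hr' ⊢
    exact ⟨hr'.2, hr'.1.1, hr'.1.2⟩


/-! ### Derived facts for `A1 = kill D1 (raise A Q)` and `A2 = kill D2 A1` -/

lemma kill_qexact (D : Finset (Fin n)) {M : Fin n → Fin n → Bool} {Q : Finset (Fin n)}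
    (h : QExact M Q) : QExact (kill D M) Q := by
  intro r r' x y hr hxy hx hy h1 h2 h3 h4
  obtain ⟨hM, _, _⟩ := kill_copy D M r r' x y ⟨h1, h2, h3, h4⟩
  exact h r r' x y hr hxy hx hy hM.1 hM.2.1 hM.2.2.1 hM.2.2.2

lemma kill_tail (D : Finset (Fin n)) {M : Fin n → Fin n → Bool} {Q : Finset (Fin n)}
    (h : ∀ r z, M r z = false → ∃ g ∈ Q, z ≤ g ∧ M r g = false) :
    ∀ r z, kill D M r z = false → ∃ g ∈ Q, z ≤ g ∧ kill D M r g = false := by
  intro r z hz
  obtain ⟨hr, hM⟩ := (kill_eq_false_iff D M r z).1 hz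
  obtain ⟨g, hg, hzg, hMg⟩ := h r z hM
  exact ⟨g, hg, hzg, (kill_eq_false_iff D M r g).2 ⟨hr, hMg⟩⟩

/-- Zeros of `A1` are zeros of `A` in rows outside `D1`. -/
lemma a1_zero (A : Fin n → Fin n → Bool) (Q D1 : Finset (Fin n)) {r c : Fin n}
    (h : kill D1 (raise A Q) r c = false) : A r c = false ∧ r ∉ D1 := by
  obtain ⟨hr, h'⟩ := (kill_eq_false_iff D1 _ r c).1 h
  exact ⟨((raise_eq_false_iff A Q r c).1 h').1, hr⟩

/-- Every zero of `A1` has a zero of the same row in a column of `Q` at or after it. -/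
lemma a1_tail (A : Fin n → Fin n → Bool) (Q D1 : Finset (Fin n)) :
    ∀ r z, kill D1 (raise A Q) r z = false →
      ∃ g ∈ Q, z ≤ g ∧ kill D1 (raise A Q) r g = false :=
  kill_tail D1 (raise_tail A Q)

/-- A row of `A1` that has a zero agrees with `A` on the columns of `Q`. -/
lemma a1_Q (A : Fin n → Fin n → Bool) (Q D1 : Finset (Fin n)) {r c : Fin n}
    (h : kill D1 (raise A Q) r c = false) {g : Fin n} (hg : g ∈ Q) :
    kill D1 (raise A Q) r g = A r g := by
  rw [kill_of_not_mem D1 _ (a1_zero A Q D1 h).2, raise_of_mem A Q r hg]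

/-- Copies of `E` in `A1` are copies of `E` in `A`. -/
lemma a1_copy (A : Fin n → Fin n → Bool) (Q D1 : Finset (Fin n)) (r1 r2 c1 c2 : Fin n)
    (hc : c1 < c2)
    (h : kill D1 (raise A Q) r1 c1 = true ∧ kill D1 (raise A Q) r1 c2 = false ∧
      kill D1 (raise A Q) r2 c1 = false ∧ kill D1 (raise A Q) r2 c2 = false) :
    A r1 c1 = true ∧ A r1 c2 = false ∧ A r2 c1 = false ∧ A r2 c2 = false :=
  raise_copy A Q r1 r2 c1 c2 hc (kill_copy D1 _ r1 r2 c1 c2 h).1

lemma a1_eCop_subset (A : Fin n → Fin n → Bool) (Q D1 : Finset (Fin n)) :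
    eCop (kill D1 (raise A Q)) ⊆ eCop A := by
  intro t ht
  simp only [eCop, mem_filter, mem_univ, true_and] at ht ⊢
  exact ⟨ht.1, ht.2.1, a1_copy A Q D1 _ _ _ _ ht.2.1 ht.2.2⟩

/-- Cost of step 1. -/
lemma a1_cost (A : Fin n → Fin n → Bool) (Q D1 : Finset (Fin n)) :
    (univ.filter fun p : Fin n × Fin n => A p.1 p.2 ≠ kill D1 (raise A Q) p.1 p.2).card
      ≤ (univ.filter fun p : Fin n × Fin n =>
          A p.1 p.2 = false ∧ ∀ g ∈ Q, p.2 ≤ g → A p.1 g = true).card + D1.card * n := by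
  rw [← raise_cost A Q]
  refine le_trans (card_le_card ?_)
    (le_trans (card_union_le _ _) (Nat.add_le_add_left (kill_cost D1 (raise A Q)) _))
  intro p hp
  simp only [mem_filter, mem_univ, true_and, mem_union] at hp ⊢
  by_contra hcon
  push Not at hcon
  exact hp (hcon.1.trans hcon.2)

/-- Cost of steps 1 and 2 together. -/
lemma a2_cost (A : Fin n → Fin n → Bool) (Q D1 D2 : Finset (Fin n)) :
    (univ.filter fun p : Fin n × Fin n =>
        A p.1 p.2 ≠ kill D2 (kill D1 (raise A Q)) p.1 p.2).card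
      ≤ (univ.filter fun p : Fin n × Fin n =>
          A p.1 p.2 = false ∧ ∀ g ∈ Q, p.2 ≤ g → A p.1 g = true).card
        + D1.card * n + D2.card * n := by
  refine le_trans (card_le_card ?_)
    (le_trans (card_union_le _ _)
      (Nat.add_le_add (a1_cost A Q D1) (kill_cost D2 (kill D1 (raise A Q)))))
  intro p hp
  simp only [mem_filter, mem_univ, true_and, mem_union] at hp ⊢
  by_contra hcon
  push Not at hcon
  exact hp (hcon.1.trans hcon.2)

/-- Zeros of `A2` are zeros of `A1` in rows outside `D2`. -/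
lemma a2_zero (A : Fin n → Fin n → Bool) (Q D1 D2 : Finset (Fin n)) {r c : Fin n}
    (h : kill D2 (kill D1 (raise A Q)) r c = false) :
    kill D1 (raise A Q) r c = false ∧ r ∉ D2 := by
  obtain ⟨hr, h'⟩ := (kill_eq_false_iff D2 _ r c).1 h
  exact ⟨h', hr⟩

/-- A row of `A2` that has a zero coincides with the row of `A1`. -/
lemma a2_row (A : Fin n → Fin n → Bool) (Q D1 D2 : Finset (Fin n)) {r c : Fin n}
    (h : kill D2 (kill D1 (raise A Q)) r c = false) (c' : Fin n) :
    kill D2 (kill D1 (raise A Q)) r c' = kill D1 (raise A Q) r c' :=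
  kill_of_not_mem D2 _ (a2_zero A Q D1 D2 h).2 c'

/-- Every zero of `A2` has a zero of the same row in a column of `Q` at or after it. -/
lemma a2_tail (A : Fin n → Fin n → Bool) (Q D1 D2 : Finset (Fin n)) :
    ∀ r z, kill D2 (kill D1 (raise A Q)) r z = false →
      ∃ g ∈ Q, z ≤ g ∧ kill D2 (kill D1 (raise A Q)) r g = false :=
  kill_tail D2 (a1_tail A Q D1)

/-- A row of `A2` that has a zero agrees with `A` on the columns of `Q`. -/
lemma a2_Q (A : Fin n → Fin n → Bool) (Q D1 D2 : Finset (Fin n)) {r c : Fin n}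
    (h : kill D2 (kill D1 (raise A Q)) r c = false) {g : Fin n} (hg : g ∈ Q) :
    kill D2 (kill D1 (raise A Q)) r g = A r g := by
  rw [a2_row A Q D1 D2 h g, a1_Q A Q D1 (a2_zero A Q D1 D2 h).1 hg]

/-- **Steps 1 and 2.**  There are sets `D1`, `D2` of rows such that, with
`A1 = kill D1 (raise A Q)` and `A2 = kill D2 A1`:
`|D1|^2 ≤ 2 |Q|^2 * #(copies of E in A with both columns in Q)`, `2 |D2| ≤ s |Q|^2`,
`A1` and `A2` have no copy of `E` inside the columns of `Q`, and every link of `A2`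
(two columns `x < y` of `Q` that are both zero in some row `r' ≥ r` of `A2`) has at least
`s` rows after `r` in which `x` and `y` are both zero in `A1`. -/
theorem steps12 (A : Fin n → Fin n → Bool) (Q : Finset (Fin n)) (s : ℕ) :
    ∃ D1 D2 : Finset (Fin n),
      D1.card ^ 2 ≤ 2 * Q.card ^ 2 *
        ((eCop A).filter fun t => t.2.2.1 ∈ Q ∧ t.2.2.2 ∈ Q).card ∧
      2 * D2.card ≤ s * Q.card ^ 2 ∧
      QExact (kill D1 (raise A Q)) Q ∧
      QExact (kill D2 (kill D1 (raise A Q))) Q ∧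
      ∀ r x y : Fin n, ELink (kill D2 (kill D1 (raise A Q))) Q r x y →
        s ≤ (univ.filter fun r2 : Fin n =>
          r < r2 ∧ kill D1 (raise A Q) r2 x = false ∧ kill D1 (raise A Q) r2 y = false).card := by
  classical
  obtain ⟨D1, hD1c, hD1⟩ := exists_D1 (raise A Q) Q
  obtain ⟨D2, hD2c, hD2⟩ := exists_D2 (kill D1 (raise A Q)) Q s
  have hex1 : QExact (kill D1 (raise A Q)) Q := by
    intro r r' x y hr hxy hx hy h1 h2 h3 h4
    exact hD1 r r' x y hr hxy hx hy ⟨h1, h2, h3, h4⟩
  refine ⟨D1, D2, ?_, hD2c, hex1, kill_qexact D2 hex1, ?_⟩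
  · refine le_trans hD1c (Nat.mul_le_mul_left _ (card_le_card ?_))
    intro t ht
    simp only [eCop, mem_filter, mem_univ, true_and] at ht ⊢
    obtain ⟨h1, h2, h3, h4, h5, h6, h7, h8⟩ := ht
    exact ⟨⟨h1, h2, raise_copy A Q _ _ _ _ h2 ⟨h3, h4, h5, h6⟩⟩, h7, h8⟩
  · rintro r x y ⟨hxy, hx, hy, r', hrr', h1, h2⟩
    refine le_trans (hD2 r' x y hx hy hxy h1 h2) (card_le_card ?_)
    intro r2 hr2
    simp only [mem_filter, mem_univ, true_and] at hr2 ⊢
    exact ⟨lt_of_le_of_lt hrr' hr2.1, hr2.2⟩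

end Vale.Agent.Lib.P037.ESteps
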