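import Mathlib
import Vale.Agent.Lib.P037.ESteps

/-!
Small-`n` case for the pattern `E = 1 0 / 0 0`: making all-ones the second row of every copy
gives an `E`-free matrix at distance at most `n` times the number of copies.
-/

namespace Vale.Agent.Lib.P037.ESteps

open Finset
open Vale.Agent.Lib.P037 (eCop)

variable {n : ℕ}

/-- There is an `E`-free matrix `B` differing from `A` in at most `n` times the number of
copies many entries. -/
theorem small_case (A : Fin n → Fin n → Bool) :
    ∃ B : Fin n → Fin n → Bool,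
      (∀ r1 r2 c1 c2 : Fin n, r1 < r2 → c1 < c2 →
        ¬ (B r1 c1 = true ∧ B r1 c2 = false ∧ B r2 c1 = false ∧ B r2 c2 = false)) ∧
      (univ.filter fun p : Fin n × Fin n => A p.1 p.2 ≠ B p.1 p.2).card ≤ (eCop A).card * n := by
  classical
  refine ⟨kill ((eCop A).image fun t => t.2.1) A, ?_, ?_⟩
  · intro r1 r2 c1 c2 hr hc hcopy
    obtain ⟨hA, _, hr2⟩ := kill_copy _ A r1 r2 c1 c2 hcopy
    apply hr2
    rw [mem_image]
    refine ⟨(r1, r2, c1, c2), ?_, rfl⟩
    simp only [eCop, mem_filter, mem_univ, true_and]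
    exact ⟨hr, hc, hA⟩
  · exact le_trans (kill_cost _ A) (Nat.mul_le_mul_right _ card_image_le)

end Vale.Agent.Lib.P037.ESteps
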