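import Mathlib
import Vale.Agent.Lib.P037.EPatBound
import Vale.Agent.Lib.P037.ESmall
import Vale.Agent.Lib.P037.AllTwoByTwo

namespace Vale.Agent.Lib.P037

open Finset

/-- Natural-number form of the removal bound for the pattern `1 0 / 0 0`: if every
pattern-free matrix `B` satisfies `n ^ 2 ≤ p * dist(A, B)` then
the fourth power of `n` is at most `2 ^ 72 * p ^ 16` times the number of copies. -/
theorem e_removal_nat8 {n : ℕ} (p : ℕ) (hp : 1 ≤ p) (A : Fin n → Fin n → Bool)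
    (hfar : ∀ B : Fin n → Fin n → Bool,
      (∀ r1 r2 c1 c2 : Fin n, r1 < r2 → c1 < c2 →
        ¬ (B r1 c1 = true ∧ B r1 c2 = false ∧ B r2 c1 = false ∧ B r2 c2 = false)) →
      n ^ 2 ≤ p * (univ.filter fun t : Fin n × Fin n => A t.1 t.2 ≠ B t.1 t.2).card) :
    n ^ 4 ≤ (2 ^ 36 * p ^ 8) ^ 2 * (eCop A).card := by
  by_contra hcon
  have hcon' : (2 ^ 36 * p ^ 8) ^ 2 * (eCop A).card < n ^ 4 := not_le.mp hcon
  generalize hN : (eCop A).card = N at hcon'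
  have hn : 0 < n := by
    rcases Nat.eq_zero_or_pos n with h | h
    · subst h
      simp at hcon'
    · exact h
  have hp5 : p ≤ p ^ 5 := by
    calc p = p ^ 1 := (pow_one p).symm
      _ ≤ p ^ 5 := Nat.pow_le_pow_right hp (by norm_num)
  have hp2 : p ≤ p ^ 2 := by
    calc p = p ^ 1 := (pow_one p).symm
      _ ≤ p ^ 2 := Nat.pow_le_pow_right hp (by norm_num)
  have hp4 : p ≤ p ^ 4 := by
    calc p = p ^ 1 := (pow_one p).symm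
      _ ≤ p ^ 4 := Nat.pow_le_pow_right hp (by norm_num)
  have hp6 : p ≤ p ^ 6 := by
    calc p = p ^ 1 := (pow_one p).symm
      _ ≤ p ^ 6 := Nat.pow_le_pow_right hp (by norm_num)
  -- the small case gives n ≤ p * N
  obtain ⟨B0, hB0, hd0⟩ := ESteps.small_case A
  rw [hN] at hd0
  have h0 := hfar B0 hB0
  have hnpN : n ≤ p * N := by
    have h1 : n ^ 2 ≤ p * (N * n) := le_trans h0 (Nat.mul_le_mul_left _ hd0)
    have h2 : n * n ≤ (p * N) * n := by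
      calc n * n = n ^ 2 := by ring
        _ ≤ p * (N * n) := h1
        _ = (p * N) * n := by ring
    exact Nat.le_of_mul_le_mul_right h2 hn
  -- hence n is large
  have hw : (2 ^ 36 * p ^ 8) ^ 2 < p * n ^ 3 := by
    have h1 : n * (2 ^ 36 * p ^ 8) ^ 2 ≤ p * N * (2 ^ 36 * p ^ 8) ^ 2 :=
      Nat.mul_le_mul_right _ hnpN
    have h2 : p * N * (2 ^ 36 * p ^ 8) ^ 2 < p * n ^ 4 := by
      calc p * N * (2 ^ 36 * p ^ 8) ^ 2 = p * ((2 ^ 36 * p ^ 8) ^ 2 * N) := by ring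
        _ < p * n ^ 4 := Nat.mul_lt_mul_of_pos_left hcon' hp
    have h3 : n * (2 ^ 36 * p ^ 8) ^ 2 < n * (p * n ^ 3) := by
      calc n * (2 ^ 36 * p ^ 8) ^ 2 < p * n ^ 4 := lt_of_le_of_lt h1 h2
        _ = n * (p * n ^ 3) := by ring
    exact Nat.lt_of_mul_lt_mul_left h3
  have hbig : 2 ^ 24 * p ^ 5 < n := by
    by_contra h
    have h' : n ≤ 2 ^ 24 * p ^ 5 := not_lt.mp h
    have h1 : p * n ^ 3 ≤ p * (2 ^ 24 * p ^ 5) ^ 3 :=
      Nat.mul_le_mul_left _ (Nat.pow_le_pow_left h' 3)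
    have h2 : p * (2 ^ 24 * p ^ 5) ^ 3 = (2 ^ 36 * p ^ 8) ^ 2 := by ring
    omega
  -- parameters
  have hL : 1 ≤ n / (8 * p) := by
    apply (Nat.one_le_div_iff (by omega)).2
    have : 8 * p ≤ 2 ^ 24 * p ^ 5 := by
      calc 8 * p ≤ 2 ^ 24 * p := Nat.mul_le_mul_right _ (by norm_num)
        _ ≤ 2 ^ 24 * p ^ 5 := Nat.mul_le_mul_left _ hp5
    omega
  have hs : 1 ≤ n / (2 ^ 21 * p ^ 5) := by
    apply (Nat.one_le_div_iff (by positivity)).2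
    have : 2 ^ 21 * p ^ 5 ≤ 2 ^ 24 * p ^ 5 := Nat.mul_le_mul_right _ (by norm_num)
    omega
  have hL1 : 8 * p * (n / (8 * p)) ≤ n := Nat.mul_div_le n (8 * p)
  have hL2 : n < 16 * p * (n / (8 * p)) := by
    have h1 : n < 8 * p * (n / (8 * p) + 1) := Nat.lt_mul_div_succ n (by omega)
    have h2 : 8 * p * (n / (8 * p) + 1) ≤ 16 * p * (n / (8 * p)) := by
      have : 8 * p * (n / (8 * p) + 1) = 8 * p * (n / (8 * p)) + 8 * p := by ring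
      have h3 : 8 * p ≤ 8 * p * (n / (8 * p)) := Nat.le_mul_of_pos_right _ hL
      have h4 : 16 * p * (n / (8 * p)) = 8 * p * (n / (8 * p)) + 8 * p * (n / (8 * p)) := by
        ring
      omega
    omega
  have hs1 : 2 ^ 21 * p ^ 5 * (n / (2 ^ 21 * p ^ 5)) ≤ n := Nat.mul_div_le n _
  have hs2 : n < 2 ^ 22 * p ^ 5 * (n / (2 ^ 21 * p ^ 5)) := by
    have h1 : n < 2 ^ 21 * p ^ 5 * (n / (2 ^ 21 * p ^ 5) + 1) :=
      Nat.lt_mul_div_succ n (by positivity)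
    have h3 : 2 ^ 21 * p ^ 5 ≤ 2 ^ 21 * p ^ 5 * (n / (2 ^ 21 * p ^ 5)) :=
      Nat.le_mul_of_pos_right _ hs
    have h4 : 2 ^ 22 * p ^ 5 * (n / (2 ^ 21 * p ^ 5))
        = 2 ^ 21 * p ^ 5 * (n / (2 ^ 21 * p ^ 5)) + 2 ^ 21 * p ^ 5 * (n / (2 ^ 21 * p ^ 5)) := by
      ring
    have h5 : 2 ^ 21 * p ^ 5 * (n / (2 ^ 21 * p ^ 5) + 1)
        = 2 ^ 21 * p ^ 5 * (n / (2 ^ 21 * p ^ 5)) + 2 ^ 21 * p ^ 5 := by ring
    omega
  generalize hLdef : n / (8 * p) = L at hL hL1 hL2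
  generalize hsdef : n / (2 ^ 21 * p ^ 5) = s at hs hs1 hs2
  obtain ⟨B, hB, TR, d1, SV, U, nb, h1, h2, h3, h4, h5, h6⟩ :=
    EPat.core_bound A (512 * p ^ 2) s L hL
  rw [hN] at h2 h3
  have hf := hfar B hB
  generalize hD : (univ.filter fun t : Fin n × Fin n => A t.1 t.2 ≠ B t.1 t.2).card = D
    at hf h6
  -- (a)
  have ha : 128 * (p * TR) ≤ n ^ 2 := by
    have e1 : 128 * (p * TR) ≤ 128 * (p ^ 2 * TR) :=
      Nat.mul_le_mul_left _ (Nat.mul_le_mul_right _ hp2)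
    have e2 : 4 * (128 * (p ^ 2 * TR)) = 512 * p ^ 2 * TR := by ring
    omega
  -- (b)
  have hb0 : d1 * (2 ^ 36 * p ^ 8) < 2 ^ 20 * p ^ 4 * n := by
    have e1 : n ^ 2 * (d1 * (2 ^ 36 * p ^ 8)) ^ 2 < n ^ 2 * (2 ^ 20 * p ^ 4 * n) ^ 2 := by
      calc n ^ 2 * (d1 * (2 ^ 36 * p ^ 8)) ^ 2
          = (n ^ 2 * d1 ^ 2) * (2 ^ 36 * p ^ 8) ^ 2 := by ring
        _ ≤ (16 * (512 * p ^ 2) ^ 4 * N) * (2 ^ 36 * p ^ 8) ^ 2 := Nat.mul_le_mul_right _ h2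
        _ = 16 * (512 * p ^ 2) ^ 4 * ((2 ^ 36 * p ^ 8) ^ 2 * N) := by ring
        _ < 16 * (512 * p ^ 2) ^ 4 * n ^ 4 :=
            Nat.mul_lt_mul_of_pos_left hcon' (by positivity)
        _ = n ^ 2 * (2 ^ 20 * p ^ 4 * n) ^ 2 := by ring
    have e2 : (d1 * (2 ^ 36 * p ^ 8)) ^ 2 < (2 ^ 20 * p ^ 4 * n) ^ 2 :=
      Nat.lt_of_mul_lt_mul_left e1
    exact lt_of_pow_lt_pow_left₀ 2 (Nat.zero_le _) e2
  have hb1 : 2 ^ 16 * p ^ 4 * d1 < n := by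
    have e1 : 2 ^ 20 * p ^ 4 * (2 ^ 16 * p ^ 4 * d1) < 2 ^ 20 * p ^ 4 * n := by
      calc 2 ^ 20 * p ^ 4 * (2 ^ 16 * p ^ 4 * d1) = d1 * (2 ^ 36 * p ^ 8) := by ring
        _ < 2 ^ 20 * p ^ 4 * n := hb0
    exact Nat.lt_of_mul_lt_mul_left e1
  have hb : 2 ^ 16 * (p * (n * d1)) ≤ n ^ 2 := by
    have e1 : 2 ^ 16 * p * d1 ≤ 2 ^ 16 * p ^ 4 * d1 :=
      Nat.mul_le_mul_right _ (Nat.mul_le_mul_left _ hp4)
    have e2 : 2 ^ 16 * p * d1 ≤ n := by omega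
    calc 2 ^ 16 * (p * (n * d1)) = n * (2 ^ 16 * p * d1) := by ring
      _ ≤ n * n := Nat.mul_le_mul_left _ e2
      _ = n ^ 2 := by ring
  -- (c)
  have hc0 : SV * (2 ^ 36 * p ^ 8) < 2 ^ 11 * p ^ 2 * n ^ 2 := by
    have e1 : (SV * (2 ^ 36 * p ^ 8)) ^ 2 < (2 ^ 11 * p ^ 2 * n ^ 2) ^ 2 := by
      calc (SV * (2 ^ 36 * p ^ 8)) ^ 2 = SV ^ 2 * (2 ^ 36 * p ^ 8) ^ 2 := by ring
        _ ≤ (16 * (512 * p ^ 2) ^ 2 * N) * (2 ^ 36 * p ^ 8) ^ 2 := Nat.mul_le_mul_right _ h3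
        _ = 16 * (512 * p ^ 2) ^ 2 * ((2 ^ 36 * p ^ 8) ^ 2 * N) := by ring
        _ < 16 * (512 * p ^ 2) ^ 2 * n ^ 4 :=
            Nat.mul_lt_mul_of_pos_left hcon' (by positivity)
        _ = (2 ^ 11 * p ^ 2 * n ^ 2) ^ 2 := by ring
    exact lt_of_pow_lt_pow_left₀ 2 (Nat.zero_le _) e1
  have hc1 : SV * (2 ^ 25 * p ^ 6) < n ^ 2 := by
    have e1 : 2 ^ 11 * p ^ 2 * (SV * (2 ^ 25 * p ^ 6)) < 2 ^ 11 * p ^ 2 * n ^ 2 := by
      calc 2 ^ 11 * p ^ 2 * (SV * (2 ^ 25 * p ^ 6)) = SV * (2 ^ 36 * p ^ 8) := by ring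
        _ < 2 ^ 11 * p ^ 2 * n ^ 2 := hc0
    exact Nat.lt_of_mul_lt_mul_left e1
  have hc : 2 ^ 24 * (p * (2 * SV)) ≤ n ^ 2 := by
    have e1 : SV * (2 ^ 25 * p) ≤ SV * (2 ^ 25 * p ^ 6) :=
      Nat.mul_le_mul_left _ (Nat.mul_le_mul_left _ hp6)
    have e2 : 2 ^ 24 * (p * (2 * SV)) = SV * (2 ^ 25 * p) := by ring
    omega
  -- (d)
  have hd : 8 * (p * (n * ((512 * p ^ 2) ^ 2 * s))) ≤ n ^ 2 := by
    calc 8 * (p * (n * ((512 * p ^ 2) ^ 2 * s))) = n * (2 ^ 21 * p ^ 5 * s) := by ring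
      _ ≤ n * n := Nat.mul_le_mul_left _ hs1
      _ = n ^ 2 := by ring
  -- (e)
  have he : 8 * (p * (n * L)) ≤ n ^ 2 := by
    calc 8 * (p * (n * L)) = n * (8 * p * L) := by ring
      _ ≤ n * n := Nat.mul_le_mul_left _ hL1
      _ = n ^ 2 := by ring
  -- (f)
  have hf6 : 8 * (p * U) ≤ n ^ 2 := by
    have e1 : n * (512 * p ^ 2 * U) ≤ 16 * p * L * (512 * p ^ 2 * U) :=
      Nat.mul_le_mul_right _ (le_of_lt hL2)
    have e2 : 16 * p * L * (512 * p ^ 2 * U) = 16 * p * (512 * p ^ 2 * (L * U)) := by ring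
    have e3 : 16 * p * (512 * p ^ 2 * (L * U)) ≤ 16 * p * (4 * n ^ 3) :=
      Nat.mul_le_mul_left _ h4
    have e4 : n * (512 * p ^ 2 * U) ≤ n * (64 * p * n ^ 2) := by
      calc n * (512 * p ^ 2 * U) ≤ 16 * p * (4 * n ^ 3) := by omega
        _ = n * (64 * p * n ^ 2) := by ring
    have e5 : 512 * p ^ 2 * U ≤ 64 * p * n ^ 2 := Nat.le_of_mul_le_mul_left e4 hn
    have e6 : 64 * p * (8 * (p * U)) ≤ 64 * p * n ^ 2 := by
      calc 64 * p * (8 * (p * U)) = 512 * p ^ 2 * U := by ring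
        _ ≤ 64 * p * n ^ 2 := e5
    exact Nat.le_of_mul_le_mul_left e6 (by omega)
  -- (g)
  have hg0 : 8 * p * nb < n := by
    have e1 : nb * n ≤ nb * (2 ^ 22 * p ^ 5 * s) := Nat.mul_le_mul_left _ (le_of_lt hs2)
    have e2 : nb * (2 ^ 22 * p ^ 5 * s) = 2 ^ 22 * p ^ 5 * (nb * s) := by ring
    have e3 : 2 ^ 22 * p ^ 5 * (nb * s) ≤ 2 ^ 22 * p ^ 5 * SV := Nat.mul_le_mul_left _ h5
    have e4 : nb * n * (2 ^ 25 * p ^ 6) < 2 ^ 22 * p ^ 5 * n ^ 2 := by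
      calc nb * n * (2 ^ 25 * p ^ 6) ≤ 2 ^ 22 * p ^ 5 * SV * (2 ^ 25 * p ^ 6) :=
            Nat.mul_le_mul_right _ (by omega)
        _ = 2 ^ 22 * p ^ 5 * (SV * (2 ^ 25 * p ^ 6)) := by ring
        _ < 2 ^ 22 * p ^ 5 * n ^ 2 := Nat.mul_lt_mul_of_pos_left hc1 (by positivity)
    have e5 : (2 ^ 22 * p ^ 5 * n) * (8 * p * nb) < (2 ^ 22 * p ^ 5 * n) * n := by
      calc (2 ^ 22 * p ^ 5 * n) * (8 * p * nb) = nb * n * (2 ^ 25 * p ^ 6) := by ring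
        _ < 2 ^ 22 * p ^ 5 * n ^ 2 := e4
        _ = (2 ^ 22 * p ^ 5 * n) * n := by ring
    exact Nat.lt_of_mul_lt_mul_left e5
  have hg : 8 * (p * (n * nb)) ≤ n ^ 2 := by
    calc 8 * (p * (n * nb)) = n * (8 * p * nb) := by ring
      _ ≤ n * n := Nat.mul_le_mul_left _ (le_of_lt hg0)
      _ = n ^ 2 := by ring
  -- total
  have htot : p * D ≤ p * TR + p * (n * d1) + p * (n * ((512 * p ^ 2) ^ 2 * s)) + p * (n * L)
      + p * (2 * SV) + p * U + p * (n * nb) := by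
    calc p * D ≤ p * (TR + n * d1 + n * ((512 * p ^ 2) ^ 2 * s) + n * L + 2 * SV + U + n * nb) :=
          Nat.mul_le_mul_left _ h6
      _ = _ := by ring
  have hn2 : 0 < n ^ 2 := by positivity
  generalize p * TR = t1 at ha htot
  generalize p * (n * d1) = t2 at hb htot
  generalize p * (n * ((512 * p ^ 2) ^ 2 * s)) = t3 at hd htot
  generalize p * (n * L) = t4 at he htot
  generalize p * (2 * SV) = t5 at hc htot
  generalize p * U = t6 at hf6 htot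
  generalize p * (n * nb) = t7 at hg htot
  generalize n ^ 2 = M at ha hb hc hd he hf6 hg hf hn2
  norm_num at ha hb hc hd he hf6 hg
  omega

/-- **Polynomial removal lemma for the pattern `1 0 / 0 0`** in the `RemovalAt` shape:
exponent `16`, constant `2 ^ 88`. -/
theorem e_removal8 : RemovalAt 16 (2 ^ 88) true false false false := by
  intro n ε hε hε1 A hfar
  have hinv : (1 : ℝ) ≤ 1 / ε := by
    rw [le_div_iff₀ hε]
    linarith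
  set p : ℕ := ⌈1 / ε⌉₊ with hpdef
  have hp1 : (1 : ℝ) / ε ≤ (p : ℝ) := Nat.le_ceil _
  have hp : 1 ≤ p := by
    have : (1 : ℝ) ≤ (p : ℝ) := le_trans hinv hp1
    exact_mod_cast this
  have hp2 : (p : ℝ) < 1 / ε + 1 := Nat.ceil_lt_add_one (by positivity)
  have hεp1 : 1 ≤ ε * (p : ℝ) := by
    have := mul_le_mul_of_nonneg_left hp1 hε.le
    rwa [mul_one_div_cancel hε.ne'] at this
  have hεp2 : ε * (p : ℝ) ≤ 2 := by
    have h1 : ε * (p : ℝ) < ε * (1 / ε + 1) := mul_lt_mul_of_pos_left hp2 hε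
    have h2 : ε * (1 / ε + 1) = 1 + ε := by
      field_simp
    linarith
  have hfarN : ∀ B : Fin n → Fin n → Bool,
      (∀ r1 r2 c1 c2 : Fin n, r1 < r2 → c1 < c2 →
        ¬ (B r1 c1 = true ∧ B r1 c2 = false ∧ B r2 c1 = false ∧ B r2 c2 = false)) →
      n ^ 2 ≤ p * (univ.filter fun t : Fin n × Fin n => A t.1 t.2 ≠ B t.1 t.2).card := by
    intro B hB
    have h1 := hfar B hB
    have h2 : (n : ℝ) ^ 2 ≤ (p : ℝ) *
        ((univ.filter fun t : Fin n × Fin n => A t.1 t.2 ≠ B t.1 t.2).card : ℝ) := by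
      have h3 : (n : ℝ) ^ 2 ≤ (ε * (p : ℝ)) * (n : ℝ) ^ 2 := by
        have : (0 : ℝ) ≤ (n : ℝ) ^ 2 := by positivity
        nlinarith
      have h4 : (ε * (p : ℝ)) * (n : ℝ) ^ 2 = (p : ℝ) * (ε * (n : ℝ) ^ 2) := by ring
      have h5 : (p : ℝ) * (ε * (n : ℝ) ^ 2) ≤ (p : ℝ) *
          ((univ.filter fun t : Fin n × Fin n => A t.1 t.2 ≠ B t.1 t.2).card : ℝ) :=
        mul_le_mul_of_nonneg_left h1 (Nat.cast_nonneg _)
      linarith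
    exact_mod_cast h2
  have key := e_removal_nat8 p hp A hfarN
  have keyR : (n : ℝ) ^ 4 ≤ (2 ^ 36 * (p : ℝ) ^ 8) ^ 2 * ((eCop A).card : ℝ) := by
    exact_mod_cast key
  have hcard : ((Finset.univ.filter fun t : Fin n × Fin n × Fin n × Fin n =>
        t.1 < t.2.1 ∧ t.2.2.1 < t.2.2.2 ∧ A t.1 t.2.2.1 = true ∧ A t.1 t.2.2.2 = false ∧
          A t.2.1 t.2.2.1 = false ∧ A t.2.1 t.2.2.2 = false).card : ℝ)
      = ((eCop A).card : ℝ) := rfl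
  rw [hcard]
  have hN0 : (0 : ℝ) ≤ ((eCop A).card : ℝ) := Nat.cast_nonneg _
  have hε16 : (0 : ℝ) ≤ ε ^ 16 := by positivity
  have hpow : (ε * (p : ℝ)) ^ 16 ≤ 2 ^ 16 :=
    pow_le_pow_left₀ (by positivity) hεp2 16
  calc ε ^ 16 * (n : ℝ) ^ 4 ≤ ε ^ 16 * ((2 ^ 36 * (p : ℝ) ^ 8) ^ 2 * ((eCop A).card : ℝ)) :=
        mul_le_mul_of_nonneg_left keyR hε16
    _ = 2 ^ 72 * (ε * (p : ℝ)) ^ 16 * ((eCop A).card : ℝ) := by ring
    _ ≤ 2 ^ 72 * 2 ^ 16 * ((eCop A).card : ℝ) := by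
        apply mul_le_mul_of_nonneg_right _ hN0
        exact mul_le_mul_of_nonneg_left hpow (by positivity)
    _ = 2 ^ 88 * ((eCop A).card : ℝ) := by norm_num

end Vale.Agent.Lib.P037
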