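import Mathlib
import Vale.Agent.Lib.P037.EAvg
import Vale.Agent.Results.P037.FewRowTypes

/-!
# P037, pattern E = [[1,0],[0,0]]: the hitting sets `V_a`

For every column `a` there is a set `V a` of rows that meets every copy of E on a column
pair `(a, g)` with `g ∈ Q`, `a < g`, of size at most `2 * sqrt (|Q| * c_a)`, where `c_a` is
the number of copies with left column `a` and right column in `Q`.  Summed over `a`
(Cauchy-Schwarz) this gives `(∑ a, |V a|)^2 ≤ 4 n |Q| C`, `C` = number of copies whose right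
column is in `Q`.  Zero entries are `false`; `eCop` is the copy set of `EAvg.lean`.
-/

namespace Vale.Agent.Lib.P037

open Finset

/-- The row pairs forming a copy of E on the column pair `(a, g)` are counted by `eCop`. -/
theorem ehit_card_pair {n : ℕ} (A : Fin n → Fin n → Bool) (a g : Fin n) (hag : a < g) :
    (((univ.filter fun r : Fin n => A r a = true ∧ A r g = false) ×ˢ
      (univ.filter fun r : Fin n => A r a = false ∧ A r g = false)).filter
        fun p => p.1 < p.2).card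
    = ((eCop A).filter fun t => t.2.2.1 = a ∧ t.2.2.2 = g).card := by
  apply Finset.card_bij (fun p _ => (p.1, p.2, a, g))
  · intro p hp
    simp only [mem_filter, mem_product, mem_univ, true_and] at hp
    rw [mem_filter]
    refine ⟨?_, rfl, rfl⟩
    rw [eCop, mem_filter]
    exact ⟨mem_univ _, hp.2, hag, hp.1.1.1, hp.1.1.2, hp.1.2.1, hp.1.2.2⟩
  · intro p _ p' _ h
    simp only [Prod.mk.injEq] at h
    exact Prod.ext h.1 h.2.1
  · rintro ⟨r1, r2, a', g'⟩ ht
    simp only [mem_filter, mem_univ, true_and, eCop] at ht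
    obtain ⟨⟨h1, h2, h3, h4, h5, h6⟩, rfl, rfl⟩ := ht
    refine ⟨(r1, r2), ?_, rfl⟩
    simp only [mem_filter, mem_product, mem_univ, true_and]
    exact ⟨⟨⟨h3, h4⟩, h5, h6⟩, h1⟩

/-- Copies with left column `a` and right column in `Q`, split by the right column. -/
theorem ehit_sum_right {n : ℕ} (A : Fin n → Fin n → Bool) (Q : Finset (Fin n)) (a : Fin n) :
    ∑ g ∈ Q.filter (fun g => a < g), ((eCop A).filter fun t => t.2.2.1 = a ∧ t.2.2.2 = g).card
      ≤ ((eCop A).filter fun t => t.2.2.1 = a ∧ t.2.2.2 ∈ Q).card := by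
  rw [← Finset.card_biUnion]
  · apply Finset.card_le_card
    intro t ht
    simp only [mem_biUnion, mem_filter] at ht ⊢
    obtain ⟨g, ⟨hgQ, _⟩, ht1, ht2, ht3⟩ := ht
    exact ⟨ht1, ht2, ht3 ▸ hgQ⟩
  · intro g _ g' _ hgg
    change Disjoint _ _
    rw [Finset.disjoint_left]
    intro t ht ht'
    simp only [mem_filter] at ht ht'
    exact hgg (ht.2.2.symm.trans ht'.2.2)

/-- Copies with right column in `Q`, split by the left column. -/
theorem ehit_sum_left {n : ℕ} (A : Fin n → Fin n → Bool) (Q : Finset (Fin n)) :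
    ∑ a : Fin n, ((eCop A).filter fun t => t.2.2.1 = a ∧ t.2.2.2 ∈ Q).card
      = ((eCop A).filter fun t => t.2.2.2 ∈ Q).card := by
  rw [Finset.card_eq_sum_card_fiberwise (f := fun t : Fin n × Fin n × Fin n × Fin n => t.2.2.1)
    (t := univ) (fun _ _ => Finset.mem_coe.2 (mem_univ _))]
  refine Finset.sum_congr rfl ?_
  intro a _
  congr 1
  ext t
  simp only [mem_filter]
  tauto

/-- **Hitting set of one column.**  There is a set `V` of rows meeting every copy of E on a
column pair `(a, g)`, `g ∈ Q`, `a < g`, with `|V|^2 ≤ 4 |Q| c_a`. -/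
theorem exists_hit {n : ℕ} (A : Fin n → Fin n → Bool) (Q : Finset (Fin n)) (a : Fin n) :
    ∃ V : Finset (Fin n),
      (∀ r1 r2 g : Fin n, r1 < r2 → a < g → g ∈ Q → A r1 a = true → A r1 g = false →
        A r2 a = false → A r2 g = false → r1 ∈ V ∨ r2 ∈ V) ∧
      V.card ^ 2 ≤ 4 * Q.card * ((eCop A).filter fun t => t.2.2.1 = a ∧ t.2.2.2 ∈ Q).card := by
  classical
  have hk := fun g : Fin n => Vale.Agent.Results.P037.FewRowTypes.kill_pairs
    (univ.filter fun r : Fin n => A r a = true ∧ A r g = false)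
    (univ.filter fun r : Fin n => A r a = false ∧ A r g = false)
  choose Z hZ1 hZ2 using hk
  set S := Q.filter (fun g => a < g) with hS
  refine ⟨S.biUnion Z, ?_, ?_⟩
  · intro r1 r2 g hr hag hgQ h1 h2 h3 h4
    have hgS : g ∈ S := by rw [hS]; exact mem_filter.2 ⟨hgQ, hag⟩
    rcases hZ2 g r1 (by simp [h1, h2]) r2 (by simp [h3, h4]) hr with h | h
    · exact Or.inl (mem_biUnion.2 ⟨g, hgS, h⟩)
    · exact Or.inr (mem_biUnion.2 ⟨g, hgS, h⟩)
  · set c : Fin n → ℕ := fun g => ((eCop A).filter fun t => t.2.2.1 = a ∧ t.2.2.2 = g).card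
      with hc
    have h1 : (S.biUnion Z).card ≤ ∑ g ∈ S, 2 * Nat.sqrt (c g) := by
      refine le_trans Finset.card_biUnion_le (Finset.sum_le_sum ?_)
      intro g hg
      have hag : a < g := (mem_filter.1 hg).2
      have := hZ1 g
      rw [ehit_card_pair A a g hag] at this
      exact this
    have h2 : (∑ g ∈ S, 2 * Nat.sqrt (c g)) ^ 2 ≤ S.card * ∑ g ∈ S, (2 * Nat.sqrt (c g)) ^ 2 :=
      sq_sum_le_card_mul_sum_sq
    have h3 : ∑ g ∈ S, (2 * Nat.sqrt (c g)) ^ 2 ≤ ∑ g ∈ S, 4 * c g := by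
      refine Finset.sum_le_sum ?_
      intro g _
      have := Nat.sqrt_le' (c g)
      nlinarith
    have h4 : ∑ g ∈ S, c g ≤ ((eCop A).filter fun t => t.2.2.1 = a ∧ t.2.2.2 ∈ Q).card :=
      ehit_sum_right A Q a
    have h5 : S.card ≤ Q.card := Finset.card_le_card (Finset.filter_subset _ _)
    have h6 : (S.biUnion Z).card ^ 2 ≤ (∑ g ∈ S, 2 * Nat.sqrt (c g)) ^ 2 :=
      Nat.pow_le_pow_left h1 2
    rw [← Finset.mul_sum] at h3
    calc (S.biUnion Z).card ^ 2 ≤ S.card * ∑ g ∈ S, (2 * Nat.sqrt (c g)) ^ 2 := le_trans h6 h2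
      _ ≤ Q.card * (4 * ∑ g ∈ S, c g) := Nat.mul_le_mul h5 h3
      _ ≤ Q.card * (4 * ((eCop A).filter fun t => t.2.2.1 = a ∧ t.2.2.2 ∈ Q).card) :=
          Nat.mul_le_mul_left _ (Nat.mul_le_mul_left _ h4)
      _ = 4 * Q.card * ((eCop A).filter fun t => t.2.2.1 = a ∧ t.2.2.2 ∈ Q).card := by ring

/-- **Hitting sets of all columns.**  A family `V a` of row sets, `V a` meeting every copy of
E on a column pair `(a, g)` with `g ∈ Q`, `a < g`, such that `|V a|^2 ≤ 4 |Q| c_a` and
`(∑ a, |V a|)^2 ≤ 4 n |Q| C`, where `C` is the number of copies with right column in `Q`. -/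
theorem exists_hit_family {n : ℕ} (A : Fin n → Fin n → Bool) (Q : Finset (Fin n)) :
    ∃ V : Fin n → Finset (Fin n),
      (∀ a r1 r2 g : Fin n, r1 < r2 → a < g → g ∈ Q → A r1 a = true → A r1 g = false →
        A r2 a = false → A r2 g = false → r1 ∈ V a ∨ r2 ∈ V a) ∧
      (∀ a, (V a).card ^ 2 ≤
        4 * Q.card * ((eCop A).filter fun t => t.2.2.1 = a ∧ t.2.2.2 ∈ Q).card) ∧
      (∑ a, (V a).card) ^ 2 ≤
        4 * n * Q.card * ((eCop A).filter fun t => t.2.2.2 ∈ Q).card := by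
  choose V hV1 hV2 using fun a : Fin n => exists_hit A Q a
  refine ⟨V, hV1, hV2, ?_⟩
  have h1 : (∑ a, (V a).card) ^ 2 ≤ (univ : Finset (Fin n)).card * ∑ a, (V a).card ^ 2 :=
    sq_sum_le_card_mul_sum_sq
  have h2 : ∑ a, (V a).card ^ 2 ≤
      ∑ a, 4 * Q.card * ((eCop A).filter fun t => t.2.2.1 = a ∧ t.2.2.2 ∈ Q).card :=
    Finset.sum_le_sum fun a _ => hV2 a
  rw [← Finset.mul_sum, ehit_sum_left] at h2
  rw [Finset.card_univ, Fintype.card_fin] at h1
  calc (∑ a, (V a).card) ^ 2 ≤ n * ∑ a, (V a).card ^ 2 := h1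
    _ ≤ n * (4 * Q.card * ((eCop A).filter fun t => t.2.2.2 ∈ Q).card) :=
        Nat.mul_le_mul_left _ h2
    _ = 4 * n * Q.card * ((eCop A).filter fun t => t.2.2.2 ∈ Q).card := by ring

end Vale.Agent.Lib.P037
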