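import Mathlib

/-!
Selection of the column set `Q` for the `E`-pattern argument (averaging over all
functions `f : Fin q → Fin n`, `Q` being the image of `f`).
-/

namespace Vale.Agent.Lib.P037.EQSel

open Finset

/-- Bernoulli-type step: `n^(q+1) + (q+1) n^q ≤ (n+1)^(q+1)`. -/
lemma pow_step (n q : ℕ) : n ^ (q + 1) + (q + 1) * n ^ q ≤ (n + 1) ^ (q + 1) := by
  induction q with
  | zero => simp
  | succ q ih =>
    have h1 : n ^ (q + 1) ≤ (n + 1) ^ (q + 1) := Nat.pow_le_pow_left (Nat.le_succ n) _
    calc n ^ (q + 1 + 1) + (q + 1 + 1) * n ^ (q + 1)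
        = n * (n ^ (q + 1) + (q + 1) * n ^ q) + n ^ (q + 1) := by ring
      _ ≤ n * (n + 1) ^ (q + 1) + (n + 1) ^ (q + 1) :=
          Nat.add_le_add (Nat.mul_le_mul_left n ih) h1
      _ = (n + 1) ^ (q + 1 + 1) := by ring

/-- `(q+1) * Σ_{j<n} j^q ≤ n^(q+1)`. -/
lemma sum_pow_le (n q : ℕ) : (q + 1) * ∑ j ∈ range n, j ^ q ≤ n ^ (q + 1) := by
  induction n with
  | zero => simp
  | succ n ih =>
    rw [sum_range_succ, mul_add]
    exact le_trans (Nat.add_le_add_right ih _) (pow_step n q)

/-- The number of functions avoiding a set. -/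
lemma card_avoid (n q : ℕ) (S : Finset (Fin n)) :
    (univ.filter fun f : Fin q → Fin n => ∀ i, f i ∉ S).card = (n - S.card) ^ q := by
  have h : (univ.filter fun f : Fin q → Fin n => ∀ i, f i ∉ S)
      = Fintype.piFinset (fun _ : Fin q => Sᶜ) := by
    ext f
    simp [Fintype.mem_piFinset]
  rw [h, Fintype.card_piFinset]
  simp [Finset.card_compl]

/-- Tail sums: for a set `W` of columns, the sum over its elements `z` of
`(n - #{g ∈ W, z ≤ g})^q` is at most `Σ_{j<n} j^q`. -/
lemma tail_sum_le (n q : ℕ) (W : Finset (Fin n)) :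
    ∑ z ∈ W, (n - (W.filter fun g => z ≤ g).card) ^ q ≤ ∑ j ∈ range n, j ^ q := by
  have hinj : Set.InjOn (fun z : Fin n => n - (W.filter fun g => z ≤ g).card) (W : Set (Fin n)) := by
    intro z hz z' hz' hzz
    simp only at hzz
    have hle : ∀ w : Fin n, (W.filter fun g => w ≤ g).card ≤ n := fun w =>
      le_trans (card_le_univ _) (by simp)
    have hmono : ∀ a b : Fin n, a ∈ W → a < b →
        (W.filter fun g => b ≤ g).card < (W.filter fun g => a ≤ g).card := by
      intro a b ha hab
      apply card_lt_card
      refine ⟨fun g hg => ?_, fun hsub => ?_⟩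
      · simp only [mem_filter] at hg ⊢
        exact ⟨hg.1, le_trans hab.le hg.2⟩
      · have : a ∈ W.filter fun g => b ≤ g := hsub (by simp [ha])
        simp only [mem_filter] at this
        exact absurd this.2 (not_le.2 hab)
    rcases lt_trichotomy z z' with h | h | h
    · have := hmono z z' hz h
      have h1 := hle z
      have h2 := hle z'
      omega
    · exact h
    · have := hmono z' z hz' h
      have h1 := hle z
      have h2 := hle z'
      omega
  rw [← sum_image (f := fun j => j ^ q) hinj]
  apply sum_le_sum_of_subset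
  intro j hj
  simp only [mem_image] at hj
  obtain ⟨z, hz, rfl⟩ := hj
  have hpos : 0 < (W.filter fun g => z ≤ g).card :=
    card_pos.2 ⟨z, by simp [hz]⟩
  have hn : 0 < n := Fin.pos z
  simp only [mem_range]
  omega


/-- Tail count for one set `W`: summed over all `f`, the number of elements of `W` with no
element of `W ∩ image f` at or after them is at most `n^(q+1)/(q+1)`. -/
lemma tail_count (n q : ℕ) (W : Finset (Fin n)) :
    (q + 1) * ∑ f : Fin q → Fin n,
      (W.filter fun z => ∀ g ∈ univ.image f, z ≤ g → g ∉ W).card ≤ n ^ (q + 1) := by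
  have h1 : ∑ f : Fin q → Fin n, (W.filter fun z => ∀ g ∈ univ.image f, z ≤ g → g ∉ W).card
      = ∑ z ∈ W, (n - (W.filter fun g => z ≤ g).card) ^ q := by
    calc ∑ f : Fin q → Fin n, (W.filter fun z => ∀ g ∈ univ.image f, z ≤ g → g ∉ W).card
        = ∑ f : Fin q → Fin n, ∑ z ∈ W,
            if (∀ g ∈ univ.image f, z ≤ g → g ∉ W) then 1 else 0 :=
          sum_congr rfl fun f _ => card_filter _ _
      _ = ∑ z ∈ W, ∑ f : Fin q → Fin n,
            if (∀ g ∈ univ.image f, z ≤ g → g ∉ W) then 1 else 0 := sum_comm
      _ = ∑ z ∈ W, (univ.filter fun f : Fin q → Fin n =>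
            ∀ g ∈ univ.image f, z ≤ g → g ∉ W).card :=
          sum_congr rfl fun z _ => (card_filter _ _).symm
      _ = ∑ z ∈ W, (n - (W.filter fun g => z ≤ g).card) ^ q := by
          apply sum_congr rfl
          intro z _
          rw [← card_avoid n q (W.filter fun g => z ≤ g)]
          congr 1
          ext f
          simp only [mem_filter, mem_univ, true_and, mem_image, forall_exists_index]
          constructor
          · intro h i hi
            exact h (f i) i rfl hi.2 hi.1
          · intro h g i hg hzg hgW
            subst hg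
            exact h i ⟨hgW, hzg⟩
  rw [h1]
  exact le_trans (Nat.mul_le_mul_left _ (tail_sum_le n q W)) (sum_pow_le n q)

/-- Tail count for a family of sets. -/
lemma tail_count_family (n q : ℕ) {ι : Type*} [Fintype ι] (W : ι → Finset (Fin n)) :
    (q + 1) * ∑ f : Fin q → Fin n, ∑ i : ι,
      ((W i).filter fun z => ∀ g ∈ univ.image f, z ≤ g → g ∉ W i).card
      ≤ Fintype.card ι * n ^ (q + 1) := by
  rw [sum_comm, mul_sum]
  calc ∑ i : ι, (q + 1) * ∑ f : Fin q → Fin n,
        ((W i).filter fun z => ∀ g ∈ univ.image f, z ≤ g → g ∉ W i).card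
      ≤ ∑ _i : ι, n ^ (q + 1) := sum_le_sum fun i _ => tail_count n q (W i)
    _ = Fintype.card ι * n ^ (q + 1) := by simp

/-- Functions with one prescribed value. -/
lemma card_fix1 (n q : ℕ) (i : Fin q) (c : Fin n) :
    (univ.filter fun f : Fin q → Fin n => f i = c).card * n ≤ n ^ q := by
  have h := card_le_card_of_injOn
    (s := (univ.filter fun f : Fin q → Fin n => f i = c) ×ˢ (univ : Finset (Fin n)))
    (t := (univ : Finset (Fin q → Fin n)))
    (fun p => Function.update p.1 i p.2) (fun _ _ => mem_univ _) (by
      rintro ⟨f, a⟩ hf ⟨f', a'⟩ hf' h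
      simp only [coe_product, Set.mem_prod, mem_coe, mem_filter, mem_univ, true_and,
        and_true] at hf hf'
      simp only at h
      have ha : a = a' := by
        have := congrFun h i
        simpa using this
      have hff : f = f' := by
        funext k
        by_cases hk : k = i
        · subst hk; rw [hf, hf']
        · have := congrFun h k
          simpa [Function.update_of_ne hk] using this
      rw [ha, hff])
  simpa [card_product] using h

/-- Functions with two prescribed values. -/
lemma card_fix2 (n q : ℕ) (i j : Fin q) (hij : i ≠ j) (c1 c2 : Fin n) :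
    (univ.filter fun f : Fin q → Fin n => f i = c1 ∧ f j = c2).card * (n * n) ≤ n ^ q := by
  have h := card_le_card_of_injOn
    (s := (univ.filter fun f : Fin q → Fin n => f i = c1 ∧ f j = c2) ×ˢ
      (univ : Finset (Fin n × Fin n)))
    (t := (univ : Finset (Fin q → Fin n)))
    (fun p => Function.update (Function.update p.1 i p.2.1) j p.2.2) (fun _ _ => mem_univ _) (by
      rintro ⟨f, a, b⟩ hf ⟨f', a', b'⟩ hf' h
      simp only [coe_product, Set.mem_prod, mem_coe, mem_filter, mem_univ, true_and,
        and_true] at hf hf'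
      simp only at h
      have hb : b = b' := by
        have := congrFun h j
        simpa using this
      have ha : a = a' := by
        have := congrFun h i
        simpa [Function.update_of_ne hij] using this
      have hff : f = f' := by
        funext k
        by_cases hk : k = i
        · subst hk; rw [hf.1, hf'.1]
        · by_cases hk2 : k = j
          · subst hk2; rw [hf.2, hf'.2]
          · have := congrFun h k
            simpa [Function.update_of_ne hk, Function.update_of_ne hk2] using this
      rw [ha, hb, hff])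
  simpa [card_product] using h

/-- Functions hitting one prescribed column. -/
lemma card_hit1 (n q : ℕ) (c : Fin n) :
    (univ.filter fun f : Fin q → Fin n => c ∈ univ.image f).card * n ≤ q * n ^ q := by
  have hsub : (univ.filter fun f : Fin q → Fin n => c ∈ univ.image f)
      ⊆ (univ : Finset (Fin q)).biUnion fun i => univ.filter fun f : Fin q → Fin n => f i = c := by
    intro f hf
    simp only [mem_filter, mem_univ, true_and, mem_image] at hf
    obtain ⟨i, hi⟩ := hf
    simp only [mem_biUnion, mem_univ, true_and, mem_filter]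
    exact ⟨i, hi⟩
  calc (univ.filter fun f : Fin q → Fin n => c ∈ univ.image f).card * n
      ≤ (∑ i : Fin q, (univ.filter fun f : Fin q → Fin n => f i = c).card) * n :=
        Nat.mul_le_mul_right _ (le_trans (card_le_card hsub) card_biUnion_le)
    _ = ∑ i : Fin q, (univ.filter fun f : Fin q → Fin n => f i = c).card * n := by
        rw [sum_mul]
    _ ≤ ∑ _i : Fin q, n ^ q := sum_le_sum fun i _ => card_fix1 n q i c
    _ = q * n ^ q := by simp

/-- Functions hitting two prescribed distinct columns. -/
lemma card_hit2 (n q : ℕ) (c1 c2 : Fin n) (hc : c1 ≠ c2) :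
    (univ.filter fun f : Fin q → Fin n => c1 ∈ univ.image f ∧ c2 ∈ univ.image f).card * (n * n)
      ≤ q * q * n ^ q := by
  have hsub : (univ.filter fun f : Fin q → Fin n => c1 ∈ univ.image f ∧ c2 ∈ univ.image f)
      ⊆ (univ : Finset (Fin q × Fin q)).biUnion fun p =>
        univ.filter fun f : Fin q → Fin n => f p.1 = c1 ∧ f p.2 = c2 := by
    intro f hf
    simp only [mem_filter, mem_univ, true_and, mem_image] at hf
    obtain ⟨⟨i, hi⟩, ⟨j, hj⟩⟩ := hf
    simp only [mem_biUnion, mem_univ, true_and, mem_filter]
    exact ⟨(i, j), hi, hj⟩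
  have hterm : ∀ p : Fin q × Fin q,
      (univ.filter fun f : Fin q → Fin n => f p.1 = c1 ∧ f p.2 = c2).card * (n * n) ≤ n ^ q := by
    intro p
    by_cases hp : p.1 = p.2
    · have : (univ.filter fun f : Fin q → Fin n => f p.1 = c1 ∧ f p.2 = c2) = ∅ := by
        apply filter_eq_empty_iff.2
        intro f _ hf
        rw [hp] at hf
        exact hc (hf.1.symm.trans hf.2)
      rw [this]
      simp
    · exact card_fix2 n q p.1 p.2 hp c1 c2
  calc (univ.filter fun f : Fin q → Fin n => c1 ∈ univ.image f ∧ c2 ∈ univ.image f).card * (n * n)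
      ≤ (∑ p : Fin q × Fin q,
          (univ.filter fun f : Fin q → Fin n => f p.1 = c1 ∧ f p.2 = c2).card) * (n * n) :=
        Nat.mul_le_mul_right _ (le_trans (card_le_card hsub) card_biUnion_le)
    _ = ∑ p : Fin q × Fin q,
          (univ.filter fun f : Fin q → Fin n => f p.1 = c1 ∧ f p.2 = c2).card * (n * n) := by
        rw [sum_mul]
    _ ≤ ∑ _p : Fin q × Fin q, n ^ q := sum_le_sum fun p _ => hterm p
    _ = q * q * n ^ q := by simp

end Vale.Agent.Lib.P037.EQSel
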