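import Mathlib

namespace Vale.Agent.Lib.P037

open Finset

namespace Known

/-- Sorting lemma: if `P` is the number of pairs `x < y` with `x` in `X` and `y` in `Y`,
then some set `Z` of at most `2 * sqrt P` indices meets every such pair. -/
theorem kill_pairs {n : ℕ} (X Y : Finset (Fin n)) :
    ∃ Z : Finset (Fin n),
      Z.card ≤ 2 * Nat.sqrt (((X ×ˢ Y).filter fun p => p.1 < p.2).card) ∧
      ∀ x ∈ X, ∀ y ∈ Y, x < y → x ∈ Z ∨ y ∈ Z := by
  classical
  set P := ((X ×ˢ Y).filter fun p => p.1 < p.2).card with hP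
  set m := Nat.sqrt P + 1 with hm
  set d : Fin n → ℕ := fun x => (Y.filter fun y => x < y).card with hd
  have hsum : ∑ x ∈ X, d x = P := by
    rw [hP, Finset.card_filter, Finset.sum_product]
    refine Finset.sum_congr rfl ?_
    intro x _
    rw [hd]
    simp only
    rw [Finset.card_filter]
  set Z1 := X.filter (fun x => m ≤ d x) with hZ1
  have h1 : Z1.card * m ≤ P := by
    have ha : Z1.card • m ≤ ∑ x ∈ Z1, d x := by
      apply Finset.card_nsmul_le_sum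
      intro x hx
      exact (Finset.mem_filter.mp hx).2
    have hb : ∑ x ∈ Z1, d x ≤ ∑ x ∈ X, d x :=
      Finset.sum_le_sum_of_subset (Finset.filter_subset _ _)
    have hc : Z1.card * m = Z1.card • m := by simp
    omega
  have hmm : P < m * m := Nat.lt_succ_sqrt P
  have hZ1c : Z1.card ≤ Nat.sqrt P := by
    have : Z1.card * m < m * m := lt_of_le_of_lt h1 hmm
    have h2 : Z1.card < m := Nat.lt_of_mul_lt_mul_right this
    omega
  by_cases hne : (X.filter (fun x => ¬ m ≤ d x)).Nonempty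
  · set x0 := (X.filter (fun x => ¬ m ≤ d x)).min' hne with hx0
    have hx0mem : x0 ∈ X.filter (fun x => ¬ m ≤ d x) := Finset.min'_mem _ hne
    have hx0d : d x0 < m := by
      have := (Finset.mem_filter.mp hx0mem).2
      omega
    refine ⟨Z1 ∪ (Y.filter fun y => x0 < y), ?_, ?_⟩
    · have hu := Finset.card_union_le Z1 (Y.filter fun y => x0 < y)
      have : (Y.filter fun y => x0 < y).card = d x0 := rfl
      omega
    · intro x hx y hy hxy
      by_cases hxm : m ≤ d x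
      · left
        exact Finset.mem_union_left _ (Finset.mem_filter.mpr ⟨hx, hxm⟩)
      · right
        have hle : x0 ≤ x := Finset.min'_le _ x (Finset.mem_filter.mpr ⟨hx, hxm⟩)
        exact Finset.mem_union_right _ (Finset.mem_filter.mpr ⟨hy, lt_of_le_of_lt hle hxy⟩)
  · refine ⟨Z1, by omega, ?_⟩
    intro x hx y _ _
    left
    by_contra hxZ
    apply hne
    refine ⟨x, Finset.mem_filter.mpr ⟨hx, ?_⟩⟩
    intro hxm
    exact hxZ (Finset.mem_filter.mpr ⟨hx, hxm⟩)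


/-- The number of ordered pairs of columns `c1 < c2` at which the row `f` reads the pair p, q. -/
def inv {n : ℕ} (p q : Bool) (f : Fin n → Bool) : ℕ :=
  (univ.filter fun t : Fin n × Fin n => t.1 < t.2 ∧ f t.1 = p ∧ f t.2 = q).card

/-- One-row repair: a row can be changed in at most `2 * sqrt (inv p q f)` places so that it
no longer reads the pair p, q at any pair of columns `c1 < c2`. -/
theorem row_fix {n : ℕ} (p q : Bool) (f : Fin n → Bool) :
    ∃ g : Fin n → Bool, (∀ c1 c2 : Fin n, c1 < c2 → ¬ (g c1 = p ∧ g c2 = q)) ∧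
      ((univ.filter fun c => f c ≠ g c).card) ^ 2 ≤ 4 * inv p q f := by
  set X : Finset (Fin n) := univ.filter fun c => f c = p with hX
  set Y : Finset (Fin n) := univ.filter fun c => f c = q with hY
  obtain ⟨Z, hZc, hZ⟩ := kill_pairs X Y
  have hP : ((X ×ˢ Y).filter fun t => t.1 < t.2).card = inv p q f := by
    unfold inv
    congr 1
    ext t
    simp only [hX, hY, mem_filter, mem_product, mem_univ, true_and]
    tauto
  have hZsq : Z.card ^ 2 ≤ 4 * inv p q f := by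
    rw [← hP]
    set P := ((X ×ˢ Y).filter fun t => t.1 < t.2).card
    have h1 : Nat.sqrt P * Nat.sqrt P ≤ P := Nat.sqrt_le P
    calc Z.card ^ 2 ≤ (2 * Nat.sqrt P) ^ 2 := Nat.pow_le_pow_left hZc 2
      _ = 4 * (Nat.sqrt P * Nat.sqrt P) := by ring
      _ ≤ 4 * P := by omega
  have hXmem : ∀ c, c ∈ X ↔ f c = p := by
    intro c; simp [hX]
  have hYmem : ∀ c, c ∈ Y ↔ f c = q := by
    intro c; simp [hY]
  by_cases hpq : p = q
  · subst hpq
    refine ⟨fun c => if c ∈ Z then !p else f c, ?_, ?_⟩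
    · intro c1 c2 hc h
      obtain ⟨h1, h2⟩ := h
      have a1 : c1 ∉ Z ∧ f c1 = p := by
        by_cases hz : c1 ∈ Z
        · simp [hz] at h1
        · simp only [hz, if_false] at h1; exact ⟨hz, h1⟩
      have a2 : c2 ∉ Z ∧ f c2 = p := by
        by_cases hz : c2 ∈ Z
        · simp [hz] at h2
        · simp only [hz, if_false] at h2; exact ⟨hz, h2⟩
      rcases hZ c1 ((hXmem c1).2 a1.2) c2 ((hYmem c2).2 a2.2) hc with h | h
      · exact a1.1 h
      · exact a2.1 h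
    · refine le_trans (Nat.pow_le_pow_left (Finset.card_le_card ?_) 2) hZsq
      intro c hc
      simp only [mem_filter, mem_univ, true_and] at hc
      by_contra hz
      simp [hz] at hc
  · refine ⟨fun c => if ∃ x, x ∈ X ∧ x ∉ Z ∧ x ≤ c then p else q, ?_, ?_⟩
    · intro c1 c2 hc h
      obtain ⟨h1, h2⟩ := h
      by_cases e1 : ∃ x, x ∈ X ∧ x ∉ Z ∧ x ≤ c1
      · obtain ⟨x, hx, hxz, hxc⟩ := e1
        have e2 : ∃ x, x ∈ X ∧ x ∉ Z ∧ x ≤ c2 := ⟨x, hx, hxz, le_trans hxc (le_of_lt hc)⟩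
        simp only [e2, if_true] at h2
        exact hpq h2
      · simp only [e1, if_false] at h1
        exact hpq h1.symm
    · refine le_trans (Nat.pow_le_pow_left (Finset.card_le_card ?_) 2) hZsq
      intro c hc
      simp only [mem_filter, mem_univ, true_and] at hc
      by_contra hz
      apply hc
      by_cases hfc : f c = p
      · have e : ∃ x, x ∈ X ∧ x ∉ Z ∧ x ≤ c := ⟨c, (hXmem c).2 hfc, hz, le_refl c⟩
        simp only [e, if_true]
        exact hfc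
      · have hfq : f c = q := by
          cases hfc' : f c <;> cases p <;> cases q <;> simp_all
        have e : ¬ ∃ x, x ∈ X ∧ x ∉ Z ∧ x ≤ c := by
          rintro ⟨x, hx, hxz, hxc⟩
          have hne : x ≠ c := by
            rintro rfl
            exact hfc ((hXmem x).1 hx)
          have hxc' : x < c := lt_of_le_of_ne hxc hne
          rcases hZ x hx c ((hYmem c).2 hfq) hxc' with h | h
          · exact hxz h
          · exact hz h
        simp only [e, if_false]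
        exact hfq

/-- A finite set `K` of indices has at least (|K|^2 - |K|) / 2 increasing pairs. -/
theorem card_sq_le {n : ℕ} (K : Finset (Fin n)) :
    K.card ^ 2 ≤ 2 * ((K ×ˢ K).filter fun x => x.1 < x.2).card + K.card := by
  have hsub : K ×ˢ K ⊆ (((K ×ˢ K).filter fun x => x.1 < x.2) ∪
      (((K ×ˢ K).filter fun x => x.1 < x.2).image Prod.swap)) ∪ K.diag := by
    intro x hx
    have hx' := mem_product.mp hx
    rcases lt_trichotomy x.1 x.2 with h | h | h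
    · exact mem_union_left _ (mem_union_left _ (mem_filter.mpr ⟨hx, h⟩))
    · refine mem_union_right _ ?_
      rw [Finset.mem_diag]
      exact ⟨hx'.1, h⟩
    · refine mem_union_left _ (mem_union_right _ ?_)
      rw [mem_image]
      refine ⟨(x.2, x.1), mem_filter.mpr ⟨mem_product.mpr ⟨hx'.2, hx'.1⟩, h⟩, ?_⟩
      rfl
  have h1 := Finset.card_le_card hsub
  have h2 := Finset.card_union_le (((K ×ˢ K).filter fun x => x.1 < x.2) ∪
      (((K ×ˢ K).filter fun x => x.1 < x.2).image Prod.swap)) K.diag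
  have h3 := Finset.card_union_le ((K ×ˢ K).filter fun x => x.1 < x.2)
      (((K ×ˢ K).filter fun x => x.1 < x.2).image Prod.swap)
  have h4 : (((K ×ˢ K).filter fun x => x.1 < x.2).image Prod.swap).card ≤
      ((K ×ˢ K).filter fun x => x.1 < x.2).card := Finset.card_image_le
  have h5 : K.diag.card = K.card := Finset.diag_card K
  have h6 : (K ×ˢ K).card = K.card ^ 2 := by rw [Finset.card_product, sq]
  omega

/-- Polynomial removal for the 2 x 2 patterns with two equal rows p q / p q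
(this includes the two constant patterns). -/
theorem equal_rows_removal (p q : Bool) (n : ℕ) (ε : ℝ) (hε : 0 < ε) (hε1 : ε ≤ 1)
    (A : Fin n → Fin n → Bool)
    (hfar : ∀ B : Fin n → Fin n → Bool,
      (∀ r1 r2 c1 c2 : Fin n, r1 < r2 → c1 < c2 →
        ¬ (B r1 c1 = p ∧ B r1 c2 = q ∧ B r2 c1 = p ∧ B r2 c2 = q)) →
      ε * (n : ℝ) ^ 2 ≤
        ((Finset.univ.filter fun t : Fin n × Fin n => A t.1 t.2 ≠ B t.1 t.2).card : ℝ)) :
    ε ^ 8 * (n : ℝ) ^ 4 ≤ 2 ^ 12 *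
      ((Finset.univ.filter fun t : Fin n × Fin n × Fin n × Fin n =>
        t.1 < t.2.1 ∧ t.2.2.1 < t.2.2.2 ∧ A t.1 t.2.2.1 = p ∧ A t.1 t.2.2.2 = q ∧
          A t.2.1 t.2.2.1 = p ∧ A t.2.1 t.2.2.2 = q).card : ℝ) := by
  set S := Finset.univ.filter fun t : Fin n × Fin n × Fin n × Fin n =>
        t.1 < t.2.1 ∧ t.2.2.1 < t.2.2.2 ∧ A t.1 t.2.2.1 = p ∧ A t.1 t.2.2.2 = q ∧
          A t.2.1 t.2.2.1 = p ∧ A t.2.1 t.2.2.2 = q with hS
  set N := S.card with hN
  -- repaired rows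
  choose g hg1 hg2 using fun r => row_fix p q (A r)
  have hBfree : ∀ r1 r2 c1 c2 : Fin n, r1 < r2 → c1 < c2 →
        ¬ (g r1 c1 = p ∧ g r1 c2 = q ∧ g r2 c1 = p ∧ g r2 c2 = q) := by
    intro r1 r2 c1 c2 _ hc h
    exact hg1 r1 c1 c2 hc ⟨h.1, h.2.1⟩
  have hfarB := hfar g hBfree
  set d : Fin n → ℕ := fun r => (univ.filter fun c => A r c ≠ g r c).card with hd
  have hD : (Finset.univ.filter fun t : Fin n × Fin n => A t.1 t.2 ≠ g t.1 t.2).card
      = ∑ r, d r := by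
    rw [Finset.card_filter, Fintype.sum_prod_type]
    refine Finset.sum_congr rfl ?_
    intro r _
    rw [hd]
    simp only
    rw [Finset.card_filter]
  rw [hD] at hfarB
  -- column-pair classes
  set K : Fin n × Fin n → Finset (Fin n) :=
    fun t => univ.filter fun r => t.1 < t.2 ∧ A r t.1 = p ∧ A r t.2 = q with hK
  set J := ∑ t, (K t).card with hJ
  have hIJ : ∑ r, inv p q (A r) = J := by
    rw [hJ]
    simp only [inv, hK, Finset.card_filter]
    exact Finset.sum_comm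
  -- (sum of d)^2 ≤ 4 n J
  have h1 : (∑ r, d r) ^ 2 ≤ 4 * n * J := by
    have a1 : (∑ r, d r) ^ 2 ≤ (univ : Finset (Fin n)).card * ∑ r, d r ^ 2 :=
      sq_sum_le_card_mul_sum_sq
    have a2 : ∑ r, d r ^ 2 ≤ ∑ r, 4 * inv p q (A r) :=
      Finset.sum_le_sum fun r _ => hg2 r
    rw [← Finset.mul_sum, hIJ] at a2
    rw [Finset.card_univ, Fintype.card_fin] at a1
    calc (∑ r, d r) ^ 2 ≤ n * ∑ r, d r ^ 2 := a1
      _ ≤ n * (4 * J) := Nat.mul_le_mul_left n a2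
      _ = 4 * n * J := by ring
  -- J^2 ≤ n^2 (2 N + J)
  set L : Fin n × Fin n → ℕ :=
    fun t => ((K t ×ˢ K t).filter fun x => x.1 < x.2).card with hL
  have hLN : ∑ t, L t ≤ N := by
    have hfib : S.card = ∑ t : Fin n × Fin n,
        (S.filter fun u => (u.2.2.1, u.2.2.2) = t).card :=
      Finset.card_eq_sum_card_fiberwise (fun u _ => Finset.mem_univ _)
    rw [hN, hfib]
    refine Finset.sum_le_sum ?_
    intro t _
    rw [hL]
    simp only
    apply Finset.card_le_card_of_injOn (fun x : Fin n × Fin n => (x.1, x.2, t.1, t.2))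
    · intro x hx
      rw [Finset.mem_coe] at hx ⊢
      obtain ⟨hx1, hx2⟩ := Finset.mem_filter.mp hx
      obtain ⟨ha, hb⟩ := Finset.mem_product.mp hx1
      rw [hK] at ha hb
      simp only [Finset.mem_filter, Finset.mem_univ, true_and] at ha hb
      simp only [hS, Finset.mem_filter, Finset.mem_univ, true_and]
      exact ⟨⟨hx2, ha.1, ha.2.1, ha.2.2, hb.2.1, hb.2.2⟩, trivial⟩
    · intro x1 _ x2 _ h
      simp only [Prod.mk.injEq] at h
      exact Prod.ext h.1 h.2.1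
  have h2 : J ^ 2 ≤ n * n * (2 * N + J) := by
    have a1 : (∑ t, (K t).card) ^ 2 ≤
        (univ : Finset (Fin n × Fin n)).card * ∑ t, (K t).card ^ 2 :=
      sq_sum_le_card_mul_sum_sq
    rw [Finset.card_univ, Fintype.card_prod, Fintype.card_fin] at a1
    have a2 : ∑ t, (K t).card ^ 2 ≤ ∑ t, (2 * L t + (K t).card) :=
      Finset.sum_le_sum fun t _ => card_sq_le (K t)
    rw [Finset.sum_add_distrib, ← Finset.mul_sum] at a2
    calc J ^ 2 ≤ n * n * ∑ t, (K t).card ^ 2 := a1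
      _ ≤ n * n * (2 * ∑ t, L t + J) := Nat.mul_le_mul_left _ a2
      _ ≤ n * n * (2 * N + J) := by
          apply Nat.mul_le_mul_left
          omega
  -- n = 0 is trivial
  rcases Nat.eq_zero_or_pos n with hn0 | hnpos
  · subst hn0
    simp
  -- N ≥ 1
  have hNpos : 1 ≤ N := by
    by_contra hcon
    have hN0 : N = 0 := by omega
    have hSempty : S = ∅ := Finset.card_eq_zero.mp hN0
    have hAfree : ∀ r1 r2 c1 c2 : Fin n, r1 < r2 → c1 < c2 →
        ¬ (A r1 c1 = p ∧ A r1 c2 = q ∧ A r2 c1 = p ∧ A r2 c2 = q) := by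
      intro r1 r2 c1 c2 hr hc h
      have hmem : (r1, r2, c1, c2) ∈ S := by
        simp only [hS, Finset.mem_filter, Finset.mem_univ, true_and]
        exact ⟨hr, hc, h.1, h.2.1, h.2.2.1, h.2.2.2⟩
      rw [hSempty] at hmem
      exact absurd hmem (Finset.notMem_empty _)
    have h0 := hfar A hAfree
    have hz : (Finset.univ.filter fun t : Fin n × Fin n => A t.1 t.2 ≠ A t.1 t.2) = ∅ := by
      apply Finset.filter_false_of_mem
      intro t _ h
      exact h rfl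
    rw [hz] at h0
    simp only [Finset.card_empty, Nat.cast_zero] at h0
    have hnR : (0:ℝ) < (n:ℝ) := by exact_mod_cast hnpos
    nlinarith [pow_pos hnR 2]
  -- real arithmetic
  have hnR : (1:ℝ) ≤ (n:ℝ) := by exact_mod_cast hnpos
  have hNR : (1:ℝ) ≤ (N:ℝ) := by exact_mod_cast hNpos
  have h1R : ((∑ r, d r : ℕ) : ℝ) ^ 2 ≤ 4 * (n:ℝ) * (J:ℝ) := by exact_mod_cast h1
  have h2R : (J:ℝ) ^ 2 ≤ (n:ℝ) * (n:ℝ) * (2 * (N:ℝ) + (J:ℝ)) := by exact_mod_cast h2
  have hJ0 : (0:ℝ) ≤ (J:ℝ) := Nat.cast_nonneg J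
  have hD0 : (0:ℝ) ≤ ((∑ r, d r : ℕ) : ℝ) := Nat.cast_nonneg _
  have hfarB' : ε * (n:ℝ) ^ 2 ≤ ((∑ r, d r : ℕ) : ℝ) := hfarB
  -- ε^2 n^3 ≤ 4 J
  have h3 : ε ^ 2 * (n:ℝ) ^ 3 ≤ 4 * (J:ℝ) := by
    have hsq : (ε * (n:ℝ) ^ 2) ^ 2 ≤ ((∑ r, d r : ℕ) : ℝ) ^ 2 :=
      pow_le_pow_left₀ (by positivity) hfarB' 2
    have h4 : ε ^ 2 * (n:ℝ) ^ 3 * (n:ℝ) ≤ 4 * (J:ℝ) * (n:ℝ) := by nlinarith
    have hnpos' : (0:ℝ) < (n:ℝ) := by linarith
    exact le_of_mul_le_mul_right h4 hnpos'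
  have hε8 : ε ^ 8 ≤ ε ^ 4 := pow_le_pow_of_le_one hε.le hε1 (by norm_num)
  have hn4 : (0:ℝ) ≤ (n:ℝ) ^ 4 := by positivity
  by_cases hcase : 2 * (n:ℝ) ^ 2 ≤ (J:ℝ)
  · -- J^2 ≤ 4 n^2 N
    have h5 : (J:ℝ) ^ 2 ≤ 4 * (n:ℝ) ^ 2 * (N:ℝ) := by nlinarith
    have h6 : (ε ^ 2 * (n:ℝ) ^ 3) ^ 2 ≤ (4 * (J:ℝ)) ^ 2 :=
      pow_le_pow_left₀ (by positivity) h3 2
    have h7 : ε ^ 4 * (n:ℝ) ^ 4 * (n:ℝ) ^ 2 ≤ 64 * (N:ℝ) * (n:ℝ) ^ 2 := by nlinarith
    have hn2 : (0:ℝ) < (n:ℝ) ^ 2 := by positivity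
    have h8 : ε ^ 4 * (n:ℝ) ^ 4 ≤ 64 * (N:ℝ) := le_of_mul_le_mul_right h7 hn2
    calc ε ^ 8 * (n:ℝ) ^ 4 ≤ ε ^ 4 * (n:ℝ) ^ 4 := mul_le_mul_of_nonneg_right hε8 hn4
      _ ≤ 64 * (N:ℝ) := h8
      _ ≤ 2 ^ 12 * (N:ℝ) := by nlinarith
  · have hcase' : (J:ℝ) < 2 * (n:ℝ) ^ 2 := lt_of_not_ge hcase
    have h5 : ε ^ 2 * (n:ℝ) ^ 3 < 8 * (n:ℝ) ^ 2 := by linarith
    have hn2 : (0:ℝ) < (n:ℝ) ^ 2 := by positivity
    have h6 : ε ^ 2 * (n:ℝ) < 8 := by
      have : ε ^ 2 * (n:ℝ) * (n:ℝ) ^ 2 < 8 * (n:ℝ) ^ 2 := by nlinarith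
      exact lt_of_mul_lt_mul_right this hn2.le
    have h7 : (ε ^ 2 * (n:ℝ)) ^ 4 ≤ 8 ^ 4 :=
      pow_le_pow_left₀ (by positivity) h6.le 4
    calc ε ^ 8 * (n:ℝ) ^ 4 = (ε ^ 2 * (n:ℝ)) ^ 4 := by ring
      _ ≤ 8 ^ 4 := h7
      _ = 2 ^ 12 * 1 := by norm_num
      _ ≤ 2 ^ 12 * (N:ℝ) := by nlinarith

/-- Polynomial removal for the 2 x 2 patterns with two equal columns p p / q q,
by transposition from `equal_rows_removal`. -/
theorem equal_cols_removal (p q : Bool) (n : ℕ) (ε : ℝ) (hε : 0 < ε) (hε1 : ε ≤ 1)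
    (A : Fin n → Fin n → Bool)
    (hfar : ∀ B : Fin n → Fin n → Bool,
      (∀ r1 r2 c1 c2 : Fin n, r1 < r2 → c1 < c2 →
        ¬ (B r1 c1 = p ∧ B r1 c2 = p ∧ B r2 c1 = q ∧ B r2 c2 = q)) →
      ε * (n : ℝ) ^ 2 ≤
        ((Finset.univ.filter fun t : Fin n × Fin n => A t.1 t.2 ≠ B t.1 t.2).card : ℝ)) :
    ε ^ 8 * (n : ℝ) ^ 4 ≤ 2 ^ 12 *
      ((Finset.univ.filter fun t : Fin n × Fin n × Fin n × Fin n =>
        t.1 < t.2.1 ∧ t.2.2.1 < t.2.2.2 ∧ A t.1 t.2.2.1 = p ∧ A t.1 t.2.2.2 = p ∧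
          A t.2.1 t.2.2.1 = q ∧ A t.2.1 t.2.2.2 = q).card : ℝ) := by
  have key := equal_rows_removal p q n ε hε hε1 (fun r c => A c r) (by
    intro B' hB'
    have h := hfar (fun r c => B' c r) (by
      intro r1 r2 c1 c2 hr hc hcopy
      exact hB' c1 c2 r1 r2 hc hr ⟨hcopy.1, hcopy.2.2.1, hcopy.2.1, hcopy.2.2.2⟩)
    have hcard : (Finset.univ.filter fun t : Fin n × Fin n => A t.1 t.2 ≠ B' t.2 t.1).card
        = (Finset.univ.filter fun t : Fin n × Fin n => A t.2 t.1 ≠ B' t.1 t.2).card := by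
      apply Finset.card_nbij' (fun t => (t.2, t.1)) (fun t => (t.2, t.1))
      · intro t ht
        simp only [Finset.mem_coe, Finset.mem_filter, Finset.mem_univ, true_and] at ht ⊢
        exact ht
      · intro t ht
        simp only [Finset.mem_coe, Finset.mem_filter, Finset.mem_univ, true_and] at ht ⊢
        exact ht
      · intro t _
        rfl
      · intro t _
        rfl
    rw [← hcard]
    exact h)
  have hcard2 : (Finset.univ.filter fun t : Fin n × Fin n × Fin n × Fin n =>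
        t.1 < t.2.1 ∧ t.2.2.1 < t.2.2.2 ∧ A t.2.2.1 t.1 = p ∧ A t.2.2.2 t.1 = q ∧
          A t.2.2.1 t.2.1 = p ∧ A t.2.2.2 t.2.1 = q).card
      = (Finset.univ.filter fun t : Fin n × Fin n × Fin n × Fin n =>
        t.1 < t.2.1 ∧ t.2.2.1 < t.2.2.2 ∧ A t.1 t.2.2.1 = p ∧ A t.1 t.2.2.2 = p ∧
          A t.2.1 t.2.2.1 = q ∧ A t.2.1 t.2.2.2 = q).card := by
    apply Finset.card_nbij' (fun t => (t.2.2.1, t.2.2.2, t.1, t.2.1))
      (fun t => (t.2.2.1, t.2.2.2, t.1, t.2.1))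
    · intro t ht
      simp only [Finset.mem_coe, Finset.mem_filter, Finset.mem_univ, true_and] at ht ⊢
      exact ⟨ht.2.1, ht.1, ht.2.2.1, ht.2.2.2.2.1, ht.2.2.2.1, ht.2.2.2.2.2⟩
    · intro t ht
      simp only [Finset.mem_coe, Finset.mem_filter, Finset.mem_univ, true_and] at ht ⊢
      exact ⟨ht.2.1, ht.1, ht.2.2.1, ht.2.2.2.2.1, ht.2.2.2.1, ht.2.2.2.2.2⟩
    · intro t _
      rfl
    · intro t _
      rfl
  rw [← hcard2]
  exact key

end Known

/-- **The six known 2 x 2 patterns.**  Polynomial removal for every binary 2 x 2 pattern `H`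
with two equal rows or two equal columns (the two constant patterns, `1 0 / 1 0`,
`0 1 / 0 1`, `1 1 / 0 0` and `0 0 / 1 1`), in the same shape and with the same constants as
`perm_removal`. -/
theorem known_removal (H : Fin 2 → Fin 2 → Bool)
    (hH : (∀ j, H 0 j = H 1 j) ∨ (∀ i, H i 0 = H i 1))
    (n : ℕ) (ε : ℝ) (hε : 0 < ε) (hε1 : ε ≤ 1)
    (A : Fin n → Fin n → Bool)
    (hfar : ∀ B : Fin n → Fin n → Bool,
      (∀ r1 r2 c1 c2 : Fin n, r1 < r2 → c1 < c2 →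
        ¬ (B r1 c1 = H 0 0 ∧ B r1 c2 = H 0 1 ∧ B r2 c1 = H 1 0 ∧ B r2 c2 = H 1 1)) →
      ε * (n : ℝ) ^ 2 ≤
        ((Finset.univ.filter fun p : Fin n × Fin n => A p.1 p.2 ≠ B p.1 p.2).card : ℝ)) :
    ε ^ 44 * (n : ℝ) ^ 4 ≤ 2 ^ 236 *
      ((Finset.univ.filter fun t : Fin n × Fin n × Fin n × Fin n =>
        t.1 < t.2.1 ∧ t.2.2.1 < t.2.2.2 ∧ A t.1 t.2.2.1 = H 0 0 ∧ A t.1 t.2.2.2 = H 0 1 ∧
          A t.2.1 t.2.2.1 = H 1 0 ∧ A t.2.1 t.2.2.2 = H 1 1).card : ℝ) := by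
  have hweak : ε ^ 8 * (n : ℝ) ^ 4 ≤ 2 ^ 12 *
      ((Finset.univ.filter fun t : Fin n × Fin n × Fin n × Fin n =>
        t.1 < t.2.1 ∧ t.2.2.1 < t.2.2.2 ∧ A t.1 t.2.2.1 = H 0 0 ∧ A t.1 t.2.2.2 = H 0 1 ∧
          A t.2.1 t.2.2.1 = H 1 0 ∧ A t.2.1 t.2.2.2 = H 1 1).card : ℝ) := by
    rcases hH with hrow | hcol
    · have e0 := hrow 0
      have e1 := hrow 1
      rw [← e0, ← e1] at hfar ⊢
      exact Known.equal_rows_removal (H 0 0) (H 0 1) n ε hε hε1 A hfar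
    · have e0 := hcol 0
      have e1 := hcol 1
      rw [← e0, ← e1] at hfar ⊢
      exact Known.equal_cols_removal (H 0 0) (H 1 0) n ε hε hε1 A hfar
  have hε44 : ε ^ 44 ≤ ε ^ 8 := pow_le_pow_of_le_one hε.le hε1 (by norm_num)
  have hn4 : (0:ℝ) ≤ (n:ℝ) ^ 4 := by positivity
  have hc : (0:ℝ) ≤ ((Finset.univ.filter fun t : Fin n × Fin n × Fin n × Fin n =>
        t.1 < t.2.1 ∧ t.2.2.1 < t.2.2.2 ∧ A t.1 t.2.2.1 = H 0 0 ∧ A t.1 t.2.2.2 = H 0 1 ∧
          A t.2.1 t.2.2.1 = H 1 0 ∧ A t.2.1 t.2.2.2 = H 1 1).card : ℝ) := Nat.cast_nonneg _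
  calc ε ^ 44 * (n : ℝ) ^ 4 ≤ ε ^ 8 * (n : ℝ) ^ 4 := mul_le_mul_of_nonneg_right hε44 hn4
    _ ≤ 2 ^ 12 * _ := hweak
    _ ≤ 2 ^ 236 * _ := by
        apply mul_le_mul_of_nonneg_right _ hc
        norm_num

end Vale.Agent.Lib.P037

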