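import Mathlib
import Vale.Agent.Lib.P037.AllTwoByTwo
import Vale.Agent.Lib.P037.KnownPatterns

namespace Vale.Agent.Lib.P037

/-- The six known 2 x 2 patterns (two equal rows or two equal columns, including the two
constant patterns) in the four-Boolean shape used by `all_two_by_two`. -/
theorem removalAt_known (h11 h12 h21 h22 : Bool)
    (h : (h11 = h21 ∧ h12 = h22) ∨ (h11 = h12 ∧ h21 = h22)) :
    RemovalAt 44 (2 ^ 236) h11 h12 h21 h22 := by
  have hrow : ∀ p q : Bool, RemovalAt 8 (2 ^ 12) p q p q := by
    intro p q n ε hε hε1 A hfar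
    exact Known.equal_rows_removal p q n ε hε hε1 A hfar
  have hcol : ∀ p q : Bool, RemovalAt 8 (2 ^ 12) p p q q := by
    intro p q n ε hε hε1 A hfar
    exact Known.equal_cols_removal p q n ε hε hε1 A hfar
  rcases h with ⟨rfl, rfl⟩ | ⟨rfl, rfl⟩
  · exact (hrow h11 h12).mono (by norm_num) (by norm_num)
  · exact (hcol h11 h21).mono (by norm_num) (by norm_num)

/-- All sixteen 2 x 2 patterns from a removal bound for the single pattern `1 0 / 0 0`:
the known patterns are supplied by `removalAt_known`, the permutation patterns and the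
symmetries by `all_two_by_two`. -/
theorem all_two_by_two_of_E {CE : ℕ} {KE : ℝ} (hCE : CE ≤ 44) (hKE : KE ≤ 2 ^ 236)
    (hE : RemovalAt CE KE true false false false) (h11 h12 h21 h22 : Bool) :
    RemovalAt 44 (2 ^ 236) h11 h12 h21 h22 :=
  all_two_by_two hCE hKE hE removalAt_known h11 h12 h21 h22

end Vale.Agent.Lib.P037

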