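import Mathlib
import Vale.Agent.Lib.P037.EPatBound
import Vale.Agent.Lib.P037.EFin
import Vale.Agent.Lib.P037.KnownBridge

namespace Vale.Agent.Lib.P037

open Finset

/-- The polynomial removal bound for the single pattern `1 0 / 0 0` on arbitrary hosts, with
exponent `16` and constant `2 ^ 88`. -/
theorem e_removal : RemovalAt 16 (2 ^ 88) true false false false := by
  intro n ε hε hε1 A hfar
  have hN : eCop A = univ.filter fun t : Fin n × Fin n × Fin n × Fin n =>
        t.1 < t.2.1 ∧ t.2.2.1 < t.2.2.2 ∧ A t.1 t.2.2.1 = true ∧ A t.1 t.2.2.2 = false ∧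
          A t.2.1 t.2.2.1 = false ∧ A t.2.1 t.2.2.2 = false := rfl
  rw [← hN]
  exact EFin.e_real_of_core
    (fun B : Fin n → Fin n → Bool => ∀ r r' x y : Fin n, r < r' → x < y →
      ¬ (B r x = true ∧ B r y = false ∧ B r' x = false ∧ B r' y = false))
    (fun B : Fin n → Fin n → Bool =>
      (univ.filter fun p : Fin n × Fin n => A p.1 p.2 ≠ B p.1 p.2).card)
    (eCop A).card
    (fun q s L hL => EPat.core_bound A q s L hL)
    (by rw [hN]; exact EFin.small_case A)
    ε hε hε1 hfar

/-- Every 2 x 2 pattern satisfies the removal bound with exponent `44` and constant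
`2 ^ 236`. -/
theorem removal_two_by_two (h11 h12 h21 h22 : Bool) :
    RemovalAt 44 (2 ^ 236) h11 h12 h21 h22 :=
  all_two_by_two_of_E (by norm_num) (by norm_num) e_removal h11 h12 h21 h22

end Vale.Agent.Lib.P037
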